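import Crest.Agent.R40.Geo1

/-! Row 40, task Geo3: avoiding circles and windows; separation by circles (no colours). -/

set_option autoImplicit false

open Set Metric
open scoped Real

namespace Crest.Agent.R40

lemma abs_sin_sub_le (A B : ℝ) : |Real.sin (A - B)| ≤ |Real.sin A| + |Real.sin B| := by
  rw [Real.sin_sub]
  refine (abs_sub _ _).trans ?_
  rw [abs_mul, abs_mul]
  have h1 := Real.abs_cos_le_one A
  have h2 := Real.abs_cos_le_one B
  nlinarith [abs_nonneg (Real.sin A), abs_nonneg (Real.sin B)]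

/-- finitely many unit circles do not cover a nonempty open set
(`MeasureTheory.Measure.addHaar_sphere`, or Baire). -/
theorem exists_off_circles {N : Set ℂ} (hN : IsOpen N) (hne : N.Nonempty) (Q : Finset ℂ) :
    ∃ x ∈ N, ∀ q ∈ Q, dist x q ≠ 1 := by
  by_contra hcon
  push Not at hcon
  have hsub : N ⊆ ⋃ q ∈ Q, sphere q (1 : ℝ) := by
    intro x hx
    obtain ⟨q, hq, h⟩ := hcon x hx
    exact mem_biUnion hq (mem_sphere.2 h)
  have h0 : MeasureTheory.volume (⋃ q ∈ Q, sphere q (1 : ℝ)) = 0 := by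
    refine (MeasureTheory.measure_biUnion_null_iff Q.countable_toSet).2 fun q _ => ?_
    exact MeasureTheory.Measure.addHaar_sphere _ q 1
  have := hN.measure_pos MeasureTheory.volume hne
  exact this.ne' (MeasureTheory.measure_mono_null hsub h0)

/-- pigeonhole: `n` windows (mod `π`) cannot contain all of `n + 1` equally spaced angles.
If `k < k'` lie in the same window then `sin ((k' - k) δ) ≤ |sin A| + |sin B| < 2 ε`, but
`δ ≤ (k' - k) δ ≤ π / 2`. -/
theorem avoid_windows (n : ℕ) (α : Fin n → ℝ) (t₀ δ ε : ℝ) (hδ : 0 < δ) (hn : n * δ ≤ π / 2)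
    (hε : 2 * ε ≤ Real.sin δ) :
    ∃ k : ℕ, k ≤ n ∧ ∀ j, ε ≤ |Real.sin (t₀ + k * δ - α j)| := by
  by_contra hcon
  push Not at hcon
  choose j hj using hcon
  have hcard : Fintype.card (Fin n) < Fintype.card (Fin (n + 1)) := by simp
  have key : ∀ k k' : ℕ, ∀ hk : k ≤ n, ∀ hk' : k' ≤ n, k < k' → j k hk = j k' hk' → False := by
    intro k k' hk hk' hlt heq
    have h1 := hj k hk
    have h2 := hj k' hk'
    rw [← heq] at h2
    have h3 := abs_sin_sub_le (t₀ + k' * δ - α (j k hk)) (t₀ + k * δ - α (j k hk))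
    have h4 : (k : ℝ) + 1 ≤ k' := by exact_mod_cast hlt
    have h5 : (k' : ℝ) ≤ n := by exact_mod_cast hk'
    have h6 : (0 : ℝ) ≤ k := by positivity
    have h7 : t₀ + k' * δ - α (j k hk) - (t₀ + k * δ - α (j k hk)) = (k' - k) * δ := by ring
    rw [h7] at h3
    have h8 : Real.sin δ ≤ Real.sin ((k' - k) * δ) := by
      apply Real.sin_le_sin_of_le_of_le_pi_div_two
      · linarith [Real.pi_pos]
      · nlinarith
      · nlinarith
    have := le_abs_self (Real.sin ((k' - k) * δ))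
    linarith
  obtain ⟨a, b, hab, heq⟩ := Fintype.exists_ne_map_eq_of_card_lt
    (fun k : Fin (n + 1) => j k (Nat.lt_succ_iff.1 k.2)) hcard
  rcases lt_or_gt_of_ne hab with h | h
  · exact key a b _ _ h heq
  · exact key b a _ _ h heq.symm

/-- two pairs of small antipodal windows leave a closed arc of `60°` free.
Plan: `t₀ = α + π/12` or `t₀ = α + 7π/12`; if both fail there are `t ∈ α + [15°, 75°]`,
`t' ∈ α + [105°, 165°]` with `|sin (t - γ)|, |sin (t' - γ)| < 1/20`, so `sin (t' - t) < 1/10`,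
but `t' - t ∈ [30°, 150°]`. -/
theorem gap60 (α γ : ℝ) : ∃ t₀, ∀ t ∈ Icc t₀ (t₀ + π / 3),
    1 / 20 ≤ |Real.sin (t - α)| ∧ 1 / 20 ≤ |Real.sin (t - γ)| := by
  have hpi := Real.pi_gt_three
  have hpi4 := Real.pi_le_four
  -- sine is at least `1/10` on `[π/12, 11π/12]`
  have hs : ∀ u, π / 12 ≤ u → u ≤ 11 * π / 12 → 1 / 10 ≤ Real.sin u := by
    have h0 : ∀ u, π / 12 ≤ u → u ≤ π / 2 → 1 / 10 ≤ Real.sin u := by
      intro u h1 h2
      have := Real.mul_le_sin (x := u) (by linarith) h2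
      have h3 : 2 / π * (π / 12) ≤ 2 / π * u := by gcongr
      have h4 : 2 / π * (π / 12) = 1 / 6 := by field_simp; norm_num
      linarith
    intro u h1 h2
    rcases le_total u (π / 2) with h | h
    · exact h0 u h1 h
    · rw [← Real.sin_pi_sub]
      exact h0 _ (by linarith) (by linarith)
  by_contra hcon
  push Not at hcon
  obtain ⟨t, ht, h1⟩ := hcon (α + π / 12)
  obtain ⟨t', ht', h2⟩ := hcon (α + 7 * π / 12)
  have a1 := hs (t - α) (by linarith [ht.1]) (by linarith [ht.2])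
  have a2 := hs (t' - α) (by linarith [ht'.1]) (by linarith [ht'.2])
  have b1 := h1 (by linarith [le_abs_self (Real.sin (t - α))])
  have b2 := h2 (by linarith [le_abs_self (Real.sin (t' - α))])
  have h3 := abs_sin_sub_le (t' - γ) (t - γ)
  rw [show t' - γ - (t - γ) = t' - t by ring] at h3
  have a3 := hs (t' - t) (by linarith [ht.2, ht'.1]) (by linarith [ht.1, ht'.2])
  linarith [le_abs_self (Real.sin (t' - t))]

theorem sep_of_ip {x₀ x₁ m : ℂ} {τ : ℝ} (h₀ : ‖x₀ - m‖ ^ 2 / 2 < ip (x₀ - m) (e τ))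
    (h₁ : ip (x₁ - m) (e τ) < - (‖x₁ - m‖ ^ 2 / 2)) : Sep x₀ x₁ m τ := by
  have hsub : ∀ x : ℂ, dist x (m + e τ) ^ 2 = ‖x - m‖ ^ 2 - 2 * ip (x - m) (e τ) + 1 := by
    intro x
    rw [dist_eq_norm, show x - (m + e τ) = (x - m) - e τ by ring, norm_sub_sq_ip, norm_e]; ring
  have hadd : ∀ x : ℂ, dist x (m - e τ) ^ 2 = ‖x - m‖ ^ 2 + 2 * ip (x - m) (e τ) + 1 := by
    intro x
    rw [dist_eq_norm, show x - (m - e τ) = (x - m) - (- e τ) by ring, norm_sub_sq_ip, norm_neg,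
      norm_e]
    simp only [ip, Complex.neg_re, Complex.neg_im]; ring
  have a0 := hsub x₀
  have a1 := hsub x₁
  have b0 := hadd x₀
  have b1 := hadd x₁
  have n0 := sq_nonneg ‖x₀ - m‖
  have n1 := sq_nonneg ‖x₁ - m‖
  refine ⟨?_, ?_, ?_, ?_⟩
  · exact (pow_lt_one_iff_of_nonneg dist_nonneg two_ne_zero).1 (by linarith)
  · exact (one_lt_pow_iff_of_nonneg dist_nonneg two_ne_zero).1 (by linarith)
  · exact (one_lt_pow_iff_of_nonneg dist_nonneg two_ne_zero).1 (by linarith)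
  · exact (pow_lt_one_iff_of_nonneg dist_nonneg two_ne_zero).1 (by linarith)

/-- `Sep` is an open condition, uniformly on a compact interval of directions
(`generalized_tube_lemma` or `IsCompact.eventually_forall_of_forall_eventually`). -/
theorem sep_nhds {x₀ x₁ m : ℂ} {t₀ t₁ : ℝ} (h : ∀ τ ∈ Icc t₀ t₁, Sep x₀ x₁ m τ) :
    ∃ δ > 0, ∀ x₀' m', dist x₀' x₀ < δ → dist m' m < δ → ∀ τ ∈ Icc t₀ t₁, Sep x₀' x₁ m' τ := by
  have hopen : IsOpen {p : (ℂ × ℂ) × ℝ | Sep p.1.1 x₁ p.1.2 p.2} := by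
    have hc := continuous_e
    have c1 : Continuous fun p : (ℂ × ℂ) × ℝ => dist p.1.1 (p.1.2 + e p.2) := by fun_prop
    have c2 : Continuous fun p : (ℂ × ℂ) × ℝ => dist x₁ (p.1.2 + e p.2) := by fun_prop
    have c3 : Continuous fun p : (ℂ × ℂ) × ℝ => dist p.1.1 (p.1.2 - e p.2) := by fun_prop
    have c4 : Continuous fun p : (ℂ × ℂ) × ℝ => dist x₁ (p.1.2 - e p.2) := by fun_prop
    exact IsOpen.inter (isOpen_lt c1 continuous_const) (IsOpen.inter
      (isOpen_lt continuous_const c2) (IsOpen.inter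
      (isOpen_lt continuous_const c3) (isOpen_lt c4 continuous_const)))
  have hev : ∀ᶠ p in nhds (x₀, m), ∀ τ ∈ Icc t₀ t₁, Sep p.1 x₁ p.2 τ :=
    isCompact_Icc.eventually_forall_of_forall_eventually (x₀ := (x₀, m))
      (P := fun p τ => Sep p.1 x₁ p.2 τ) fun τ hτ => hopen.mem_nhds (h τ hτ)
  obtain ⟨δ, hδ, H⟩ := Metric.eventually_nhds_iff.1 hev
  refine ⟨δ, hδ, fun x₀' m' h1 h2 => H (y := (x₀', m')) ?_⟩
  rw [Prod.dist_eq]
  exact max_lt h1 h2

/-- a preconnected set with points inside and outside a unit circle meets it -/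
theorem exists_dist_one {S : Set ℂ} (hS : IsPreconnected S) {x₀ x₁ y : ℂ} (h₀ : x₀ ∈ S)
    (h₁ : x₁ ∈ S) (hlt : dist x₀ y < 1) (hgt : 1 < dist x₁ y) : ∃ x ∈ S, dist x y = 1 := by
  have hc : ContinuousOn (fun x : ℂ => dist x y) S := by fun_prop
  obtain ⟨x, hx, h⟩ := hS.intermediate_value h₀ h₁ hc ⟨hlt.le, hgt.le⟩
  exact ⟨x, hx, h⟩

/-- used in `L3`: the circle around a point `x''` close to `x` crosses the circle around
`x + e μ` near `x + e (μ ± π/3)`.  Plan: IVT for `t ↦ dist (x'' + e t) (x + e μ)` on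
`μ + σ π/3 + [-1/5, 1/5]`; for `x'' = x` the end values are `2 sin (π/6 ± 1/10)`, i.e. `> 1.1` and
`< 0.9` (`norm_e_sub_e`, `Real.sin_add`, `Real.one_sub_sq_div_two_le_cos`, `Real.sin_gt_sub_cube`). -/
theorem l3_cross {x x'' : ℂ} (h : dist x'' x < 1 / 50) (μ σ : ℝ) (hσ : σ = 1 ∨ σ = -1) :
    ∃ t, |t - (μ + σ * (π / 3))| ≤ 1 / 5 ∧ dist (x'' + e t) (x + e μ) = 1 := by
  have hpi := Real.pi_gt_three
  have hpi4 := Real.pi_lt_d2
  have hs3 : (17 / 10 : ℝ) < √3 := Real.lt_sqrt_of_sq_lt (by norm_num)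
  have hsin : (9 / 100 : ℝ) < Real.sin (1 / 10) := by
    have := Real.sin_gt_sub_cube (x := 1 / 10) (by norm_num)
    linarith
  have hcos : (99 / 100 : ℝ) ≤ Real.cos (1 / 10) := by
    have := Real.one_sub_sq_div_two_le_cos (x := 1 / 10)
    linarith
  have hcos' := Real.cos_le_one (1 / 10)
  have hbig : 11 / 10 < 2 * Real.sin (π / 6 + 1 / 10) := by
    rw [Real.sin_add, Real.sin_pi_div_six, Real.cos_pi_div_six]; nlinarith
  have hsmall : 2 * Real.sin (π / 6 - 1 / 10) < 9 / 10 := by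
    rw [Real.sin_sub, Real.sin_pi_div_six, Real.cos_pi_div_six]; nlinarith
  have hpos : 0 ≤ Real.sin (π / 6 - 1 / 10) :=
    Real.sin_nonneg_of_nonneg_of_le_pi (by linarith) (by linarith)
  have hcmp : ∀ t, abs (dist (x'' + e t) (x + e μ) - 2 * |Real.sin ((t - μ) / 2)|) < 1 / 50 := by
    intro t
    rw [← norm_e_sub_e, dist_eq_norm]
    refine (abs_norm_sub_norm_le _ _).trans_lt ?_
    rwa [show x'' + e t - (x + e μ) - (e t - e μ) = x'' - x by ring, ← dist_eq_norm]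
  have hc : Continuous fun t => dist (x'' + e t) (x + e μ) := by
    have := continuous_e; fun_prop
  have hS : IsPreconnected (Icc (μ + σ * (π / 3) - 1 / 5) (μ + σ * (π / 3) + 1 / 5)) :=
    isPreconnected_Icc
  have main : ∀ a b, a ∈ Icc (μ + σ * (π / 3) - 1 / 5) (μ + σ * (π / 3) + 1 / 5) →
      b ∈ Icc (μ + σ * (π / 3) - 1 / 5) (μ + σ * (π / 3) + 1 / 5) →
      |Real.sin ((a - μ) / 2)| = Real.sin (π / 6 - 1 / 10) →
      |Real.sin ((b - μ) / 2)| = Real.sin (π / 6 + 1 / 10) →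
      ∃ t, |t - (μ + σ * (π / 3))| ≤ 1 / 5 ∧ dist (x'' + e t) (x + e μ) = 1 := by
    intro a b ha hb h1 h2
    have c1 := abs_lt.1 (hcmp a)
    have c2 := abs_lt.1 (hcmp b)
    rw [h1] at c1
    rw [h2] at c2
    obtain ⟨t, ht, h3⟩ := hS.intermediate_value ha hb hc.continuousOn
      (show (1 : ℝ) ∈ Icc _ _ from ⟨by linarith [c1.2], by linarith [c2.1]⟩)
    exact ⟨t, abs_le.2 ⟨by linarith [ht.1], by linarith [ht.2]⟩, h3⟩
  rcases hσ with rfl | rfl
  · refine main (μ + 1 * (π / 3) - 1 / 5) (μ + 1 * (π / 3) + 1 / 5) ⟨le_rfl, by linarith⟩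
      ⟨by linarith, le_rfl⟩ ?_ ?_
    · rw [show (μ + 1 * (π / 3) - 1 / 5 - μ) / 2 = π / 6 - 1 / 10 by ring, abs_of_nonneg hpos]
    · rw [show (μ + 1 * (π / 3) + 1 / 5 - μ) / 2 = π / 6 + 1 / 10 by ring,
        abs_of_nonneg (by linarith)]
  · refine main (μ + -1 * (π / 3) + 1 / 5) (μ + -1 * (π / 3) - 1 / 5) ⟨by linarith, le_rfl⟩
      ⟨le_rfl, by linarith⟩ ?_ ?_
    · rw [show (μ + -1 * (π / 3) + 1 / 5 - μ) / 2 = -(π / 6 - 1 / 10) by ring, Real.sin_neg,
        abs_neg, abs_of_nonneg hpos]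
    · rw [show (μ + -1 * (π / 3) - 1 / 5 - μ) / 2 = -(π / 6 + 1 / 10) by ring, Real.sin_neg,
        abs_neg, abs_of_nonneg (by linarith)]

end Crest.Agent.R40
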