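import Crest.Agent.R40.Geo2
import Crest.Agent.R40.Geo3

/-! Row 40, task Basic: first consequences of the axioms `Sys`. -/

set_option autoImplicit false

open Set Metric
open scoped Real

namespace Crest.Agent.R40

variable {L : Fin 5 → Set ℂ}

lemma isClosed_K (i : Fin 5) : IsClosed (K L i) := isClosed_closure

lemma L_sub_K (i : Fin 5) : L i ⊆ K L i := subset_closure

lemma isOpen_W (a b : Fin 5) : IsOpen (W L a b) :=
  ((isClosed_K a).union (isClosed_K b)).isOpen_compl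

lemma mem_W {a b : Fin 5} {x : ℂ} : x ∈ W L a b ↔ x ∉ K L a ∧ x ∉ K L b := by
  simp [W]

lemma not_mem_K_of_O {i : Fin 5} {x y : ℂ} (hx : x ∈ O L i) (h : dist x y = 1) : y ∉ K L i :=
  fun hy => hx y hy h

lemma not_mem_O_of_K {i : Fin 5} {x y : ℂ} (hy : y ∈ K L i) (h : dist x y = 1) : x ∉ O L i :=
  fun hx => hx y hy h

lemma exists_K_of_not_O {i : Fin 5} {x : ℂ} (hx : x ∉ O L i) : ∃ y ∈ K L i, dist x y = 1 := by
  by_contra hc
  exact hx fun y hy h => hc ⟨y, hy, h⟩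

/-- compactness of the unit circle (e.g. `tube` with `G = (K L i)ᶜ`, `Icc 0 (2π)`) -/
lemma isOpen_O (i : Fin 5) : IsOpen (O L i) := by
  refine Metric.isOpen_iff.2 fun x hx => ?_
  have hsub : sphere x 1 ⊆ (K L i)ᶜ := fun y hy hK => hx y hK (by rw [dist_comm]; exact hy)
  obtain ⟨δ, hδ, hth⟩ := (isCompact_sphere x 1).exists_thickening_subset_open
    (isClosed_K i).isOpen_compl hsub
  refine ⟨δ, hδ, fun x' hx' y hy hd => hth (mem_thickening_iff.2 ⟨y + (x - x'), ?_, ?_⟩) hy⟩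
  · rw [mem_sphere, ← hd, dist_comm x' y, dist_eq_norm, dist_eq_norm]
    congr 1; ring
  · rw [dist_self_add_right, ← dist_eq_norm, dist_comm]
    exact hx'

lemma isOpen_R (a b : Fin 5) : IsOpen (R L a b) := by
  refine isOpen_iff_forall_mem_open.2 fun x ⟨N, hN, hx, h⟩ => ⟨N, fun z hz => ⟨N, hN, hz, h⟩, hN, hx⟩

lemma cov_R (a b : Fin 5) : Cov L a b (R L a b) := by
  rintro y hy x ⟨N, -, hx, h⟩ hd
  exact h y hy x hx hd

lemma sub_R_of_cov {a b : Fin 5} {N : Set ℂ} (hN : IsOpen N) (h : Cov L a b N) :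
    N ⊆ R L a b := fun _ hx => ⟨N, hN, hx, h⟩

/-- a line of colour `i` close to a given circle with centre in `K i` -/
lemma exists_line_near {i : Fin 5} {x y : ℂ} (hy : y ∈ K L i) (h : dist x y = 1) {ε : ℝ}
    (hε : 0 < ε) : ∃ y' ∈ L i, dist y' y < ε ∧ ∃ x', dist x' x < ε ∧ dist x' y' = 1 := by
  obtain ⟨y', hy', hd⟩ := Metric.mem_closure_iff.1 hy ε hε
  refine ⟨y', hy', by rwa [dist_comm], x + (y' - y), ?_, ?_⟩
  · rw [dist_self_add_left, ← dist_eq_norm, dist_comm]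
    exact hd
  · rw [← h, dist_eq_norm, dist_eq_norm]
    congr 1; ring

lemma sub_O_of_noline {i : Fin 5} {N : Set ℂ} (hN : IsOpen N)
    (h : ∀ y ∈ L i, ∀ x ∈ N, dist x y ≠ 1) : N ⊆ O L i := by
  intro x hx y hy hd
  obtain ⟨ε, hε, hb⟩ := Metric.isOpen_iff.1 hN x hx
  obtain ⟨y', hy', -, x', hx', hd'⟩ := exists_line_near hy hd hε
  exact h y' hy' x' (hb hx') hd'

lemma O_sub_R_right (a b : Fin 5) : O L b ⊆ R L a b := by
  exact sub_R_of_cov (isOpen_O b) fun _ _ _ hx _ => hx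

namespace Sys

lemma R_comm (h : Sys L) (a b : Fin 5) : R L a b = R L b a := by
  ext x
  exact ⟨fun ⟨N, hN, hx, hc⟩ => ⟨N, hN, hx, h.symm _ _ N hN hc⟩,
    fun ⟨N, hN, hx, hc⟩ => ⟨N, hN, hx, h.symm _ _ N hN hc⟩⟩

lemma V_comm (h : Sys L) (a b : Fin 5) : V L a b = V L b a := by
  ext x
  simp only [V, mem_ofPred_eq, h.R_comm a b]
  exact and_congr_right fun _ => iff_comm

lemma O_sub_R_left (h : Sys L) (a b : Fin 5) : O L a ⊆ R L a b := by
  rw [h.R_comm]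
  exact O_sub_R_right b a

lemma closure_O_sub (h : Sys L) (i : Fin 5) : closure (O L i) ⊆ K L i := by
  exact closure_minimal (h.O_sub i) (isClosed_K i)

lemma not_E_of_O (h : Sys L) {i : Fin 5} {x : ℂ} (hx : x ∈ O L i) : x ∉ E L := by
  obtain ⟨j, hj⟩ := exists_ne i
  exact fun hE => hE i j hj.symm (h.O_sub_R_left i j hx)

/-- no two points of `O i` at distance one -/
lemma O_indep (h : Sys L) {i : Fin 5} {x y : ℂ} (hx : x ∈ O L i) (hy : y ∈ O L i) :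
    dist x y ≠ 1 := by
  exact hx y (h.O_sub i hy)

lemma free_R (h : Sys L) {a b : Fin 5} {N : Set ℂ} (hN : IsOpen N)
    (hf : ∀ k, k ≠ a → k ≠ b → ∀ x ∈ N, x ∉ O L k) : N ⊆ R L a b := by
  refine sub_R_of_cov hN (by_contra fun hc => ?_)
  obtain ⟨k, h1, h2, x, hx, hk⟩ := h.c4 a b N hN hc
  exact hf k h1 h2 x hx hk

/-- `c4` with `a = b = i`, then `sub_O_of_noline` -/
lemma free_O (h : Sys L) {i : Fin 5} {N : Set ℂ} (hN : IsOpen N)
    (hf : ∀ k, k ≠ i → ∀ x ∈ N, x ∉ O L k) : N ⊆ O L i := by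
  have hR := h.free_R (a := i) (b := i) hN fun k h1 _ => hf k h1
  exact sub_O_of_noline hN fun y hy x hx hd => cov_R i i y hy x (hR hx) hd y (L_sub_K i hy) hd

lemma mem_R_of_notK (h : Sys L) {a b c d f : Fin 5} (H : Five a b c d f) {x : ℂ}
    (hc : x ∉ K L c) (hd : x ∉ K L d) (hf : x ∉ K L f) : x ∈ R L a b := by
  refine h.free_R (N := (K L c ∪ K L d ∪ K L f)ᶜ)
    (((isClosed_K c).union (isClosed_K d)).union (isClosed_K f)).isOpen_compl
    (fun k h1 h2 z hz hk => hz ?_) (by simp [hc, hd, hf])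
  have hK := h.O_sub k hk
  rcases H k with rfl | rfl | rfl | rfl | rfl
  exacts [absurd rfl h1, absurd rfl h2, .inl (.inl hK), .inl (.inr hK), .inr hK]

lemma mem_O_of_notK (h : Sys L) {a b c d f : Fin 5} (H : Five a b c d f) {x : ℂ}
    (hb : x ∉ K L b) (hc : x ∉ K L c) (hd : x ∉ K L d) (hf : x ∉ K L f) : x ∈ O L a := by
  refine h.free_O (N := (K L b ∪ K L c ∪ K L d ∪ K L f)ᶜ)
    ((((isClosed_K b).union (isClosed_K c)).union (isClosed_K d)).union (isClosed_K f)).isOpen_compl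
    (fun k h1 z hz hk => hz ?_) (by simp [hb, hc, hd, hf])
  have hK := h.O_sub k hk
  rcases H k with rfl | rfl | rfl | rfl | rfl
  exacts [absurd rfl h1, .inl (.inl (.inl hK)), .inl (.inl (.inr hK)), .inl (.inr hK), .inr hK]

/-- on `N = R a b \ closure (O a)` there is no `b`-line -/
lemma mem_O_of_R (h : Sys L) {a b : Fin 5} {x : ℂ} (hx : x ∈ R L a b)
    (ha : x ∉ closure (O L a)) : x ∈ O L b := by
  refine sub_O_of_noline (N := R L a b \ closure (O L a))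
    ((isOpen_R a b).sdiff isClosed_closure) (fun y hy z hz hd => hz.2 (subset_closure ?_)) ⟨hx, ha⟩
  exact h.symm _ _ _ (isOpen_R a b) (cov_R a b) y hy z hz.1 hd

lemma mem_O_of_R_notK (h : Sys L) {a b : Fin 5} {x : ℂ} (hx : x ∈ R L a b)
    (ha : x ∉ K L a) : x ∈ O L b := by
  exact h.mem_O_of_R hx fun hc => ha (h.closure_O_sub a hc)

lemma V_sub_closure (h : Sys L) (a b : Fin 5) : V L a b ⊆ closure (O L a) := by
  intro x hx
  by_contra hc
  exact hc (subset_closure (hx.2.2 (h.mem_O_of_R hx.1 hc)))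

lemma V_sub_closure' (h : Sys L) (a b : Fin 5) : V L a b ⊆ closure (O L b) := by
  rw [h.V_comm]
  exact h.V_sub_closure b a

lemma cells_dense (h : Sys L) {N : Set ℂ} (hN : IsOpen N) (hne : N.Nonempty) :
    ∃ x ∈ N, ∃ k, x ∈ O L k := by
  by_contra hc
  obtain ⟨x, hx⟩ := hne
  exact hc ⟨x, hx, 0, h.free_O hN (fun k _ z hz hk => hc ⟨z, hz, k, hk⟩) hx⟩

lemma cover (h : Sys L) (x : ℂ) : ∃ i, x ∈ K L i := by
  by_contra hc
  obtain ⟨z, hz, k, hk⟩ := h.cells_dense (N := ⋂ i, (K L i)ᶜ)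
    (isOpen_iInter_of_finite fun i => (isClosed_K i).isOpen_compl)
    ⟨x, mem_iInter.2 fun i hi => hc ⟨i, hi⟩⟩
  exact mem_iInter.1 hz k (h.O_sub k hk)

/-- an `a`-circle and a `b`-circle do not cross transversally in `R a b` (`cross_stable`:
move `y` into `L a`, keep `w`) -/
lemma cross_R (h : Sys L) {a b : Fin 5} {x y w : ℂ} (hx : x ∈ R L a b) (hy : y ∈ K L a)
    (hw : w ∈ K L b) (hxy : dist x y = 1) (hxw : dist x w = 1) : w = y ∨ dist y w = 2 := by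
  by_contra hc
  rw [not_or] at hc
  obtain ⟨ε, hε, hb⟩ := Metric.isOpen_iff.1 (isOpen_R a b) x hx
  obtain ⟨δ, hδ, hs⟩ := cross_stable hxy hxw hc.1 hc.2 hε
  obtain ⟨y', hy', hd⟩ := Metric.mem_closure_iff.1 hy δ hδ
  obtain ⟨x', h1, h2, h3⟩ := hs y' w (by rwa [dist_comm]) (by simpa using hδ)
  exact cov_R a b y' hy' x' (hb h1) h2 w hw h3

/-- from a point of `V a b` the colours `a`, `b` are seen in at most two antipodal points -/
lemma V_vis (h : Sys L) {a b : Fin 5} {m : ℂ} (hm : m ∈ V L a b) :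
    ∃ ν : ℝ, ∀ y, (y ∈ K L a ∨ y ∈ K L b) → dist m y = 1 → y = m + e ν ∨ y = m - e ν := by
  by_cases ha : m ∈ O L a
  · exact ⟨0, fun y hy hd => (hy.elim (fun hy => ha y hy hd) fun hy => hm.2.1 ha y hy hd).elim⟩
  obtain ⟨ya, hya, hda⟩ := exists_K_of_not_O ha
  obtain ⟨yb, hyb, hdb⟩ := exists_K_of_not_O fun hb => ha (hm.2.2 hb)
  obtain ⟨ν, rfl⟩ := exists_e_of_dist hda
  have hB : ∀ y ∈ K L b, dist m y = 1 → y = m + e ν ∨ y = m - e ν := fun y hy hd =>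
    (h.cross_R hm.1 hya hy hda hd).imp_right fun h2 => by
      rw [(antipodal_iff hda hd).1 h2]; ring
  refine ⟨ν, fun y hy hd => hy.elim (fun hy => ?_) fun hy => hB y hy hd⟩
  rcases h.cross_R hm.1 hy hyb hd hdb with h2 | h2
  · exact h2 ▸ hB yb hyb hdb
  · have h3 := (antipodal_iff hd hdb).1 h2
    rcases hB yb hyb hdb with h4 | h4
    · exact .inr (by linear_combination h3 - h4)
    · exact .inl (by linear_combination h3 - h4)

/-- a point of `V a b` has no unit neighbour in `R a b` (`V_vis`, `near_on_circle`,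
`mem_O_of_R_notK`) -/
lemma V_nbr (h : Sys L) {a b : Fin 5} {m y : ℂ} (hm : m ∈ V L a b) (hd : dist m y = 1) :
    y ∉ R L a b := by
  intro hy
  obtain ⟨ν, hν⟩ := h.V_vis hm
  obtain ⟨ε, hε, hb⟩ := Metric.isOpen_iff.1 (isOpen_R a b) y hy
  obtain ⟨y', h1, h2, h3, h4⟩ := near_on_circle hd (m + e ν) (m - e ν) hε
  have ha : y' ∉ K L a := fun hK => (hν y' (.inl hK) h2).elim h3 h4
  exact (hν y' (.inr (h.O_sub b (h.mem_O_of_R_notK (hb h1) ha))) h2).elim h3 h4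

lemma pair_in_R (h : Sys L) {a b : Fin 5} {x y : ℂ} (hx : x ∈ R L a b) (hy : y ∈ R L a b)
    (hd : dist x y = 1) :
    (x ∈ O L a ∧ x ∉ O L b ∧ y ∈ O L b ∧ y ∉ O L a) ∨
      (x ∈ O L b ∧ x ∉ O L a ∧ y ∈ O L a ∧ y ∉ O L b) := by
  have h1 : ¬ (x ∈ O L a ↔ x ∈ O L b) := fun hc => h.V_nbr ⟨hx, hc⟩ hd hy
  have h2 : ¬ (y ∈ O L a ↔ y ∈ O L b) := fun hc => h.V_nbr ⟨hy, hc⟩ (by rwa [dist_comm]) hx
  have h3 : x ∈ O L a → y ∈ O L a → False := fun h3 h4 => h.O_indep h3 h4 hd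
  have h4 : x ∈ O L b → y ∈ O L b → False := fun h3 h4 => h.O_indep h3 h4 hd
  tauto

lemma exists_V (h : Sys L) {a b : Fin 5} {S : Set ℂ} (hS : IsPreconnected S)
    (hSR : S ⊆ R L a b) {x y : ℂ} (hx : x ∈ S) (hxa : x ∈ O L a) (hy : y ∈ S)
    (hyb : y ∈ O L b) : ∃ m ∈ S, m ∈ V L a b := by
  by_contra hc
  have hcov : S ⊆ O L a ∪ O L b := fun m hm => by
    by_contra h1
    rw [mem_union, not_or] at h1
    exact hc ⟨m, hm, hSR hm, iff_of_false h1.1 h1.2⟩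
  obtain ⟨m, hm, h1, h2⟩ := hS _ _ (isOpen_O a) (isOpen_O b) hcov ⟨x, hx, hxa⟩ ⟨y, hy, hyb⟩
  exact hc ⟨m, hm, hSR hm, iff_of_true h1 h2⟩

/-- both circles of `Sep` avoid `K c` when `x₀`, `x₁` lie in a preconnected subset of `O c` -/
lemma not_K_of_sep {c : Fin 5} {S : Set ℂ} (hS : IsPreconnected S) (hSc : S ⊆ O L c)
    {x₀ x₁ m : ℂ} {τ : ℝ} (h₀ : x₀ ∈ S) (h₁ : x₁ ∈ S) (hs : Sep x₀ x₁ m τ) :
    m + e τ ∉ K L c ∧ m - e τ ∉ K L c := by
  obtain ⟨x, hx, hd⟩ := exists_dist_one hS h₀ h₁ hs.1 hs.2.1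
  obtain ⟨x', hx', hd'⟩ := exists_dist_one hS h₁ h₀ hs.2.2.2 hs.2.2.1
  exact ⟨not_mem_K_of_O (hSc hx) hd, not_mem_K_of_O (hSc hx') hd'⟩

end Sys

end Crest.Agent.R40
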