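import Crest.Agent.R40.Pair

/-! Row 40, task Box: area lower bound for the map `(σ, φ) ↦ y + e σ + e φ` and the box lemma. -/

set_option autoImplicit false

open Set Metric MeasureTheory
open scoped Real

namespace Crest.Agent.R40

theorem e_inj_of_close {s t : ℝ} (h : e s = e t) (h' : |s - t| < 2) : s = t := by
  have h1 := norm_e_sub_e s t
  rw [h, sub_self, norm_zero, eq_comm, mul_eq_zero, abs_eq_zero] at h1
  rw [abs_lt] at h'
  have := (Real.sin_eq_zero_iff_of_lt_of_lt (by linarith [Real.pi_gt_three])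
    (by linarith [Real.pi_gt_three])).1 (h1.resolve_left two_ne_zero)
  linarith

theorem unit_sum_eq {a b a' b' : ℂ} (ha : ‖a‖ = 1) (hb : ‖b‖ = 1) (ha' : ‖a'‖ = 1) (hb' : ‖b'‖ = 1)
    (h : a + b = a' + b') (h0 : b ≠ -a) (h1 : b' ≠ a) : a = a' := by
  have h2 := congrArg (starRingEnd ℂ) h
  rw [map_add, map_add, ← Complex.inv_eq_conj ha, ← Complex.inv_eq_conj hb, ← Complex.inv_eq_conj ha',
    ← Complex.inv_eq_conj hb'] at h2
  have n : ∀ {x : ℂ}, ‖x‖ = 1 → x ≠ 0 := fun hx h => by simp [h] at hx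
  have h3 : (a + b) * (a * b - a' * b') = 0 := by
    have := n ha; have := n hb; have := n ha'; have := n hb'
    field_simp at h2
    linear_combination (a * b) * h - h2
  have h4 := (mul_eq_zero.1 h3).resolve_left fun h => h0 (by linear_combination h)
  have h5 : (a - a') * (a - b') = 0 := by linear_combination a * h - h4
  exact sub_eq_zero.1 ((mul_eq_zero.1 h5).resolve_right (sub_ne_zero.2 h1.symm))

/-- Plan: `F (σ, φ) = y + e σ + e φ` is injective on the box (two unit vectors with a given nonzero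
sum `w` are the roots of `X² - w X + w / conj w`; `e σ = e φ'` is excluded by `hc`; `e_eq_iff` with
`η < 1`) with Jacobian `|sin (φ - σ)| ≥ c`.  Use `lintegral_abs_det_fderiv_le_addHaar_image` for the
map `ℝ × ℝ → ℝ × ℝ`, `(σ, φ) ↦ (cos σ + cos φ, sin σ + sin φ) + const` (compare
`Mathlib/Analysis/SpecialFunctions/PolarCoord.lean` for the determinant) and
`Complex.volume_preserving_equiv_real_prod`. -/
theorem area_ge (y : ℂ) {σ₀ t₀ η c : ℝ} (hη : η < 1) (hc0 : 0 < c)
    (hc : ∀ σ φ : ℝ, |σ - σ₀| < η → |φ - t₀| < η → c ≤ |Real.sin (φ - σ)|)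
    {T : Set (ℝ × ℝ)} (hT : MeasurableSet T)
    (hTs : ∀ p ∈ T, |p.1 - σ₀| < η ∧ |p.2 - t₀| < η) :
    ENNReal.ofReal c * volume T ≤ volume ((fun p : ℝ × ℝ => y + e p.1 + e p.2) '' T) := by
  have hne : ∀ σ φ : ℝ, |σ - σ₀| < η → |φ - t₀| < η → ¬(e φ = e σ ∨ e φ = -e σ) := fun σ φ h1 h2 h => by
    have := hc σ φ h1 h2
    rw [(e_eq_or_neg_iff _ _).1 h, abs_zero] at this
    linarith
  have hinj : InjOn (fun p : ℝ × ℝ => y + e p.1 + e p.2) T := fun p hp q hq h => by
    have h : e p.1 + e p.2 = e q.1 + e q.2 := by linear_combination h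
    obtain ⟨h1, h2⟩ := hTs p hp
    obtain ⟨h3, h4⟩ := hTs q hq
    have h5 := unit_sum_eq (norm_e _) (norm_e _) (norm_e _) (norm_e _) h
      (fun h => hne _ _ h1 h2 (Or.inr h)) fun h => hne _ _ h1 h4 (Or.inl h)
    rw [abs_lt] at h1 h2 h3 h4
    exact Prod.ext (e_inj_of_close h5 (abs_lt.2 ⟨by linarith, by linarith⟩))
      (e_inj_of_close (by linear_combination h - h5) (abs_lt.2 ⟨by linarith, by linarith⟩))
  have key := lintegral_abs_det_fderiv_le_addHaar_image volume hT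
    (f := Complex.measurableEquivRealProd ∘ fun p : ℝ × ℝ => y + e p.1 + e p.2)
    (f' := fun p => (Matrix.toLin (.finTwoProd ℝ) (.finTwoProd ℝ)
      !![-Real.sin p.1, -Real.sin p.2; Real.cos p.1, Real.cos p.2]).toContinuousLinearMap)
    (fun p _ => HasFDerivAt.hasFDerivWithinAt (by
      rw [Matrix.toLin_finTwoProd_toContinuousLinearMap]
      convert! HasFDerivAt.prodMk (𝕜 := ℝ)
        ((((Real.hasDerivAt_cos p.1).comp_hasFDerivAt p hasFDerivAt_fst).const_add y.re).add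
          ((Real.hasDerivAt_cos p.2).comp_hasFDerivAt p hasFDerivAt_snd))
        ((((Real.hasDerivAt_sin p.1).comp_hasFDerivAt p hasFDerivAt_fst).const_add y.im).add
          ((Real.hasDerivAt_sin p.2).comp_hasFDerivAt p hasFDerivAt_snd)) using 1
      ext q <;> simp [e_re, e_im]))
    (Complex.measurableEquivRealProd.injective.comp_injOn hinj)
  rw [image_comp, ← Complex.volume_preserving_equiv_real_prod.measure_preimage_equiv,
    preimage_image_eq _ Complex.measurableEquivRealProd.injective] at key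
  refine le_trans ?_ key
  rw [← setLIntegral_const]
  refine setLIntegral_mono' hT fun p hp => ENNReal.ofReal_le_ofReal
    ((hc _ _ (hTs p hp).1 (hTs p hp).2).trans_eq ?_)
  simp only [LinearMap.det_toContinuousLinearMap, LinearMap.det_toLin, Matrix.det_fin_two_of,
    Real.sin_sub]
  congr 1
  ring

/-- Most points `y' + e σ` of a circle close to the circle around `y` see density points of `B` in
many directions of `U`.  Plan: `c = |sin (t₀ - σ₀)| / 2`; `T = {(σ, φ) in the η-box |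
y' + e σ + e φ ∉ Dens B}`; its image lies in `ball (y + e σ₀ + e t₀) (3 η) \ Dens B`, of volume
`≤ 9 ε η²` (`volume_diff_Dens`); Fubini: `volume T ≥ 2 η * volume (the set below)` because
`Ioo (t₀ - η) (t₀ + η) ⊆ U`. -/
theorem box_lemma {B : Set ℂ} (hB : MeasurableSet B) {U : Set ℝ} (hU : IsOpen U) (y : ℂ)
    {σ₀ t₀ : ℝ} (ht : t₀ ∈ U) (hD : y + e σ₀ + e t₀ ∈ Dens B) (hs : Real.sin (t₀ - σ₀) ≠ 0)
    {θ : ℝ} (hθ : 0 < θ) :
    ∃ η₀ > (0 : ℝ), ∀ η : ℝ, 0 < η → η < η₀ → ∀ y', dist y' y < η →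
      volume {σ : ℝ | |σ - σ₀| < η ∧ y' + e σ ∉ Xs B U} ≤ ENNReal.ofReal (θ * η) := by
  obtain ⟨c, hc, hc'⟩ : ∃ c : ℝ, 0 < c ∧ |Real.sin (t₀ - σ₀)| = 2 * c :=
    ⟨_, half_pos (abs_pos.2 hs), by ring⟩
  obtain ⟨δ, hδ, hD⟩ := hD (2 * c * θ / 9) (by positivity)
  obtain ⟨δ', hδ', hU'⟩ := Metric.isOpen_iff.1 hU t₀ ht
  refine ⟨min (min 1 (c / 2)) (min δ' (δ / 3)), by positivity, fun η h0 h1 y' hy => ?_⟩
  simp only [lt_min_iff] at h1
  have hme : ∀ {f : ℝ × ℝ → ℝ}, Measurable f → Measurable fun p => e (f p) :=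
    fun hf => continuous_e.measurable.comp hf
  have hT : MeasurableSet (ball σ₀ η ×ˢ ball t₀ η ∩
      (fun p : ℝ × ℝ => y' + e p.1 + e p.2) ⁻¹' (Dens B)ᶜ) :=
    (measurableSet_ball.prod measurableSet_ball).inter (((measurable_const.add
      (hme measurable_fst)).add (hme measurable_snd)) (measurableSet_Dens hB).compl)
  have hS : MeasurableSet {σ : ℝ | |σ - σ₀| < η ∧ y' + e σ ∉ Xs B U} :=
    (measurableSet_ball (x := σ₀) (ε := η)).inter ((measurable_const.add continuous_e.measurable)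
      (measurableSet_Xs hB hU.measurableSet).compl)
  have h2 := area_ge y' h1.1.1 hc (fun σ φ h2 h3 => by
    have h4 := Real.abs_sin_sub_sin_le (t₀ - σ₀) (φ - σ)
    have h5 := abs_sub_abs_le_abs_sub (Real.sin (t₀ - σ₀)) (Real.sin (φ - σ))
    have h6 : |t₀ - σ₀ - (φ - σ)| ≤ c := by
      rw [abs_lt] at h2 h3
      exact abs_le.2 ⟨by linarith [h1.1.2], by linarith [h1.1.2]⟩
    linarith) hT fun p hp => hp.1
  have h3 := hD (3 * η) (by positivity) (by linarith [h1.2.2])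
  have h4 : volume ((fun p : ℝ × ℝ => y' + e p.1 + e p.2) '' (ball σ₀ η ×ˢ ball t₀ η ∩
      (fun p : ℝ × ℝ => y' + e p.1 + e p.2) ⁻¹' (Dens B)ᶜ)) ≤
      volume ((ball (y + e σ₀ + e t₀) (3 * η) \ B) ∪ (B \ Dens B)) := by
    refine measure_mono ?_
    rintro _ ⟨p, hp, rfl⟩
    refine (em (y' + e p.1 + e p.2 ∈ B)).symm.imp (fun h => ⟨?_, h⟩) fun h => ⟨h, hp.2⟩
    have h5 : ∀ s t : ℝ, s ∈ ball t η → dist (e s) (e t) < η := fun s t h => by
      rw [dist_eq_norm]; exact (norm_e_sub_e_le _ _).trans_lt h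
    refine mem_ball.2 ((dist_add_add_le _ _ _ _).trans_lt ?_)
    linarith [dist_add_add_le y' (e p.1) y (e σ₀), h5 _ _ hp.1.1, h5 _ _ hp.1.2]
  have h5 : volume (ball t₀ η) * volume {σ : ℝ | |σ - σ₀| < η ∧ y' + e σ ∉ Xs B U} ≤
      volume (ball σ₀ η ×ˢ ball t₀ η ∩ (fun p : ℝ × ℝ => y' + e p.1 + e p.2) ⁻¹' (Dens B)ᶜ) := by
    rw [Measure.volume_eq_prod, Measure.prod_apply hT, ← setLIntegral_const, ← lintegral_indicator hS]
    refine lintegral_mono fun σ => indicator_apply_le' (fun hσ => ?_) fun _ => zero_le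
    have h2 : volume {t : ℝ | t ∈ U ∧ y' + e σ + e t ∈ Dens B} = 0 := not_not.1 hσ.2
    rw [← measure_sdiff_null h2]
    exact measure_mono fun t ht =>
      ⟨⟨hσ.1, ht.1⟩, fun h => ht.2 ⟨hU' (ball_subset_ball h1.2.1.le ht.1), h⟩⟩
  have h6 := (mul_le_mul_right h5 _).trans (h2.trans (h4.trans ((measure_union_le _ _).trans
    (add_le_add h3 (volume_diff_Dens hB).le))))
  rw [add_zero, Real.volume_ball, ← mul_assoc, ← ENNReal.ofReal_mul hc.le,
    show 2 * c * θ / 9 * (3 * η) ^ 2 = c * (2 * η) * (θ * η) by ring,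
    ENNReal.ofReal_mul (q := θ * η) (by positivity)] at h6
  exact (ENNReal.mul_le_mul_iff_right (ENNReal.ofReal_pos.2 (by positivity)).ne'
    ENNReal.ofReal_ne_top).1 h6

end Crest.Agent.R40
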