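import Crest.Agent.R40.Cell

/-! Row 40, task Corners: the cells have only countably many corners. -/

set_option autoImplicit false
set_option linter.unusedSectionVars false

open Set Metric MeasureTheory
open scoped Real

namespace Crest.Agent.R40

lemma ip_sub_right' (h u v : ℂ) : ip h (u - v) = ip h u - ip h v := by simp [ip]; ring

lemma ip_neg_left' (h u : ℂ) : ip (-h) u = -ip h u := by simp [ip]; ring

lemma ip_neg_right' (h u : ℂ) : ip h (-u) = -ip h u := by simp [ip]; ring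

lemma exists_det {u₁ u₂ : ℂ} (h₁ : ‖u₁‖ = 1) (h₂ : ‖u₂‖ = 1) (h : u₂ ≠ u₁) (h' : u₂ ≠ -u₁) :
    ∃ s > 0, ∀ v : ℂ, s * ‖v‖ ≤ |ip v u₁| + |ip v u₂| := by
  refine ⟨|u₁.re * u₂.im - u₁.im * u₂.re|, abs_pos.2 fun h0 => ?_, fun v => ?_⟩
  · have e1 := norm_sub_sq_ip u₂ u₁
    have e2 := norm_sub_sq_ip u₂ (-u₁)
    have e3 := ip_self u₁
    have e4 := ip_self u₂
    have p1 := pow_pos (norm_pos_iff.2 (sub_ne_zero.2 h)) 2
    have p2 := pow_pos (norm_pos_iff.2 (sub_ne_zero.2 h')) 2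
    rw [ip_neg_right', norm_neg] at e2
    rw [h₁] at e1 e2 e3
    rw [h₂] at e1 e2 e4
    have e5 : ip u₂ u₁ ^ 2 + (u₁.re * u₂.im - u₁.im * u₂.re) ^ 2 = ip u₁ u₁ * ip u₂ u₂ := by
      simp only [ip]; ring
    rw [h0, e3, e4] at e5
    nlinarith
  · have e : ((u₁.re * u₂.im - u₁.im * u₂.re : ℝ) : ℂ) * Complex.I * v =
        (ip v u₁ : ℝ) * u₂ - (ip v u₂ : ℝ) * u₁ := by
      apply Complex.ext <;> simp [ip] <;> ring
    have h3 := norm_sub_le ((ip v u₁ : ℝ) * u₂) ((ip v u₂ : ℝ) * u₁)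
    rw [← e] at h3
    simpa only [norm_mul, Complex.norm_real, Real.norm_eq_abs, Complex.norm_I, h₁, h₂, mul_one]
      using h3

/-- Cone argument.  For `z` in the set pick `q₁, q₂` in a countable dense set and a rational `κ > 0`
such that (i) `|ip h q₁| ≤ κ ‖h‖` and `|ip h q₂| ≤ κ ‖h‖` imply `h = 0`, (ii) `ip (x - z) qⱼ ≥ - κ ‖x - z‖`
for `x ∈ F`, `‖x - z‖ < κ` (possible since `u₁`, `u₂` are linearly independent: with
`s = |u₁.re u₂.im - u₁.im u₂.re| > 0` one has `s ‖h‖ ≤ |ip h u₁| + |ip h u₂|`; take `κ < s / 4`,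
`‖qⱼ - uⱼ‖ < κ / 2`).  Two points with the same data at distance `< κ` coincide, so each class is
`κ`-separated, hence countable (`Set.PairwiseDisjoint.countable_of_isOpen` for balls of
radius `κ / 2`). -/
theorem countable_cone_points (F : Set ℂ) :
    {z | z ∈ F ∧ ∃ u₁ u₂ : ℂ, ‖u₁‖ = 1 ∧ ‖u₂‖ = 1 ∧ u₂ ≠ u₁ ∧ u₂ ≠ -u₁ ∧
      ∀ x ∈ F, -(‖x - z‖ ^ 2 / 2) ≤ ip (x - z) u₁ ∧ -(‖x - z‖ ^ 2 / 2) ≤ ip (x - z) u₂}.Countable := by
  let q := TopologicalSpace.denseSeq ℂ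
  let Z : ℕ × ℕ × ℚ → Set ℂ := fun p => {z | z ∈ F ∧ (0 : ℝ) < p.2.2 ∧
    (∀ h, |ip h (q p.1)| ≤ p.2.2 * ‖h‖ → |ip h (q p.2.1)| ≤ p.2.2 * ‖h‖ → h = 0) ∧
    ∀ x ∈ F, ‖x - z‖ < p.2.2 →
      -(p.2.2 * ‖x - z‖) ≤ ip (x - z) (q p.1) ∧ -(p.2.2 * ‖x - z‖) ≤ ip (x - z) (q p.2.1)}
  refine (countable_iUnion (t := Z) fun p => ?_).mono ?_
  · refine Set.PairwiseDisjoint.countable_of_isOpen (s := fun z => ball z (p.2.2 / 2))
      (fun z hz z' hz' hne => ball_disjoint_ball (not_lt.1 fun hlt => hne ?_))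
      (fun _ _ => isOpen_ball) fun z hz => nonempty_ball.2 (half_pos hz.2.1)
    rw [add_halves, dist_eq_norm] at hlt
    have h1 := hz'.2.2.2 z hz.1 hlt
    have h2 := hz.2.2.2 z' hz'.1 (by rwa [norm_sub_rev])
    rw [← neg_sub z z', ip_neg_left', ip_neg_left', norm_neg] at h2
    exact sub_eq_zero.1 (hz.2.2.1 _ (abs_le.2 ⟨h1.1, by linarith [h2.1]⟩)
      (abs_le.2 ⟨h1.2, by linarith [h2.2]⟩))
  · rintro z ⟨hz, u₁, u₂, h₁, h₂, h, h', hF⟩
    obtain ⟨s, hs, hs'⟩ := exists_det h₁ h₂ h h'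
    obtain ⟨κ, k0, k1⟩ := exists_rat_btwn (show 0 < s / 4 by positivity)
    have hq : ∀ u : ℂ, ∃ n, ∀ v, |ip v (q n) - ip v u| ≤ κ / 2 * ‖v‖ := fun u => by
      obtain ⟨n, hn⟩ := (TopologicalSpace.denseRange_denseSeq ℂ).exists_dist_lt u (half_pos k0)
      refine ⟨n, fun v => ?_⟩
      rw [← ip_sub_right', mul_comm]
      rw [dist_comm, dist_eq_norm] at hn
      exact (abs_ip_le _ _).trans (mul_le_mul_of_nonneg_left hn.le (norm_nonneg _))
    obtain ⟨n₁, q₁⟩ := hq u₁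
    obtain ⟨n₂, q₂⟩ := hq u₂
    refine mem_iUnion.2 ⟨(n₁, n₂, κ), hz, k0, fun v a₁ a₂ => ?_, fun x hx hlt => ?_⟩
    · have b₁ := abs_sub_abs_le_abs_sub (ip v u₁) (ip v (q n₁))
      have b₂ := abs_sub_abs_le_abs_sub (ip v u₂) (ip v (q n₂))
      rw [abs_sub_comm] at b₁ b₂
      by_contra hv
      nlinarith [hs' v, q₁ v, q₂ v, norm_pos_iff.2 hv]
    · have b₁ := (abs_le.1 (q₁ (x - z))).1
      have b₂ := (abs_le.1 (q₂ (x - z))).1
      have := hF x hx
      constructor <;> nlinarith [norm_nonneg (x - z)]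

lemma exists_side {L : Fin 5 → Set ℂ} {a : Fin 5} {x₀ z w : ℂ} (hw : w ∈ K L a)
    (hd : dist z w = 1) : ∃ u, (u = w - z ∨ u = -(w - z)) ∧
      ∀ x ∈ closure (cell L a x₀), -(‖x - z‖ ^ 2 / 2) ≤ ip (x - z) u := by
  have e : ∀ x, dist x w ^ 2 = ‖x - z‖ ^ 2 - 2 * ip (x - z) (w - z) + 1 := fun x => by
    have := norm_sub_sq_ip (x - z) (w - z)
    rwa [sub_sub_sub_cancel_right, ← dist_eq_norm, ← dist_eq_norm w, dist_comm w, hd,
      one_pow] at this
  by_cases h : ∀ x ∈ cell L a x₀, dist x w ≤ 1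
  · refine ⟨_, Or.inl rfl, fun x hx => ?_⟩
    have : dist x w ≤ 1 := closure_minimal (t := closedBall w 1) h isClosed_closedBall hx
    nlinarith [e x, dist_nonneg (x := x) (y := w), sq_nonneg ‖x - z‖]
  · push Not at h
    obtain ⟨x₁, h1, h2⟩ := h
    refine ⟨_, Or.inr rfl, fun x hx => ?_⟩
    have : 1 ≤ dist x w := closure_minimal (t := {x | 1 ≤ dist x w}) (fun y hy => not_lt.1 fun hc => by
      obtain ⟨x', h3, h4⟩ := exists_dist_one (isPreconnected_cell a x₀) hy h1 hc h2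
      exact cell_sub a x₀ h3 w hw h4) (isClosed_le continuous_const (by fun_prop)) hx
    rw [ip_neg_right']
    nlinarith [e x]

/-- Plan: every nonempty cell is open, so it is `cell L a q` for `q` in a countable dense set
(`connectedComponentIn_eq`).  If `z ∈ closure Γ` and `w ∈ K L a`, `dist z w = 1`, then `Γ`
(preconnected, `⊆ O L a`) lies entirely inside or entirely outside the circle around `w`
(`exists_dist_one`), and `‖x - w‖² = ‖x - z‖² - 2 ip (x - z) (w - z) + 1`; so `u = ± (w - z)`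
satisfies the inequality of `countable_cone_points` on `F = closure Γ`. -/
theorem countable_corners (L : Fin 5 → Set ℂ) :
    {z | ∃ a x₀, z ∈ closure (cell L a x₀) ∧ ¬ Reg L a z}.Countable := by
  refine (countable_iUnion fun p : Fin 5 × ℕ =>
    countable_cone_points (closure (cell L p.1 (TopologicalSpace.denseSeq ℂ p.2)))).mono ?_
  rintro z ⟨a, x₀, hz, hr⟩
  obtain ⟨n, hn⟩ := (TopologicalSpace.denseRange_denseSeq ℂ).exists_mem_open (isOpen_cell a x₀)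
    (closure_nonempty_iff.1 ⟨z, hz⟩)
  refine mem_iUnion.2 ⟨(a, n), ?_⟩
  simp only [cell_eq hn]
  simp only [Reg, not_forall, not_or] at hr
  obtain ⟨w, hw, w', hw', d, d', h1, h2⟩ := hr
  obtain ⟨u, hu, hu'⟩ := exists_side (x₀ := x₀) hw d
  obtain ⟨v, hv, hv'⟩ := exists_side (x₀ := x₀) hw' d'
  rw [dist_comm, dist_eq_norm] at d d'
  have n1 : w' - z ≠ w - z := fun h => h1 (sub_left_injective h)
  have n2 : w' - z ≠ -(w - z) := fun h => h2 (by
    rw [dist_eq_norm, show w - w' = 2 * (w - z) by linear_combination -h, norm_mul, d]; simp)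
  refine ⟨hz, u, v, ?_, ?_, ?_, ?_, fun x hx => ⟨hu' x hx, hv' x hx⟩⟩
  · rcases hu with rfl | rfl <;> simpa [norm_sub_rev] using d
  · rcases hv with rfl | rfl <;> simpa [norm_sub_rev] using d'
  · rcases hu with rfl | rfl <;> rcases hv with rfl | rfl
    exacts [n1, fun h => n2 (by rw [← h, neg_neg]), n2, fun h => n1 (neg_injective h)]
  · rcases hu with rfl | rfl <;> rcases hv with rfl | rfl
    exacts [n2, fun h => n1 (neg_injective h), fun h => n1 (by rw [h, neg_neg]),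
      fun h => n2 (neg_injective h)]

end Crest.Agent.R40
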