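import Crest.Agent.R40.Box
import Crest.Agent.R40.Basic

/-! Row 40, task Crossing: the crossing lemma and its consequence (cells are met). -/

set_option autoImplicit false

open Set Metric MeasureTheory
open scoped Real

namespace Crest.Agent.R40

lemma sin_zero_null (σ₀ : ℝ) : volume {t : ℝ | Real.sin (t - σ₀) = 0} = 0 := by
  refine ((countable_range fun n : ℤ => n * π + σ₀).mono fun t ht => ?_).measure_zero _
  obtain ⟨n, hn⟩ := Real.sin_eq_zero_iff.1 ht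
  exact ⟨n, by simp only [hn]; ring⟩

lemma exists_not_bad {ι : Type*} (J : Finset ι) (S : ι → Set ℝ) (σ₀ : ℝ) {η : ℝ} (hη : 0 < η)
    (h : ∀ j ∈ J, volume (S j) ≤ ENNReal.ofReal (1 / (J.card + 1) * η)) :
    ∃ σ, |σ - σ₀| < η ∧ ∀ j ∈ J, σ ∉ S j := by
  by_contra hc
  have h1 : ball σ₀ η ⊆ ⋃ j ∈ J, S j := fun σ hσ => by
    by_contra h2
    exact hc ⟨σ, hσ, fun j hj hs => h2 (mem_biUnion hj hs)⟩
  have h2 := (measure_mono (μ := volume) h1).trans ((measure_biUnion_finset_le J S).trans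
    (Finset.sum_le_sum h))
  rw [Finset.sum_const, nsmul_eq_mul, Real.volume_ball, ← ENNReal.ofReal_natCast,
    ← ENNReal.ofReal_mul (by positivity), ENNReal.ofReal_le_ofReal_iff (by positivity)] at h2
  have h3 : (J.card : ℝ) * (1 / (J.card + 1) * η) ≤ η := by
    rw [← mul_assoc, mul_one_div]
    exact mul_le_of_le_one_left hη.le ((div_le_one (by positivity)).2 (by linarith))
  linarith

/-- Crossing lemma.  Plan: `x = y + e σ₀`.  For `j ∈ J` pick `t j ∈ U j` with `x + e (t j) ∈ Dens (B j)`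
and `sin (t j - σ₀) ≠ 0` (the zero set is countable, hence null).  `box_lemma` with
`θ = 1 / (J.card + 1)`; take `η` small for all `j` and `< ε / 4`, `y' ∈ Dens B₀` with `dist y' y < η`,
and `σ`, `|σ - σ₀| < η`, outside the bad sets (total measure `< 2 η`).  `x₁ = y' + e σ` is in all
`Xs (B j) (U j)` and in `Ns B₀ univ` (`x₁ + e (σ + π) = y'`), hence (by `Xs_sub_Ns`,
`Ns_sub_Dens_Xs`, `Dens_biInter`, `Dens_inter`) a density point of the intersection; `Dens_pos`. -/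
theorem crossing {ι : Type*} (J : Finset ι) {B : ι → Set ℂ} {U : ι → Set ℝ}
    (hB : ∀ j, MeasurableSet (B j)) (hU : ∀ j, IsOpen (U j)) {x : ℂ}
    (hx : ∀ j ∈ J, x ∈ Xs (B j) (U j)) {B₀ : Set ℂ} (hB₀ : MeasurableSet B₀) {y : ℂ}
    (hy : y ∈ closure (Dens B₀)) (hxy : dist x y = 1) {ε : ℝ} (hε : 0 < ε) :
    ∃ x', dist x' x < ε ∧ (∀ j ∈ J, x' ∈ Xs (B j) (U j)) ∧ x' ∈ Xs B₀ univ := by
  obtain ⟨σ₀, rfl⟩ := exists_e_of_dist (show dist y x = 1 by rwa [dist_comm])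
  have key : ∀ j ∈ J, ∃ η₀ > (0 : ℝ), ∀ η : ℝ, 0 < η → η < η₀ → ∀ y', dist y' y < η →
      volume {σ : ℝ | |σ - σ₀| < η ∧ y' + e σ ∉ Xs (B j) (U j)} ≤
        ENNReal.ofReal (1 / (J.card + 1) * η) := fun j hj => by
    obtain ⟨t, ⟨h1, h2⟩, h3⟩ := nonempty_of_measure_ne_zero
      ((measure_sdiff_null (sin_zero_null σ₀)).trans_ne (hx j hj))
    exact box_lemma (hB j) (hU j) y h1 h2 h3 (by positivity)
  choose! η₀ h0 key using key
  have hev : ∀ᶠ η in nhdsWithin (0 : ℝ) (Ioi 0), (0 < η ∧ η < ε / 4) ∧ ∀ j ∈ J, η < η₀ j :=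
    (Filter.Eventually.and self_mem_nhdsWithin
      (nhdsWithin_le_nhds (gt_mem_nhds (by positivity)))).and
      ((Filter.eventually_all_finset J).2 fun j hj => nhdsWithin_le_nhds (gt_mem_nhds (h0 j hj)))
  obtain ⟨η, ⟨h1, h2⟩, h3⟩ := hev.exists
  obtain ⟨y', hy', hd⟩ := Metric.mem_closure_iff.1 hy η h1
  rw [dist_comm] at hd
  obtain ⟨σ, hσ, hgood⟩ := exists_not_bad J _ σ₀ h1 fun j hj => key j hj η h1 (h3 j hj) y' hd
  have hD : y' + e σ ∈ Dens ((⋂ j ∈ J, Xs (B j) (U j)) ∩ Xs B₀ univ) :=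
    Dens_inter (Dens_biInter J fun j hj => Ns_sub_Dens_Xs (hB j) (hU j) (Xs_sub_Ns _ _
      (by_contra fun hc => hgood j hj ⟨hσ, hc⟩)))
      (Ns_sub_Dens_Xs hB₀ isOpen_univ ⟨σ + π, mem_univ _, by simpa [e_add_pi] using hy'⟩)
  obtain ⟨x', ⟨h4, h5⟩, h6⟩ := nonempty_of_measure_ne_zero (Dens_pos hD (half_pos hε))
  refine ⟨x', ?_, fun j hj => mem_iInter₂.1 h4 j hj, h5⟩
  have h7 : dist (e σ) (e σ₀) < η := by
    rw [dist_eq_norm]; exact (norm_e_sub_e_le _ _).trans_lt hσ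
  have h8 := dist_add_add_le y' (e σ) y (e σ₀)
  have h9 := dist_triangle x' (y' + e σ) (y + e σ₀)
  have h10 : dist x' (y' + e σ) < ε / 2 := h6
  linarith

variable {A : Fin 5 → Set ℂ}

/-- a point in all five `Xs (A i) univ` would be a density point of their intersection, which is
null by `cover` and `disj` -/
theorem MaxCol.not_all (h : MaxCol A) (x : ℂ) : ∃ i, x ∉ Xs (A i) univ := by
  by_contra hc
  simp only [not_exists, not_not] at hc
  have hD := Dens_biInter Finset.univ (B := fun i => Xs (A i) univ) fun i _ =>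
    Ns_sub_Dens_Xs (h.meas i) isOpen_univ (Xs_sub_Ns _ _ (hc i))
  refine Dens_pos hD one_pos (measure_mono_null (fun z hz => ?_)
    (measure_union_null (ae_iff.1 h.cover) (measure_iUnion_null h.disj)))
  by_cases h1 : ∃ i, z ∈ A i
  · obtain ⟨i, hi⟩ := h1
    exact .inr (mem_iUnion.2 ⟨i, hi, mem_iInter₂.1 hz.1 i (Finset.mem_univ i)⟩)
  · exact .inl h1

/-- Plan: take `J' ⊇ J` of maximal cardinality such that `N ∩ Xs B U ∩ ⋂ j ∈ J', Xs (A j) univ` has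
a point `x'`; `J' ≠ univ` by `not_all`; for `k ∉ J'`, if `x' ∉ O (DA A) k` then `crossing`
(index type `Option (Fin 5)`, `Finset.insertNone J'`) enlarges `J'`. -/
theorem MaxCol.meets_cell (h : MaxCol A) {B : Set ℂ} (hB : MeasurableSet B) {U : Set ℝ}
    (hU : IsOpen U) (J : Finset (Fin 5)) {N : Set ℂ} (hN : IsOpen N) {x : ℂ} (hxN : x ∈ N)
    (hxB : x ∈ Xs B U) (hxJ : ∀ j ∈ J, x ∈ Xs (A j) univ) :
    ∃ k, k ∉ J ∧ ∃ x' ∈ N, x' ∈ Xs B U ∧ x' ∈ O (DA A) k := by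
  classical
  obtain ⟨J', hJ', hmax⟩ := Finset.exists_max_image (Finset.univ.filter fun J' : Finset (Fin 5) =>
    J ⊆ J' ∧ ∃ x' ∈ N, x' ∈ Xs B U ∧ ∀ j ∈ J', x' ∈ Xs (A j) univ) Finset.card
    ⟨J, Finset.mem_filter.2 ⟨Finset.mem_univ _, Subset.rfl, x, hxN, hxB, hxJ⟩⟩
  obtain ⟨hJJ, x', h1, h2, h3⟩ := (Finset.mem_filter.1 hJ').2
  obtain ⟨k, hk⟩ := h.not_all x'
  have hkJ : k ∉ J' := fun hc => hk (h3 k hc)
  refine ⟨k, fun hc => hkJ (hJJ hc), x', h1, h2, by_contra fun hc => ?_⟩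
  obtain ⟨y, hy, hd⟩ := exists_K_of_not_O hc
  obtain ⟨ε, hε, hb⟩ := Metric.isOpen_iff.1 hN x' h1
  obtain ⟨x'', h4, h5, h6⟩ := crossing (Finset.insertNone J') (B := fun o => o.elim B A)
    (U := fun o => o.elim U fun _ => univ) (x := x')
    (fun o => by cases o; exacts [hB, h.meas _]) (fun o => by cases o; exacts [hU, isOpen_univ])
    (fun o ho => by
      cases o with
      | none => exact h2
      | some j => exact h3 j (Finset.some_mem_insertNone.1 ho)) (h.meas k) hy hd hε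
  have := hmax (insert k J') (Finset.mem_filter.2 ⟨Finset.mem_univ _,
    hJJ.trans (Finset.subset_insert _ _), x'', hb h4, h5 none Finset.none_mem_insertNone,
    fun j hj => (Finset.mem_insert.1 hj).elim (fun hj => hj ▸ h6)
      fun hj => h5 (some j) (Finset.some_mem_insertNone.2 hj)⟩)
  rw [Finset.card_insert_of_notMem hkJ] at this
  omega

/-- For almost every centre the cells are dense on the unit circle.
Plan: `E₁ = (⋃ k, O (DA A) k)ᶜ` is closed.  The bad set is contained in the union over rationals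
`q₁ < q₂` of the closed sets `Y = {y | ∀ t ∈ Ioo q₁ q₂, y - e t ∈ E₁}`.  If `volume Y ≠ 0` there is
`y₀ ∈ Dens Y` (`volume_diff_Dens`), `y₀ - e t₀ ∈ Ns Y (Ioo q₁ q₂) ⊆ Dens (Xs Y _)`, so `Xs Y _` is
nonempty (`Dens_pos`); `meets_cell` with `N = univ`, `J = ∅` gives a point of
`Xs Y _ ⊆ Ns Y _ ⊆ E₁` (`Dens_sub_closure`) in a cell. -/
theorem MaxCol.bad_null (h : MaxCol A) :
    volume {y : ℂ | ∃ x, dist x y = 1 ∧ ∃ ε > (0 : ℝ), ∀ x', dist x' x < ε → dist x' y = 1 →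
      ∀ k, x' ∉ O (DA A) k} = 0 := by
  have hnull : ∀ q₁ q₂ : ℚ, (q₁ : ℝ) < q₂ →
      volume {y : ℂ | ∀ t ∈ Ioo (q₁ : ℝ) q₂, ∀ k, y - e t ∉ O (DA A) k} = 0 := fun q₁ q₂ hq => by
    set Y := {y : ℂ | ∀ t ∈ Ioo (q₁ : ℝ) q₂, ∀ k, y - e t ∉ O (DA A) k} with hY
    have hc : IsClosed Y := by
      simp only [hY, ofPred_forall]
      exact isClosed_iInter fun t => isClosed_iInter fun _ => isClosed_iInter fun k =>
        ((isOpen_O k).preimage (continuous_sub_right (e t))).isClosed_compl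
    refine measure_mono_null (fun y₀ hy₀ => And.intro hy₀ fun hD => ?_)
      (volume_diff_Dens hc.measurableSet)
    obtain ⟨t₀, ht₀⟩ := exists_between hq
    obtain ⟨x₁, hx₁, -⟩ := nonempty_of_measure_ne_zero (Dens_pos (Ns_sub_Dens_Xs hc.measurableSet
      isOpen_Ioo (show y₀ - e t₀ ∈ Ns Y (Ioo (q₁ : ℝ) q₂) from ⟨t₀, ht₀, by simpa using hD⟩)) one_pos)
    obtain ⟨k, -, x', -, h1, h2⟩ := h.meets_cell hc.measurableSet isOpen_Ioo ∅ isOpen_univ
      (mem_univ x₁) hx₁ (by simp)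
    obtain ⟨t, ht, h3⟩ := Xs_sub_Ns _ _ h1
    exact hc.closure_subset (Dens_sub_closure Y h3) t ht k (by simpa using h2)
  refine measure_mono_null ?_ (measure_iUnion_null fun q₁ => measure_iUnion_null fun q₂ =>
    measure_iUnion_null fun hq => hnull q₁ q₂ hq)
  rintro y ⟨x, hd, ε, hε, hx⟩
  obtain ⟨s, rfl⟩ := exists_e_of_dist (show dist y x = 1 by rwa [dist_comm])
  obtain ⟨q₁, h1, h2⟩ := exists_rat_btwn (show s + π < s + π + ε by linarith)
  obtain ⟨q₂, h3, h4⟩ := exists_rat_btwn h2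
  refine mem_iUnion.2 ⟨q₁, mem_iUnion.2 ⟨q₂, mem_iUnion.2 ⟨h3, fun t ht => ?_⟩⟩⟩
  rw [sub_eq_add_neg, ← e_sub_pi]
  refine hx _ ?_ (dist_add_e' _ _)
  rw [dist_add_left, dist_eq_norm]
  refine (norm_e_sub_e_le _ _).trans_lt (abs_lt.2 ⟨?_, ?_⟩) <;> linarith [ht.1, ht.2]

end Crest.Agent.R40
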