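import Crest.Agent.R40.Pair
import Crest.Agent.R40.Basic

/-! Row 40, task PP: the pair principle. -/

set_option autoImplicit false

open Set Metric MeasureTheory
open scoped Real

namespace Crest.Agent.R40

variable {A : Fin 5 → Set ℂ}

lemma mem_Ns_of_dist {B : Set ℂ} {x y : ℂ} (hy : y ∈ Dens B) (hd : dist x y = 1) :
    x ∈ Ns B univ := by
  obtain ⟨t, rfl⟩ := exists_e_of_dist hd
  exact ⟨t, mem_univ t, hy⟩

lemma pp_dens (hA : ∀ i, MeasurableSet (A i)) {a b : Fin 5} {N : Set ℂ} (hN : IsOpen N)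
    (h0 : volume (N ∩ Xs (A a) univ ∩ Xs (A b) univ) = 0) {x y w : ℂ} (hx : x ∈ N)
    (hy : y ∈ Dens (A a)) (hw : w ∈ Dens (A b)) (hxy : dist x y = 1) (hxw : dist x w = 1) :
    False := by
  have h1 := Dens_inter (Dens_inter (mem_Dens_of_open (A := N) hN hx (by simp))
    (Ns_sub_Dens_Xs (hA a) isOpen_univ (mem_Ns_of_dist hy hxy)))
    (Ns_sub_Dens_Xs (hA b) isOpen_univ (mem_Ns_of_dist hw hxw))
  exact Dens_pos h1 one_pos (measure_mono_null inter_subset_left h0)

lemma pp_trans (hA : ∀ i, MeasurableSet (A i)) {a b : Fin 5} {N : Set ℂ} (hN : IsOpen N)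
    (h0 : volume (N ∩ Xs (A a) univ ∩ Xs (A b) univ) = 0) {x y w : ℂ} (hx : x ∈ N)
    (hy : y ∈ Dens (A a)) (hw : w ∈ closure (Dens (A b))) (hxy : dist x y = 1)
    (hxw : dist x w = 1) (hne : w ≠ y) (h2 : dist y w ≠ 2) : False := by
  obtain ⟨ε, hε, hb⟩ := Metric.isOpen_iff.1 hN x hx
  obtain ⟨δ, hδ, hs⟩ := cross_stable hxy hxw hne h2 hε
  obtain ⟨w', hw', hd⟩ := Metric.mem_closure_iff.1 hw δ hδ
  obtain ⟨x', h1, h3, h4⟩ := hs y w' (by simpa using hδ) (by rwa [dist_comm])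
  exact pp_dens hA hN h0 (hb h1) hy hw' h3 h4

lemma dist_cone_le {y y' u : ℂ} (hu : ‖u‖ = 1) {ρ κ : ℝ} (hρ : 0 < ρ)
    (h : dist y' (y + ρ * u) < κ * ρ) : dist y' y < κ * ρ + ρ := by
  refine (dist_triangle _ (y + ρ * u) _).trans_lt ?_
  rw [dist_self_add_left, norm_mul, hu, Complex.norm_real, Real.norm_of_nonneg hρ.le]
  linarith

/-- Plan: let `y ∈ Dens (A a)`, `x ∈ N`, `dist x y = 1`, and suppose `w ∈ K (DA A) b`, `dist x w = 1`.
It suffices to find `y' ∈ Dens (A a)`, `w' ∈ Dens (A b)` and `x' ∈ N` at distance one from both: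
then `x' ∈ Ns (A a) univ ∩ Ns (A b) univ`, a density point of `N ∩ Xs (A a) univ ∩ Xs (A b) univ`
(`Ns_sub_Dens_Xs`, `mem_Dens_of_open`, `Dens_inter`, `Dens_pos`).
* `w ≠ y`, `dist y w ≠ 2`: `cross_stable`.
* `dist y w = 2`: `Dens_cone` in direction `u = x - y` gives `y'` near `y` with `dist y' w < 2`; then
  `w'` near `w` with `dist y' w' ≤ 2`; `cross_tangent`.
* `w = y`: `Dens_cone` in direction `u = I * (x - y)` gives `y' ≠ y` with `cross_perp` applicable to
  `(y', y)`; the crossing point `x'' ∈ N` is transversal (`y' ≠ w`, `dist y' w < 2`): first case. -/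
theorem pair_principle (hA : ∀ i, MeasurableSet (A i)) {a b : Fin 5} {N : Set ℂ} (hN : IsOpen N)
    (h0 : volume (N ∩ Xs (A a) univ ∩ Xs (A b) univ) = 0) : Cov (DA A) a b N := by
  intro y hy x hx hxy w hw hxw
  obtain ⟨ε, hε, hb⟩ := Metric.isOpen_iff.1 hN x hx
  have hu : ‖x - y‖ = 1 := by rwa [← dist_eq_norm]
  by_cases hne : w = y
  · subst hne
    obtain ⟨δ, hδ, κ, hκ, hs⟩ := cross_perp hxy hε
    have hu' : ‖Complex.I * (x - w)‖ = 1 := by rw [norm_mul, Complex.norm_I, one_mul, hu]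
    obtain ⟨ρ, h0ρ, hρ, y', ⟨hy', -⟩, hd⟩ := Dens_cone (hA a) (Z := ∅) measure_empty hy hu'
      (κ := min (κ / 2) (1 / 2)) (r := min (δ / 2) 1) (by positivity) (by positivity)
    have hk1 : min (κ / 2) (1 / 2) ≤ κ / 2 := min_le_left _ _
    have hk2 : min (κ / 2) (1 / 2) ≤ 1 / 2 := min_le_right _ _
    rw [lt_min_iff] at hρ
    have hle := dist_cone_le hu' h0ρ hd
    have hge : ρ / 2 < ‖y' - w‖ := by
      have h1 := dist_triangle_left (w + ρ * (Complex.I * (x - w))) w y'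
      rw [dist_self_add_left, norm_mul, hu', Complex.norm_real, Real.norm_of_nonneg h0ρ.le,
        dist_eq_norm y' w] at h1
      nlinarith
    have hne : y' ≠ w := by
      rintro rfl
      rw [sub_self, norm_zero] at hge
      linarith
    obtain ⟨x', h1, h2, h3⟩ := hs y' w (by nlinarith) (by simpa using hδ) hne (by
      have h4 : ip (y' - w) (x - w) = ip (y' - (w + ρ * (Complex.I * (x - w)))) (x - w) := by
        simp [ip]; ring
      rw [h4]
      refine (abs_ip_le _ _).trans_lt ?_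
      rw [hu, mul_one, ← dist_eq_norm]
      nlinarith)
    exact pp_trans hA hN h0 (hb h1) hy' hw h2 h3 hne.symm (by nlinarith)
  by_cases h2 : dist y w = 2
  · obtain ⟨δ, hδ, hs⟩ := cross_tangent hxy hxw h2 hε
    obtain ⟨ρ, h0ρ, hρ, y', ⟨hy', -⟩, hd⟩ := Dens_cone (hA a) (Z := ∅) measure_empty hy hu
      (κ := 1 / 2) (r := min (δ / 2) 1) (by positivity) (by positivity)
    rw [lt_min_iff] at hρ
    have hle := dist_cone_le hu h0ρ hd
    have hw2 := (antipodal_iff hxy hxw).1 h2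
    have h3 : dist (y + ρ * (x - y)) w = 2 - ρ := by
      rw [dist_comm, dist_eq_norm, show w - (y + ρ * (x - y)) = ((2 - ρ : ℝ) : ℂ) * (x - y) by
        rw [hw2]; push_cast; ring, norm_mul, hu, Complex.norm_real,
        Real.norm_of_nonneg (by linarith), mul_one]
    obtain ⟨w', hw', hd'⟩ := Metric.mem_closure_iff.1 hw (min δ (ρ / 2)) (by positivity)
    rw [lt_min_iff] at hd'
    obtain ⟨x', h4, h5, h6⟩ := hs y' w' (by linarith) (by rw [dist_comm]; exact hd'.1) (by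
      have := dist_triangle4 y' (y + ρ * (x - y)) w w'
      linarith)
    exact pp_dens hA hN h0 (hb h4) hy' hw' h5 h6
  exact pp_trans hA hN h0 hx hy hw hxy hxw hne h2

/-- converse, with generic centres: outside the null set of `ae_circle_null`, a point of
`N ∩ Xs (A a) univ` lies on a circle around a point of `Dens (A a) \ Z`, so it is in `O (DA A) b`,
which is disjoint from `Ns (A b) univ`. -/
theorem null_of_cov {Z : Set ℂ} (hZ : volume Z = 0) {a b : Fin 5} {N : Set ℂ}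
    (h : ∀ y ∈ Dens (A a) \ Z, ∀ x ∈ N, dist x y = 1 → x ∈ O (DA A) b) :
    volume (N ∩ Xs (A a) univ ∩ Xs (A b) univ) = 0 := by
  refine measure_mono_null (fun x hx => ?_) (ae_iff.1 (ae_circle_null hZ))
  intro hc
  obtain ⟨⟨hxN, hxa⟩, hxb⟩ := hx
  obtain ⟨t, -, ht⟩ := Xs_sub_Ns _ _ hxb
  refine hxa (measure_mono_null (fun s hs => by_contra fun hz => ?_) hc)
  exact h _ ⟨hs.2, hz⟩ x hxN (dist_add_e x s) _ (L_sub_K (L := DA A) b ht) (dist_add_e x t)

/-- `O (DA A) i` is open and disjoint from `Xs (A i) univ`; `max` and `mem_Dens_of_open` -/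
theorem MaxCol.O_sub_Dens (h : MaxCol A) (i : Fin 5) : O (DA A) i ⊆ Dens (A i) := by
  refine fun x hx => mem_Dens_of_open (isOpen_O i) hx (measure_mono_null (fun z hz => ?_) (h.max i))
  intro hc
  refine hc.elim hz.2 fun hc => ?_
  obtain ⟨t, -, ht⟩ := Xs_sub_Ns _ _ hc
  exact hz.1 _ (L_sub_K (L := DA A) i ht) (dist_add_e z t)

end Crest.Agent.R40
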