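import Crest.Agent.R40.MaxExt
import Crest.Agent.R40.Crossing
import Crest.Agent.R40.PP
import Crest.Agent.R40.Corners

/-! Row 40, task Build: a maximal measurable colouring gives a system `Sys`. -/

set_option autoImplicit false

open Set Metric MeasureTheory
open scoped Real

namespace Crest.Agent.R40

/-- Plan: `Z = bad set of MaxCol.bad_null ∪ ⋃ z ∈ corners of (DA A), sphere z 1` is null
(`countable_corners`, `Measure.addHaar_sphere`), `L i = Dens (A i) \ Z`.  `K L i = K (DA A) i` by
`closure_Dens_diff`, hence `O`, `Reg`, `cell` agree.  `O_sub`: `O_sub_Dens`.  `symm`, `c5`: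
`null_of_cov` then `pair_principle` (a sphere is null).  `c4`: if
`N ∩ Xs (A a) univ ∩ Xs (A b) univ = ∅` use `pair_principle`, else `meets_cell` with `B = univ`,
`U = univ` (`Dens_univ`), `J = {a, b}`. -/
theorem MaxCol.exists_sys {A : Fin 5 → Set ℂ} (h : MaxCol A) : ∃ L, Sys L := by
  set Bad : Set ℂ := {y : ℂ | ∃ x, dist x y = 1 ∧ ∃ ε > (0 : ℝ), ∀ x', dist x' x < ε →
    dist x' y = 1 → ∀ k, x' ∉ O (DA A) k} with hBad
  set Cor : Set ℂ := {z | ∃ a x₀, z ∈ closure (cell (DA A) a x₀) ∧ ¬ Reg (DA A) a z} with hCor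
  set Z : Set ℂ := Bad ∪ ⋃ z ∈ Cor, sphere z 1 with hZdef
  have hZ : volume Z = 0 :=
    measure_union_null h.bad_null ((measure_biUnion_null_iff (countable_corners (DA A))).2
      fun z _ => Measure.addHaar_sphere volume z 1)
  set L : Fin 5 → Set ℂ := fun i => Dens (A i) \ Z with hL
  have hK : ∀ i, K L i = K (DA A) i := fun i => closure_Dens_diff (h.meas i) hZ
  have hO : ∀ i, O L i = O (DA A) i := fun i => by
    unfold O; rw [hK]
  have hcell : ∀ a x₀, cell L a x₀ = cell (DA A) a x₀ := fun a x₀ => by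
    unfold cell; rw [hO]
  have hReg : ∀ a z, Reg L a z ↔ Reg (DA A) a z := fun a z => by
    unfold Reg; rw [hK]
  have hcov : ∀ a b N, Cov (DA A) a b N → Cov L a b N := fun a b N hc y hy x hx hd => by
    rw [hO]; exact hc y hy.1 x hx hd
  have hnull : ∀ a b N, Cov L a b N → volume (N ∩ Xs (A a) univ ∩ Xs (A b) univ) = 0 :=
    fun a b N hc => null_of_cov hZ fun y hy x hx hd => by
      rw [← hO]; exact hc y hy x hx hd
  refine ⟨L, ?_, ?_, ?_, ?_, ?_, ?_⟩
  · intro i x hx
    rw [hO] at hx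
    rw [hK]
    exact subset_closure (h.O_sub_Dens i hx)
  · intro a b N hN hc
    refine hcov _ _ _ (pair_principle h.meas hN ?_)
    rw [inter_right_comm]
    exact hnull _ _ _ hc
  · intro a b N hN hc
    classical
    by_cases hne : (N ∩ Xs (A a) univ ∩ Xs (A b) univ).Nonempty
    · obtain ⟨x, ⟨hxN, hxa⟩, hxb⟩ := hne
      have hxu : x ∈ Xs univ univ := by
        simp [Xs, Dens_univ]
      obtain ⟨k, hk, x', hx', -, hxk⟩ := h.meets_cell MeasurableSet.univ isOpen_univ {a, b} hN hxN
        hxu (by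
          intro j hj
          rcases Finset.mem_insert.1 hj with rfl | hj
          · exact hxa
          · rw [Finset.mem_singleton.1 hj]; exact hxb)
      simp only [Finset.mem_insert, Finset.mem_singleton, not_or] at hk
      exact ⟨k, hk.1, hk.2, x', hx', by rw [hO]; exact hxk⟩
    · refine absurd (hcov _ _ _ (pair_principle h.meas hN ?_)) hc
      rw [not_nonempty_iff_eq_empty.1 hne, measure_empty]
  · intro a b N q hN hc
    refine hcov _ _ _ (pair_principle h.meas hN ?_)
    refine measure_mono_null ?_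
      (measure_union_null (hnull _ _ _ hc) (Measure.addHaar_sphere volume q 1))
    rintro x ⟨⟨h1, h2⟩, h3⟩
    by_cases hq : x ∈ sphere q 1
    · exact Or.inr hq
    · exact Or.inl ⟨⟨⟨h1, hq⟩, h2⟩, h3⟩
  · intro i y hy x hxy ε hε
    by_contra hcon
    refine hy.2 (Or.inl ⟨x, hxy, ε, hε, fun x' h1 h2 k hk => hcon ⟨x', h1, h2, k, ?_⟩⟩)
    rw [hO]; exact hk
  · intro i y hy z hzy a x₀ hz
    rw [hReg]
    rw [hcell] at hz
    by_contra hcon
    refine hy.2 (Or.inr (mem_biUnion (show z ∈ Cor from ⟨a, x₀, hz, hcon⟩) ?_))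
    rw [mem_sphere, dist_comm]
    exact hzy

end Crest.Agent.R40
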