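import Crest.Agent.R40.Basic

/-! Row 40, task Cell: topology of the cells. -/

set_option autoImplicit false
set_option linter.unusedSectionVars false

open Set Metric
open scoped Real

namespace Crest.Agent.R40

variable {L : Fin 5 → Set ℂ}

lemma mem_cc_of_closure {F : Set ℂ} {x z : ℂ} (hz : z ∈ closure (connectedComponentIn F x))
    (hF : z ∈ F) : z ∈ connectedComponentIn F x := by
  have hx : x ∈ F := connectedComponentIn_nonempty_iff.1 (closure_nonempty_iff.1 ⟨z, hz⟩)
  refine (isPreconnected_connectedComponentIn.subset_closure (subset_insert z _)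
    (insert_subset hz subset_closure)).subset_connectedComponentIn
    (mem_insert_of_mem _ (mem_connectedComponentIn hx))
    (insert_subset hF (connectedComponentIn_subset _ _)) (mem_insert _ _)

lemma isOpen_cell (a : Fin 5) (x₀ : ℂ) : IsOpen (cell L a x₀) := by
  exact (isOpen_O a).connectedComponentIn

lemma cell_sub (a : Fin 5) (x₀ : ℂ) : cell L a x₀ ⊆ O L a := by
  exact connectedComponentIn_subset _ _

lemma isPreconnected_cell (a : Fin 5) (x₀ : ℂ) : IsPreconnected (cell L a x₀) := by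
  exact isPreconnected_connectedComponentIn

lemma mem_cell_self {a : Fin 5} {x₀ : ℂ} (h : x₀ ∈ O L a) : x₀ ∈ cell L a x₀ := by
  exact mem_connectedComponentIn h

lemma cell_eq {a : Fin 5} {x₀ x : ℂ} (h : x ∈ cell L a x₀) : cell L a x = cell L a x₀ := by
  exact (connectedComponentIn_eq h).symm

lemma sub_cell {a : Fin 5} {x₀ : ℂ} {S : Set ℂ} (hS : IsPreconnected S) (hSa : S ⊆ O L a)
    (hx : x₀ ∈ S) : S ⊆ cell L a x₀ := by
  exact hS.subset_connectedComponentIn hx hSa

lemma mem_cell_of_closure {a : Fin 5} {x₀ z : ℂ} (hz : z ∈ closure (cell L a x₀))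
    (hO : z ∈ O L a) : z ∈ cell L a x₀ := by
  exact mem_cc_of_closure hz hO

/-- a preconnected set that meets a cell and leaves `O a` contains a boundary point of the cell
(`IsPreconnected.subset_of_closure_inter_subset`) -/
lemma exists_bdry_cell {a : Fin 5} {x₀ : ℂ} {S : Set ℂ} (hS : IsPreconnected S)
    (h₁ : (S ∩ cell L a x₀).Nonempty) (h₂ : ¬ S ⊆ cell L a x₀) :
    ∃ z ∈ S, z ∈ closure (cell L a x₀) ∧ z ∉ O L a := by
  by_contra hn
  refine h₂ (hS.subset_of_closure_inter_subset (isOpen_cell a x₀) h₁ fun z hz => ?_)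
  by_contra hc
  exact hn ⟨z, hz.2, hz.1, fun hO => hc (mem_cell_of_closure hz.1 hO)⟩

/-- `exists_dist_one` and `O_indep` -/
lemma Sys.cell_dist_lt (h : Sys L) {a : Fin 5} {x₀ x y : ℂ} (hx : x ∈ cell L a x₀)
    (hy : y ∈ cell L a x₀) : dist x y < 1 := by
  by_contra hn
  rcases (not_lt.1 hn).eq_or_lt with h1 | h1
  · exact h.O_indep (cell_sub a x₀ hx) (cell_sub a x₀ hy) h1.symm
  · obtain ⟨z, hz, hd⟩ := exists_dist_one (isPreconnected_cell (L := L) a x₀) hy hx (y := y)
      (by simp) h1
    exact h.O_indep (cell_sub a x₀ hz) (cell_sub a x₀ hy) hd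

/-- The complement of a cell `Γ` is connected.  Plan (`x₀ ∈ O a`, otherwise `Γ = ∅`): the exterior
`X = {x | 1 ≤ dist x x₀}` is preconnected (image of `Ici 1 ×ˢ univ` under `(r, t) ↦ x₀ + r * e t`) and
`X ⊆ Γᶜ` by `cell_dist_lt`.  For `w ∉ Γ` let `z` be the first point of `closure Γ` on the segment from `w`
to `x₀` (`z = w` if `w ∈ closure Γ`); `z ∉ Γ` since `Γ` is open, so `z ∉ O a`, there is `y ∈ K a` with
`dist z y = 1`, the circle `sphere y 1` avoids `O a`, is preconnected, and meets `X`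
(one of `y ± 1` is at distance `≥ 1` from `x₀`).  So `segment w z ∪ sphere y 1 ∪ X` is a preconnected
subset of `Γᶜ` containing `w` and a fixed point of `X` (`isPreconnected_of_forall`). -/
theorem Sys.isPreconnected_compl_cell (h : Sys L) (a : Fin 5) (x₀ : ℂ) :
    IsPreconnected (cell L a x₀)ᶜ := by
  by_cases h0 : x₀ ∈ O L a
  swap
  · rw [cell, connectedComponentIn_eq_empty h0, compl_empty]; exact isPreconnected_univ
  have hx := mem_cell_self h0
  have hX : IsPreconnected {x : ℂ | 1 ≤ dist x x₀} := by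
    have : {x : ℂ | 1 ≤ dist x x₀} = (fun p : ℝ × ℝ => x₀ + p.1 * e p.2) '' (Ici 1 ×ˢ univ) := by
      ext x
      refine ⟨fun hx => ⟨(‖x - x₀‖, (x - x₀).arg), ⟨by rwa [mem_ofPred_eq, dist_eq_norm] at hx,
        trivial⟩, ?_⟩, ?_⟩
      · simp only [e]; rw [Complex.norm_mul_exp_arg_mul_I]; ring
      · rintro ⟨p, hp, rfl⟩
        simpa [norm_e] using hp.1.trans (le_abs_self _)
    rw [this]
    exact (isPreconnected_Ici.prod isPreconnected_univ).image _
      (Continuous.continuousOn (by have := continuous_e; fun_prop))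
  have hXc : {x : ℂ | 1 ≤ dist x x₀} ⊆ (cell L a x₀)ᶜ := fun x hx' hc =>
    (h.cell_dist_lt hc hx).not_ge hx'
  have key : ∀ z, z ∉ O L a →
      ∃ t, t ⊆ (cell L a x₀)ᶜ ∧ x₀ + 1 ∈ t ∧ z ∈ t ∧ IsPreconnected t := fun z hz => by
    obtain ⟨y, hy, hd⟩ := exists_K_of_not_O hz
    refine ⟨sphere y 1 ∪ {x | 1 ≤ dist x x₀}, union_subset (fun x hx hc =>
      not_mem_O_of_K hy hx (cell_sub a x₀ hc)) hXc, Or.inr (by simp), Or.inl hd,
      (isPreconnected_sphere (by simp) y 1).union' ?_ hX⟩
    have h1 := dist_triangle_right (y + 1) (y - 1) x₀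
    rw [dist_eq_norm, show y + 1 - (y - 1) = 2 by ring, Complex.norm_two] at h1
    rcases le_total 1 (dist (y + 1) x₀) with h2 | h2
    · exact ⟨y + 1, by simp, h2⟩
    · exact ⟨y - 1, by simp, show 1 ≤ dist (y - 1) x₀ by linarith⟩
  refine isPreconnected_of_forall (x₀ + 1) fun w hw => ?_
  by_cases hw' : w ∈ closure (cell L a x₀)
  · exact key w fun hO => hw (mem_cell_of_closure hw' hO)
  have hD := connectedComponentIn_subset (closure (cell L a x₀))ᶜ w
  obtain ⟨z, hz, hz'⟩ : ∃ z ∈ closure (connectedComponentIn (closure (cell L a x₀))ᶜ w),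
      z ∈ closure (cell L a x₀) := by
    by_contra hn
    refine hD (isPreconnected_univ.subset_of_closure_inter_subset
      isClosed_closure.isOpen_compl.connectedComponentIn ⟨w, trivial, mem_connectedComponentIn hw'⟩
      (fun z hz => mem_cc_of_closure hz.1 fun hc => hn ⟨z, hz.1, hc⟩) (mem_univ x₀))
      (subset_closure hx)
  have hD' := closure_minimal (hD.trans (compl_subset_compl.2 subset_closure))
    (isOpen_cell (L := L) a x₀).isClosed_compl
  obtain ⟨t, h1, h2, h3, h4⟩ := key z fun hO => hD' hz (mem_cell_of_closure hz' hO)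
  exact ⟨_ ∪ t, union_subset hD' h1, Or.inr h2, Or.inl (subset_closure (mem_connectedComponentIn hw')),
    isPreconnected_connectedComponentIn.closure.union' ⟨z, hz, h3⟩ h4⟩

end Crest.Agent.R40
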