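import Crest.Agent.R40.Basic

/-! Row 40, task Transport: the system is invariant under isometries of the plane. -/

set_option autoImplicit false

open Set Metric
open scoped Real

namespace Crest.Agent.R40

variable {L : Fin 5 → Set ℂ}

/-- pull back of the centres along an isometry -/
def comap (φ : ℂ ≃ᵢ ℂ) (L : Fin 5 → Set ℂ) : Fin 5 → Set ℂ := fun i => φ ⁻¹' L i

/-- the rigid motion `z ↦ β + e θ * z` -/
noncomputable def mot (β : ℂ) (θ : ℝ) : ℂ ≃ᵢ ℂ where
  toFun z := β + e θ * z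
  invFun z := e (-θ) * (z - β)
  left_inv z := by
    have : e (-θ) * e θ = 1 := by rw [← e_add]; simp [e_zero]
    simp only [add_sub_cancel_left]
    rw [← mul_assoc, this, one_mul]
  right_inv z := by
    have : e θ * e (-θ) = 1 := by rw [← e_add]; simp [e_zero]
    simp only
    rw [← mul_assoc, this, one_mul, add_sub_cancel]
  isometry_toFun := Isometry.of_dist_eq fun x y => by
    simp only [dist_eq_norm, add_sub_add_left_eq_sub, ← mul_sub, norm_mul, norm_e, one_mul]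

@[simp] lemma mot_apply (β : ℂ) (θ : ℝ) (z : ℂ) : mot β θ z = β + e θ * z := rfl

/-- complex conjugation as an isometry -/
noncomputable def refl : ℂ ≃ᵢ ℂ := Complex.conjLIE.toIsometryEquiv

@[simp] lemma refl_apply (z : ℂ) : refl z = (starRingEnd ℂ) z := rfl

lemma conj_e (t : ℝ) : (starRingEnd ℂ) (e t) = e (-t) := by
  simp only [e, ← Complex.exp_conj, map_mul, Complex.conj_ofReal, Complex.conj_I]
  congr 1
  push_cast
  ring

variable (φ : ℂ ≃ᵢ ℂ)

lemma mem_K_comap {i : Fin 5} {x : ℂ} : x ∈ K (comap φ L) i ↔ φ x ∈ K L i := by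
  have := φ.toHomeomorph.preimage_closure (L i)
  exact (Set.ext_iff.1 this x).symm

lemma mem_O_comap {i : Fin 5} {x : ℂ} : x ∈ O (comap φ L) i ↔ φ x ∈ O L i := by
  refine ⟨fun h y hy hd => ?_, fun h y hy hd => h (φ y) ((mem_K_comap φ).1 hy) (by rwa [φ.dist_eq])⟩
  obtain ⟨y, rfl⟩ := φ.surjective y
  exact h y ((mem_K_comap φ).2 hy) (by rwa [φ.dist_eq] at hd)

lemma cov_comap {a b : Fin 5} {N : Set ℂ} : Cov (comap φ L) a b (φ ⁻¹' N) ↔ Cov L a b N := by
  refine ⟨fun h y hy x hx hd => ?_, fun h y hy x hx hd =>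
    (mem_O_comap φ).2 (h (φ y) hy (φ x) hx (by rwa [φ.dist_eq]))⟩
  obtain ⟨y, rfl⟩ := φ.surjective y
  obtain ⟨x, rfl⟩ := φ.surjective x
  exact (mem_O_comap φ).1 (h y hy x hx (by rwa [φ.dist_eq] at hd))

lemma preimage_image_iso (N : Set ℂ) : φ ⁻¹' (φ '' N) = N :=
  preimage_image_eq N φ.injective

lemma isOpen_image_iso {N : Set ℂ} (hN : IsOpen N) : IsOpen (φ '' N) :=
  φ.toHomeomorph.isOpenMap N hN

lemma cov_comap' {a b : Fin 5} {N : Set ℂ} : Cov (comap φ L) a b N ↔ Cov L a b (φ '' N) := by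
  rw [← cov_comap φ (N := φ '' N), preimage_image_iso]

lemma mem_R_comap {a b : Fin 5} {x : ℂ} : x ∈ R (comap φ L) a b ↔ φ x ∈ R L a b := by
  exact ⟨fun ⟨N, hN, hx, hc⟩ => ⟨φ '' N, isOpen_image_iso φ hN, mem_image_of_mem _ hx,
    (cov_comap' φ).1 hc⟩, fun ⟨N, hN, hx, hc⟩ => ⟨φ ⁻¹' N, hN.preimage φ.continuous, hx,
    (cov_comap φ).2 hc⟩⟩

lemma mem_V_comap {a b : Fin 5} {x : ℂ} : x ∈ V (comap φ L) a b ↔ φ x ∈ V L a b := by
  simp only [V, mem_ofPred_eq, mem_R_comap, mem_O_comap]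

lemma mem_E_comap {x : ℂ} : x ∈ E (comap φ L) ↔ φ x ∈ E L := by
  simp only [E, mem_ofPred_eq, mem_R_comap]

lemma reg_comap {a : Fin 5} {x : ℂ} : Reg (comap φ L) a x ↔ Reg L a (φ x) := by
  refine ⟨fun h w hw w' hw' hd hd' => ?_, fun h w hw w' hw' hd hd' => ?_⟩
  · obtain ⟨w, rfl⟩ := φ.surjective w
    obtain ⟨w', rfl⟩ := φ.surjective w'
    rw [φ.dist_eq] at hd hd' ⊢
    exact (h w ((mem_K_comap φ).2 hw) w' ((mem_K_comap φ).2 hw') hd hd').imp_left (congrArg φ)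
  · have := h (φ w) ((mem_K_comap φ).1 hw) (φ w') ((mem_K_comap φ).1 hw') (by rwa [φ.dist_eq])
      (by rwa [φ.dist_eq])
    rw [φ.dist_eq] at this
    exact this.imp_left fun h => φ.injective h

lemma cell_comap {a : Fin 5} {x₀ : ℂ} : cell (comap φ L) a x₀ = φ ⁻¹' cell L a (φ x₀) := by
  have hO : O (comap φ L) a = φ ⁻¹' O L a := Set.ext fun x => mem_O_comap φ
  by_cases hx : φ x₀ ∈ O L a
  · have := φ.toHomeomorph.image_connectedComponentIn (s := φ ⁻¹' O L a) (x := x₀) hx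
    simp only [IsometryEquiv.coe_toHomeomorph, image_preimage_eq _ φ.surjective] at this
    simp only [cell, hO]
    rw [← this, preimage_image_iso]
  · simp only [cell, hO]
    rw [connectedComponentIn_eq_empty hx, connectedComponentIn_eq_empty (by exact hx), preimage_empty]

lemma mem_closure_cell_comap {a : Fin 5} {x₀ x : ℂ} :
    x ∈ closure (cell (comap φ L) a x₀) ↔ φ x ∈ closure (cell L a (φ x₀)) := by
  rw [cell_comap]
  exact (Set.ext_iff.1 (φ.toHomeomorph.preimage_closure (cell L a (φ x₀))) x).symm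

theorem Sys.comap (h : Sys L) : Sys (comap φ L) := by
  refine ⟨fun i x hx => (mem_K_comap φ).2 (h.O_sub i ((mem_O_comap φ).1 hx)),
    fun a b N hN hc => (cov_comap' φ).2 (h.symm a b _ (isOpen_image_iso φ hN) ((cov_comap' φ).1 hc)),
    fun a b N hN hc => ?_, fun a b N q hN hc => ?_, fun i y hy x hd ε hε => ?_,
    fun i y hy z hd a x₀ hz => (reg_comap φ).2 (h.nocorner i (φ y) hy (φ z) (by rwa [φ.dist_eq]) a
      (φ x₀) ((mem_closure_cell_comap φ).1 hz))⟩
  · obtain ⟨k, h1, h2, _, ⟨x, hx, rfl⟩, hk⟩ := h.c4 a b _ (isOpen_image_iso φ hN)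
      fun h => hc ((cov_comap' φ).2 h)
    exact ⟨k, h1, h2, x, hx, (mem_O_comap φ).2 hk⟩
  · refine (cov_comap' φ).2 (h.c5 a b _ (φ q) (isOpen_image_iso φ hN) ?_)
    rw [cov_comap', image_sdiff φ.injective, φ.image_sphere] at hc
    exact hc
  · obtain ⟨x', h1, h2, k, hk⟩ := h.dense i (φ y) hy (φ x) (by rwa [φ.dist_eq]) ε hε
    obtain ⟨x', rfl⟩ := φ.surjective x'
    rw [φ.dist_eq] at h1 h2
    exact ⟨x', h1, h2, k, (mem_O_comap φ).2 hk⟩

end Crest.Agent.R40
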