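import Crest.Agent.R40.Geo3
import Crest.Agent.R40.Transport

/-! Row 40, task CornerGeo: explicit plane geometry for the corner lemma (no colours). -/

set_option autoImplicit false

open Set Metric
open scoped Real

namespace Crest.Agent.R40

theorem cg_cos' {x : ℝ} (hx : |x| ≤ π / 2) : 1 - 2 / π * |x| ≤ Real.cos x := by
  rw [← Real.cos_abs]
  exact Real.one_sub_mul_le_cos (abs_nonneg x) hx

theorem cg_cos {x : ℝ} (hx : |x| ≤ 23 * π / 48) : 1 / 24 ≤ Real.cos x := by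
  have hpi := Real.pi_pos
  have h1 := cg_cos' (x := x) (by linarith)
  have h2 : 2 / π * |x| ≤ 2 / π * (23 * π / 48) := mul_le_mul_of_nonneg_left hx (by positivity)
  have h3 : 2 / π * (23 * π / 48) = 23 / 24 := by field_simp; norm_num
  linarith

theorem cg_cos2 {x : ℝ} (hx : |x| ≤ 3 * π / 7) : 1 / 7 ≤ Real.cos x := by
  have hpi := Real.pi_pos
  have h1 := cg_cos' (x := x) (by linarith)
  have h2 : 2 / π * |x| ≤ 2 / π * (3 * π / 7) := mul_le_mul_of_nonneg_left hx (by positivity)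
  have h3 : 2 / π * (3 * π / 7) = 6 / 7 := by field_simp; norm_num
  linarith

theorem cg_tan {x : ℝ} (hx : |x| ≤ 3 * π / 7) : |Real.tan x| ≤ 7 := by
  have h1 := cg_cos2 hx
  rw [Real.tan_eq_sin_div_cos, abs_div, abs_of_pos (by linarith : 0 < Real.cos x),
    div_le_iff₀ (by linarith)]
  linarith [Real.abs_sin_le_one x]

theorem cg_eq {x θ : ℝ} (h : 0 < Real.cos θ) :
    Real.cos x + Real.tan θ * Real.sin x = Real.cos (x - θ) / Real.cos θ := by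
  rw [Real.tan_eq_sin_div_cos, Real.cos_sub]
  field_simp

theorem cg_pos {x θ : ℝ} (hθ : |θ| ≤ 3 * π / 7) (hx : |x - θ| ≤ 23 * π / 48) :
    1 / 24 ≤ Real.cos x + Real.tan θ * Real.sin x := by
  have h1 : 0 < Real.cos θ := by linarith [cg_cos2 hθ]
  rw [cg_eq h1, le_div_iff₀ h1]
  linarith [cg_cos hx, Real.cos_le_one θ]

theorem cg_neg {x θ k : ℝ} (hθ : |θ| ≤ 3 * π / 7) (hk : k = π ∨ k = -π)
    (hx : |x - θ + k| ≤ 23 * π / 48) : Real.cos x + Real.tan θ * Real.sin x ≤ -(1 / 24) := by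
  have h1 : 0 < Real.cos θ := by linarith [cg_cos2 hθ]
  have h2 := cg_cos hx
  have h3 : Real.cos (x - θ + k) = - Real.cos (x - θ) := by
    rcases hk with rfl | rfl
    · exact Real.cos_add_pi _
    · rw [← sub_eq_add_neg]; exact Real.cos_sub_pi _
  rw [cg_eq h1, div_le_iff₀ h1]
  linarith [Real.cos_le_one θ]

theorem cg_core {η ς : ℝ} (hη0 : 0 < η) (hη1 : η ≤ 1 / 10000) (hς : ς = 1 ∨ ς = -1) (ν : ℝ) {σ : ℝ}
    (hσ : |σ| ≤ 7) :
    ‖((η + ς : ℝ) : ℂ) * e ν + e (ν + (ς + 1) / 2 * π + -(ς * η * σ))‖ ≤ 9 * η ∧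
      ∀ τ, |ip (((η + ς : ℝ) : ℂ) * e ν + e (ν + (ς + 1) / 2 * π + -(ς * η * σ))) (e τ) -
        η * (Real.cos (τ - ν) + σ * Real.sin (τ - ν))| ≤ 49 * η ^ 2 := by
  set u : ℝ := -(ς * η * σ) with hu
  have hςa : |ς| = 1 := by rcases hς with rfl | rfl <;> simp
  have hu1 : |u| ≤ 7 * η := by
    rw [hu, abs_neg, abs_mul, abs_mul, hςa, one_mul, abs_of_pos hη0, mul_comm]
    exact mul_le_mul_of_nonneg_right hσ hη0.le
  have hn : ‖(u : ℂ) * Complex.I‖ = |u| := by simp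
  have hD : ‖e u - 1 - u * Complex.I‖ ≤ 49 * η ^ 2 := by
    refine (Complex.norm_exp_sub_one_sub_id_le (by rw [hn]; linarith)).trans ?_
    rw [hn]
    nlinarith [abs_nonneg u]
  set D := e u - 1 - u * Complex.I with hDdef
  have e1 : ((η + ς : ℝ) : ℂ) * e ν + e (ν + (ς + 1) / 2 * π + u) =
      e ν * (η + (η * σ : ℝ) * Complex.I) - (ς : ℂ) * e ν * D := by
    rw [hDdef, e_add, e_add, hu]
    rcases hς with rfl | rfl
    · rw [show ((1 : ℝ) + 1) / 2 * π = π by ring, e_pi]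
      push_cast; ring
    · rw [show ((-1 : ℝ) + 1) / 2 * π = 0 by ring, e_zero]
      push_cast; ring
  have hE : ‖(ς : ℂ) * e ν * D‖ ≤ 49 * η ^ 2 := by
    rwa [norm_mul, norm_mul, norm_e, Complex.norm_real, Real.norm_eq_abs, hςa, one_mul, one_mul]
  rw [e1]
  constructor
  · refine (norm_sub_le _ _).trans ?_
    have h2 : ‖e ν * (η + (η * σ : ℝ) * Complex.I)‖ ≤ 8 * η := by
      rw [norm_mul, norm_e, one_mul]
      refine (norm_add_le _ _).trans ?_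
      rw [norm_mul, Complex.norm_I, mul_one, Complex.norm_real, Complex.norm_real,
        Real.norm_eq_abs, Real.norm_eq_abs, abs_mul, abs_of_pos hη0]
      nlinarith
    nlinarith
  · intro τ
    have e2 : ip (e ν * (η + (η * σ : ℝ) * Complex.I) - (ς : ℂ) * e ν * D) (e τ) -
        η * (Real.cos (τ - ν) + σ * Real.sin (τ - ν)) = - ip ((ς : ℂ) * e ν * D) (e τ) := by
      generalize (ς : ℂ) * e ν * D = Z
      simp only [ip, Complex.sub_re, Complex.sub_im, Complex.mul_re, Complex.mul_im,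
        Complex.add_re, Complex.add_im, Complex.ofReal_re, Complex.ofReal_im, Complex.I_re,
        Complex.I_im, e_re, e_im, Real.cos_sub, Real.sin_sub]
      ring
    rw [e2, abs_neg]
    refine (abs_ip_le _ _).trans ?_
    rwa [norm_e, mul_one]

/-- A unit circle with centre `y = (η + ς) e ν` passes `0` at distance `η`, nearest point `η e ν`.
Plan.  Its points are `w = y - ς e (ν + u) = e ν (η + ς (1 - e u))`, i.e. `s = ν + u + π` if `ς = 1`,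
`s = ν + u` if `ς = -1`.  For `u = - ς η σ`, `|σ| ≤ 5`, `η ≤ 1/5`:
`‖w - η e ν (1 + σ I)‖ ≤ 25 η²` (`Complex.norm_exp_sub_one_sub_id_le`).  With `σ = tan θ`,
`e ν (1 + σ I) = e (ν + θ) / cos θ`.  Let `φ = ν + θ` range over `[π/4, 5π/8]` (so
`θ ∈ [-76°, 54°]`, `|tan θ| ≤ 5`; for `σ` between the end values take `θ = arctan σ`),
`μ = sin (π/48) > 1/20`.
(i) `t₁ = 7π/48 + π`: for `τ' = τ - π ∈ [7π/48, 23π/48]`, `cos τ' ≥ μ` and `cos (τ' - φ) ≥ μ`, so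
`ip w (e τ') ≥ η μ - 25 η²`, `‖w‖ ≤ 7 η`, `ip (r - w) (e τ') ≥ r μ - 7 η`; `sep_of_ip`.
(ii) `t₂ = - 11π/48`, `sa ↔ φ = π/4`, `sb ↔ φ = 5π/8`: `cos (τ - π/4) ≥ μ`, `cos (τ - 5π/8) ≤ - μ`. -/
theorem corner_geo_up {r : ℝ} (hr : r ∈ Ioo 0 (1 / 100)) :
    ∃ η₀ > (0 : ℝ), ∀ η ∈ Ioo 0 η₀, ∀ ς : ℝ, (ς = 1 ∨ ς = -1) →
      ∀ ν ∈ Icc (π / 3 - 1 / 100) (2 * π / 3 + 1 / 100),
        ∃ s₁ s₂ t₁ t₂ : ℝ, s₁ < s₂ ∧
          (∀ s ∈ Icc s₁ s₂, ∀ τ ∈ Icc t₁ (t₁ + π / 3),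
            Sep 0 r (((η + ς : ℝ) : ℂ) * e ν + e s) τ) ∧
          ∃ sa ∈ Icc s₁ s₂, ∃ sb ∈ Icc s₁ s₂, ∀ τ ∈ Icc t₂ (t₂ + π / 3),
            Sep (((η + ς : ℝ) : ℂ) * e ν + e sa) (((η + ς : ℝ) : ℂ) * e ν + e sb) 0 τ := by
  refine ⟨r / 1000, by linarith [hr.1], fun η hη ς hς ν hν => ?_⟩
  obtain ⟨hr0, hr1⟩ := hr
  obtain ⟨hη0, hη1⟩ := hη
  obtain ⟨hν0, hν1⟩ := hν
  have hpi := Real.pi_gt_three
  have hpi' := Real.pi_lt_four
  have hθa : |π / 4 - ν| ≤ 3 * π / 7 := abs_le.2 ⟨by linarith, by linarith⟩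
  have hθb : |5 * π / 8 - ν| ≤ 3 * π / 7 := abs_le.2 ⟨by linarith, by linarith⟩
  set σa := Real.tan (π / 4 - ν) with hσa
  set σb := Real.tan (5 * π / 8 - ν) with hσb
  have hab : σa < σb := Real.tan_lt_tan_of_lt_of_lt_pi_div_two (by linarith) (by linarith)
    (by linarith)
  have ha7 := abs_le.1 (cg_tan hθa)
  have hb7 := abs_le.1 (cg_tan hθb)
  obtain ⟨s₁, s₂, h12, hs1, hs2⟩ : ∃ s₁ s₂ : ℝ, s₁ < s₂ ∧
      (∀ s ∈ Icc s₁ s₂, ∃ σ ∈ Icc σa σb, s = ν + (ς + 1) / 2 * π + -(ς * η * σ)) ∧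
      ∀ σ ∈ Icc σa σb, ν + (ς + 1) / 2 * π + -(ς * η * σ) ∈ Icc s₁ s₂ := by
    rcases hς with rfl | rfl
    · refine ⟨ν + π - η * σb, ν + π - η * σa, by nlinarith, fun s hs => ⟨(ν + π - s) / η,
        ⟨?_, ?_⟩, by field_simp; ring⟩, fun σ hσ => ⟨by nlinarith [hσ.2], by nlinarith [hσ.1]⟩⟩
      · rw [le_div_iff₀ hη0]; linarith [hs.2]
      · rw [div_le_iff₀ hη0]; linarith [hs.1]
    · refine ⟨ν + η * σa, ν + η * σb, by nlinarith, fun s hs => ⟨(s - ν) / η,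
        ⟨?_, ?_⟩, by field_simp; ring⟩, fun σ hσ => ⟨by nlinarith [hσ.1], by nlinarith [hσ.2]⟩⟩
      · rw [le_div_iff₀ hη0]; linarith [hs.1]
      · rw [div_le_iff₀ hη0]; linarith [hs.2]
  have hη2 : η ≤ 1 / 10000 := by linarith
  refine ⟨s₁, s₂, 7 * π / 48 + π, -(11 * π / 48), h12, fun s hs τ hτ => ?_,
    _, hs2 σa ⟨le_rfl, hab.le⟩, _, hs2 σb ⟨hab.le, le_rfl⟩, fun τ hτ => ?_⟩
  · obtain ⟨σ, hσ, rfl⟩ := hs1 s hs
    obtain ⟨hw, hip⟩ := cg_core hη0 hη2 hς ν (σ := σ)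
      (abs_le.2 ⟨by linarith [hσ.1], by linarith [hσ.2]⟩)
    set w := ((η + ς : ℝ) : ℂ) * e ν + e (ν + (ς + 1) / 2 * π + -(ς * η * σ)) with hwdef
    obtain ⟨hτ0, hτ1⟩ := hτ
    have g1 := cg_neg (x := τ - ν) hθa (k := -π) (Or.inr rfl)
      (abs_le.2 ⟨by linarith, by linarith⟩)
    have g2 := cg_neg (x := τ - ν) hθb (k := -π) (Or.inr rfl)
      (abs_le.2 ⟨by linarith, by linarith⟩)
    have g : Real.cos (τ - ν) + σ * Real.sin (τ - ν) ≤ -(1 / 24) := by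
      rcases le_total 0 (Real.sin (τ - ν)) with h0 | h0
      · nlinarith [hσ.2]
      · nlinarith [hσ.1]
    have g3 : Real.cos τ ≤ -(1 / 24) := by
      have := cg_cos (x := τ - π) (abs_le.2 ⟨by linarith, by linarith⟩)
      rw [Real.cos_sub_pi] at this
      linarith
    have h1 := abs_le.1 (hip τ)
    have hn := norm_nonneg w
    refine sep_of_ip ?_ ?_
    · have e1 : ip (0 - w) (e τ) = - ip w (e τ) := by
        simp only [ip, zero_sub, Complex.neg_re, Complex.neg_im]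
        ring
      rw [e1, zero_sub, norm_neg]
      nlinarith
    · have e1 : ip ((r : ℂ) - w) (e τ) = r * Real.cos τ - ip w (e τ) := by
        simp only [ip, Complex.sub_re, Complex.sub_im, Complex.ofReal_re, Complex.ofReal_im, e_re]
        ring
      have h2 : ‖(r : ℂ) - w‖ ≤ r + 9 * η := by
        refine (norm_sub_le _ _).trans ?_
        rw [Complex.norm_real, Real.norm_of_nonneg hr0.le]
        linarith
      have h3 := abs_le.1 (abs_ip_le w (e τ))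
      rw [norm_e, mul_one] at h3
      have h4 : ‖(r : ℂ) - w‖ ^ 2 ≤ (2 * r) ^ 2 :=
        pow_le_pow_left₀ (norm_nonneg _) (by linarith) 2
      rw [e1]
      nlinarith
  · obtain ⟨hw, hip⟩ := cg_core hη0 hη2 hς ν (σ := σa) (abs_le.2 ha7)
    obtain ⟨hw', hip'⟩ := cg_core hη0 hη2 hς ν (σ := σb) (abs_le.2 hb7)
    obtain ⟨hτ0, hτ1⟩ := hτ
    have g1 := cg_pos (x := τ - ν) hθa (abs_le.2 ⟨by linarith, by linarith⟩)
    have g2 := cg_neg (x := τ - ν) hθb (k := π) (Or.inl rfl)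
      (abs_le.2 ⟨by linarith, by linarith⟩)
    have h1 := abs_le.1 (hip τ)
    have h2 := abs_le.1 (hip' τ)
    have h3 := pow_le_pow_left₀ (norm_nonneg _) hw 2
    have h4 := pow_le_pow_left₀ (norm_nonneg _) hw' 2
    have h5 := mul_le_mul_of_nonneg_left g1 hη0.le
    have h6 := mul_le_mul_of_nonneg_left g2 hη0.le
    have h7 : η ^ 2 ≤ η / 10000 := by nlinarith
    generalize ((η + ς : ℝ) : ℂ) * e ν + e (ν + (ς + 1) / 2 * π + -(ς * η * σa)) = wa at h1 h3 ⊢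
    generalize ((η + ς : ℝ) : ℂ) * e ν + e (ν + (ς + 1) / 2 * π + -(ς * η * σb)) = wb at h2 h4 ⊢
    refine sep_of_ip ?_ ?_
    · rw [sub_zero]; linarith only [h1.1, h3, h5, h7, hη0]
    · rw [sub_zero]; linarith only [h2.2, h4, h6, h7, hη0]

theorem cg_sep_conj {x₀ x₁ m : ℂ} {τ : ℝ}
    (h : Sep ((starRingEnd ℂ) x₀) ((starRingEnd ℂ) x₁) ((starRingEnd ℂ) m) (-τ)) :
    Sep x₀ x₁ m τ := by
  unfold Sep at h ⊢
  rwa [← conj_e, ← map_add, ← map_sub, Complex.dist_conj_conj, Complex.dist_conj_conj,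
    Complex.dist_conj_conj, Complex.dist_conj_conj] at h

/-- the conclusion of `corner_geo`. -/
def CgQ (r : ℝ) (y : ℂ) : Prop :=
  ∃ s₁ s₂ t₁ t₂ : ℝ, s₁ < s₂ ∧
    (∀ s ∈ Icc s₁ s₂, ∀ τ ∈ Icc t₁ (t₁ + π / 3), Sep 0 r (y + e s) τ) ∧
    ∃ sa ∈ Icc s₁ s₂, ∃ sb ∈ Icc s₁ s₂, ∀ τ ∈ Icc t₂ (t₂ + π / 3),
      Sep (y + e sa) (y + e sb) 0 τ

theorem cgQ_conj {r : ℝ} {y : ℂ} (h : CgQ r ((starRingEnd ℂ) y)) : CgQ r y := by
  obtain ⟨s₁, s₂, t₁, t₂, h12, h1, sa, hsa, sb, hsb, h2⟩ := h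
  refine ⟨-s₂, -s₁, -(t₁ + π / 3), -(t₂ + π / 3), by linarith, fun s hs τ hτ => cg_sep_conj ?_,
    -sa, ⟨by linarith [hsa.2], by linarith [hsa.1]⟩, -sb,
    ⟨by linarith [hsb.2], by linarith [hsb.1]⟩, fun τ hτ => cg_sep_conj ?_⟩
  · rw [map_zero, Complex.conj_ofReal, map_add, conj_e]
    exact h1 _ ⟨by linarith [hs.2], by linarith [hs.1]⟩ _ ⟨by linarith [hτ.2], by linarith [hτ.1]⟩
  · rw [map_zero, map_add, map_add, conj_e, conj_e, neg_neg, neg_neg]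
    exact h2 _ ⟨by linarith [hτ.2], by linarith [hτ.1]⟩

/-- Plan: `η = |‖y‖ - 1| < δ`, `ς = 1` if `‖y‖ > 1`, `ς = -1` otherwise, `y = (η + ς) u` with
`u = ς y / ‖y‖` within `2 δ` of `e t` or of `- e t = conj (e (π - t))`.  In the first case
`arc_param` and `corner_geo_up`; in the second apply it to `conj y` and conjugate back
(`conj_e`: `s ↦ -s`, `τ ↦ -τ`; `Sep` is invariant under conjugation). -/
theorem corner_geo {r : ℝ} (hr : r ∈ Ioo 0 (1 / 100)) :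
    ∃ δ > (0 : ℝ), ∀ t ∈ Icc (π / 3) (π / 3 + π / 3), ∀ y : ℂ,
      (dist y (e t) < δ ∨ dist y (- e t) < δ) → ‖y‖ ≠ 1 →
        ∃ s₁ s₂ t₁ t₂ : ℝ, s₁ < s₂ ∧
          (∀ s ∈ Icc s₁ s₂, ∀ τ ∈ Icc t₁ (t₁ + π / 3), Sep 0 r (y + e s) τ) ∧
          ∃ sa ∈ Icc s₁ s₂, ∃ sb ∈ Icc s₁ s₂, ∀ τ ∈ Icc t₂ (t₂ + π / 3),
            Sep (y + e sa) (y + e sb) 0 τ := by
  obtain ⟨η₀, hη₀, hup⟩ := corner_geo_up hr
  refine ⟨min η₀ (1 / 400), lt_min hη₀ (by norm_num), fun t ht y hy hy1 => ?_⟩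
  set δ := min η₀ (1 / 400) with hδ
  have hδ1 : δ ≤ η₀ := min_le_left _ _
  have hδ2 : δ ≤ 1 / 400 := min_le_right _ _
  have hη : |‖y‖ - 1| < δ := by
    rcases hy with hy | hy
    · have := abs_norm_sub_norm_le y (e t)
      rw [norm_e, ← dist_eq_norm] at this
      linarith
    · have := abs_norm_sub_norm_le y (- e t)
      rw [norm_neg, norm_e, ← dist_eq_norm] at this
      linarith
  have hη' := abs_lt.1 hη
  have hy0 : 0 < ‖y‖ := by linarith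
  have hyc : ((‖y‖ : ℝ) : ℂ) ≠ 0 := by exact_mod_cast hy0.ne'
  set v : ℂ := y / (‖y‖ : ℝ) with hv
  have hv1 : ‖v‖ = 1 := by
    rw [hv, norm_div, Complex.norm_real, Real.norm_of_nonneg hy0.le, div_self hy0.ne']
  have hyv : y = ((‖y‖ : ℝ) : ℂ) * v := by rw [hv]; field_simp
  have hd : dist v y < δ := by
    have : v - y = ((1 - ‖y‖ : ℝ) : ℂ) * v := by
      conv_lhs => rw [hyv]
      rw [← hyv]
      push_cast
      rw [sub_mul, ← hyv, one_mul]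
    rw [dist_eq_norm, this, norm_mul, hv1, mul_one, Complex.norm_real, Real.norm_eq_abs,
      abs_sub_comm]
    exact hη
  have hvp : ‖v - e t‖ < 2 * δ ∨ ‖v - - e t‖ < 2 * δ := by
    rcases hy with hy | hy
    · left; rw [← dist_eq_norm]; linarith [dist_triangle v y (e t)]
    · right; rw [← dist_eq_norm]; linarith [dist_triangle v y (- e t)]
  obtain ⟨η, ς, u, hη1, hς, hu1, hyu, hup'⟩ : ∃ (η ς : ℝ) (u : ℂ), η ∈ Ioo 0 η₀ ∧
      (ς = 1 ∨ ς = -1) ∧ ‖u‖ = 1 ∧ y = ((η + ς : ℝ) : ℂ) * u ∧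
      (‖u - e t‖ < 2 * δ ∨ ‖u - - e t‖ < 2 * δ) := by
    rcases lt_or_gt_of_ne hy1 with h1 | h1
    · refine ⟨1 - ‖y‖, -1, -v, ⟨by linarith, by linarith⟩, Or.inr rfl, by rwa [norm_neg], ?_, ?_⟩
      · conv_lhs => rw [hyv]
        push_cast; ring
      · rcases hvp with h2 | h2
        · right; rwa [neg_sub_neg, norm_sub_rev]
        · left; rwa [← norm_neg, neg_sub, sub_neg_eq_add, add_comm, ← sub_neg_eq_add]
    · refine ⟨‖y‖ - 1, 1, v, ⟨by linarith, by linarith⟩, Or.inl rfl, hv1, ?_, hvp⟩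
      conv_lhs => rw [hyv]
      push_cast; ring
  have key : ∀ t' ∈ Icc (π / 3) (π / 3 + π / 3), ∀ u' : ℂ, ‖u'‖ = 1 → ‖u' - e t'‖ < 2 * δ →
      CgQ r (((η + ς : ℝ) : ℂ) * u') := by
    intro t' ht' u' h1 h2
    obtain ⟨ν, rfl, hν⟩ := arc_param h1 t' _ h2
    have := abs_lt.1 hν
    exact hup η hη1 ς hς ν ⟨by linarith [ht'.1], by linarith [ht'.2]⟩
  rcases hup' with h2 | h2
  · rw [hyu]; exact key t ht u hu1 h2
  · refine cgQ_conj (y := y) ?_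
    rw [hyu, map_mul, Complex.conj_ofReal]
    refine key (-t + π) ⟨by linarith [ht.2], by linarith [ht.1]⟩ _
      (by rwa [Complex.norm_conj]) ?_
    rwa [e_add_pi, ← conj_e, ← map_neg, ← map_sub, Complex.norm_conj]

end Crest.Agent.R40
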