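import Crest.Agent.R40.SB
import Crest.Agent.R40.CornerGeo

/-! Row 40, task Corner: no boundary point of a cell is in `E`. -/

set_option autoImplicit false

open Set Metric
open scoped Real

namespace Crest.Agent.R40

variable {L : Fin 5 → Set ℂ}

/-- Plan: suppose `0 ∈ E`.  (1) `e t ∈ K c` or `- e t ∈ K c` for some `t ∈ Icc (π/3) (π/3 + π/3)`:
otherwise `tube_pm`, `claimF`, `F2`.  (2) `y ∈ L c` within `δ` (`corner_geo`) of that point;
`‖y‖ ≠ 1` by `nocorner` and `SB`.  (3) `exit_or_mono_arc` on `Icc s₁ s₂`.  Exit point `z'`: `SB`,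
`exit_type`, `sep_nhds` (move `0` into the cell, `z'` into `V a k`), `not_K_of_sep` with the cell, `F2`
for the colour `c`.  Arc in `O a`: `sep_nhds`, `claimF` for the colour `a`, `not_K_of_sep` with the
arc, `F2` for the colour `a`. -/
theorem Sys.corner0 (h : Sys L) {c : Fin 5} {r : ℝ} (hr : r ∈ Ioo 0 (1 / 100))
    (hrc : (r : ℂ) ∈ O L c) (h0 : (0 : ℂ) ∈ closure (cell L c r)) : (0 : ℂ) ∉ E L := by
  intro hE
  obtain ⟨δ, hδ, hgeo⟩ := corner_geo hr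
  have hle : π / 3 ≤ π / 3 + π / 3 := by linarith [Real.pi_pos]
  obtain ⟨t, ht, hK⟩ : ∃ t ∈ Icc (π / 3) (π / 3 + π / 3), e t ∈ K L c ∨ - e t ∈ K L c := by
    by_contra hne
    push Not at hne
    obtain ⟨η, hη, htube⟩ := tube_pm (isClosed_K (L := L) c).isOpen_compl 0 hle
      (fun t ht => by rw [zero_add, zero_sub]; exact hne t ht)
    obtain ⟨a, b, hab, hac, hbc, m, hm, hd⟩ := h.claimF hE c hη
    exact h.F2 hab hac.symm hbc.symm hm (t₀ := π / 3) fun t ht =>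
      htube t ⟨by linarith [ht.1], by linarith [ht.2]⟩ m hd
  obtain ⟨y, hy, hyd⟩ : ∃ y ∈ L c, dist y (e t) < δ ∨ dist y (- e t) < δ := by
    rcases hK with hK | hK
    · obtain ⟨y, hy, hd⟩ := Metric.mem_closure_iff.1 hK δ hδ
      exact ⟨y, hy, Or.inl (by rwa [dist_comm])⟩
    · obtain ⟨y, hy, hd⟩ := Metric.mem_closure_iff.1 hK δ hδ
      exact ⟨y, hy, Or.inr (by rwa [dist_comm])⟩
  have hy1 : ‖y‖ ≠ 1 := fun h1 =>
    h.SB (h.nocorner c y hy 0 (by rwa [dist_zero_left]) c r h0) hE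
  obtain ⟨s₁, s₂, t₁, t₂, hs, hsep, sa, hsa, sb, hsb, hsep'⟩ := hgeo t ht y hyd hy1
  rcases h.exit_or_mono_arc hy hs with ⟨a, -, harc⟩ | ⟨s, hs', a, hex⟩
  · obtain ⟨δ', hδ', hn⟩ := sep_nhds hsep'
    obtain ⟨i, j, hij, hia, hja, m, hm, hd⟩ := h.claimF hE a hδ'
    refine h.F2 hij hia.symm hja.symm hm (t₀ := t₂) fun τ hτ => ?_
    exact not_K_of_sep (S := (fun s => y + e s) '' Icc s₁ s₂)
      (isPreconnected_Icc.image _ (continuous_const.add continuous_e).continuousOn)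
      (by rintro _ ⟨s, hs, rfl⟩; exact harc s hs) ⟨sa, hsa, rfl⟩ ⟨sb, hsb, rfl⟩
      (hn _ m (by rwa [dist_self]) hd τ hτ)
  · obtain ⟨k, hka, hkc, hV⟩ := h.exit_type hex (h.SB hex.2.2.2.2)
    obtain ⟨δ', hδ', hn⟩ := sep_nhds (hsep s hs')
    obtain ⟨x₀, hx₀, hd₀⟩ := Metric.mem_closure_iff.1 h0 δ' hδ'
    obtain ⟨m, hm, hd⟩ := Metric.mem_closure_iff.1 hV δ' hδ'
    refine h.F2 hka.symm hex.1.symm hkc.symm hm (t₀ := t₁) fun τ hτ => ?_
    exact not_K_of_sep (isPreconnected_cell c r) (cell_sub c r) hx₀ (mem_cell_self hrc)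
      (hn x₀ m (by rwa [dist_comm]) (by rwa [dist_comm]) τ hτ)

/-- `v ∈ E` is in no `O`, so there is `x₁` in the cell with `0 < dist x₁ v < 1/100`;
`x₁ = v + e θ * r`; transport along `mot v θ` (`cell_eq`, `mem_closure_cell_comap`, `mem_E_comap`). -/
theorem Sys.corner (h : Sys L) {c : Fin 5} {x₀ v : ℂ} (hv : v ∈ closure (cell L c x₀)) :
    v ∉ E L := by
  intro hE
  obtain ⟨x₁, hx₁, hd⟩ := Metric.mem_closure_iff.1 hv (1 / 100) (by norm_num)
  have hne : x₁ - v ≠ 0 := by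
    intro h0
    rw [sub_eq_zero] at h0
    exact h.not_E_of_O (cell_sub c x₀ hx₁) (h0 ▸ hE)
  have e1 : mot v (Complex.arg (x₁ - v)) ((‖x₁ - v‖ : ℝ) : ℂ) = x₁ := by
    rw [mot_apply, mul_comm, e, Complex.norm_mul_exp_arg_mul_I]
    ring
  have e0 : mot v (Complex.arg (x₁ - v)) 0 = v := by rw [mot_apply, mul_zero, add_zero]
  refine (h.comap (mot v (Complex.arg (x₁ - v)))).corner0 (c := c) (r := ‖x₁ - v‖)
    ⟨norm_pos_iff.2 hne, by rwa [← dist_eq_norm, dist_comm]⟩ ?_ ?_ ?_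
  · rw [mem_O_comap, e1]; exact cell_sub c x₀ hx₁
  · rw [mem_closure_cell_comap, e0, e1, cell_eq hx₁]; exact hv
  · rw [mem_E_comap, e0]; exact hE

end Crest.Agent.R40
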