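import Mathlib

/-! Row 40 (chromatic number of the plane is at least 6): common definitions. -/

set_option autoImplicit false

open MeasureTheory

namespace Crest.Agent.R40

/-- the unit vector with argument `t` -/
noncomputable def e (t : ℝ) : ℂ := Complex.exp (t * Complex.I)

/-- `A` is essentially independent: almost no unit pair has both ends in `A`. -/
def Indep (A : Set ℂ) : Prop :=
  (volume : Measure (ℂ × ℝ)) {p : ℂ × ℝ | p.1 ∈ A ∧ p.1 + e p.2 ∈ A} = 0

/-- A measurable 5-colouring of the plane, proper up to null sets. -/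
structure MeasCol (A : Fin 5 → Set ℂ) : Prop where
  meas : ∀ i, MeasurableSet (A i)
  cover : ∀ᵐ x : ℂ, ∃ i, x ∈ A i
  indep : ∀ i, Indep (A i)

lemma norm_e (t : ℝ) : ‖e t‖ = 1 := by
  simp [e, Complex.norm_exp_ofReal_mul_I]

lemma e_add (s t : ℝ) : e (s + t) = e s * e t := by
  simp [e, add_mul, Complex.exp_add]

lemma e_zero : e 0 = 1 := by simp [e]

lemma e_pi : e Real.pi = -1 := by simp [e, Complex.exp_pi_mul_I]

lemma e_add_pi (t : ℝ) : e (t + Real.pi) = - e t := by rw [e_add, e_pi]; ring

lemma e_two_pi : e (2 * Real.pi) = 1 := by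
  rw [two_mul, e_add, e_pi]; ring

lemma e_add_two_pi (t : ℝ) : e (t + 2 * Real.pi) = e t := by rw [e_add, e_two_pi, mul_one]

lemma e_re (t : ℝ) : (e t).re = Real.cos t := by
  simp [e, Complex.exp_ofReal_mul_I_re]

lemma e_im (t : ℝ) : (e t).im = Real.sin t := by
  simp [e, Complex.exp_ofReal_mul_I_im]

lemma continuous_e : Continuous e := by
  unfold e; fun_prop

lemma exists_e_of_norm_one {u : ℂ} (h : ‖u‖ = 1) : ∃ t : ℝ, u = e t := by
  refine ⟨Complex.arg u, ?_⟩
  have := Complex.norm_mul_exp_arg_mul_I u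
  rw [h] at this
  simpa [e] using this.symm

end Crest.Agent.R40
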