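import Crest.Agent.R40.MDefs

/-! Row 40, task Dens: Lebesgue density points in the plane.
Tools: `Besicovitch.ae_tendsto_measure_inter_div_of_measurableSet` (closed balls; apply it to `Aᶜ`),
`Complex.volume_ball`, `Complex.volume_closedBall`. -/

set_option autoImplicit false

open Set Metric MeasureTheory
open scoped Real

namespace Crest.Agent.R40

/-- Plan: it suffices to test `ε = 1/(n+1)`, `δ = 1/(m+1)` and rational `r` (for real `r` take a
rational `r' ∈ (r, min δ (2r))`, `ball x r ⊆ ball x r'`, lose a factor `4`);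
`x ↦ volume (ball x r \ A)` is measurable (`measurable_measure_prodMk_left` for
`{p : ℂ × ℂ | dist p.2 p.1 < r ∧ p.2 ∉ A}`). -/
theorem measurableSet_Dens {A : Set ℂ} (hA : MeasurableSet A) : MeasurableSet (Dens A) := by
  have hm : ∀ r : ℝ, Measurable fun x : ℂ => volume (ball x r \ A) := fun r =>
    measurable_measure_prodMk_left (s := {p : ℂ × ℂ | dist p.2 p.1 < r} ∩ Prod.snd ⁻¹' Aᶜ)
      ((measurableSet_lt (by fun_prop) measurable_const).inter (measurable_snd hA.compl))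
  have : Dens A = ⋂ n : ℕ, ⋃ m : ℕ, ⋂ q : ℚ, ⋂ (_ : (0 : ℝ) < q ∧ (q : ℝ) < 1 / (m + 1)),
      {x | volume (ball x q \ A) ≤ ENNReal.ofReal (1 / (n + 1) * (q : ℝ) ^ 2)} := by
    ext x
    simp only [mem_iInter, mem_iUnion, mem_ofPred_eq]
    refine ⟨fun h n => ?_, fun h ε hε => ?_⟩
    · obtain ⟨δ, hδ, h⟩ := h _ Nat.one_div_pos_of_nat
      obtain ⟨m, hm⟩ := exists_nat_one_div_lt hδ
      exact ⟨m, fun q hq => h q hq.1 (hq.2.trans hm)⟩
    · obtain ⟨n, hn⟩ := exists_nat_one_div_lt (show 0 < ε / 4 by positivity)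
      obtain ⟨m, hm⟩ := h n
      refine ⟨_, Nat.one_div_pos_of_nat (n := m), fun r hr hr' => ?_⟩
      obtain ⟨q, h1, h2⟩ := exists_rat_btwn (lt_min hr' (show r < 2 * r by linarith))
      rw [lt_min_iff] at h2
      refine (measure_mono (sdiff_subset_sdiff_left (ball_subset_ball h1.le))).trans
        ((hm q ⟨hr.trans h1, h2.1⟩).trans (ENNReal.ofReal_le_ofReal ?_))
      calc _ ≤ ε / 4 * (2 * r) ^ 2 := by gcongr; exacts [(hr.trans h1).le, h2.2.le]
        _ = _ := by ring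
  rw [this]
  exact .iInter fun n => .iUnion fun m => .iInter fun q => .iInter fun _ =>
    measurableSet_le (hm q) measurable_const

theorem vol_ball (x : ℂ) {r : ℝ} (hr : 0 ≤ r) : volume (ball x r) = ENNReal.ofReal (π * r ^ 2) := by
  rw [Complex.volume_ball, mul_comm, ENNReal.ofReal_mul Real.pi_pos.le, ENNReal.ofReal_pow hr,
    ← NNReal.coe_real_pi, ENNReal.ofReal_coe_nnreal]

theorem Dens_mono_ae {A B : Set ℂ} (h : volume (A \ B) = 0) : Dens A ⊆ Dens B := by
  intro x hx ε hε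
  obtain ⟨δ, hδ, hx⟩ := hx ε hε
  refine ⟨δ, hδ, fun r h0 h1 => le_trans ?_ (hx r h0 h1)⟩
  calc _ ≤ volume ((ball x r \ A) ∪ (A \ B)) := measure_mono fun y hy => by
        by_cases hA : y ∈ A
        exacts [Or.inr ⟨hA, hy.2⟩, Or.inl ⟨hy.1, hA⟩]
    _ ≤ _ := (measure_union_le _ _).trans (by rw [h, add_zero])

theorem Dens_mono {A B : Set ℂ} (h : A ⊆ B) : Dens A ⊆ Dens B := by
  exact Dens_mono_ae (by rw [sdiff_eq_empty.2 h, measure_empty])

theorem Dens_univ : Dens univ = univ := by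
  exact eq_univ_of_forall fun x ε _ => ⟨1, one_pos, fun r _ _ => by simp⟩

theorem Dens_inter {A B : Set ℂ} {x : ℂ} (hA : x ∈ Dens A) (hB : x ∈ Dens B) :
    x ∈ Dens (A ∩ B) := by
  intro ε hε
  obtain ⟨δ, hδ, hA⟩ := hA _ (half_pos hε)
  obtain ⟨δ', hδ', hB⟩ := hB _ (half_pos hε)
  refine ⟨_, lt_min hδ hδ', fun r h0 h1 => ?_⟩
  rw [sdiff_inter]
  refine (measure_union_le _ _).trans ((add_le_add (hA r h0 (h1.trans_le (min_le_left _ _)))
    (hB r h0 (h1.trans_le (min_le_right _ _)))).trans ?_)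
  rw [← ENNReal.ofReal_add (by positivity) (by positivity), ← add_mul, add_halves]

theorem Dens_biInter {ι : Type*} (J : Finset ι) {B : ι → Set ℂ} {x : ℂ}
    (h : ∀ j ∈ J, x ∈ Dens (B j)) : x ∈ Dens (⋂ j ∈ J, B j) := by
  induction J using Finset.cons_induction with
  | empty => simp [Dens_univ]
  | cons a s ha ih =>
    classical
    rw [Finset.cons_eq_insert, Finset.set_biInter_insert]
    exact Dens_inter (h a (Finset.mem_cons_self _ _)) (ih fun j hj => h j (Finset.mem_cons_of_mem hj))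

/-- `volume (ball x r) ≤ volume (A ∩ ball x r) + volume (ball x r \ A)`, for small radii -/
theorem Dens_pos {A : Set ℂ} {x : ℂ} (hx : x ∈ Dens A) {r : ℝ} (hr : 0 < r) :
    volume (A ∩ ball x r) ≠ 0 := by
  intro h
  obtain ⟨δ, hδ, hx⟩ := hx 1 one_pos
  have h0 := lt_min hr (half_pos hδ)
  have h1 := hx _ h0 ((min_le_right _ _).trans_lt (half_lt_self hδ))
  rw [measure_sdiff_null' (measure_mono_null (by
    rw [inter_comm]; exact inter_subset_inter_right _ (ball_subset_ball (min_le_left _ _))) h),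
    vol_ball _ h0.le, ENNReal.ofReal_le_ofReal_iff (by positivity)] at h1
  nlinarith [Real.pi_gt_three, sq_pos_of_pos h0]

theorem mem_Dens_of_open {A N : Set ℂ} (hN : IsOpen N) {x : ℂ} (hx : x ∈ N)
    (h : volume (N \ A) = 0) : x ∈ Dens A := by
  obtain ⟨δ, hδ, hb⟩ := Metric.isOpen_iff.1 hN x hx
  refine fun ε _ => ⟨δ, hδ, fun r _ h1 => ?_⟩
  rw [measure_mono_null (sdiff_subset_sdiff_left ((ball_subset_ball h1.le).trans hb)) h]
  exact zero_le

theorem Dens_sub_closure (A : Set ℂ) : Dens A ⊆ closure A := by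
  intro x hx
  refine Metric.mem_closure_iff.2 fun ε hε => ?_
  obtain ⟨y, hy⟩ := nonempty_of_measure_ne_zero (Dens_pos hx hε)
  exact ⟨y, hy.1, mem_ball'.1 hy.2⟩

/-- Lebesgue's density theorem -/
theorem volume_diff_Dens {A : Set ℂ} (hA : MeasurableSet A) : volume (A \ Dens A) = 0 := by
  refine measure_mono_null (fun x hx => ?_)
    (ae_iff.1 (Besicovitch.ae_tendsto_measure_inter_div_of_measurableSet volume hA.compl))
  refine fun h => hx.2 fun ε hε => ?_
  rw [indicator_of_notMem (not_not.2 hx.1)] at h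
  obtain ⟨δ, hδ, h⟩ := (nhdsGT_basis 0).eventually_iff.1
    (h.eventually (ge_mem_nhds (ENNReal.ofReal_pos.2 (show 0 < ε / π by positivity))))
  refine ⟨δ, hδ, fun r h0 h1 => ?_⟩
  have h2 := (ENNReal.div_le_iff (measure_closedBall_pos _ _ h0).ne'
    measure_closedBall_lt_top.ne).1 (h ⟨h0, h1⟩)
  rw [Measure.addHaar_closedBall_eq_addHaar_ball, vol_ball _ h0.le,
    ← ENNReal.ofReal_mul (by positivity)] at h2
  refine (measure_mono fun y hy => mem_inter hy.2 (ball_subset_closedBall hy.1)).trans (h2.trans_eq ?_)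
  congr 1
  field_simp

/-- a.e. point of `Aᶜ` is in `Dens Aᶜ`, and `Dens A ∩ Dens Aᶜ = ∅` by `Dens_inter`, `Dens_pos` -/
theorem volume_Dens_diff {A : Set ℂ} (hA : MeasurableSet A) : volume (Dens A \ A) = 0 := by
  refine measure_mono_null (fun x hx => And.intro hx.2 fun h => ?_) (volume_diff_Dens hA.compl)
  simpa using Dens_pos (Dens_inter (B := Aᶜ) hx.1 h) one_pos

/-- a density point is approached by (generic) density points in every direction:
`ball (x + ρ u) (κ ρ) ⊆ ball x ((1 + κ) ρ)` has area `π κ² ρ²`. -/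
theorem Dens_cone {A Z : Set ℂ} (hA : MeasurableSet A) (hZ : volume Z = 0) {x : ℂ}
    (hx : x ∈ Dens A) {u : ℂ} (hu : ‖u‖ = 1) {κ r : ℝ} (hκ : 0 < κ) (hr : 0 < r) :
    ∃ ρ : ℝ, 0 < ρ ∧ ρ < r ∧ ∃ x' ∈ Dens A \ Z, dist x' (x + ρ * u) < κ * ρ := by
  obtain ⟨δ, hδ, hx⟩ := hx (κ ^ 2 / (1 + κ) ^ 2) (by positivity)
  obtain ⟨ρ, h0, h1⟩ := exists_between (lt_min hr (show 0 < δ / (1 + κ) by positivity))
  rw [lt_min_iff, lt_div_iff₀ (by positivity)] at h1
  refine ⟨ρ, h0, h1.1, by_contra fun hc => ?_⟩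
  have h2 := hx _ (by positivity) h1.2
  have h3 : volume (ball (x + ρ * u) (κ * ρ)) ≤ volume (ball x (ρ * (1 + κ)) \ A ∪ (A \ Dens A ∪ Z)) :=
    measure_mono fun y hy => by
      by_contra hy'
      simp only [mem_union, mem_sdiff, not_or, not_and, not_not] at hy'
      refine hc ⟨y, ⟨hy'.2.1 (hy'.1 (ball_subset_ball' ?_ hy)), hy'.2.2⟩, hy⟩
      rw [dist_self_add_left, norm_mul, hu, Complex.norm_real, Real.norm_of_nonneg h0.le]
      linarith
  have h4 := h3.trans ((measure_union_le _ _).trans (add_le_add h2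
    (measure_union_null (volume_diff_Dens hA) hZ).le))
  rw [add_zero, vol_ball _ (by positivity), ENNReal.ofReal_le_ofReal_iff (by positivity),
    show κ ^ 2 / (1 + κ) ^ 2 * (ρ * (1 + κ)) ^ 2 = (κ * ρ) ^ 2 by field_simp] at h4
  nlinarith [Real.pi_gt_three, sq_pos_of_pos (mul_pos hκ h0)]

theorem closure_Dens_diff {A Z : Set ℂ} (hA : MeasurableSet A) (hZ : volume Z = 0) :
    closure (Dens A \ Z) = closure (Dens A) := by
  refine (closure_mono sdiff_subset).antisymm (closure_minimal (fun x hx => ?_) isClosed_closure)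
  refine Metric.mem_closure_iff.2 fun ε hε => ?_
  obtain ⟨ρ, h0, h1, y, hy, h2⟩ := Dens_cone hA hZ hx norm_one one_pos (half_pos hε)
  refine ⟨y, hy, (dist_triangle_right _ _ (x + ρ * 1)).trans_lt ?_⟩
  rw [dist_self_add_right, mul_one, Complex.norm_real, Real.norm_of_nonneg h0.le]
  rw [mul_one] at h2
  linarith

end Crest.Agent.R40
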