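import Crest.Agent.R40.F1

/-! Row 40, task Detour: the exceptional points seen from a point of `V a b`. -/

set_option autoImplicit false

open Set Metric
open scoped Real

namespace Crest.Agent.R40

variable {L : Fin 5 → Set ℂ}

/-- `cross_tangent` (with `w' = w`) and `cross_R` (`y' ≠ w` as `y'` is close to `y`) -/
theorem Sys.detour0 (h : Sys L) {a b : Fin 5} {m y w : ℂ} (hm : m ∈ R L a b) (hw : w ∈ K L b)
    (hmy : dist m y = 1) (hmw : dist m w = 1) (hyw : dist y w = 2) :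
    ∃ r > (0 : ℝ), ∀ y', dist y' y < r → dist y' w < 2 → y' ∉ K L a := by
  obtain ⟨ε, hε, hb⟩ := Metric.isOpen_iff.1 (isOpen_R a b) m hm
  obtain ⟨δ, hδ, hc⟩ := cross_tangent hmy hmw hyw hε
  refine ⟨min δ 1, lt_min hδ one_pos, fun y' h1 h2 hK => ?_⟩
  rw [lt_min_iff] at h1
  obtain ⟨x, h3, h4, h5⟩ := hc y' w h1.1 (by rwa [dist_self]) h2.le
  rcases h.cross_R (hb h3) hK hw h4 h5 with rfl | h6
  · rw [dist_comm] at hyw; linarith [h1.2]
  · exact h2.ne h6

/-- Plan: `ν` from `V_vis`.  Call `q ∈ {m + e ν, m - e ν}` (with antipode `q'`) detourable if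
(`q ∉ K a` or `q' ∈ K b`) and (`q ∉ K b` or `q' ∈ K a`); then `detour0` (and `R_comm`) or closedness give
`r`.  If `m ∈ O a ∩ O b` both are.  Otherwise `m ∉ O a`, `m ∉ O b`, each colour is seen at one of
the two points, and a non-detourable point is in `K a ∩ K b` while its antipode is detourable
(propositional logic); replace `ν` by `ν + π` if necessary. -/
theorem Sys.detour (h : Sys L) {a b : Fin 5} {m : ℂ} (hm : m ∈ V L a b) :
    ∃ ν : ℝ, ∃ r > (0 : ℝ),
      (∀ y, (y ∈ K L a ∨ y ∈ K L b) → dist m y = 1 → y = m + e ν ∨ y = m - e ν) ∧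
      (∀ x, dist x (m - e ν) < r → dist x (m + e ν) < 2 → x ∈ W L a b) ∧
      ((∀ x, dist x (m + e ν) < r → dist x (m - e ν) < 2 → x ∈ W L a b) ∨
        (m + e ν ∈ K L a ∧ m + e ν ∈ K L b ∧ m ∉ O L a ∧ m ∉ O L b)) := by
  have D0 : ∀ a b, m ∈ R L a b → ∀ q q', dist m q = 1 → dist m q' = 1 → dist q q' = 2 →
      (q ∉ K L a ∨ q' ∈ K L b) → ∃ r > (0 : ℝ), ∀ x, dist x q < r → dist x q' < 2 → x ∉ K L a := by
    rintro a b hm q q' h1 h2 h3 (h4 | h4)
    · obtain ⟨r, hr, hb⟩ := Metric.isOpen_iff.1 (isClosed_K a).isOpen_compl q h4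
      exact ⟨r, hr, fun x hx _ => hb hx⟩
    · exact h.detour0 hm h4 h1 h2 h3
  have D : ∀ q q', dist m q = 1 → dist m q' = 1 → dist q q' = 2 →
      (q ∉ K L a ∨ q' ∈ K L b) ∧ (q ∉ K L b ∨ q' ∈ K L a) →
      ∃ r > (0 : ℝ), ∀ x, dist x q < r → dist x q' < 2 → x ∈ W L a b := fun q q' h1 h2 h3 h4 => by
    obtain ⟨r, hr, a1⟩ := D0 a b hm.1 q q' h1 h2 h3 h4.1
    obtain ⟨r', hr', a2⟩ := D0 b a (h.R_comm _ _ ▸ hm.1) q q' h1 h2 h3 h4.2
    exact ⟨min r r', lt_min hr hr', fun x b1 b2 => mem_W.2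
      ⟨a1 x (b1.trans_le (min_le_left _ _)) b2, a2 x (b1.trans_le (min_le_right _ _)) b2⟩⟩
  obtain ⟨ν, hν⟩ := h.V_vis hm
  have d1 := dist_add_e m ν
  have d2 : dist m (m - e ν) = 1 := by rw [dist_self_sub_right, norm_e]
  have d3 : dist (m + e ν) (m - e ν) = 2 := (antipodal_iff d1 d2).2 (by ring)
  have d4 : dist (m - e ν) (m + e ν) = 2 := by rw [dist_comm, d3]
  have hc : (m + e ν ∉ K L a ∧ m + e ν ∉ K L b ∧ m - e ν ∉ K L a ∧ m - e ν ∉ K L b) ∨
      ((m + e ν ∈ K L a ∨ m - e ν ∈ K L a) ∧ (m + e ν ∈ K L b ∨ m - e ν ∈ K L b) ∧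
        m ∉ O L a ∧ m ∉ O L b) := by
    by_cases ha : m ∈ O L a
    · have hb := hm.2.1 ha
      exact .inl ⟨not_mem_K_of_O ha d1, not_mem_K_of_O hb d1, not_mem_K_of_O ha d2,
        not_mem_K_of_O hb d2⟩
    · have hb : m ∉ O L b := fun hb => ha (hm.2.2 hb)
      obtain ⟨y, y1, y2⟩ := exists_K_of_not_O ha
      obtain ⟨w, w1, w2⟩ := exists_K_of_not_O hb
      refine .inr ⟨?_, ?_, ha, hb⟩
      · rcases hν y (.inl y1) y2 with rfl | rfl
        exacts [.inl y1, .inr y1]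
      · rcases hν w (.inr w1) w2 with rfl | rfl
        exacts [.inl w1, .inr w1]
  by_cases p2 : (m - e ν ∉ K L a ∨ m + e ν ∈ K L b) ∧ (m - e ν ∉ K L b ∨ m + e ν ∈ K L a)
  · obtain ⟨r, hr, a1⟩ := D _ _ d2 d1 d4 p2
    by_cases p1 : (m + e ν ∉ K L a ∨ m - e ν ∈ K L b) ∧ (m + e ν ∉ K L b ∨ m - e ν ∈ K L a)
    · obtain ⟨r', hr', a2⟩ := D _ _ d1 d2 d3 p1
      exact ⟨ν, min r r', lt_min hr hr', hν, fun x b1 => a1 x (b1.trans_le (min_le_left _ _)),
        .inl fun x b1 => a2 x (b1.trans_le (min_le_right _ _))⟩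
    · exact ⟨ν, r, hr, hν, a1, .inr (by tauto)⟩
  · obtain ⟨r, hr, a1⟩ := D _ _ d1 d2 d3 (by tauto)
    refine ⟨ν + π, r, hr, ?_⟩
    rw [e_add_pi, sub_neg_eq_add, ← sub_eq_add_neg]
    exact ⟨fun y y1 y2 => (hν y y1 y2).symm, a1, .inr (by tauto)⟩

/-- The circle around `q = m + e (s + σ π/3)` passes through `m + e s` and `m`; its points between
these two, close to `m + e s`, are inside the unit disc around `m` (so at distance `< 2` from
`m - e s`), outside `K c`, hence in `R d f`; `V_nbr`.  Explicitly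
`x = q + e (s + σ π/3 - σ (2π/3 + θ))`, `θ > 0` small: `θ = 0` gives `m + e s` and
`‖x - m‖² = 2 + 2 cos (2π/3 + θ) < 1`. -/
theorem Sys.detour_nbr (h : Sys L) {a b c d f : Fin 5} (H : Five a b c d f) {m : ℂ} {s r : ℝ}
    (hr : 0 < r) (hdet : ∀ x, dist x (m + e s) < r → dist x (m - e s) < 2 → x ∈ W L a b)
    (hc : m + e s ∉ K L c) :
    m + e (s + π / 3) ∉ V L d f ∧ m + e (s - π / 3) ∉ V L d f := by
  have hπ := Real.pi_pos
  have key : ∀ σ : ℝ, |σ| = 1 → Real.cos (σ * (π / 3)) = 1 / 2 →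
      m + e (s + σ * (π / 3)) ∉ V L d f := fun σ hσ hcos hV => by
    set α := s + σ * (π / 3) with hα
    let x : ℝ → ℂ := fun θ => m + e α - e (α + σ * (π / 3 - θ))
    have hx : Continuous x := continuous_const.sub (continuous_e.comp (by fun_prop))
    have hx0 : x 0 = m + e s := by
      have e1 : e (α + σ * (π / 3)) + e (α - σ * (π / 3)) = e α := by
        apply Complex.ext <;>
          simp only [Complex.add_re, Complex.add_im, e_re, e_im, Real.cos_add, Real.cos_sub,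
            Real.sin_add, Real.sin_sub, hcos] <;> ring
      rw [show α - σ * (π / 3) = s by rw [hα]; ring] at e1
      simp only [x, sub_zero]
      linear_combination -e1
    have hG : ∀ᶠ θ in nhds (0 : ℝ), x θ ∈ ball (m + e s) r ∩ (K L c)ᶜ :=
      hx.continuousAt.preimage_mem_nhds ((isOpen_ball.inter (isClosed_K c).isOpen_compl).mem_nhds
        (by rw [hx0]; exact ⟨mem_ball_self hr, hc⟩))
    obtain ⟨θ, ⟨g1, g2⟩, θ0, θ1⟩ := ((hG.filter_mono nhdsWithin_le_nhds).and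
      (Ioo_mem_nhdsGT (show (0 : ℝ) < π / 3 by positivity))).exists
    have hn : dist (x θ) m < 1 := by
      rw [dist_eq_norm, show x θ - m = e α - e (α + σ * (π / 3 - θ)) by simp only [x]; ring,
        norm_e_sub_e, show (α - (α + σ * (π / 3 - θ))) / 2 = -(σ * ((π / 3 - θ) / 2)) by ring,
        Real.sin_neg, abs_neg]
      have e2 : |Real.sin (σ * ((π / 3 - θ) / 2))| = Real.sin ((π / 3 - θ) / 2) := by
        have := Real.sin_nonneg_of_nonneg_of_le_pi (x := (π / 3 - θ) / 2) (by linarith)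
          (by linarith)
        rcases eq_or_eq_neg_of_abs_eq hσ with rfl | rfl
        · rw [one_mul, abs_of_nonneg this]
        · rw [neg_one_mul, Real.sin_neg, abs_neg, abs_of_nonneg this]
      have e3 := Real.sin_lt_sin_of_lt_of_le_pi_div_two (x := (π / 3 - θ) / 2) (y := π / 6)
        (by linarith) (by linarith) (by linarith)
      rw [Real.sin_pi_div_six] at e3
      rw [e2]; linarith
    have hW := mem_W.1 (hdet _ g1 (by
      have := dist_triangle (x θ) m (m - e s)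
      rw [dist_self_sub_right, norm_e] at this
      linarith))
    exact h.V_nbr hV (y := x θ) (by simp only [x]; rw [dist_self_sub_right, norm_e])
      (h.mem_R_of_notK (H.perm (a' := d) (b' := f) (c' := a) (d' := b) (f' := c) (by tauto))
        hW.1 hW.2 g2)
  have k1 := key 1 abs_one (by rw [one_mul, Real.cos_pi_div_three])
  have k2 := key (-1) (by simp) (by rw [neg_one_mul, Real.cos_neg, Real.cos_pi_div_three])
  rw [one_mul] at k1
  rw [neg_one_mul, ← sub_eq_add_neg] at k2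
  exact ⟨k1, k2⟩

end Crest.Agent.R40
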