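import Crest.Agent.R40.F1
import Crest.Agent.R40.Cell

/-! Row 40, task ExitL: lines, exit points, regular points. -/

set_option autoImplicit false

open Set Metric
open scoped Real

namespace Crest.Agent.R40

variable {L : Fin 5 → Set ℂ}

/-- `dense` at the middle point (with `arc_param`) gives a point of the arc in some `O a`, `a ≠ c` since
`y ∈ K c`; then `exists_bdry_cell` and `nocorner`. -/
theorem Sys.exit_or_mono_arc (h : Sys L) {c : Fin 5} {y : ℂ} (hy : y ∈ L c) {t₁ t₂ : ℝ}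
    (ht : t₁ < t₂) :
    (∃ a, a ≠ c ∧ ∀ t ∈ Icc t₁ t₂, y + e t ∈ O L a) ∨
      ∃ t ∈ Icc t₁ t₂, ∃ a, Exit L c a (y + e t) := by
  obtain ⟨x', h1, h2, a, ha⟩ := h.dense c y hy (y + e ((t₁ + t₂) / 2)) (dist_add_e' _ _)
    ((t₂ - t₁) / 4) (by linarith)
  obtain ⟨t, h3, h4⟩ := arc_param (u := x' - y) (by rwa [← dist_eq_norm]) ((t₁ + t₂) / 2)
    ((t₂ - t₁) / 4) (by rwa [sub_sub, ← dist_eq_norm])
  have hac : a ≠ c := fun e => not_mem_O_of_K (L_sub_K c hy) h2 (e ▸ ha)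
  rw [abs_lt] at h4
  by_cases hS : (fun t => y + e t) '' Icc t₁ t₂ ⊆ cell L a x'
  · exact .inl ⟨a, hac, fun t ht => cell_sub a x' (hS ⟨t, ht, rfl⟩)⟩
  obtain ⟨_, ⟨s, hs, rfl⟩, h5, h6⟩ := exists_bdry_cell
    (isPreconnected_Icc.image _ (continuous_const.add continuous_e).continuousOn)
    ⟨x', ⟨t, ⟨by linarith, by linarith⟩, show y + e t = x' by rw [← h3]; ring⟩, mem_cell_self ha⟩ hS
  exact .inr ⟨s, hs, a, hac, ⟨y, hy, dist_add_e' _ _⟩, closure_mono (cell_sub a x') h5, h6,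
    h.nocorner c y hy _ (dist_add_e' _ _) a x' h5⟩

/-- `x₀ = y + e t₀`; use the arc `[t₀ - 4 r, t₀ + 4 r]` and `arc_param` -/
theorem Sys.exit_or_mono (h : Sys L) {c : Fin 5} {y : ℂ} (hy : y ∈ L c) {z x₀ : ℂ} {r : ℝ}
    (hx₀ : dist x₀ z < r) (hx₀y : dist x₀ y = 1) :
    (∃ a, a ≠ c ∧ ∀ x, dist x z < r → dist x y = 1 → x ∈ O L a) ∨
      ∃ a z', dist z' z < 6 * r ∧ Exit L c a z' := by
  have hr : 0 < r := dist_nonneg.trans_lt hx₀
  obtain ⟨t₀, rfl⟩ := exists_e_of_dist (dist_comm x₀ y ▸ hx₀y)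
  rcases h.exit_or_mono_arc hy (t₁ := t₀ - 4 * r) (t₂ := t₀ + 4 * r) (by linarith) with
    ⟨a, hac, ha⟩ | ⟨t, ht, a, hx⟩
  · refine .inl ⟨a, hac, fun x h1 h2 => ?_⟩
    obtain ⟨t, h3, h4⟩ := arc_param (u := x - y) (by rwa [← dist_eq_norm]) t₀ (2 * r) (by
      rw [sub_sub, ← dist_eq_norm]; linarith [dist_triangle_right x (y + e t₀) z])
    rw [abs_lt] at h4
    have := ha t ⟨by linarith, by linarith⟩
    rwa [← h3, add_sub_cancel] at this
  · refine .inr ⟨a, _, ?_, hx⟩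
    have h1 := (norm_e_sub_e_le t t₀).trans (abs_le.2 (show -(4 * r) ≤ t - t₀ ∧ t - t₀ ≤ 4 * r from
      ⟨by linarith [ht.1], by linarith [ht.2]⟩))
    have h2 := dist_triangle (y + e t) (y + e t₀) z
    rw [dist_add_left, dist_eq_norm (e t)] at h2
    linarith

/-- Plan: centres `y n` for `δ = min r (1/(n+1))` are bounded; a subsequence converges to `y∞` with
`dist z y∞ = 1` (`tendsto_subseq_of_bounded`).  If `w ∈ K d`, `dist z w = 1`, `w ≠ y∞`,
`dist y∞ w ≠ 2`, then `cross_stable` gives a point of `O d` at distance one from `w`.  So every such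
`w` is `y∞` or `2 z - y∞` (`antipodal_iff`). -/
theorem reg_of_lines {d : Fin 5} {z : ℂ} {r : ℝ} (hr : 0 < r)
    (hl : ∀ δ > 0, ∃ y, (∃ x, dist x z < δ ∧ dist x y = 1) ∧
      ∀ x, dist x z < r → dist x y = 1 → x ∈ O L d) :
    Reg L d z ∧ z ∈ closure (O L d) := by
  refine ⟨?_, Metric.mem_closure_iff.2 fun δ hδ => ?_⟩
  · choose y hy hO using fun n : ℕ => hl (1 / ((n : ℝ) + 1)) (by positivity)
    choose x hx hxy using hy
    have hb : ∀ n, y n ∈ closedBall z 2 := fun n => by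
      have h1 := dist_triangle_left (y n) z (x n)
      have h2 : 1 / ((n : ℝ) + 1) ≤ 1 := by
        rw [div_le_one (by positivity)]; exact le_add_of_nonneg_left n.cast_nonneg
      rw [mem_closedBall]; linarith [hx n, hxy n]
    obtain ⟨u, -, φ, hφ, hu⟩ := (isCompact_closedBall z 2).tendsto_subseq hb
    have hxz : Filter.Tendsto x Filter.atTop (nhds z) := tendsto_iff_dist_tendsto_zero.2
      (squeeze_zero (fun _ => dist_nonneg) (fun n => (hx n).le)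
        tendsto_one_div_add_atTop_nhds_zero_nat)
    have hzu : dist z u = 1 := tendsto_nhds_unique ((hxz.comp hφ.tendsto_atTop).dist hu)
      (tendsto_const_nhds.congr fun n => (hxy (φ n)).symm)
    have key : ∀ w ∈ K L d, dist z w = 1 → w = u ∨ w = 2 * z - u := fun w hw hd => by
      rw [← antipodal_iff hzu hd]
      by_contra hn
      rw [not_or] at hn
      obtain ⟨δ, hδ, hc⟩ := cross_stable hzu hd hn.1 hn.2 hr
      obtain ⟨n, hn⟩ := (Metric.tendsto_nhds.1 hu δ hδ).exists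
      obtain ⟨x', h1, h2, h3⟩ := hc _ w hn (by rwa [dist_self])
      exact not_mem_O_of_K hw h3 (hO _ x' h1 h2)
    intro w hw w' hw' hd hd'
    rw [antipodal_iff hd hd']
    rcases key w hw hd with rfl | rfl <;> rcases key w' hw' hd' with rfl | rfl
    · exact .inl rfl
    · exact .inr rfl
    · exact .inr (by ring)
    · exact .inl rfl
  · obtain ⟨y, ⟨x, h1, h2⟩, h3⟩ := hl (min δ r) (lt_min hδ hr)
    rw [lt_min_iff] at h1
    exact ⟨x, h3 x h1.2 h2, dist_comm x z ▸ h1.1⟩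

/-- pigeonhole over the finitely many colours, `exit_or_mono`, `reg_of_lines` -/
theorem Sys.reg_of_noexit (h : Sys L) {c : Fin 5} {z : ℂ} {r : ℝ} (hr : 0 < r)
    (hno : ∀ a z', dist z' z < 6 * r → ¬ Exit L c a z') (a : Fin 5)
    (hl : ∀ δ > 0, ∃ y ∈ L c, ∃ x, dist x z < δ ∧ dist x y = 1 ∧ x ∉ O L a) :
    ∃ b, b ≠ a ∧ b ≠ c ∧ Reg L b z ∧ z ∈ closure (O L b) := by
  by_contra hn
  have key : ∀ b, ∃ δ > 0, b ≠ a → b ≠ c → ¬ ∃ y, (∃ x, dist x z < δ ∧ dist x y = 1) ∧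
      ∀ x, dist x z < r → dist x y = 1 → x ∈ O L b := fun b => by
    by_contra hb
    simp only [not_exists, not_and, not_forall, not_not] at hb
    refine hn ⟨b, (hb 1 one_pos).1, (hb 1 one_pos).2.1, reg_of_lines hr fun δ hδ => ?_⟩
    obtain ⟨-, -, y, h1, h2⟩ := hb δ hδ
    exact ⟨y, h1, by simpa using h2⟩
  choose δ hδ hb using key
  obtain ⟨b₀, hb₀⟩ := Finite.exists_min δ
  obtain ⟨y, hy, x, h1, h2, h3⟩ := hl (min (δ b₀) r) (lt_min (hδ b₀) hr)
  rw [lt_min_iff] at h1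
  rcases h.exit_or_mono hy h1.2 h2 with ⟨b, hbc, hO⟩ | ⟨b, z', h4, h5⟩
  · exact hb b (fun e => h3 (e ▸ hO x h1.2 h2)) hbc ⟨y, ⟨x, h1.1.trans_le (hb₀ b), h2⟩, hO⟩
  · exact hno b z' h4 h5

theorem lines_near {c : Fin 5} {z : ℂ} (hz : z ∉ O L c) :
    ∀ δ > 0, ∃ y ∈ L c, ∃ x, dist x z < δ ∧ dist x y = 1 ∧ x ∉ O L c := by
  intro δ hδ
  obtain ⟨w, hw, hd⟩ := exists_K_of_not_O hz
  obtain ⟨y, hy, -, x, h1, h2⟩ := exists_line_near hw hd hδ
  exact ⟨y, hy, x, h1, h2, not_mem_O_of_K (L_sub_K c hy) h2⟩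

theorem lines_near_of_not_R {c a : Fin 5} {z : ℂ} (hz : z ∉ R L c a) :
    ∀ δ > 0, ∃ y ∈ L c, ∃ x, dist x z < δ ∧ dist x y = 1 ∧ x ∉ O L a := by
  intro δ hδ
  by_contra hn
  refine hz ⟨ball z δ, isOpen_ball, mem_ball_self hδ, fun y hy x hx hd => ?_⟩
  by_contra hO
  exact hn ⟨y, hy, x, hx, hd, hO⟩

end Crest.Agent.R40
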