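import Crest.Agent.R40.Basic

/-! Row 40, task F1: no two-coloured arc of `120°`, and its consequences. -/

set_option autoImplicit false

open Set Metric
open scoped Real

namespace Crest.Agent.R40

variable {L : Fin 5 → Set ℂ}

namespace Sys

/-- `p + e t₀` and `p + e (t₀ + π/3)` are a unit pair in `R a b` (`pair_in_R`), so the arc between
them contains a point of `V a b` (`exists_V`), whose neighbour at `+ π/3` is in `R a b` (`V_nbr`). -/
theorem F1 (h : Sys L) {a b : Fin 5} {p : ℂ} {t₀ : ℝ}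
    (hR : ∀ t ∈ Icc t₀ (t₀ + 2 * π / 3), p + e t ∈ R L a b) : False := by
  have hpi := Real.pi_pos
  have h0 : p + e t₀ ∈ R L a b := hR _ ⟨le_rfl, by linarith⟩
  have h1 : p + e (t₀ + π / 3) ∈ R L a b := hR _ ⟨by linarith, by linarith⟩
  have hS : IsPreconnected ((fun t => p + e t) '' Icc t₀ (t₀ + π / 3)) :=
    isPreconnected_Icc.image _ (continuous_const.add continuous_e).continuousOn
  have hSR : (fun t => p + e t) '' Icc t₀ (t₀ + π / 3) ⊆ R L a b := by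
    rintro _ ⟨t, ht, rfl⟩
    exact hR t ⟨ht.1, by linarith [ht.2]⟩
  have m0 : p + e t₀ ∈ (fun t => p + e t) '' Icc t₀ (t₀ + π / 3) :=
    ⟨t₀, ⟨le_rfl, by linarith⟩, rfl⟩
  have m1 : p + e (t₀ + π / 3) ∈ (fun t => p + e t) '' Icc t₀ (t₀ + π / 3) :=
    ⟨_, ⟨by linarith, le_rfl⟩, rfl⟩
  have : ∃ m ∈ (fun t => p + e t) '' Icc t₀ (t₀ + π / 3), m ∈ V L a b := by
    rcases h.pair_in_R h0 h1 (dist_e_pi_div_three p t₀) with h2 | h2
    · exact h.exists_V hS hSR m0 h2.1 m1 h2.2.2.1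
    · exact h.exists_V hS hSR m1 h2.2.2.1 m0 h2.1
  obtain ⟨_, ⟨t, ht, rfl⟩, hm⟩ := this
  exact h.V_nbr hm (dist_e_pi_div_three p t) (hR _ ⟨by linarith [ht.1], by linarith [ht.2]⟩)

/-- the circle around `x` would lie in `R d f` (`exists_five`, `mem_R_of_notK`) -/
theorem no_triple (h : Sys L) {a b c : Fin 5} (hab : a ≠ b) (hac : a ≠ c) (hbc : b ≠ c) {x : ℂ}
    (ha : x ∈ O L a) (hb : x ∈ O L b) (hc : x ∈ O L c) : False := by
  obtain ⟨d, f, H⟩ := exists_five hab hac hbc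
  have H' : Five d f a b c := H.perm (by tauto)
  exact h.F1 (a := d) (b := f) (p := x) (t₀ := 0) fun t _ =>
    h.mem_R_of_notK H' (not_mem_K_of_O ha (dist_add_e x t)) (not_mem_K_of_O hb (dist_add_e x t))
      (not_mem_K_of_O hc (dist_add_e x t))

/-- with `ν` from `V_vis` the arc `[ν + π/6, ν + π/6 + 2π/3]` around `m` lies in `W a b`; by `tube` the
same arc around every `x` close to `m` does; if `x ∈ O c` it lies in `R d f`, against `F1`. -/
theorem no_third (h : Sys L) {a b c : Fin 5} (hab : a ≠ b) (hca : c ≠ a) (hcb : c ≠ b) {m : ℂ}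
    (hm : m ∈ V L a b) : m ∉ closure (O L c) := by
  have hpi := Real.pi_pos
  intro hcl
  obtain ⟨ν, hν⟩ := h.V_vis hm
  obtain ⟨d, f, H⟩ := exists_five hab hca.symm hcb.symm
  have H' : Five d f a b c := H.perm (by tauto)
  have hW : ∀ t ∈ Icc (ν + π / 6) (ν + π / 6 + 2 * π / 3), m + e t ∈ W L a b := by
    intro t ht
    by_contra hcon
    have h1 : m + e t ∈ K L a ∨ m + e t ∈ K L b := by
      rw [mem_W] at hcon; tauto
    have h2 : e t = e ν ∨ e t = - e ν := by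
      rcases hν _ h1 (dist_add_e m t) with h3 | h3
      · exact Or.inl (add_left_cancel h3)
      · rw [sub_eq_add_neg] at h3
        exact Or.inr (add_left_cancel h3)
    have h4 := (e_eq_or_neg_iff t ν).1 h2
    have h5 : 0 < Real.sin (t - ν) :=
      Real.sin_pos_of_pos_of_lt_pi (by linarith [ht.1]) (by linarith [ht.2])
    linarith
  obtain ⟨η, hη, htube⟩ := tube (isOpen_W a b) m (by linarith) hW
  obtain ⟨x, hxO, hx⟩ := Metric.mem_closure_iff.1 hcl η hη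
  refine h.F1 (a := d) (b := f) (p := x) (t₀ := ν + π / 6) fun t ht => ?_
  have h6 : x + e t ∈ W L a b := by
    refine htube t ⟨by linarith [ht.1], by linarith [ht.2]⟩ _ ?_
    rw [dist_add_right, dist_comm]
    exact hx
  rw [mem_W] at h6
  exact h.mem_R_of_notK H' h6.1 h6.2 (not_mem_K_of_O hxO (dist_add_e x t))

/-- `V_vis`: two visible points of the colours `a`, `b` are equal or antipodal -/
theorem V_two_nbrs (h : Sys L) {a b : Fin 5} {m y₁ y₂ : ℂ} (hm : m ∈ V L a b)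
    (h₁ : y₁ ∈ K L a ∨ y₁ ∈ K L b) (h₂ : y₂ ∈ K L a ∨ y₂ ∈ K L b) (hd₁ : dist m y₁ = 1)
    (hd₂ : dist m y₂ = 1) : y₁ = y₂ ∨ dist y₁ y₂ = 2 := by
  obtain ⟨ν, hν⟩ := h.V_vis hm
  rcases hν _ h₁ hd₁ with e1 | e1 <;> rcases hν _ h₂ hd₂ with e2 | e2
  · exact Or.inl (e1.trans e2.symm)
  · right
    rw [antipodal_iff hd₁ hd₂, e1, e2]; ring
  · right
    rw [antipodal_iff hd₁ hd₂, e1, e2]; ring
  · exact Or.inl (e1.trans e2.symm)

theorem V_ne_of_W (h : Sys L) {i j a b : Fin 5} {m : ℂ} (hm : m ∈ V L i j) (hW : m ∈ W L a b) :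
    i ≠ a ∧ i ≠ b ∧ j ≠ a ∧ j ≠ b := by
  have hi := h.closure_O_sub i (h.V_sub_closure i j hm)
  have hj := h.closure_O_sub j (h.V_sub_closure' i j hm)
  rw [mem_W] at hW
  exact ⟨fun e => hW.1 (e ▸ hi), fun e => hW.2 (e ▸ hi), fun e => hW.1 (e ▸ hj),
    fun e => hW.2 (e ▸ hj)⟩

/-- type of a boundary point.  `z ∈ R i j`, `i ≠ j`.  If `z ∈ O k` for some `k` (then `k ≠ c`) take
`a = k`: `O c ∩ O k ⊆ V c k` accumulates at `z`.  Otherwise `z ∈ V i j` and `no_third` gives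
`c ∈ {i, j}`. -/
theorem bdry_type (h : Sys L) {c : Fin 5} {z : ℂ} (hz : z ∈ closure (O L c)) (hzO : z ∉ O L c)
    (hE : z ∉ E L) : ∃ a, a ≠ c ∧ z ∈ R L c a ∧ z ∈ closure (V L c a) := by
  by_cases hk : ∃ k, z ∈ O L k
  · obtain ⟨k, hk⟩ := hk
    refine ⟨k, fun e => hzO (e ▸ hk), O_sub_R_right c k hk, ?_⟩
    refine closure_mono ?_ ((isOpen_O k).inter_closure ⟨hk, hz⟩)
    rintro x ⟨h1, h2⟩
    exact ⟨O_sub_R_right c k h1, iff_of_true h2 h1⟩
  · have : ∃ i j, i ≠ j ∧ z ∈ R L i j := by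
      by_contra hcon
      exact hE fun i j hij hz => hcon ⟨i, j, hij, hz⟩
    obtain ⟨i, j, hij, hR⟩ := this
    have hV : z ∈ V L i j := ⟨hR, iff_of_false (fun h1 => hk ⟨i, h1⟩) fun h1 => hk ⟨j, h1⟩⟩
    by_cases hci : c = i
    · subst hci
      exact ⟨j, hij.symm, hR, subset_closure hV⟩
    by_cases hcj : c = j
    · subst hcj
      rw [h.V_comm] at hV
      exact ⟨i, hij, hV.1, subset_closure hV⟩
    exact absurd hz (h.no_third hij hci hcj hV)

/-- If `z ∉ O a` then `z ∈ V c a`, so `z ∉ closure (O b)` (`no_third`) and `mem_O_of_R` gives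
`z ∈ O c`.  So `z ∈ O a ∩ O b`, and `no_triple` fails near `z`. -/
theorem type_unique (h : Sys L) {a b c : Fin 5} (hac : a ≠ c) (hbc : b ≠ c) (hab : a ≠ b) {z : ℂ}
    (hz : z ∈ closure (O L c)) (hzO : z ∉ O L c) (ha : z ∈ R L c a) (hb : z ∈ R L c b) :
    False := by
  have key : ∀ a b : Fin 5, a ≠ c → b ≠ c → a ≠ b → z ∈ R L c a → z ∈ R L c b → z ∈ O L a := by
    intro a b hac hbc hab ha hb
    by_contra hcon
    have hV : z ∈ V L c a := ⟨ha, iff_of_false hzO hcon⟩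
    rw [h.R_comm] at hb
    exact hzO (h.mem_O_of_R hb (h.no_third hac.symm hbc hab.symm hV))
  have h1 := key a b hac hbc hab ha hb
  have h2 := key b a hbc hac hab.symm hb ha
  obtain ⟨x, ⟨hx1, hx2⟩, hx3⟩ :=
    mem_closure_iff.1 hz _ ((isOpen_O a).inter (isOpen_O b)) ⟨h1, h2⟩
  exact h.no_triple hab hac hbc hx1 hx2 hx3

/-- `bdry_type`; the type is not `c` because `c`-lines in `R c a` lie in `O a` (`cov_R`) -/
theorem exit_type (h : Sys L) {c a : Fin 5} {z : ℂ} (hx : Exit L c a z) (hE : z ∉ E L) :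
    ∃ k, k ≠ a ∧ k ≠ c ∧ z ∈ closure (V L a k) := by
  obtain ⟨_, ⟨y, hy, hzy⟩, hz, hzO, _⟩ := hx
  obtain ⟨k, hk, hR, hV⟩ := h.bdry_type hz hzO hE
  refine ⟨k, hk, fun e => hzO ?_, hV⟩
  rw [e, h.R_comm] at hR
  exact cov_R c a y hy z hR hzy

end Sys

end Crest.Agent.R40
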