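import Crest.Agent.R40.Pinch

/-! Row 40, task F2: from a point of `V a b` a third colour is visible in every pair of antipodal
arcs of `60°`. -/

set_option autoImplicit false

open Set Metric
open scoped Real

namespace Crest.Agent.R40

variable {L : Fin 5 → Set ℂ}

/-- Plan.  `J = Icc t₀ (t₀ + π/3)`.  For `u ∈ J`: `x u = m + e (u + π/3)`, `y u = m + e (u + 2π/3)`,
`x' u = m + e (u + 4π/3)`, `y' u = m + e (u + 5π/3)` are in `W a b` (`hvis`, `e_eq_or_neg_iff`: the angle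
minus `s` lies strictly between multiples of `π`), and `m ± e u ∈ R d f` for `u ≠ s`.  So (`V_nbr`)
`x u, y' u ∉ V d f` for `u ≠ s` (neighbour `m + e u`), and `y u, x' u ∉ V d f` for all `u` (neighbour
`m - e u`; at `u = s` use `detour_nbr` at the angle `s + π`).  `NFc` for `(x, y)` and, with `d`, `f`
exchanged, for `(x', y')` shows `x s ∈ V d f` and `y' s = m + e (s - π/3) ∈ V d f`.  In the first
alternative of `hdet'` this contradicts `detour_nbr`.  In the second: `Up f c d (x u) (y u)` on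
`Ico t₀ s` (`orient_cases`, `not_R_cd`, `orient_const`) and `Up f c d (y u) (x u)` on
`Ioc s (t₀ + π/3)`; for `u` close to `s`, `x u ∈ R d f \ closure (O c)` (`no_third`), so `x u ∈ O f`
for `u < s` and `x u ∈ O d` for `u > s` (`mem_O_of_R`), and `pair_in_R` gives `m + e u ∈ O d`, resp.
`O f`; `pinch_false`. -/
theorem Sys.F2_NF (h : Sys L) {a b c d f : Fin 5} (H : Five a b c d f) {m : ℂ} {r t₀ s : ℝ}
    (hm : m ∈ R L a b) (hr : 0 < r) (hs : s ∈ Ioo t₀ (t₀ + π / 3))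
    (hvis : ∀ y, (y ∈ K L a ∨ y ∈ K L b) → dist m y = 1 → y = m + e s ∨ y = m - e s)
    (hdet : ∀ x, dist x (m - e s) < r → dist x (m + e s) < 2 → x ∈ W L a b)
    (hdet' : (∀ x, dist x (m + e s) < r → dist x (m - e s) < 2 → x ∈ W L a b) ∨
      (m + e s ∈ K L a ∧ m + e s ∈ K L b ∧ m ∉ O L a ∧ m ∉ O L b))
    (hc : ∀ t ∈ Icc t₀ (t₀ + π / 3), m + e t ∉ K L c ∧ m - e t ∉ K L c)
    (h0 : m + e t₀ ∈ O L d) (h1 : m + e (t₀ + π / 3) ∈ O L f) (h3 : m - e t₀ ∈ O L f)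
    (h4 : m - e (t₀ + π / 3) ∈ O L d) : False := by
  have hpi := Real.pi_pos
  have H' : Five a b c f d := H.perm (by tauto)
  have Hd : Five d f a b c := H.perm (by tauto)
  have hne := H.ne
  -- points off the exceptional line are in `W`
  have hW : ∀ t, Real.sin (t - s) ≠ 0 → m + e t ∈ W L a b := by
    intro t ht
    by_contra hn
    have hn' : m + e t ∈ K L a ∨ m + e t ∈ K L b := by
      rw [mem_W] at hn; tauto
    apply ht
    rw [← e_eq_or_neg_iff]
    rcases hvis _ hn' (dist_add_e m t) with h1 | h1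
    · left; exact add_left_cancel h1
    · right; rw [sub_eq_add_neg] at h1; exact add_left_cancel h1
  have hW1 : ∀ t, s < t → t < s + π → m + e t ∈ W L a b := fun t h1 h2 =>
    hW t (Real.sin_pos_of_pos_of_lt_pi (by linarith) (by linarith)).ne'
  have hW2 : ∀ t, s + π < t → t < s + 2 * π → m + e t ∈ W L a b := fun t h1 h2 => by
    apply hW t
    have : Real.sin (t - s) = - Real.sin (t - s - π) := by rw [Real.sin_sub_pi]; ring
    rw [this]
    exact neg_ne_zero.2 (Real.sin_pos_of_pos_of_lt_pi (by linarith) (by linarith)).ne'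
  have hW0 : ∀ t, s - π < t → t < s → m + e t ∈ W L a b := fun t h1 h2 => by
    rw [← e_add_two_pi]; exact hW2 _ (by linarith) (by linarith)
  have hsub : ∀ t, m - e t = m + e (t + π) := fun t => by rw [e_add_pi, sub_eq_add_neg]
  have hRp : ∀ u ∈ Icc t₀ (t₀ + π / 3), u ≠ s → m + e u ∈ R L d f := by
    intro u hu hus
    have hw : m + e u ∈ W L a b := by
      rcases lt_or_gt_of_ne hus with h1 | h1
      · exact hW0 u (by linarith [hu.1, hs.2]) h1
      · exact hW1 u h1 (by linarith [hu.2, hs.1])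
    exact h.mem_R_of_notK Hd (mem_W.1 hw).1 (mem_W.1 hw).2 (hc u hu).1
  have hRm : ∀ u ∈ Icc t₀ (t₀ + π / 3), u ≠ s → m + e (u + π) ∈ R L d f := by
    intro u hu hus
    have hw : m + e (u + π) ∈ W L a b := by
      rcases lt_or_gt_of_ne hus with h1 | h1
      · exact hW1 _ (by linarith [hu.1, hs.2]) (by linarith)
      · exact hW2 _ (by linarith) (by linarith [hu.2, hs.1])
    exact h.mem_R_of_notK Hd (mem_W.1 hw).1 (mem_W.1 hw).2 (hsub u ▸ (hc u hu).2)
  have hsI : s ∈ Icc t₀ (t₀ + π / 3) := ⟨hs.1.le, hs.2.le⟩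
  have hdn := h.detour_nbr H (m := m) (s := s + π) hr
    (fun x h1 h2 => hdet x (by rwa [hsub]) (by rwa [e_add_pi, sub_neg_eq_add] at h2))
    (hsub s ▸ (hc s hsI).2)
  -- the four moving vertices
  have hdist : ∀ t t', t' = t + π / 3 → dist (m + e t) (m + e t') = 1 := fun t t' ht => by
    rw [ht]; exact dist_e_pi_div_three m t
  have hxV : ∀ u ∈ Icc t₀ (t₀ + π / 3), u ≠ s → m + e (u + π / 3) ∉ V L d f := fun u hu hus hV =>
    h.V_nbr hV (by rw [dist_comm]; exact hdist _ _ rfl) (hRp u hu hus)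
  have hyV : ∀ u ∈ Icc t₀ (t₀ + π / 3), m + e (u + 2 * π / 3) ∉ V L d f := by
    intro u hu hV
    by_cases hus : u = s
    · apply hdn.2
      rw [show s + π - π / 3 = u + 2 * π / 3 by rw [hus]; ring]; exact hV
    · exact h.V_nbr hV (hdist _ _ (by ring)) (hRm u hu hus)
  have hx'V : ∀ u ∈ Icc t₀ (t₀ + π / 3), m + e (u + 4 * π / 3) ∉ V L d f := by
    intro u hu hV
    by_cases hus : u = s
    · apply hdn.1
      rw [show s + π + π / 3 = u + 4 * π / 3 by rw [hus]; ring]; exact hV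
    · exact h.V_nbr hV (by rw [dist_comm]; exact hdist _ _ (by ring)) (hRm u hu hus)
  have hy'V : ∀ u ∈ Icc t₀ (t₀ + π / 3), u ≠ s → m + e (u + 5 * π / 3) ∉ V L d f := by
    intro u hu hus hV
    refine h.V_nbr hV (hdist _ (u + 2 * π) (by ring)) ?_
    rw [e_add_two_pi]; exact hRp u hu hus
  have hcont : ∀ θ : ℝ, Continuous fun u : ℝ => m + e (u + θ) := fun θ =>
    continuous_const.add (continuous_e.comp (continuous_id.add continuous_const))
  have hxyW : ∀ u ∈ Icc t₀ (t₀ + π / 3), m + e (u + π / 3) ∈ W L a b ∧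
      m + e (u + 2 * π / 3) ∈ W L a b ∧
      dist (m + e (u + π / 3)) (m + e (u + 2 * π / 3)) = 1 := fun u hu =>
    ⟨hW1 _ (by linarith [hu.1, hs.2]) (by linarith [hu.2, hs.1]),
      hW1 _ (by linarith [hu.1, hs.2]) (by linarith [hu.2, hs.1]), hdist _ _ (by ring)⟩
  have hI0 : t₀ ∈ Icc t₀ (t₀ + π / 3) := ⟨le_rfl, by linarith⟩
  have hI1 : t₀ + π / 3 ∈ Icc t₀ (t₀ + π / 3) := ⟨by linarith, le_rfl⟩
  have e3 : m + e (t₀ + π / 3 + 2 * π / 3) = m - e t₀ := by
    rw [hsub]; congr 2; ring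
  have hq₁ : m + e (s + π / 3) ∈ V L d f := by
    by_contra hn
    refine h.NFc H (s₀ := t₀) (s₁ := t₀ + π / 3) (by linarith) (hcont (π / 3))
      (hcont (2 * π / 3)) (fun u hu => ⟨(hxyW u hu).1, (hxyW u hu).2.1, (hxyW u hu).2.2, ?_,
        hyV u hu⟩) h1 (hc _ hI1).1 (by rw [e3]; exact h3) (by rw [e3]; exact (hc _ hI0).2)
    by_cases hus : u = s
    · rw [hus]; exact hn
    · exact hxV u hu hus
  have hq₂ : m + e (s - π / 3) ∈ V L d f := by
    by_contra hn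
    have e4 : m + e (t₀ + 4 * π / 3) = m - e (t₀ + π / 3) := by
      rw [hsub]; congr 2; ring
    have e6 : m + e (t₀ + π / 3 + 5 * π / 3) = m + e t₀ := by
      rw [← e_add_two_pi t₀]; congr 2; ring
    refine h.NFc H' (s₀ := t₀) (s₁ := t₀ + π / 3) (by linarith) (hcont (4 * π / 3))
      (hcont (5 * π / 3)) (fun u hu => ⟨hW2 _ (by linarith [hu.1, hs.2]) (by linarith [hu.2, hs.1]),
        hW2 _ (by linarith [hu.1, hs.2]) (by linarith [hu.2, hs.1]), hdist _ _ (by ring),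
        h.V_comm d f ▸ hx'V u hu, ?_⟩) (by rw [e4]; exact h4) (by rw [e4]; exact (hc _ hI1).2)
        (by rw [e6]; exact h0) (by rw [e6]; exact (hc _ hI0).1)
    rw [← h.V_comm d f]
    by_cases hus : u = s
    · rw [show u + 5 * π / 3 = s - π / 3 + 2 * π by rw [hus]; ring, e_add_two_pi]; exact hn
    · exact hy'V u hu hus
  rcases hdet' with hdet' | ⟨hpa, hpb, hma, hmb⟩
  · exact (h.detour_nbr H hr hdet' (hc s hsI).1).1 hq₁
  have hgood : ∀ u ∈ Icc t₀ (t₀ + π / 3), u ≠ s → m + e (u + π / 3) ∈ W L a b ∧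
      m + e (u + 2 * π / 3) ∈ W L a b ∧
      dist (m + e (u + π / 3)) (m + e (u + 2 * π / 3)) = 1 ∧
      m + e (u + π / 3) ∉ V L d f ∧ m + e (u + 2 * π / 3) ∉ V L d f := fun u hu hus =>
    ⟨(hxyW u hu).1, (hxyW u hu).2.1, (hxyW u hu).2.2, hxV u hu hus, hyV u hu⟩
  have hU₁ : ∀ u ∈ Ico t₀ s, Up L f c d (m + e (u + π / 3)) (m + e (u + 2 * π / 3)) := by
    intro u hu
    have hg := hgood t₀ hI0 hs.1.ne
    refine h.orient_const H isPreconnected_Ico (hcont (π / 3)) (hcont (2 * π / 3))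
      (fun u hu => hgood u ⟨hu.1, by linarith [hu.2, hs.2]⟩ hu.2.ne) ⟨le_rfl, hs.1⟩ hu ?_
    exact (h.orient_cases H hg.1 hg.2.1 hg.2.2.1 hg.2.2.2.1 hg.2.2.2.2).resolve_right
      fun hU => h.not_R_cd h1 (hc _ hI1).1 hg.2.2.2.1 hU.2
  have hU₂ : ∀ u ∈ Ioc s (t₀ + π / 3),
      Up L f c d (m + e (u + 2 * π / 3)) (m + e (u + π / 3)) := by
    intro u hu
    have hg := hgood _ hI1 hs.2.ne'
    refine h.orient_const H isPreconnected_Ioc (hcont (2 * π / 3)) (hcont (π / 3))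
      (fun u hu => ?_) ⟨hs.2, le_rfl⟩ hu ?_
    · have hg := hgood u ⟨by linarith [hu.1, hs.1], hu.2⟩ hu.1.ne'
      exact ⟨hg.2.1, hg.1, by rw [dist_comm]; exact hg.2.2.1, hg.2.2.2.2, hg.2.2.2.1⟩
    · exact (h.orient_cases H hg.1 hg.2.1 hg.2.2.1 hg.2.2.2.1 hg.2.2.2.2).resolve_left
        fun hU => h.not_R_cd (by rw [e3]; exact h3) (by rw [e3]; exact (hc _ hI0).2)
          hg.2.2.2.2 hU.2
  -- a neighbourhood of `q₁` in `R d f` without `c`-cells
  have hG : IsOpen (R L d f ∩ (closure (O L c))ᶜ) :=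
    (isOpen_R d f).inter isClosed_closure.isOpen_compl
  have hq₁G : m + e (s + π / 3) ∈ R L d f ∩ (closure (O L c))ᶜ :=
    ⟨hq₁.1, h.no_third hne.2.2.2.2.2.2.2.2.2 hne.2.2.2.2.2.2.2.1 hne.2.2.2.2.2.2.2.2.1 hq₁⟩
  obtain ⟨δ, hδ, hb⟩ := Metric.isOpen_iff.1 (hG.preimage (hcont (π / 3))) s hq₁G
  refine h.pinch_false H hm hma hmb hpa hpb (hc s hsI).1 hq₂.1 hq₁.1
    (η := min δ (min (s - t₀) (t₀ + π / 3 - s)))
    (lt_min hδ (lt_min (by linarith [hs.1]) (by linarith [hs.2]))) fun θ hθ => ?_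
  have hθ1 : θ < δ := hθ.2.trans_le (min_le_left _ _)
  have hθ2 : θ < s - t₀ := hθ.2.trans_le ((min_le_right _ _).trans (min_le_left _ _))
  have hθ3 : θ < t₀ + π / 3 - s := hθ.2.trans_le ((min_le_right _ _).trans (min_le_right _ _))
  have hθ0 := hθ.1
  constructor
  · have hx := hb (show s - θ ∈ ball s δ by
      rw [mem_ball, Real.dist_eq, abs_lt]; constructor <;> linarith)
    have hxf : m + e (s - θ + π / 3) ∈ O L f :=
      h.mem_O_of_R (h.R_comm f c ▸ (hU₁ (s - θ) ⟨by linarith, by linarith⟩).1) hx.2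
    have hp := h.pair_in_R (hRp (s - θ) ⟨by linarith, by linarith⟩ (by linarith)) hx.1
      (hdist _ _ rfl)
    rcases hp with hp | hp
    · exact hp.1
    · exact absurd hxf hp.2.2.2
  · have hx := hb (show s + θ ∈ ball s δ by
      rw [mem_ball, Real.dist_eq, abs_lt]; constructor <;> linarith)
    have hxd : m + e (s + θ + π / 3) ∈ O L d :=
      h.mem_O_of_R (hU₂ (s + θ) ⟨by linarith, by linarith⟩).2 hx.2
    have hp := h.pair_in_R (hRp (s + θ) ⟨by linarith, by linarith⟩ (by linarith)) hx.1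
      (hdist _ _ rfl)
    rcases hp with hp | hp
    · exact absurd hxd hp.2.2.2
    · exact hp.1

/-- Plan: `exists_five`, `detour`, `tube_pm` and `exists_generic_start` (start `t₁`).  If
`sin (t - ν) ≠ 0` on `Icc t₁ (t₁ + π/3)` use `F2p`.  Otherwise `e s = ± e ν` for some `s` in the open
interval (`hgen`); `nonfrozen`; if `e s = e ν` apply `F2_NF` at `(t₁, s)`, if `e s = - e ν` at
`(t₁ + π, s + π)`, for `d f` or `f d`. -/
theorem Sys.F2 (h : Sys L) {a b c : Fin 5} (hab : a ≠ b) (hca : c ≠ a) (hcb : c ≠ b) {m : ℂ}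
    (hm : m ∈ V L a b) {t₀ : ℝ}
    (hc : ∀ t ∈ Icc t₀ (t₀ + π / 3), m + e t ∉ K L c ∧ m - e t ∉ K L c) : False := by
  have hpi := Real.pi_pos
  obtain ⟨d, f, H⟩ := exists_five hab hca.symm hcb.symm
  have H' : Five a b c f d := H.perm (by tauto)
  obtain ⟨ν, r, hr, hvis, hdet, hdet'⟩ := h.detour hm
  obtain ⟨η, hη, ht⟩ := tube_pm (isClosed_K (L := L) c).isOpen_compl m
    (by linarith : t₀ ≤ t₀ + π / 3) hc
  obtain ⟨t₁, ht₁, hgen⟩ := exists_generic_start ν t₀ hη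
  have hc₁ : ∀ t ∈ Icc t₁ (t₁ + π / 3), m + e t ∉ K L c ∧ m - e t ∉ K L c := fun t htt =>
    ht t ⟨by linarith [htt.1, ht₁.1], by linarith [htt.2, ht₁.2]⟩ m (by simpa using hη)
  have hI0 : t₁ ∈ Icc t₁ (t₁ + π / 3) := ⟨le_rfl, by linarith⟩
  have hI1 : t₁ + π / 3 ∈ Icc t₁ (t₁ + π / 3) := ⟨by linarith, le_rfl⟩
  by_cases hex : ∃ s ∈ Icc t₁ (t₁ + π / 3), Real.sin (s - ν) = 0
  · obtain ⟨s, hs, hs0⟩ := hex
    obtain ⟨n, hn⟩ := Real.sin_eq_zero_iff.1 hs0
    have hs' : s ∈ Ioo t₁ (t₁ + π / 3) := by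
      refine ⟨lt_of_le_of_ne hs.1 fun h1 => hgen (3 * n) ?_,
        lt_of_le_of_ne hs.2 fun h1 => hgen (3 * n - 1) ?_⟩
      · push_cast; rw [h1, ← hn]; ring
      · push_cast; linarith
    have hnf := h.nonfrozen H hvis hgen (hc₁ _ hI0).1 (hc₁ _ hI1).1 (hc₁ _ hI0).2 (hc₁ _ hI1).2
    rcases (e_eq_or_neg_iff s ν).2 hs0 with he | he
    · rw [← he] at hvis hdet hdet'
      rcases hnf with ⟨h0, h1, h3, h4⟩ | ⟨h0, h1, h3, h4⟩
      · exact h.F2_NF H hm.1 hr hs' hvis hdet hdet' hc₁ h0 h1 h3 h4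
      · exact h.F2_NF H' hm.1 hr hs' hvis hdet hdet' hc₁ h0 h1 h3 h4
    · have he' : e ν = e (s + π) := by rw [e_add_pi, he, neg_neg]
      rw [he'] at hvis hdet hdet'
      have hs'' : s + π ∈ Ioo (t₁ + π) (t₁ + π + π / 3) :=
        ⟨by linarith [hs'.1], by linarith [hs'.2]⟩
      have hc₂ : ∀ t ∈ Icc (t₁ + π) (t₁ + π + π / 3), m + e t ∉ K L c ∧ m - e t ∉ K L c := by
        intro t htt
        have := hc₁ (t - π) ⟨by linarith [htt.1], by linarith [htt.2]⟩
        rw [e_sub_pi, ← sub_eq_add_neg, sub_neg_eq_add] at this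
        exact ⟨this.2, this.1⟩
      have e1 : e (t₁ + π + π / 3) = - e (t₁ + π / 3) := by
        rw [← e_add_pi]; congr 1; ring
      rcases hnf with ⟨h0, h1, h3, h4⟩ | ⟨h0, h1, h3, h4⟩
      · exact h.F2_NF H' hm.1 hr hs'' hvis hdet hdet' hc₂
          (by rwa [e_add_pi, ← sub_eq_add_neg]) (by rwa [e1, ← sub_eq_add_neg])
          (by rwa [e_add_pi, sub_neg_eq_add]) (by rwa [e1, sub_neg_eq_add])
      · exact h.F2_NF H hm.1 hr hs'' hvis hdet hdet' hc₂
          (by rwa [e_add_pi, ← sub_eq_add_neg]) (by rwa [e1, ← sub_eq_add_neg])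
          (by rwa [e_add_pi, sub_neg_eq_add]) (by rwa [e1, sub_neg_eq_add])
  · refine h.F2p H hm hc₁ fun t htt => ⟨fun hK => hex ⟨t, htt, ?_⟩, fun hK => hex ⟨t, htt, ?_⟩⟩
    · rw [← e_eq_or_neg_iff]
      rcases hvis _ (Or.inl hK) (dist_add_e m t) with h1 | h1
      · left; exact add_left_cancel h1
      · right; rw [sub_eq_add_neg] at h1; exact add_left_cancel h1
    · rw [← e_eq_or_neg_iff]
      have hd : dist m (m - e t) = 1 := by
        rw [sub_eq_add_neg, ← e_add_pi]; exact dist_add_e m _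
      rcases hvis _ (Or.inl hK) hd with h1 | h1
      · right; rw [sub_eq_add_neg] at h1
        have := add_left_cancel h1
        rw [← this, neg_neg]
      · left; exact sub_right_injective h1

end Crest.Agent.R40
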