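import Crest.Agent.R40.FrozenLoc

/-! Row 40, task Frozen: the frozen hexagon is impossible. -/

set_option autoImplicit false

open Set Metric
open scoped Real

namespace Crest.Agent.R40

variable {L : Fin 5 → Set ℂ}

lemma hex_mod_six (m : ℂ) (s : ℝ) (k : ℤ) : hex m s k = hex m s (k % 6) := by
  have p1 : Function.Periodic (hex m s) 6 := hex_add_six m s
  have e : k = k % 6 + (k / 6) • (6 : ℤ) := by rw [smul_eq_mul]; omega
  conv_lhs => rw [e, p1.zsmul]

lemma hex_zero (m : ℂ) (s : ℝ) : hex m s 0 = m + e s := by simp [hex]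

lemma hex_one (m : ℂ) (s : ℝ) : hex m s 1 = m + e (s + π / 3) := by simp [hex]

lemma hex_three (m : ℂ) (s : ℝ) : hex m s 3 = m - e s := by
  rw [hex, sub_eq_add_neg, ← e_add_pi]; congr 2; push_cast; ring

lemma hex_four (m : ℂ) (s : ℝ) : hex m s 4 = m - e (s + π / 3) := by
  rw [hex, sub_eq_add_neg, ← e_add_pi]; congr 2; push_cast; ring

lemma hex_mem_W {a b : Fin 5} {m : ℂ} {ν s : ℝ} {k : ℤ}
    (hvis : ∀ y, (y ∈ K L a ∨ y ∈ K L b) → dist m y = 1 → y = m + e ν ∨ y = m - e ν)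
    (hs : ∀ n : ℤ, s - ν ≠ ((3 * n - k : ℤ) : ℝ) * (π / 3)) : hex m s k ∈ W L a b := by
  intro hK
  have h1 := hvis _ hK (dist_add_e m _)
  rw [hex, sub_eq_add_neg, add_right_inj, add_right_inj, e_eq_or_neg_iff,
    Real.sin_eq_zero_iff] at h1
  obtain ⟨n, hn⟩ := h1
  exact hs n (by push_cast; linarith)

/-- Plan: `col k = if k % 3 = 0 then d else if k % 3 = 1 then f else c`.  `j = ⌊(t₀ - ν)/(π/3)⌋ + 1`,
`s* = ν + j π/3 ∈ Ioo t₀ (t₀ + π/3)` by `hgen`.  For `s ∈ Icc t₀ (t₀ + π/3)`, `s ≠ s*`, all vertices are in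
`W` (`hvis`, `e_eq_or_neg_iff`, `Real.sin_eq_zero_iff`); at `s*` the vertices `1 - j`, `2 - j` are.
At `t₀` the vertices `2`, `5` have neighbours in `O d` and `O f`, so they are in `O c`
(`mem_O_of_notK`): pattern `col` at `t₀`, pattern `k ↦ col (k+1)` at `t₀ + π/3` (`hex_shift`).
`frozen_persist` on `Ico t₀ s*` and `Ioc s* (t₀ + π/3)`, closure at `s*` by continuity, `frozen_jump`. -/
theorem Sys.frozen (h : Sys L) {a b c d f : Fin 5} (H : Five a b c d f) {m : ℂ} {ν t₀ : ℝ}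
    (hvis : ∀ y, (y ∈ K L a ∨ y ∈ K L b) → dist m y = 1 → y = m + e ν ∨ y = m - e ν)
    (hgen : ∀ k : ℤ, t₀ - ν ≠ k * (π / 3))
    (h0 : m + e t₀ ∈ O L d) (h1 : m + e (t₀ + π / 3) ∈ O L f)
    (h3 : m - e t₀ ∈ O L d) (h4 : m - e (t₀ + π / 3) ∈ O L f) : False := by
  have hπ : 0 < π / 3 := by positivity
  let col : ℤ → Fin 5 := fun k => if k % 3 = 0 then d else if k % 3 = 1 then f else c
  have c0 : ∀ k, k % 3 = 0 → col k = d := fun k hk => if_pos hk
  have c1 : ∀ k, k % 3 = 1 → col k = f := fun k hk => (if_neg (by omega)).trans (if_pos hk)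
  have c2 : ∀ k, k % 3 = 2 → col k = c := fun k hk =>
    (if_neg (by omega)).trans (if_neg (by omega))
  have hcol : ∀ k, Five a b (col k) (col (k + 1)) (col (k + 2)) := fun k => by
    rcases (by omega : k % 3 = 0 ∨ k % 3 = 1 ∨ k % 3 = 2) with hk | hk | hk
    · rw [c0 k hk, c1 _ (by omega), c2 _ (by omega)]; exact H.perm (by tauto)
    · rw [c1 k hk, c2 _ (by omega), c0 _ (by omega)]; exact H.perm (by tauto)
    · rw [c2 k hk, c0 _ (by omega), c1 _ (by omega)]; exact H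
  have hper : ∀ k, col (k + 3) = col k := fun k => by simp only [col, Int.add_emod_right]
  have hcol' : ∀ k, Five a b (col (k + 1)) (col (k + 1 + 1)) (col (k + 2 + 1)) := fun k => by
    rw [show k + 2 + 1 = k + 1 + 2 by ring]; exact hcol (k + 1)
  have hper' : ∀ k, col (k + 3 + 1) = col (k + 1) := fun k => by
    rw [show k + 3 + 1 = k + 1 + 3 by ring, hper]
  obtain ⟨j, j1, j2⟩ : ∃ j : ℤ, ν + (j - 1) * (π / 3) < t₀ ∧ t₀ < ν + j * (π / 3) := by
    have f1 := (le_div_iff₀ hπ).1 (Int.floor_le ((t₀ - ν) / (π / 3)))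
    have f2 := (div_lt_iff₀ hπ).1 (Int.lt_floor_add_one ((t₀ - ν) / (π / 3)))
    have f3 := f1.lt_of_ne (hgen _).symm
    exact ⟨⌊(t₀ - ν) / (π / 3)⌋ + 1, by push_cast; linarith, by push_cast; linarith⟩
  have hW : ∀ s, t₀ ≤ s → s ≤ t₀ + π / 3 → s ≠ ν + j * (π / 3) → ∀ k, hex m s k ∈ W L a b :=
    fun s s1 s2 s3 k => hex_mem_W hvis fun n hn => by
      generalize 3 * n - k = i at hn
      have a1 : ((j - 1 : ℤ) : ℝ) < i := lt_of_mul_lt_mul_right (by push_cast; linarith) hπ.le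
      have a2 : (i : ℝ) < (j + 1 : ℤ) := lt_of_mul_lt_mul_right (by push_cast; linarith) hπ.le
      have a3 := Int.cast_lt.1 a1
      have a4 := Int.cast_lt.1 a2
      obtain rfl : i = j := by omega
      exact s3 (by linarith)
  have hWs : ∀ k, (k + j) % 3 ≠ 0 → hex m (ν + j * (π / 3)) k ∈ W L a b := fun k hk =>
    hex_mem_W hvis fun n hn => by
      rw [add_sub_cancel_left] at hn
      have := Int.cast_injective (mul_right_cancel₀ hπ.ne' hn)
      omega
  have pd : ∀ k, k % 3 = 0 → hex m t₀ k ∈ O L d := fun k hk => by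
    rw [hex_mod_six]
    rcases (by omega : k % 6 = 0 ∨ k % 6 = 3) with e | e <;> rw [e]
    · rwa [hex_zero]
    · rwa [hex_three]
  have pf : ∀ k, k % 3 = 1 → hex m t₀ k ∈ O L f := fun k hk => by
    rw [hex_mod_six]
    rcases (by omega : k % 6 = 1 ∨ k % 6 = 4) with e | e <;> rw [e]
    · rwa [hex_one]
    · rwa [hex_four]
  have pat : ∀ k, hex m t₀ k ∈ O L (col k) := fun k => by
    rcases (by omega : k % 3 = 0 ∨ k % 3 = 1 ∨ k % 3 = 2) with hk | hk | hk
    · rw [c0 k hk]; exact pd k hk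
    · rw [c1 k hk]; exact pf k hk
    · rw [c2 k hk]
      have w := mem_W.1 (hW t₀ le_rfl (by linarith) j2.ne k)
      have e1 := dist_hex m t₀ (k - 1)
      rw [sub_add_cancel] at e1
      exact h.mem_O_of_notK (H.perm (a' := c) (b' := a) (c' := b) (d' := d) (f' := f) (by tauto))
        w.1 w.2 (not_mem_K_of_O (pd (k + 1) (by omega)) (by rw [dist_comm, dist_hex]))
        (not_mem_K_of_O (pf (k - 1) (by omega)) e1)
  have j3 : ν + j * (π / 3) < t₀ + π / 3 := by linarith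
  have hcont : ∀ k, Continuous fun s => hex m s k := fun k =>
    continuous_const.add (continuous_e.comp (continuous_id.add continuous_const))
  have P1 := h.frozen_persist hcol hper (T := Ico t₀ (ν + j * (π / 3))) isPreconnected_Ico
    (fun s hs => hW s hs.1 (hs.2.trans j3).le hs.2.ne) ⟨le_rfl, j2⟩ pat
  have P2 := h.frozen_persist (col := fun k => col (k + 1)) hcol' hper'
    (T := Ioc (ν + j * (π / 3)) (t₀ + π / 3)) isPreconnected_Ioc
    (fun s hs => hW s (j2.trans hs.1).le hs.2 hs.1.ne') ⟨j3, le_rfl⟩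
    (fun k => by rw [hex_shift]; exact pat (k + 1))
  refine h.frozen_jump hcol hper (hWs (1 - j) (by omega)) (hWs (1 - j + 1) (by omega))
    (fun k => map_mem_closure (f := fun s => hex m s k) (hcont k) ?_ fun s hs => P1 s hs k)
    (fun k => map_mem_closure (f := fun s => hex m s k) (hcont k) ?_ fun s hs => P2 s hs k)
  · rw [closure_Ico j2.ne]; exact ⟨j2.le, le_rfl⟩
  · rw [closure_Ioc j3.ne]; exact ⟨le_rfl, j3.le⟩

/-- the four points are in `W a b` (`hvis`, `hgen`), so in `R d f`; `pair_in_R` twice and `frozen`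
(for `d f` and for `f d`) -/
theorem Sys.nonfrozen (h : Sys L) {a b c d f : Fin 5} (H : Five a b c d f) {m : ℂ} {ν t₀ : ℝ}
    (hvis : ∀ y, (y ∈ K L a ∨ y ∈ K L b) → dist m y = 1 → y = m + e ν ∨ y = m - e ν)
    (hgen : ∀ k : ℤ, t₀ - ν ≠ k * (π / 3))
    (h0 : m + e t₀ ∉ K L c) (h1 : m + e (t₀ + π / 3) ∉ K L c)
    (h3 : m - e t₀ ∉ K L c) (h4 : m - e (t₀ + π / 3) ∉ K L c) :
    (m + e t₀ ∈ O L d ∧ m + e (t₀ + π / 3) ∈ O L f ∧ m - e t₀ ∈ O L f ∧
        m - e (t₀ + π / 3) ∈ O L d) ∨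
      (m + e t₀ ∈ O L f ∧ m + e (t₀ + π / 3) ∈ O L d ∧ m - e t₀ ∈ O L d ∧
        m - e (t₀ + π / 3) ∈ O L f) := by
  have hR : ∀ k, hex m t₀ k ∉ K L c → hex m t₀ k ∈ R L d f := fun k hk =>
    have w := mem_W.1 (hex_mem_W (k := k) hvis fun n => hgen _)
    h.mem_R_of_notK (H.perm (a' := d) (b' := f) (c' := a) (d' := b) (f' := c) (by tauto)) w.1 w.2 hk
  have r0 := hR 0
  have r1 := hR 1
  have r3 := hR 3
  have r4 := hR 4
  have d3 := dist_hex m t₀ 3
  rw [show (3 : ℤ) + 1 = 4 by rfl, hex_three, hex_four] at d3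
  rw [hex_zero] at r0
  rw [hex_one] at r1
  rw [hex_three] at r3
  rw [hex_four] at r4
  rcases h.pair_in_R (r0 h0) (r1 h1) (dist_e_pi_div_three m t₀) with p | p <;>
    rcases h.pair_in_R (r3 h3) (r4 h4) d3 with q | q
  · exact (h.frozen H hvis hgen p.1 p.2.2.1 q.1 q.2.2.1).elim
  · exact .inl ⟨p.1, p.2.2.1, q.1, q.2.2.1⟩
  · exact .inr ⟨p.1, p.2.2.1, q.1, q.2.2.1⟩
  · exact (h.frozen (H.perm (a' := a) (b' := b) (c' := c) (d' := f) (f' := d) (by tauto)) hvis hgen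
      p.1 p.2.2.1 q.1 q.2.2.1).elim

end Crest.Agent.R40
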