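import Crest.Agent.R40.Orient
import Crest.Agent.R40.Frozen
import Crest.Agent.R40.Detour

/-! Row 40, task F2p: F2 when the exceptional direction is outside the free arcs. -/

set_option autoImplicit false

open Set Metric
open scoped Real

namespace Crest.Agent.R40

variable {L : Fin 5 → Set ℂ}

/-- Plan: translate the centre to `m' = m + τ e ν`, `0 < τ ≤ 1` small.  `tube_pm` for the open set
`W a b \ K c` on `Icc t₀ (t₀ + π/3)`; `tube` for `W a b ∪ ball (m - e ν) r` on `Icc (t₀ + π/3) (t₀ + π)`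
(by `hvis`, `hν`), and `dist (m' + e t) (m + e ν) ≤ 2 - τ < 2`, so `m' + e t ∈ W a b` there.
`NFc` with `x s = m' + e (s + π/3)`, `y s = m' + e (s + 2π/3)`; they are not in `V d f` because their
neighbours `m' + e s`, `m' - e s` are in `R d f` (`V_nbr`). -/
theorem Sys.F2p_NF (h : Sys L) {a b c d f : Fin 5} (H : Five a b c d f) {m : ℂ} {ν r t₀ : ℝ}
    (hr : 0 < r)
    (hvis : ∀ y, (y ∈ K L a ∨ y ∈ K L b) → dist m y = 1 → y = m + e ν ∨ y = m - e ν)
    (hdet : ∀ x, dist x (m - e ν) < r → dist x (m + e ν) < 2 → x ∈ W L a b)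
    (hfree : ∀ t ∈ Icc t₀ (t₀ + π / 3),
      (m + e t ∈ W L a b ∧ m + e t ∉ K L c) ∧ (m - e t ∈ W L a b ∧ m - e t ∉ K L c))
    (hν : ∀ t ∈ Icc (t₀ + π / 3) (t₀ + π), e t ≠ e ν)
    (h1 : m + e (t₀ + π / 3) ∈ O L f) (h3 : m - e t₀ ∈ O L f) : False := by
  have hπ : 0 < π / 3 := by positivity
  obtain ⟨η₁, p₁, t1⟩ := tube_pm (G := W L a b ∩ (K L c)ᶜ)
    ((isOpen_W a b).inter (isClosed_K c).isOpen_compl) m (by linarith) hfree
  obtain ⟨η₂, p₂, t2⟩ := tube (G := W L a b ∪ ball (m - e ν) r) ((isOpen_W a b).union isOpen_ball) m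
    (t₀ := t₀ + π / 3) (t₁ := t₀ + π) (by linarith) fun t ht => by
      by_cases hK : m + e t ∈ W L a b
      · exact .inl hK
      rcases hvis _ (not_not.1 hK) (dist_add_e m t) with h2 | h2
      · exact absurd (add_left_cancel h2) (hν t ht)
      · exact .inr (h2 ▸ mem_ball_self hr)
  obtain ⟨η₃, p₃, t3⟩ := Metric.isOpen_iff.1 (isOpen_O f) _ h1
  obtain ⟨η₄, p₄, t4⟩ := Metric.isOpen_iff.1 (isOpen_O f) _ h3
  obtain ⟨τ, τ0, τ1, τ2, τ3, τ4, τ5⟩ :
      ∃ τ : ℝ, 0 < τ ∧ τ < η₁ ∧ τ < η₂ ∧ τ < η₃ ∧ τ < η₄ ∧ τ < 1 := by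
    obtain ⟨τ, h0, h2⟩ := exists_between
      (show 0 < min η₁ (min η₂ (min η₃ (min η₄ 1))) by positivity)
    simp only [lt_min_iff] at h2
    exact ⟨τ, h0, h2⟩
  set m' := m + τ * e ν with hm'
  have hd : dist m' m = τ := by
    rw [hm', dist_self_add_left, norm_mul, norm_e, mul_one, Complex.norm_real, Real.norm_of_nonneg τ0.le]
  have hW : ∀ t ∈ Icc (t₀ + π / 3) (t₀ + π), m' + e t ∈ W L a b := fun t ht => by
    rcases t2 t ⟨by linarith [ht.1], by linarith [ht.2]⟩ (m' + e t)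
      (by rw [dist_add_right, hd]; exact τ2) with h2 | h2
    · exact h2
    refine hdet _ h2 ?_
    rw [dist_eq_norm, show m' + e t - (m + e ν) = e t - ((1 - τ : ℝ) : ℂ) * e ν by
      rw [hm']; push_cast; ring]
    refine (norm_sub_le _ _).trans_lt ?_
    rw [norm_mul, norm_e, norm_e, Complex.norm_real, Real.norm_of_nonneg (by linarith)]
    linarith
  have hG : ∀ t ∈ Icc t₀ (t₀ + π / 3), m' + e t ∈ W L a b ∩ (K L c)ᶜ ∧
      m' - e t ∈ W L a b ∩ (K L c)ᶜ := fun t ht =>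
    t1 t ⟨by linarith [ht.1], by linarith [ht.2]⟩ m' (hd ▸ τ1)
  have hR : ∀ x ∈ W L a b ∩ (K L c)ᶜ, x ∈ R L d f := fun x hx =>
    h.mem_R_of_notK (H.perm (a' := d) (b' := f) (c' := a) (d' := b) (f' := c) (by tauto))
      (mem_W.1 hx.1).1 (mem_W.1 hx.1).2 hx.2
  have e3 : ∀ s, m' + e (s + π / 3 + π / 3 + π / 3) = m' - e s := fun s => by
    rw [sub_eq_add_neg, ← e_add_pi]; congr 2; ring
  refine h.NFc H (s₀ := t₀) (s₁ := t₀ + π / 3) (by linarith)
    (x := fun s => m' + e (s + π / 3)) (y := fun s => m' + e (s + π / 3 + π / 3))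
    (continuous_const.add (continuous_e.comp (by fun_prop)))
    (continuous_const.add (continuous_e.comp (by fun_prop))) (fun s hs => ?_)
    (t3 (by rw [mem_ball, dist_add_right, hd]; exact τ3)) (hG _ ⟨by linarith, le_rfl⟩).1.2 ?_ ?_
  · refine ⟨hW _ ⟨by linarith [hs.1], by linarith [hs.2]⟩,
      hW _ ⟨by linarith [hs.1], by linarith [hs.2]⟩, dist_e_pi_div_three _ _,
      fun hV => h.V_nbr hV (by rw [dist_comm]; exact dist_e_pi_div_three _ _) (hR _ (hG s hs).1),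
      fun hV => h.V_nbr hV (dist_e_pi_div_three _ _) ?_⟩
    rw [e3]; exact hR _ (hG s hs).2
  · rw [e3]; exact t4 (by rw [mem_ball, dist_sub_right, hd]; exact τ4)
  · rw [e3]; exact (hG _ ⟨le_rfl, by linarith⟩).2.2

/-- Plan: `detour` gives `ν`, `r`.  `b` is also invisible on the two arcs (if `m ± e t ∈ K b` then
`m ∉ O b`, `m ∉ O a`, and `a` is seen at one of `m ± e ν = m ± e t`).  `tube_pm` and
`exists_generic_start` give `t₁ ∈ Icc t₀ (t₀ + η)` with the same freeness and `hgen`.  `nonfrozen`.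
The arcs `Icc (t₁ + π/3) (t₁ + π)` and `Icc (t₁ + π + π/3) (t₁ + π + π)` are disjoint on the circle
(`e_eq_iff`), so `e ν` misses one of them: `F2p_NF` at `t₁` or at `t₁ + π` (`e_add_pi`, the roles of
`d`, `f` are exchanged). -/
theorem Sys.F2p (h : Sys L) {a b c d f : Fin 5} (H : Five a b c d f) {m : ℂ} (hm : m ∈ V L a b)
    {t₀ : ℝ} (hc : ∀ t ∈ Icc t₀ (t₀ + π / 3), m + e t ∉ K L c ∧ m - e t ∉ K L c)
    (ha : ∀ t ∈ Icc t₀ (t₀ + π / 3), m + e t ∉ K L a ∧ m - e t ∉ K L a) : False := by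
  have hπ : 0 < π / 3 := by positivity
  obtain ⟨ν, r, hr, hvis, hdet, -⟩ := h.detour hm
  have hb : ∀ t ∈ Icc t₀ (t₀ + π / 3), ∀ y, y = m + e t ∨ y = m - e t → y ∉ K L b := by
    intro t ht y hy hK
    have hd : dist m y = 1 := by
      rcases hy with rfl | rfl
      · exact dist_add_e m t
      · rw [dist_self_sub_right, norm_e]
    obtain ⟨w, hw, hd'⟩ := exists_K_of_not_O fun h1 => not_mem_O_of_K hK hd (hm.2.1 h1)
    have h1 := hvis y (.inr hK) hd
    have h2 := hvis w (.inl hw) hd'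
    have h3 : w = m + e t ∨ w = m - e t := by
      rcases hy with rfl | rfl <;> rcases h1 with h1 | h1 <;> rcases h2 with rfl | rfl <;>
        first
        | (left; linear_combination h1) | (left; linear_combination -h1)
        | (right; linear_combination h1) | (right; linear_combination -h1)
    rcases h3 with rfl | rfl
    exacts [(ha t ht).1 hw, (ha t ht).2 hw]
  obtain ⟨η, hη, t1⟩ := tube_pm (G := W L a b ∩ (K L c)ᶜ)
    ((isOpen_W a b).inter (isClosed_K c).isOpen_compl) m (t₀ := t₀) (t₁ := t₀ + π / 3) (by linarith)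
    fun t ht => ⟨⟨mem_W.2 ⟨(ha t ht).1, hb t ht _ (.inl rfl)⟩, (hc t ht).1⟩,
      ⟨mem_W.2 ⟨(ha t ht).2, hb t ht _ (.inr rfl)⟩, (hc t ht).2⟩⟩
  obtain ⟨t₁, ht₁, hgen⟩ := exists_generic_start ν t₀ hη
  have hfree : ∀ t ∈ Icc t₁ (t₁ + π / 3),
      (m + e t ∈ W L a b ∧ m + e t ∉ K L c) ∧ (m - e t ∈ W L a b ∧ m - e t ∉ K L c) := fun t ht =>
    t1 t ⟨by linarith [ht.1, ht₁.1], by linarith [ht.2, ht₁.2]⟩ m (by rwa [dist_self])
  have H' : Five a b c f d := H.perm (by tauto)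
  have f0 := hfree t₁ ⟨le_rfl, by linarith⟩
  have f1 := hfree (t₁ + π / 3) ⟨by linarith, le_rfl⟩
  have hN := h.nonfrozen H hvis hgen f0.1.2 f1.1.2 f0.2.2 f1.2.2
  by_cases hν : ∀ t ∈ Icc (t₁ + π / 3) (t₁ + π), e t ≠ e ν
  · rcases hN with p | p
    · exact h.F2p_NF H hr hvis hdet hfree hν p.2.1 p.2.2.1
    · exact h.F2p_NF H' hr hvis hdet hfree hν p.2.1 p.2.2.1
  · simp only [not_forall, not_not] at hν
    obtain ⟨u, hu, hue⟩ := hν
    have hν' : ∀ t ∈ Icc (t₁ + π + π / 3) (t₁ + π + π), e t ≠ e ν := fun t ht hte => by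
      obtain ⟨k, hk⟩ := (e_eq_iff t u).1 (hte.trans hue.symm)
      have a1 : ((0 : ℤ) : ℝ) < k := lt_of_mul_lt_mul_right (a := 2 * π)
        (by push_cast; linarith [ht.1, hu.2]) (by positivity)
      have a2 : (k : ℝ) < (1 : ℤ) := lt_of_mul_lt_mul_right (a := 2 * π)
        (by push_cast; linarith [ht.2, hu.1]) (by positivity)
      have a3 := Int.cast_lt.1 a1
      have a4 := Int.cast_lt.1 a2
      omega
    have hfree' : ∀ t ∈ Icc (t₁ + π) (t₁ + π + π / 3),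
        (m + e t ∈ W L a b ∧ m + e t ∉ K L c) ∧ (m - e t ∈ W L a b ∧ m - e t ∉ K L c) :=
      fun t ht => by
        have := hfree (t - π) ⟨by linarith [ht.1], by linarith [ht.2]⟩
        rw [e_sub_pi, ← sub_eq_add_neg, sub_neg_eq_add] at this
        exact this.symm
    have e1 : m + e (t₁ + π + π / 3) = m - e (t₁ + π / 3) := by
      rw [sub_eq_add_neg, ← e_add_pi, add_right_comm t₁]
    have e2 : m - e (t₁ + π) = m + e t₁ := by rw [e_add_pi, sub_neg_eq_add]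
    rcases hN with p | p
    · exact h.F2p_NF H' hr hvis hdet hfree' hν' (e1 ▸ p.2.2.2) (e2 ▸ p.1)
    · exact h.F2p_NF H hr hvis hdet hfree' hν' (e1 ▸ p.2.2.2) (e2 ▸ p.1)

end Crest.Agent.R40
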