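import Crest.Agent.R40.Sys

/-! Row 40, task Uni: unicoherence of the plane. -/

set_option autoImplicit false
set_option linter.unusedSectionVars false

open Set Metric
open scoped Real

namespace Crest.Agent.R40

/-- Plan: suppose `frontier Γ ⊆ F₁ ∪ F₂` with `F₁`, `F₂` disjoint closed sets, both meeting the
frontier (`isPreconnected_iff_subset_of_fully_disjoint_closed`).  Urysohn
(`exists_continuous_zero_one_of_isClosed`): `g : C(ℂ, ℝ)`, `g = 0` on `F₁`, `g = 1` on `F₂`.
Define `φ : ℂ → ℂ` by `exp (π I g)` on `closure Γ` and `exp (- π I g)` on `Γᶜ` (they agree on the frontier,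
`Continuous.if` / `continuous_if'`); `φ` never vanishes, so it has a continuous logarithm `ψ` on the simply
connected space `ℂ` (`IsCoveringMap.existsUnique_continuousMap_lifts` with `Complex.isCoveringMap_exp`,
or use `AddCircle.isCoveringMap_coe`).  `ψ - π I g` takes values in `2 π I ℤ` on the preconnected set
`closure Γ`, `ψ + π I g` on `Γᶜ`, so both are constant there (`IsPreconnected.constant_of_mapsTo`
/ discrete range); comparing at a point of `frontier Γ ∩ F₁` and at one of `frontier Γ ∩ F₂` gives
`2 π I = 0`. -/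
theorem isPreconnected_frontier {Γ : Set ℂ} (ho : IsOpen Γ) (hΓ : IsPreconnected Γ)
    (hc : IsPreconnected Γᶜ) : IsPreconnected (frontier Γ) := by
  classical
  rw [isPreconnected_iff_subset_of_fully_disjoint_closed isClosed_frontier]
  intro u v hu hv huv hd
  by_contra hn
  simp only [not_or, not_subset] at hn
  obtain ⟨⟨b, hb, hbu⟩, a, ha, hav⟩ := hn
  obtain ⟨g, g0, g1, -⟩ := exists_continuous_zero_one_of_isClosed hu hv hd
  have hfr : ∀ x ∈ frontier Γ, Circle.exp (π * g x) = Circle.exp (-π * g x) := fun x hx => by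
    rcases huv hx with h | h
    · simp [g0 h]
    · exact Circle.exp_eq_exp.2 ⟨1, by simp [g1 h]; ring⟩
  have c1 : Continuous fun x => π * g x := by fun_prop
  have c2 : Continuous fun x => -π * g x := by fun_prop
  have ga : g a = 0 := g0 ((huv ha).resolve_right hav)
  have gb : g b = 1 := g1 ((huv hb).resolve_left hbu)
  have hm : ∀ x ∈ frontier Γ, x ∈ closure Γ ∧ x ∉ Γ := fun x hx => by rwa [ho.frontier_eq] at hx
  obtain ⟨ψ, ⟨h0, h1⟩, -⟩ := Circle.isCoveringMap_exp.existsUnique_continuousMap_lifts
    ⟨Γ.piecewise (fun x => Circle.exp (π * g x)) fun x => Circle.exp (-π * g x),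
      Continuous.piecewise hfr (Circle.exp.continuous.comp c1) (Circle.exp.continuous.comp c2)⟩ a 0
    (by simp [(hm a ha).2, ga])
  have e1 := Circle.isCoveringMap_exp.eqOn_of_comp_eqOn hΓ.closure ψ.continuous.continuousOn
    c1.continuousOn (fun x hx => by
      rw [h1]
      by_cases h : x ∈ Γ
      · simp [h]
      · simpa [h] using (hfr x (by rw [ho.frontier_eq]; exact ⟨hx, h⟩)).symm) (hm a ha).1
    (by simp [h0, ga]) (hm b hb).1
  have e2 := Circle.isCoveringMap_exp.eqOn_of_comp_eqOn hc ψ.continuous.continuousOn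
    c2.continuousOn (fun x hx => by rw [h1]; simp [show x ∉ Γ from hx]) (hm a ha).2
    (by simp [h0, ga]) (hm b hb).2
  simp only [gb] at e1 e2
  linarith [Real.pi_pos]

end Crest.Agent.R40
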