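import Crest.Agent.R40.Corner
import Crest.Agent.R40.Uni

/-! Row 40, task Final: the system is contradictory. -/

set_option autoImplicit false

open Set Metric
open scoped Real

namespace Crest.Agent.R40

variable {L : Fin 5 → Set ℂ}

/-- Plan: `Γ = cell c x₀`; `frontier Γ` is preconnected (`isPreconnected_frontier`,
`isPreconnected_compl_cell`) and nonempty (`Γ` is bounded by `cell_dist_lt`; e.g. `exists_bdry_cell`
with `S = univ`).  Its points are in `closure (O c) \ O c` (`mem_cell_of_closure`) and not in `E`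
(`corner`), so each lies in exactly one of the open sets `R c a`, `a ≠ c` (`bdry_type`,
`type_unique`); hence all in one (`IsPreconnected.subset_left_of_subset_union` with `R c a` and the union
of the others, intersected with the frontier). -/
theorem Sys.frontier_type (h : Sys L) {c : Fin 5} {x₀ : ℂ} (hx₀ : x₀ ∈ O L c) :
    ∃ a, a ≠ c ∧ (frontier (cell L c x₀)).Nonempty ∧ frontier (cell L c x₀) ⊆ R L c a := by
  have hpc : IsPreconnected (frontier (cell L c x₀)) :=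
    isPreconnected_frontier (isOpen_cell c x₀) (isPreconnected_cell c x₀)
      (h.isPreconnected_compl_cell c x₀)
  have hfr : ∀ z ∈ frontier (cell L c x₀), z ∈ closure (O L c) ∧ z ∉ O L c ∧ z ∉ E L := by
    intro z hz
    rw [(isOpen_cell c x₀).frontier_eq] at hz
    exact ⟨closure_mono (cell_sub c x₀) hz.1, fun hO => hz.2 (mem_cell_of_closure hz.1 hO),
      h.corner hz.1⟩
  have hne : (frontier (cell L c x₀)).Nonempty := by
    have hns : ¬ (univ : Set ℂ) ⊆ cell L c x₀ := by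
      intro hs
      have := h.cell_dist_lt (hs (mem_univ (x₀ + e 0))) (mem_cell_self hx₀)
      rw [dist_add_e'] at this
      exact lt_irrefl _ this
    obtain ⟨z, -, hz, hzO⟩ := exists_bdry_cell isPreconnected_univ
      ⟨x₀, mem_univ _, mem_cell_self hx₀⟩ hns
    refine ⟨z, ?_⟩
    rw [(isOpen_cell c x₀).frontier_eq]
    exact ⟨hz, fun hc => hzO (cell_sub c x₀ hc)⟩
  obtain ⟨z₀, hz₀⟩ := hne
  obtain ⟨a, hac, hz₀a, -⟩ := h.bdry_type (hfr z₀ hz₀).1 (hfr z₀ hz₀).2.1 (hfr z₀ hz₀).2.2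
  refine ⟨a, hac, ⟨z₀, hz₀⟩, ?_⟩
  by_contra hns
  obtain ⟨z₁, hz₁, hz₁a⟩ := not_subset.1 hns
  have hV : IsOpen (⋃ b ∈ {b : Fin 5 | b ≠ c ∧ b ≠ a}, R L c b) :=
    isOpen_biUnion fun b _ => isOpen_R c b
  have hcov : frontier (cell L c x₀) ⊆ R L c a ∪ ⋃ b ∈ {b : Fin 5 | b ≠ c ∧ b ≠ a}, R L c b := by
    intro z hz
    obtain ⟨b, hbc, hzb, -⟩ := h.bdry_type (hfr z hz).1 (hfr z hz).2.1 (hfr z hz).2.2
    by_cases hba : b = a
    · left; exact hba ▸ hzb
    · right; exact mem_biUnion (show b ∈ {b : Fin 5 | b ≠ c ∧ b ≠ a} from ⟨hbc, hba⟩) hzb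
  have h₁ : z₁ ∈ ⋃ b ∈ {b : Fin 5 | b ≠ c ∧ b ≠ a}, R L c b := (hcov hz₁).resolve_left hz₁a
  obtain ⟨z, hz, hza, hzb⟩ := hpc _ _ (isOpen_R c a) hV hcov ⟨z₀, hz₀, hz₀a⟩ ⟨z₁, hz₁, h₁⟩
  obtain ⟨b, hb, hzb⟩ := mem_iUnion₂.1 hzb
  exact h.type_unique hac hb.1 hb.2.symm (hfr z hz).1 (hfr z hz).2.1 hza hzb

/-- Plan: `sub_O_of_noline`.  An `a`-line `sphere y 1` meeting `Γ` is not contained in `Γ`
(antipodal points, `cell_dist_lt`), so it contains a boundary point (`exists_bdry_cell`), which is in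
`R c a = R a c`, hence in `O c` by `cov_R`: contradiction. -/
theorem Sys.cell_sub_other (h : Sys L) {c a : Fin 5} {x₀ : ℂ}
    (hf : frontier (cell L c x₀) ⊆ R L c a) : cell L c x₀ ⊆ O L a := by
  refine sub_O_of_noline (isOpen_cell c x₀) fun y hy x hx hd => ?_
  have hS : IsPreconnected (range fun t : ℝ => y + e t) :=
    isPreconnected_range (continuous_const.add continuous_e)
  obtain ⟨t, ht⟩ := exists_e_of_dist (show dist y x = 1 by rw [dist_comm]; exact hd)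
  have hns : ¬ (range fun t : ℝ => y + e t) ⊆ cell L c x₀ := by
    intro hs
    have := h.cell_dist_lt (hs ⟨t, rfl⟩) (hs ⟨t + π / 3, rfl⟩)
    rw [dist_e_pi_div_three] at this
    exact lt_irrefl _ this
  obtain ⟨z, ⟨u, rfl⟩, hz, hzO⟩ := exists_bdry_cell hS ⟨x, ⟨t, ht.symm⟩, hx⟩ hns
  have hzf : y + e u ∈ frontier (cell L c x₀) := by
    rw [(isOpen_cell c x₀).frontier_eq]
    exact ⟨hz, fun hc => hzO (cell_sub c x₀ hc)⟩
  have hR : y + e u ∈ R L a c := h.R_comm c a ▸ hf hzf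
  exact hzO (cov_R a c y hy _ hR (dist_add_e' y u))

/-- Plan: take `x₀ ∈ O c` (`cells_dense`), `Γ = cell c x₀ ⊆ O a`, `frontier Γ ⊆ R c a`.
`Γ' = cell a x₀ ⊆ O k`, `k ≠ a`, and `k = c` by `no_triple`; so `Γ' ⊆ Γ ⊆ Γ'` (`sub_cell`).  A point
`z ∈ frontier Γ` is in neither `O c` nor `O a` (`mem_cell_of_closure`), so `z ∈ V c a`.  `lines_near`:
points `x₁` on `c`-lines arbitrarily close to `z`, `x₁ ∈ O a \ O c`; `cell a x₁ ⊆ O k` with `k ≠ a`,
`k ≠ c`.  This contradicts `no_third` for the finitely many `k ∉ {a, c}`. -/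
theorem not_sys : ¬ Sys L := by
  intro h
  obtain ⟨x₀, -, c, hx₀⟩ := h.cells_dense isOpen_univ univ_nonempty
  obtain ⟨a, hac, ⟨z, hz⟩, hf⟩ := h.frontier_type hx₀
  have hsub := h.cell_sub_other hf
  have hx₀a : x₀ ∈ O L a := hsub (mem_cell_self hx₀)
  obtain ⟨k, hka, -, hf'⟩ := h.frontier_type hx₀a
  have hsub' := h.cell_sub_other hf'
  have hkc : k = c := by
    by_contra hkc
    exact h.no_triple hac (Ne.symm hka) (Ne.symm hkc) hx₀a hx₀ (hsub' (mem_cell_self hx₀a))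
  subst hkc
  have h₁ : cell L a x₀ ⊆ cell L k x₀ :=
    sub_cell (isPreconnected_cell a x₀) hsub' (mem_cell_self hx₀a)
  have h₂ : cell L k x₀ ⊆ cell L a x₀ :=
    sub_cell (isPreconnected_cell k x₀) hsub (mem_cell_self hx₀)
  have hzR := hf hz
  rw [(isOpen_cell k x₀).frontier_eq] at hz
  have hzk : z ∉ O L k := fun hO => hz.2 (mem_cell_of_closure hz.1 hO)
  have hza : z ∉ O L a := fun hO =>
    hz.2 (h₁ (mem_cell_of_closure (closure_mono h₂ hz.1) hO))
  have hzV : z ∈ V L k a := ⟨hzR, iff_of_false hzk hza⟩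
  -- an open neighbourhood of `z` in `R k a` free of the third colours
  have hN : IsOpen (R L k a ∩ ⋂ j ∈ {j : Fin 5 | j ≠ k ∧ j ≠ a}, (closure (O L j))ᶜ) :=
    (isOpen_R k a).inter ((toFinite _).isOpen_biInter fun j _ => isClosed_closure.isOpen_compl)
  have hzN : z ∈ R L k a ∩ ⋂ j ∈ {j : Fin 5 | j ≠ k ∧ j ≠ a}, (closure (O L j))ᶜ :=
    ⟨hzR, mem_iInter₂.2 fun j hj => h.no_third hka hj.1 hj.2 hzV⟩
  obtain ⟨δ, hδ, hb⟩ := Metric.isOpen_iff.1 hN z hzN
  obtain ⟨y, hy, x₁, hx₁, hxy, hx₁k⟩ := lines_near hzk δ hδ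
  have hx₁N := hb (show x₁ ∈ ball z δ from hx₁)
  have hx₁a : x₁ ∈ O L a := cov_R k a y hy x₁ hx₁N.1 hxy
  obtain ⟨j, hja, -, hfj⟩ := h.frontier_type hx₁a
  have hx₁j : x₁ ∈ O L j := h.cell_sub_other hfj (mem_cell_self hx₁a)
  have hjk : j ≠ k := fun hjk => hx₁k (hjk ▸ hx₁j)
  exact (mem_iInter₂.1 hx₁N.2 j ⟨hjk, hja⟩) (subset_closure hx₁j)

end Crest.Agent.R40
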