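import Crest.Agent.R40.WStruct

/-! Row 40, task FrozenLoc: the hexagon pattern `d f c d f c` is rigid (local statements). -/

set_option autoImplicit false

open Set Metric
open scoped Real

namespace Crest.Agent.R40

variable {L : Fin 5 → Set ℂ}

/-- vertices of the rotating hexagon -/
noncomputable def hex (m : ℂ) (s : ℝ) (k : ℤ) : ℂ := m + e (s + k * (π / 3))

lemma dist_hex (m : ℂ) (s : ℝ) (k : ℤ) : dist (hex m s k) (hex m s (k + 1)) = 1 := by
  have := dist_e_pi_div_three m (s + k * (π / 3))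
  rw [hex, hex, Int.cast_add, Int.cast_one, add_mul, one_mul, ← add_assoc]
  exact this

/-- the two neighbours of a vertex are at distance `√3` -/
lemma hex_nbrs (m : ℂ) (s : ℝ) (k : ℤ) :
    hex m s (k - 1) ≠ hex m s (k + 1) ∧ dist (hex m s (k - 1)) (hex m s (k + 1)) ≠ 2 := by
  have h3 : dist (hex m s (k - 1)) (hex m s (k + 1)) = √3 := by
    rw [hex, hex, dist_eq_norm, add_sub_add_left_eq_sub, norm_e_sub_e,
      show (s + ((k - 1 : ℤ) : ℝ) * (π / 3) - (s + ((k + 1 : ℤ) : ℝ) * (π / 3))) / 2 = -(π / 3) by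
        push_cast; ring, Real.sin_neg, abs_neg, Real.sin_pi_div_three,
      abs_of_nonneg (by positivity)]
    ring
  have h4 : √3 * √3 = (3 : ℝ) := Real.mul_self_sqrt (by norm_num)
  refine ⟨fun h0 => ?_, fun h0 => ?_⟩
  · rw [h0, dist_self] at h3; rw [← h3] at h4; norm_num at h4
  · rw [h0] at h3; rw [← h3] at h4; norm_num at h4

lemma hex_add_six (m : ℂ) (s : ℝ) (k : ℤ) : hex m s (k + 6) = hex m s k := by
  rw [hex, hex, ← e_add_two_pi (s + k * (π / 3))]
  congr 2; push_cast; ring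

lemma hex_shift (m : ℂ) (s : ℝ) (k : ℤ) : hex m (s + π / 3) k = hex m s (k + 1) := by
  rw [hex, hex]
  congr 2; push_cast; ring

/-- Plan.  All vertices are outside `E` (`notE_of_W`), vertex `k` is in `K (col k)`, so it is in no
`O (col (k ± 1))`, and in no `O a`, `O b`.  Step 1: if `hex k ∉ O (col k)` then, by `bdry_type` and
`V_ne_of_W`, `hex k ∈ V (col k) (col (k+1))` or `hex k ∈ V (col k) (col (k-1))`.  Step 2, first case:
`y = hex (k+1) ∉ R (col k) (col (k+1))` (`V_nbr`), so `y ∉ O (col (k+1))` and by step 1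
`y ∈ V (col (k+1)) (col (k+2))`; its neighbours `hex k ∈ K (col (k+1))` (`V_sub_closure'`) and
`hex (k+2) ∈ K (col (k+2))` contradict `V_two_nbrs`, `hex_nbrs`.  The second case is symmetric
(`y = hex (k-1) ∈ V (col (k-1)) (col (k-2))`). -/
theorem Sys.frozen_loc (h : Sys L) {a b : Fin 5} {col : ℤ → Fin 5}
    (hcol : ∀ k, Five a b (col k) (col (k + 1)) (col (k + 2))) (hper : ∀ k, col (k + 3) = col k)
    {m : ℂ} {s : ℝ} (hW : ∀ k, hex m s k ∈ W L a b)
    (hcl : ∀ k, hex m s k ∈ closure (O L (col k))) (k : ℤ) : hex m s k ∈ O L (col k) := by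
  have hab : a ≠ b := (hcol 0).ne.1
  have hc : ∀ k k' : ℤ, k' = k + 3 → col k' = col k := fun k k' e => e ▸ hper k
  have hK : ∀ k, hex m s k ∈ K L (col k) := fun k => h.closure_O_sub _ (hcl k)
  have hd' : ∀ k, dist (hex m s k) (hex m s (k - 1)) = 1 := fun k => by
    have := dist_hex m s (k - 1)
    rwa [sub_add_cancel, dist_comm] at this
  have step : ∀ k, hex m s k ∉ O L (col k) →
      hex m s k ∈ V L (col k) (col (k + 1)) ∨ hex m s k ∈ V L (col k) (col (k + 2)) := fun k hk => by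
    obtain ⟨u, hu, hR, hV⟩ := h.bdry_type (hcl k) hk
      (h.notE_of_W hab (hW k) (hW (k + 1)) (dist_hex m s k))
    have hKu : hex m s k ∈ K L u := closure_minimal
      ((h.V_sub_closure' _ _).trans (h.closure_O_sub u)) (isClosed_K u) hV
    rcases hcol k u with rfl | rfl | rfl | rfl | rfl
    · exact absurd hKu (mem_W.1 (hW k)).1
    · exact absurd hKu (mem_W.1 (hW k)).2
    · exact absurd rfl hu
    · exact .inl ⟨hR, iff_of_false hk (not_mem_O_of_K (hK (k + 1)) (dist_hex m s k))⟩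
    · refine .inr ⟨hR, iff_of_false hk ?_⟩
      rw [hc (k - 1) (k + 2) (by ring)]
      exact not_mem_O_of_K (hK (k - 1)) (hd' k)
  by_contra hk
  rcases step k hk with hV | hV
  · have h1 := h.V_nbr hV (dist_hex m s k)
    rcases step (k + 1) (fun h2 => h1 (O_sub_R_right _ _ h2)) with h2 | h2
    · have h3 := hex_nbrs m s (k + 1)
      rw [add_sub_cancel_right] at h3
      have h4 := hd' (k + 1)
      rw [add_sub_cancel_right] at h4
      exact (h.V_two_nbrs h2 (.inl (h.closure_O_sub _ (h.V_sub_closure' _ _ hV))) (.inr (hK _)) h4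
        (dist_hex m s (k + 1))).elim h3.1 h3.2
    · rw [hc k (k + 1 + 2) (by ring)] at h2
      exact h1 (h.R_comm _ _ ▸ h2.1)
  · rw [hc (k - 1) (k + 2) (by ring)] at hV
    have h1 := h.V_nbr hV (hd' k)
    rcases step (k - 1) (fun h2 => h1 (O_sub_R_right _ _ h2)) with h2 | h2
    · rw [sub_add_cancel] at h2
      exact h1 (h.R_comm _ _ ▸ h2.1)
    · have h3 := hex_nbrs m s (k - 1)
      have h4 := dist_hex m s (k - 1)
      rw [sub_add_cancel] at h3 h4
      rw [hc (k - 1 - 1) (k - 1 + 2) (by ring)] at h2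
      exact (h.V_two_nbrs h2 (.inr (hK _)) (.inl (h.closure_O_sub _ (h.V_sub_closure' _ _ hV)))
        (hd' (k - 1)) h4).elim h3.1 h3.2

/-- Plan: `x = hex k₀ ∉ E`.  With `i = col k₀`, `j = col (k₀+1)`, `l = col (k₀+2) = col (k₀-1)`:
`hex (k₀-1) ∈ K l ∩ K i`, `hex (k₀+1) ∈ K j`, so `x` is in no `O`, hence `x ∈ V u v` for some `u ≠ v`;
`no_third` gives `{u, v} = {i, j}`; `V_two_nbrs`, `hex_nbrs`. -/
theorem Sys.frozen_jump (h : Sys L) {a b : Fin 5} {col : ℤ → Fin 5}
    (hcol : ∀ k, Five a b (col k) (col (k + 1)) (col (k + 2))) (hper : ∀ k, col (k + 3) = col k)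
    {m : ℂ} {s : ℝ} {k₀ : ℤ} (hW₀ : hex m s k₀ ∈ W L a b) (hW₁ : hex m s (k₀ + 1) ∈ W L a b)
    (hl : ∀ k, hex m s k ∈ closure (O L (col k)))
    (hr : ∀ k, hex m s k ∈ closure (O L (col (k + 1)))) : False := by
  have hab : a ≠ b := (hcol 0).ne.1
  have hd' : dist (hex m s k₀) (hex m s (k₀ - 1)) = 1 := by
    have := dist_hex m s (k₀ - 1)
    rwa [sub_add_cancel, dist_comm] at this
  have hi : hex m s (k₀ - 1) ∈ K L (col k₀) := by
    have := h.closure_O_sub _ (hr (k₀ - 1))
    rwa [sub_add_cancel] at this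
  have hj : hex m s (k₀ + 1) ∈ K L (col (k₀ + 1)) := h.closure_O_sub _ (hl _)
  have hl' : hex m s (k₀ - 1) ∈ K L (col (k₀ + 2)) := by
    rw [show k₀ + 2 = k₀ - 1 + 3 by ring, hper]
    exact h.closure_O_sub _ (hl _)
  have hno : ∀ u, hex m s k₀ ∉ O L u := fun u => by
    rcases hcol k₀ u with rfl | rfl | rfl | rfl | rfl
    · exact fun hu => (mem_W.1 hW₀).1 (h.O_sub _ hu)
    · exact fun hu => (mem_W.1 hW₀).2 (h.O_sub _ hu)
    · exact not_mem_O_of_K hi hd'
    · exact not_mem_O_of_K hj (dist_hex m s k₀)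
    · exact not_mem_O_of_K hl' hd'
  have hE := h.notE_of_W hab hW₀ hW₁ (dist_hex m s k₀)
  simp only [E, mem_setOf_eq, not_forall, not_not] at hE
  obtain ⟨u, v, huv, hR⟩ := hE
  have hV : hex m s k₀ ∈ V L u v := ⟨hR, iff_of_false (hno u) (hno v)⟩
  have key : ∀ c y, hex m s k₀ ∈ closure (O L c) → y ∈ K L c → y ∈ K L u ∨ y ∈ K L v :=
    fun c y hc hy => by
      by_cases h1 : c = u
      · exact .inl (h1 ▸ hy)
      by_cases h2 : c = v
      · exact .inr (h2 ▸ hy)
      exact absurd hc (h.no_third huv h1 h2 hV)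
  exact (h.V_two_nbrs hV (key _ _ (hl k₀) hi) (key _ _ (hr k₀) hj) hd' (dist_hex m s k₀)).elim
    (hex_nbrs m s k₀).1 (hex_nbrs m s k₀).2

/-- the set of times with the pattern is open (only six conditions: `hex_add_six`, `hper`) and
relatively closed in `T` (`frozen_loc`); `IsPreconnected.subset_of_closure_inter_subset` -/
theorem Sys.frozen_persist (h : Sys L) {a b : Fin 5} {col : ℤ → Fin 5}
    (hcol : ∀ k, Five a b (col k) (col (k + 1)) (col (k + 2))) (hper : ∀ k, col (k + 3) = col k)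
    {m : ℂ} {T : Set ℝ} (hT : IsPreconnected T) (hW : ∀ s ∈ T, ∀ k, hex m s k ∈ W L a b)
    {s₀ : ℝ} (h₀ : s₀ ∈ T) (hp : ∀ k, hex m s₀ k ∈ O L (col k)) :
    ∀ s ∈ T, ∀ k, hex m s k ∈ O L (col k) := by
  have hcont : ∀ k, Continuous fun s => hex m s k := fun k =>
    continuous_const.add (continuous_e.comp (continuous_id.add continuous_const))
  have hU : IsOpen {s | ∀ k, hex m s k ∈ O L (col k)} := by
    have : {s | ∀ k, hex m s k ∈ O L (col k)} =
        ⋂ k ∈ Finset.Ico (0 : ℤ) 6, (fun s => hex m s k) ⁻¹' O L (col k) := by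
      ext s
      simp only [mem_setOf_eq, mem_iInter, mem_preimage]
      refine ⟨fun hs k _ => hs k, fun hs k => ?_⟩
      have p1 : Function.Periodic (hex m s) 6 := hex_add_six m s
      have p2 : Function.Periodic col 6 := fun k => by
        rw [show k + 6 = k + 3 + 3 by ring, hper, hper]
      have e : k = k % 6 + (k / 6) • (6 : ℤ) := by rw [smul_eq_mul]; omega
      rw [e, p1.zsmul, p2.zsmul]
      exact hs _ (Finset.mem_Ico.2 (by omega))
    rw [this]
    exact isOpen_biInter_finset fun k _ => (isOpen_O _).preimage (hcont k)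
  exact hT.subset_of_closure_inter_subset hU ⟨s₀, h₀, hp⟩ fun s hs =>
    h.frozen_loc hcol hper (hW s hs.2) fun k =>
      map_mem_closure (f := fun s => hex m s k) (hcont k) hs.1 fun s hs => hs k

end Crest.Agent.R40
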