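import Crest.Agent.R40.Sys

/-! Row 40, task Geo1: elementary facts on unit vectors and unit circles (no colours). -/

set_option autoImplicit false

open Set Metric
open scoped Real

namespace Crest.Agent.R40

lemma norm_e_sub_e (s t : ℝ) : ‖e s - e t‖ = 2 * |Real.sin ((s - t) / 2)| := by
  have h1 : ‖e s - e t‖ ^ 2 = (2 * |Real.sin ((s - t) / 2)|) ^ 2 := by
    rw [Complex.sq_norm, Complex.normSq_apply, Complex.sub_re, Complex.sub_im, e_re, e_re, e_im,
      e_im, mul_pow, sq_abs]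
    have hc : Real.cos (s - t) = 1 - 2 * Real.sin ((s - t) / 2) ^ 2 := by
      have := Real.cos_two_mul ((s - t) / 2)
      rw [show 2 * ((s - t) / 2) = s - t by ring] at this
      have h2 := Real.sin_sq_add_cos_sq ((s - t) / 2)
      linarith
    rw [Real.cos_sub] at hc
    have h3 := Real.sin_sq_add_cos_sq s
    have h4 := Real.sin_sq_add_cos_sq t
    nlinarith
  exact (pow_left_inj₀ (norm_nonneg _) (by positivity) two_ne_zero).1 h1

lemma norm_e_sub_e_le (s t : ℝ) : ‖e s - e t‖ ≤ |s - t| := by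
  rw [norm_e_sub_e]
  have := Real.abs_sin_le_abs (x := (s - t) / 2)
  rw [abs_div, abs_two] at this
  linarith

lemma dist_add_e (x : ℂ) (t : ℝ) : dist x (x + e t) = 1 := by
  rw [dist_comm, dist_eq_norm]; simp [norm_e]

lemma dist_add_e' (x : ℂ) (t : ℝ) : dist (x + e t) x = 1 := by
  rw [dist_eq_norm]; simp [norm_e]

lemma exists_e_of_dist {x y : ℂ} (h : dist x y = 1) : ∃ t, y = x + e t := by
  rw [dist_comm, dist_eq_norm] at h
  obtain ⟨t, ht⟩ := exists_e_of_norm_one h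
  exact ⟨t, by rw [← ht]; ring⟩

/-- two points of a unit circle at angular distance `π/3` are at distance one -/
lemma dist_e_pi_div_three (x : ℂ) (t : ℝ) : dist (x + e t) (x + e (t + π / 3)) = 1 := by
  rw [dist_eq_norm, add_sub_add_left_eq_sub, norm_e_sub_e,
    show (t - (t + π / 3)) / 2 = -(π / 6) by ring, Real.sin_neg, Real.sin_pi_div_six]
  norm_num [abs_of_pos]

lemma e_eq_or_neg_iff (s t : ℝ) : (e s = e t ∨ e s = - e t) ↔ Real.sin (s - t) = 0 := by
  have key : Real.sin (s - t) = 2 * Real.sin ((s - t) / 2) * Real.cos ((s - t) / 2) := by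
    rw [← Real.sin_two_mul]; congr 1; ring
  have h1 : e s = e t ↔ Real.sin ((s - t) / 2) = 0 := by
    rw [← sub_eq_zero, ← norm_eq_zero, norm_e_sub_e]; simp
  have h2 : e s = - e t ↔ Real.cos ((s - t) / 2) = 0 := by
    rw [← e_add_pi, ← sub_eq_zero, ← norm_eq_zero, norm_e_sub_e,
      show (s - (t + π)) / 2 = (s - t) / 2 - π / 2 by ring, Real.sin_sub_pi_div_two]
    simp
  rw [h1, h2, key]
  simp

lemma e_eq_iff (s t : ℝ) : e s = e t ↔ ∃ k : ℤ, s = t + k * (2 * π) := by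
  rw [← sub_eq_zero, ← norm_eq_zero, norm_e_sub_e]
  simp only [mul_eq_zero, OfNat.ofNat_ne_zero, abs_eq_zero, false_or]
  rw [Real.sin_eq_zero_iff]
  constructor
  · rintro ⟨n, hn⟩
    exact ⟨n, by linarith⟩
  · rintro ⟨n, hn⟩
    exact ⟨n, by linarith⟩

lemma e_sub_pi (t : ℝ) : e (t - π) = - e t := by
  have := e_add_pi (t - π)
  rw [sub_add_cancel] at this
  rw [this, neg_neg]

lemma ip_e_e (s t : ℝ) : ip (e s) (e t) = Real.cos (s - t) := by
  simp [ip, e_re, e_im, Real.cos_sub]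

lemma ip_self (u : ℂ) : ip u u = ‖u‖ ^ 2 := by
  rw [Complex.sq_norm, Complex.normSq_apply, ip]

lemma abs_ip_le (u v : ℂ) : |ip u v| ≤ ‖u‖ * ‖v‖ := by
  apply abs_le_of_sq_le_sq _ (by positivity)
  rw [mul_pow, Complex.sq_norm, Complex.sq_norm, Complex.normSq_apply, Complex.normSq_apply, ip]
  nlinarith [sq_nonneg (u.re * v.im - u.im * v.re)]

lemma norm_sub_sq_ip (u v : ℂ) : ‖u - v‖ ^ 2 = ‖u‖ ^ 2 - 2 * ip u v + ‖v‖ ^ 2 := by
  simp only [Complex.sq_norm, Complex.normSq_apply, ip, Complex.sub_re, Complex.sub_im]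
  ring

lemma antipodal_iff {z w w' : ℂ} (h : dist z w = 1) (h' : dist z w' = 1) :
    dist w w' = 2 ↔ w' = 2 * z - w := by
  rw [dist_eq_norm] at h h' ⊢
  constructor
  · intro h2
    have hp := parallelogram_law_with_norm ℝ (z - w') (z - w)
    have e1 : z - w' - (z - w) = w - w' := by ring
    rw [e1, h, h', h2] at hp
    have h0 : ‖z - w' + (z - w)‖ = 0 := by
      have : ‖z - w' + (z - w)‖ ^ 2 = 0 := by nlinarith
      exact pow_eq_zero_iff (two_ne_zero) |>.1 this
    rw [norm_eq_zero] at h0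
    linear_combination -h0
  · intro h2
    have : w - w' = -2 * (z - w) := by rw [h2]; ring
    rw [this, norm_mul, h]; simp

/-- Plan: take `t = t₀ + arg (u / e t₀)`, `|t - t₀| ≤ π`, and Jordan's inequality
(`Real.mul_le_sin`) in `norm_e_sub_e`. -/
lemma arc_param {u : ℂ} (hu : ‖u‖ = 1) (t₀ s : ℝ) (h : ‖u - e t₀‖ < s) :
    ∃ t, u = e t ∧ |t - t₀| < 2 * s := by
  have hv : ‖u * e (-t₀)‖ = 1 := by rw [norm_mul, hu, norm_e, one_mul]
  set a := Complex.arg (u * e (-t₀)) with ha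
  have h1 : u * e (-t₀) = e a := by
    have := Complex.norm_mul_exp_arg_mul_I (u * e (-t₀))
    rw [hv] at this
    simpa [e, ha] using this.symm
  have h2 : u = e (t₀ + a) := by
    rw [e_add, ← h1, mul_left_comm, ← e_add]; simp [e_zero]
  refine ⟨t₀ + a, h2, ?_⟩
  rw [h2, norm_e_sub_e, show (t₀ + a - t₀) / 2 = a / 2 by ring] at h
  rw [add_sub_cancel_left]
  have hle : |a| ≤ π := Complex.abs_arg_le_pi _
  have hj : 2 / π * |a / 2| ≤ |Real.sin (a / 2)| :=
    Real.mul_abs_le_abs_sin (by rw [abs_div, abs_two]; linarith)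
  rw [abs_div, abs_two] at hj
  have hpi := Real.pi_pos
  have hpi4 := Real.pi_le_four
  have h3 : |a| ≤ π * |Real.sin (a / 2)| := by
    have : 2 / π * (|a| / 2) = |a| / π := by field_simp
    rw [this, div_le_iff₀ hpi] at hj
    linarith
  nlinarith [abs_nonneg (Real.sin (a / 2))]

/-- points of a unit circle close to a given one and different from two given points -/
lemma near_on_circle {m y : ℂ} (h : dist m y = 1) (q₁ q₂ : ℂ) {ε : ℝ} (hε : 0 < ε) :
    ∃ y', dist y' y < ε ∧ dist m y' = 1 ∧ y' ≠ q₁ ∧ y' ≠ q₂ := by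
  obtain ⟨t, rfl⟩ := exists_e_of_dist h
  set η : ℝ := min ε 1 / 4 with hη
  have hη0 : 0 < η := by positivity
  have hη1 : η ≤ 1 / 4 := by have := min_le_right ε 1; linarith
  have hη2 : η ≤ ε / 4 := by have := min_le_left ε 1; linarith
  have hpi := Real.pi_gt_three
  have hinj : ∀ i j : ℝ, 0 < j - i → j - i ≤ 3 → m + e (t + i * η) ≠ m + e (t + j * η) := by
    intro i j h1 h2 heq
    rw [add_right_inj, e_eq_iff] at heq
    obtain ⟨k, hk⟩ := heq
    have h3 : (k : ℝ) * (2 * π) = -((j - i) * η) := by linarith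
    have h4 : 0 < (j - i) * η := by positivity
    have h5 : (j - i) * η ≤ 3 / 4 := by nlinarith
    have h6 : (k : ℝ) < 0 := by nlinarith
    have h7 : (-1 : ℝ) < k := by nlinarith
    have h8 : k < 0 := by exact_mod_cast h6
    have h9 : -1 < k := by exact_mod_cast h7
    omega
  have hclose : ∀ i : ℝ, 0 ≤ i → i ≤ 3 → dist (m + e (t + i * η)) (m + e t) < ε := by
    intro i h1 h2
    rw [dist_eq_norm, add_sub_add_left_eq_sub]
    refine (norm_e_sub_e_le _ _).trans_lt ?_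
    rw [add_sub_cancel_left, abs_of_nonneg (by positivity)]
    nlinarith
  have h12 := hinj 1 2 (by norm_num) (by norm_num)
  have h13 := hinj 1 3 (by norm_num) (by norm_num)
  have h23 := hinj 2 3 (by norm_num) (by norm_num)
  by_cases a1 : m + e (t + 1 * η) ≠ q₁ ∧ m + e (t + 1 * η) ≠ q₂
  · exact ⟨_, hclose 1 (by norm_num) (by norm_num), dist_add_e _ _, a1⟩
  by_cases a2 : m + e (t + 2 * η) ≠ q₁ ∧ m + e (t + 2 * η) ≠ q₂
  · exact ⟨_, hclose 2 (by norm_num) (by norm_num), dist_add_e _ _, a2⟩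
  refine ⟨_, hclose 3 (by norm_num) (by norm_num), dist_add_e _ _, ?_⟩
  rw [not_and_or, not_not, not_not] at a1 a2
  constructor
  · intro h3
    rcases a1 with a1 | a1
    · exact h13 (a1.trans h3.symm)
    · rcases a2 with a2 | a2
      · exact h23 (a2.trans h3.symm)
      · exact h12 (a1.trans a2.symm)
  · intro h3
    rcases a1 with a1 | a1
    · rcases a2 with a2 | a2
      · exact h12 (a1.trans a2.symm)
      · exact h23 (a2.trans h3.symm)
    · exact h13 (a1.trans h3.symm)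

/-- tube lemma around a closed arc (compactness; `IsCompact.exists_thickening_subset_open`,
 `norm_e_sub_e_le`; project `t` on `Icc t₀ t₁`). -/
lemma tube {G : Set ℂ} (hG : IsOpen G) (m : ℂ) {t₀ t₁ : ℝ} (h01 : t₀ ≤ t₁)
    (h : ∀ t ∈ Icc t₀ t₁, m + e t ∈ G) :
    ∃ η > 0, ∀ t ∈ Icc (t₀ - η) (t₁ + η), ∀ x, dist x (m + e t) < η → x ∈ G := by
  have hK : IsCompact ((fun t => m + e t) '' Icc t₀ t₁) :=
    isCompact_Icc.image (continuous_const.add continuous_e)
  obtain ⟨δ, hδ, hsub⟩ := hK.exists_thickening_subset_open hG (by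
    rintro _ ⟨t, ht, rfl⟩; exact h t ht)
  refine ⟨δ / 2, by positivity, fun t ht x hx => hsub ?_⟩
  rw [Metric.mem_thickening_iff]
  refine ⟨m + e (max t₀ (min t t₁)), ⟨_, ⟨le_max_left _ _, max_le h01 (min_le_right _ _)⟩, rfl⟩, ?_⟩
  have h1 : dist (m + e t) (m + e (max t₀ (min t t₁))) ≤ δ / 2 := by
    rw [dist_eq_norm, add_sub_add_left_eq_sub]
    refine (norm_e_sub_e_le _ _).trans ?_
    obtain ⟨h1, h2⟩ := ht
    rw [abs_le]
    rcases le_total t t₁ with h3 | h3
    · rw [min_eq_left h3]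
      rcases le_total t₀ t with h4 | h4
      · rw [max_eq_right h4]; constructor <;> linarith
      · rw [max_eq_left h4]; constructor <;> linarith
    · rw [min_eq_right h3, max_eq_right h01]; constructor <;> linarith
  have := dist_triangle x (m + e t) (m + e (max t₀ (min t t₁)))
  linarith

lemma tube_pm {G : Set ℂ} (hG : IsOpen G) (m : ℂ) {t₀ t₁ : ℝ} (h01 : t₀ ≤ t₁)
    (h : ∀ t ∈ Icc t₀ t₁, m + e t ∈ G ∧ m - e t ∈ G) :
    ∃ η > 0, ∀ t ∈ Icc (t₀ - η) (t₁ + η), ∀ m', dist m' m < η →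
      m' + e t ∈ G ∧ m' - e t ∈ G := by
  obtain ⟨η₁, h1, H1⟩ := tube hG m h01 (fun t ht => (h t ht).1)
  obtain ⟨η₂, h2, H2⟩ := tube hG m (t₀ := t₀ + π) (t₁ := t₁ + π) (by linarith) (fun t ht => by
    have := (h (t - π) ⟨by linarith [ht.1], by linarith [ht.2]⟩).2
    rwa [e_sub_pi, sub_neg_eq_add] at this)
  refine ⟨min η₁ η₂, lt_min h1 h2, fun t ht m' hm' => ⟨?_, ?_⟩⟩
  · refine H1 t ⟨by linarith [ht.1, min_le_left η₁ η₂], by linarith [ht.2, min_le_left η₁ η₂]⟩ _ ?_
    rw [dist_add_right]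
    exact hm'.trans_le (min_le_left _ _)
  · refine H2 (t + π) ⟨by linarith [ht.1, min_le_right η₁ η₂],
      by linarith [ht.2, min_le_right η₁ η₂]⟩ _ ?_
    rw [e_add_pi, sub_eq_add_neg, dist_add_right]
    exact hm'.trans_le (min_le_right _ _)

/-- a start angle whose hexagon avoids the directions `± e ν` -/
lemma exists_generic_start (ν t₀ : ℝ) {η : ℝ} (hη : 0 < η) :
    ∃ t ∈ Icc t₀ (t₀ + η), ∀ k : ℤ, t - ν ≠ k * (π / 3) := by
  by_contra hcon
  push Not at hcon
  have hpi := Real.pi_gt_three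
  have hm : 0 < min η 1 := by positivity
  obtain ⟨k, hk⟩ := hcon t₀ ⟨le_rfl, by linarith⟩
  obtain ⟨k', hk'⟩ := hcon (t₀ + min η 1) ⟨by linarith, by linarith [min_le_left η 1]⟩
  have h1 : ((k' - k : ℤ) : ℝ) * (π / 3) = min η 1 := by push_cast; linarith
  have h2 : (0 : ℝ) < ((k' - k : ℤ) : ℝ) := by nlinarith
  have h3 : ((k' - k : ℤ) : ℝ) < 1 := by nlinarith [min_le_right η 1]
  have h4 : 0 < k' - k := by exact_mod_cast h2
  have h5 : k' - k < 1 := by exact_mod_cast h3
  omega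

end Crest.Agent.R40
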