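import Crest.Agent.R40.Geo1

/-! Row 40, task Geo2: stability of the intersection points of two unit circles.
Plan: for `y ≠ w`, `dist y w ≤ 2`, the point
`cross y w = (y + w) / 2 + I * (w - y) / ‖w - y‖ * √(1 - ‖w - y‖^2 / 4)` is at distance one from `y` and
`w`; every common point is `cross y w` or `cross w y`; `cross` is continuous on `{y ≠ w}`. -/

set_option autoImplicit false

open Set Metric
open scoped Real

namespace Crest.Agent.R40

/-- the two intersection points (`σ = ± 1`) of the unit circles around `y` and `w` -/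
noncomputable def cross (σ : ℝ) (y w : ℂ) : ℂ :=
  (y + w) / 2 + ((σ * √(1 - ‖w - y‖ ^ 2 / 4) / ‖w - y‖ : ℝ) : ℂ) * Complex.I * (w - y)

lemma cross_dist {σ : ℝ} {y w : ℂ} (hσ : σ ^ 2 = 1) (hne : w ≠ y) (h2 : ‖w - y‖ ≤ 2) :
    dist (cross σ y w) y = 1 ∧ dist (cross σ y w) w = 1 := by
  have hd0 : 0 < ‖w - y‖ := norm_pos_iff.2 (sub_ne_zero.2 hne)
  set c : ℝ := σ * √(1 - ‖w - y‖ ^ 2 / 4) / ‖w - y‖ with hc
  have hs2 : √(1 - ‖w - y‖ ^ 2 / 4) ^ 2 = 1 - ‖w - y‖ ^ 2 / 4 := Real.sq_sqrt (by nlinarith)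
  have hc2 : c ^ 2 * ‖w - y‖ ^ 2 = 1 - ‖w - y‖ ^ 2 / 4 := by
    rw [hc, div_pow, mul_pow, hσ, hs2]; field_simp
  have key : ∀ a : ℝ, a ^ 2 = 1 / 4 → ‖((a : ℂ) + c * Complex.I) * (w - y)‖ = 1 := by
    intro a ha
    have : ‖((a : ℂ) + c * Complex.I) * (w - y)‖ ^ 2 = 1 := by
      rw [norm_mul, mul_pow, Complex.sq_norm (a + c * Complex.I), Complex.normSq_add_mul_I]
      nlinarith
    exact (pow_eq_one_iff_of_nonneg (norm_nonneg _) two_ne_zero).1 this
  constructor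
  · rw [dist_eq_norm, ← key (1 / 2) (by norm_num), cross, ← hc]
    congr 1; push_cast; ring
  · rw [dist_eq_norm, ← key (-1 / 2) (by norm_num), cross, ← hc]
    congr 1; push_cast; ring

lemma cross_continuousAt (σ : ℝ) {y w : ℂ} (hne : w ≠ y) :
    ContinuousAt (fun p : ℂ × ℂ => cross σ p.1 p.2) (y, w) := by
  have hd0 : ‖w - y‖ ≠ 0 := norm_ne_zero_iff.2 (sub_ne_zero.2 hne)
  unfold cross
  have h1 : ContinuousAt (fun p : ℂ × ℂ => σ * √(1 - ‖p.2 - p.1‖ ^ 2 / 4) / ‖p.2 - p.1‖) (y, w) :=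
    ContinuousAt.div (by fun_prop) (by fun_prop) hd0
  have h2 := Complex.continuous_ofReal.continuousAt.comp h1
  exact ContinuousAt.add (by fun_prop) ((h2.mul continuousAt_const).mul (by fun_prop))

lemma cross_near {σ : ℝ} {y w : ℂ} (hσ : σ ^ 2 = 1) (hne : w ≠ y) {ε : ℝ} (hε : 0 < ε) :
    ∃ δ > 0, ∀ y' w', dist y' y < δ → dist w' w < δ → dist y' w' ≤ 2 →
      ∃ x', dist x' (cross σ y w) < ε ∧ dist x' y' = 1 ∧ dist x' w' = 1 := by
  obtain ⟨δ, hδ, H⟩ := Metric.continuousAt_iff.1 (cross_continuousAt σ hne) ε hε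
  have hd0 : 0 < dist w y := dist_pos.2 hne
  refine ⟨min δ (dist w y / 2), lt_min hδ (by linarith), fun y' w' h1 h2 h3 => ?_⟩
  have hne' : w' ≠ y' := by
    rintro rfl
    have a1 := h1.trans_le (min_le_right _ _)
    have a2 := h2.trans_le (min_le_right _ _)
    have := dist_triangle_left w y w'
    linarith
  refine ⟨cross σ y' w', H (x := (y', w')) ?_,
    cross_dist hσ hne' (by rwa [← dist_eq_norm, dist_comm])⟩
  rw [Prod.dist_eq]
  exact max_lt (h1.trans_le (min_le_left _ _)) (h2.trans_le (min_le_left _ _))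

lemma eq_cross {x y w : ℂ} (hy : dist x y = 1) (hw : dist x w = 1) (hne : w ≠ y) :
    ∃ σ : ℝ, σ ^ 2 = 1 ∧ x = cross σ y w := by
  have hne' : w - y ≠ 0 := sub_ne_zero.2 hne
  have hd0 : 0 < ‖w - y‖ := norm_pos_iff.2 hne'
  set z := (x - (y + w) / 2) / (w - y) with hz
  have hx : x = (y + w) / 2 + z * (w - y) := by rw [hz]; field_simp; ring
  have h1 : ‖z + 1 / 2‖ ^ 2 * ‖w - y‖ ^ 2 = 1 := by
    rw [← mul_pow, ← norm_mul, show (z + 1 / 2) * (w - y) = x - y by rw [hx]; ring,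
      ← dist_eq_norm, hy]; norm_num
  have h2 : ‖z - 1 / 2‖ ^ 2 * ‖w - y‖ ^ 2 = 1 := by
    rw [← mul_pow, ← norm_mul, show (z - 1 / 2) * (w - y) = x - w by rw [hx]; ring,
      ← dist_eq_norm, hw]; norm_num
  rw [Complex.sq_norm (z + 1 / 2), Complex.normSq_apply] at h1
  rw [Complex.sq_norm (z - 1 / 2), Complex.normSq_apply] at h2
  simp only [Complex.add_re, Complex.add_im, Complex.sub_re, Complex.sub_im, Complex.div_ofNat_re,
    Complex.div_ofNat_im, Complex.one_re, Complex.one_im, zero_div, add_zero, sub_zero] at h1 h2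
  have hre : z.re = 0 := by
    have : z.re * ‖w - y‖ ^ 2 = 0 := by linear_combination (h1 - h2) / 2
    rcases mul_eq_zero.1 this with h | h
    · exact h
    · exact absurd h (by positivity)
  have hs : √(1 - ‖w - y‖ ^ 2 / 4) = |z.im| * ‖w - y‖ := by
    rw [hre] at h1
    have := sq_abs z.im
    rw [show 1 - ‖w - y‖ ^ 2 / 4 = (|z.im| * ‖w - y‖) ^ 2 by rw [mul_pow, this]; nlinarith]
    exact Real.sqrt_sq (by positivity)
  obtain ⟨σ, hσ, hσ'⟩ : ∃ σ : ℝ, σ ^ 2 = 1 ∧ σ * |z.im| = z.im := by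
    rcases le_total 0 z.im with h | h
    · exact ⟨1, by norm_num, by rw [abs_of_nonneg h, one_mul]⟩
    · exact ⟨-1, by norm_num, by rw [abs_of_nonpos h]; ring⟩
  refine ⟨σ, hσ, ?_⟩
  have hc : σ * √(1 - ‖w - y‖ ^ 2 / 4) / ‖w - y‖ = z.im := by
    rw [hs, ← mul_assoc, hσ']; field_simp
  have hzI : z = z.im * Complex.I := by
    apply Complex.ext <;> simp [hre]
  rw [cross, hc, ← hzI]
  exact hx

/-- transversal crossing is stable -/
theorem cross_stable {x y w : ℂ} (hy : dist x y = 1) (hw : dist x w = 1) (hne : w ≠ y)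
    (h2 : dist y w ≠ 2) {ε : ℝ} (hε : 0 < ε) :
    ∃ δ > 0, ∀ y' w', dist y' y < δ → dist w' w < δ →
      ∃ x', dist x' x < ε ∧ dist x' y' = 1 ∧ dist x' w' = 1 := by
  obtain ⟨σ, hσ, hx⟩ := eq_cross hy hw hne
  obtain ⟨δ, hδ, H⟩ := cross_near hσ hne hε
  have hlt : dist y w < 2 := by
    refine lt_of_le_of_ne ?_ h2
    have := dist_triangle_left y w x
    linarith
  refine ⟨min δ ((2 - dist y w) / 2), lt_min hδ (by linarith), fun y' w' h1 h3 => ?_⟩
  rw [hx]
  refine H y' w' (h1.trans_le (min_le_left _ _)) (h3.trans_le (min_le_left _ _)) ?_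
  have a1 := h1.trans_le (min_le_right _ _)
  have a3 := h3.trans_le (min_le_right _ _)
  have := dist_triangle4 y' y w w'
  rw [dist_comm w w'] at this
  linarith

/-- externally tangent circles, pushed towards each other, cross near the tangency point -/
theorem cross_tangent {x y w : ℂ} (hy : dist x y = 1) (hw : dist x w = 1)
    (h2 : dist y w = 2) {ε : ℝ} (hε : 0 < ε) :
    ∃ δ > 0, ∀ y' w', dist y' y < δ → dist w' w < δ → dist y' w' ≤ 2 →
      ∃ x', dist x' x < ε ∧ dist x' y' = 1 ∧ dist x' w' = 1 := by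
  have hne : w ≠ y := by
    rintro rfl
    simp at h2
  obtain ⟨σ, hσ, hx⟩ := eq_cross hy hw hne
  obtain ⟨δ, hδ, H⟩ := cross_near hσ hne hε
  exact ⟨δ, hδ, fun y' w' h1 h3 h4 => hx ▸ H y' w' h1 h3 h4⟩

/-- two nearby centres whose difference is almost orthogonal to `x - p` have circles crossing
near `x` -/
theorem cross_perp {x p : ℂ} (hp : dist x p = 1) {ε : ℝ} (hε : 0 < ε) :
    ∃ δ > 0, ∃ κ > 0, ∀ y y', dist y p < δ → dist y' p < δ → y ≠ y' →
      |ip (y - y') (x - p)| < κ * ‖y - y'‖ →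
      ∃ x', dist x' x < ε ∧ dist x' y = 1 ∧ dist x' y' = 1 := by
  set δ : ℝ := min (ε / 5) 1 with hδ
  have hδ0 : 0 < δ := by positivity
  have hδ1 : δ ≤ 1 := min_le_right _ _
  have hδε : δ ≤ ε / 5 := min_le_left _ _
  refine ⟨δ, hδ0, δ, hδ0, fun y y' h1 h2 hne hip => ?_⟩
  set v := x - p with hv
  have hv1 : ‖v‖ = 1 := by rw [hv, ← dist_eq_norm, hp]
  set d := ‖y - y'‖ with hd
  have hd0 : 0 < d := norm_pos_iff.2 (sub_ne_zero.2 hne)
  have hd2 : d < 2 * δ := by
    have := dist_triangle_right y y' p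
    rw [dist_eq_norm y y'] at this
    linarith
  set u : ℂ := (y - y') / d with hu
  have hdC : (d : ℂ) ≠ 0 := by exact_mod_cast hd0.ne'
  have hu1 : ‖u‖ = 1 := by
    rw [hu, norm_div, Complex.norm_real, Real.norm_eq_abs, abs_of_pos hd0, ← hd, div_self hd0.ne']
  have hyu : y - y' = d * u := by rw [hu]; field_simp
  have hipu : |ip u v| < δ := by
    have : ip (y - y') v = d * ip u v := by
      rw [hyu]; simp only [ip, Complex.re_ofReal_mul, Complex.im_ofReal_mul]; ring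
    rw [this, abs_mul, abs_of_pos hd0, mul_comm δ d] at hip
    exact lt_of_mul_lt_mul_left hip hd0.le
  have hpyth : ip (Complex.I * u) v ^ 2 + ip u v ^ 2 = 1 := by
    have a1 : ‖u‖ ^ 2 = 1 := by rw [hu1]; norm_num
    have a2 : ‖v‖ ^ 2 = 1 := by rw [hv1]; norm_num
    rw [Complex.sq_norm, Complex.normSq_apply] at a1 a2
    simp only [ip, Complex.mul_re, Complex.mul_im, Complex.I_re, Complex.I_im]
    have : (u.re * u.re + u.im * u.im) * (v.re * v.re + v.im * v.im) = 1 := by rw [a1, a2]; ring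
    linear_combination this
  obtain ⟨σ, hσ, hσ'⟩ : ∃ σ : ℝ, σ ^ 2 = 1 ∧ σ * ip (Complex.I * u) v = |ip (Complex.I * u) v| := by
    rcases le_total 0 (ip (Complex.I * u) v) with h | h
    · exact ⟨1, by norm_num, by rw [abs_of_nonneg h, one_mul]⟩
    · exact ⟨-1, by norm_num, by rw [abs_of_nonpos h]; ring⟩
  have hσa : |σ| = 1 := by
    have : |σ| ^ 2 = 1 := by rw [sq_abs, hσ]
    exact (pow_eq_one_iff_of_nonneg (abs_nonneg _) two_ne_zero).1 this
  have hn1 : ‖(σ : ℂ) * (Complex.I * u)‖ = 1 := by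
    rw [norm_mul, norm_mul, Complex.norm_real, Real.norm_eq_abs, hσa, hu1]; simp
  have hn : ‖(σ : ℂ) * (Complex.I * u) - v‖ ≤ 2 * δ := by
    apply (pow_le_pow_iff_left₀ (norm_nonneg _) (by positivity) two_ne_zero).1
    rw [norm_sub_sq_ip, hn1, hv1]
    have : ip ((σ : ℂ) * (Complex.I * u)) v = |ip (Complex.I * u) v| := by
      rw [← hσ']; simp only [ip, Complex.re_ofReal_mul, Complex.im_ofReal_mul]; ring
    rw [this]
    have b1 : |ip (Complex.I * u) v| ≤ 1 := by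
      have := abs_ip_le (Complex.I * u) v
      rwa [norm_mul, Complex.norm_I, hu1, hv1, one_mul, one_mul] at this
    have b2 := sq_abs (ip (Complex.I * u) v)
    have b3 := sq_abs (ip u v)
    have b4 := abs_nonneg (ip (Complex.I * u) v)
    have b5 := abs_nonneg (ip u v)
    nlinarith
  obtain ⟨c1, c2⟩ := cross_dist (y := y') (w := y) hσ hne (by rw [← hd]; linarith)
  refine ⟨cross σ y' y, ?_, c2, c1⟩
  set s := √(1 - d ^ 2 / 4) with hs
  have hs1 : s ≤ 1 := Real.sqrt_le_one.2 (by nlinarith)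
  have hs0 : 0 ≤ s := Real.sqrt_nonneg _
  have hs2 : s ^ 2 = 1 - d ^ 2 / 4 := Real.sq_sqrt (by nlinarith)
  have hs3 : 1 - s ≤ δ := by nlinarith
  have key : cross σ y' y - x = ((y' - p) / 2 + (y - p) / 2) +
      ((s - 1 : ℝ) : ℂ) * ((σ : ℂ) * (Complex.I * u)) + ((σ : ℂ) * (Complex.I * u) - v) := by
    rw [cross, ← hd, ← hs, hyu, hv]
    push_cast
    field_simp
    ring
  rw [dist_eq_norm, key]
  have e1 : ‖(y' - p) / 2 + (y - p) / 2‖ < δ := by
    refine (norm_add_le _ _).trans_lt ?_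
    rw [norm_div, norm_div, ← dist_eq_norm, ← dist_eq_norm]
    simp only [Complex.norm_ofNat]
    linarith
  have e2 : ‖((s - 1 : ℝ) : ℂ) * ((σ : ℂ) * (Complex.I * u))‖ ≤ δ := by
    rw [norm_mul, hn1, mul_one, Complex.norm_real, Real.norm_eq_abs, abs_of_nonpos (by linarith)]
    linarith
  have := norm_add₃_le (a := (y' - p) / 2 + (y - p) / 2)
    (b := ((s - 1 : ℝ) : ℂ) * ((σ : ℂ) * (Complex.I * u))) (c := (σ : ℂ) * (Complex.I * u) - v)
  linarith

end Crest.Agent.R40
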