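import Crest.Agent.R40.Basic

/-! Row 40, task RegWin: regular points and windows. -/

set_option autoImplicit false

open Set Metric
open scoped Real

namespace Crest.Agent.R40

variable {L : Fin 5 → Set ℂ}

/-- Plan: choose `α` such that every `w ∈ K c` on the circle around `z` is `z ± e α` (`antipodal_iff`).
For `0 < ε ≤ 1` let `θ = arcsin ε`-like margin: on the two closed arcs where `|sin (t - α)| ≥ ε`
the points `z + e t` are outside `K c`; compactness (e.g. the compact set
`{u ∈ sphere 0 1 | ε ≤ |ip u (I * e α)|}` and `IsCompact.exists_thickening_subset_open`). -/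
theorem win_of_reg {c : Fin 5} {z : ℂ} (h : Reg L c z) :
    ∃ α : ℝ, ∀ ε > (0 : ℝ), ∃ ρ > (0 : ℝ), Win L c z ρ α ε := by
  have hα : ∃ α : ℝ, ∀ t, z + e t ∈ K L c → Real.sin (t - α) = 0 := by
    by_cases hw : ∃ t, z + e t ∈ K L c
    · obtain ⟨α, hα⟩ := hw
      refine ⟨α, fun t ht => (e_eq_or_neg_iff t α).1 ?_⟩
      rcases h _ hα _ ht (dist_add_e z α) (dist_add_e z t) with h1 | h1
      · exact Or.inl (add_left_cancel h1)
      · rw [antipodal_iff (dist_add_e z α) (dist_add_e z t)] at h1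
        right
        linear_combination h1
    · exact ⟨0, fun t ht => absurd ⟨t, ht⟩ hw⟩
  obtain ⟨α, hα⟩ := hα
  refine ⟨α, fun ε hε => ?_⟩
  have hip : ∀ t, ip (z + e t - z) (e (α + π / 2)) = Real.sin (t - α) := by
    intro t
    rw [add_sub_cancel_left, ip_e_e, ← Real.cos_sub_pi_div_two]
    congr 1; ring
  have hC : IsCompact (sphere z 1 ∩ {u : ℂ | ε ≤ |ip (u - z) (e (α + π / 2))|}) := by
    refine (isCompact_sphere z 1).inter_right (isClosed_le continuous_const ?_)
    unfold ip; fun_prop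
  obtain ⟨δ, hδ, hsub⟩ := hC.exists_thickening_subset_open (isClosed_K (L := L) c).isOpen_compl (by
    rintro u ⟨hu1, hu2⟩ hK
    obtain ⟨t, rfl⟩ := exists_e_of_dist (x := z) (y := u) (by rw [dist_comm]; exact hu1)
    have hu3 : ε ≤ |ip (z + e t - z) (e (α + π / 2))| := hu2
    rw [hip, hα t hK, abs_zero] at hu3
    linarith)
  refine ⟨δ, hδ, fun x hx t ht => ?_⟩
  by_contra hcon
  refine hsub (mem_thickening_iff.2 ⟨z + e t, ⟨dist_add_e' z t, ?_⟩, ?_⟩) ht
  · change ε ≤ |ip (z + e t - z) (e (α + π / 2))|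
    rw [hip]; exact not_lt.1 hcon
  · rw [dist_add_right]; exact hx

theorem Win.mono {c : Fin 5} {z z' : ℂ} {ρ ρ' α ε : ℝ} (h : Win L c z ρ α ε)
    (hb : ball z' ρ' ⊆ ball z ρ) : Win L c z' ρ' α ε :=
  fun x hx => h x (hb hx)

/-- a window leaves two antipodal arcs of `60°` free: take `t₀ = α + π/3` -/
theorem Win.free60 {c : Fin 5} {z : ℂ} {ρ α ε : ℝ} (h : Win L c z ρ α ε) (hε : ε ≤ 1 / 2)
    {m : ℂ} (hm : m ∈ ball z ρ) :
    ∀ t ∈ Icc (α + π / 3) (α + π / 3 + π / 3), m + e t ∉ K L c ∧ m - e t ∉ K L c := by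
  intro t ht
  have hpi := Real.pi_pos
  have hs : 1 / 2 ≤ Real.sin (t - α) := by
    rw [← Real.cos_sub_pi_div_two, ← Real.cos_abs, ← Real.cos_pi_div_three]
    refine Real.cos_le_cos_of_nonneg_of_le_pi (abs_nonneg _) (by linarith) ?_
    rw [abs_le]
    constructor <;> linarith [ht.1, ht.2]
  constructor
  · intro hK
    have := h m hm t hK
    have := le_abs_self (Real.sin (t - α))
    linarith
  · intro hK
    rw [sub_eq_add_neg, ← e_add_pi] at hK
    have h1 := h m hm _ hK
    have h2 : t + π - α = (t - α) + π := by ring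
    rw [h2, Real.sin_add_pi, abs_neg] at h1
    have := le_abs_self (Real.sin (t - α))
    linarith

/-- nearest point trick.  `z''` = a nearest point of the closed set `(O b)ᶜ` to `x₀`
(`IsClosed.exists_infDist_eq_dist`), `ρ = dist z'' x₀ > 0`, `ball x₀ ρ ⊆ O b`.  A unit circle through
`z''` with centre `w ∈ K b` avoids this ball, which forces `w - z'' = ± (x₀ - z'') / ρ` (otherwise
rotate `z''` slightly around `w` into the ball). -/
theorem exists_reg_bdry {b : Fin 5} {x₀ z' : ℂ} (hx₀ : x₀ ∈ O L b) (hz' : z' ∉ O L b) :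
    ∃ z'', dist z'' x₀ ≤ dist z' x₀ ∧ z'' ∈ closure (O L b) ∧ z'' ∉ O L b ∧ Reg L b z'' := by
  obtain ⟨z'', hz'', hd⟩ :=
    (isOpen_O (L := L) b).isClosed_compl.exists_infDist_eq_dist ⟨z', hz'⟩ x₀
  have hne : x₀ ≠ z'' := fun e => hz'' (e ▸ hx₀)
  have hρ : 0 < dist x₀ z'' := dist_pos.2 hne
  have hball : ball x₀ (dist x₀ z'') ⊆ O L b := by
    intro x hx
    by_contra hcon
    have := infDist_le_dist_of_mem (x := x₀) (s := (O L b)ᶜ) hcon
    rw [mem_ball, dist_comm] at hx
    linarith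
  have key : ∀ s, z'' + e s ∈ K L b →
      Real.cos s * (x₀ - z'').im - Real.sin s * (x₀ - z'').re = 0 := by
    intro s hs
    by_contra hc
    obtain ⟨d, hdd⟩ : ∃ d, d = x₀ - z'' := ⟨_, rfl⟩
    rw [← hdd] at hc
    obtain ⟨c, hcc⟩ : ∃ c, c = Real.cos s * d.im - Real.sin s * d.re := ⟨_, rfl⟩
    obtain ⟨a, haa⟩ : ∃ a, a = Real.cos s * d.re + Real.sin s * d.im := ⟨_, rfl⟩
    rw [← hcc] at hc
    obtain ⟨k, hk⟩ : ∃ k, k = c / (2 + |a|) := ⟨_, rfl⟩
    have hM : 0 < 2 + |a| := by positivity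
    have hck : c = k * (2 + |a|) := by rw [hk]; field_simp
    have hk0 : k ≠ 0 := fun e => hc (by rw [hck, e, zero_mul])
    obtain ⟨l, hl⟩ : ∃ l, l = 2 * k / (k ^ 2 + 1) := ⟨_, rfl⟩
    have hl1 : l * (k ^ 2 + 1) = 2 * k := by rw [hl]; field_simp
    have hlk : 0 < l * k := by
      rw [hl, div_mul_eq_mul_div]
      have : 0 < k * k := mul_self_pos.2 hk0
      apply div_pos <;> nlinarith
    have hcs := Real.cos_sq_add_sin_sq s
    obtain ⟨g, hg⟩ : ∃ g : ℂ, g = ⟨l * (k * Real.cos s - Real.sin s),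
      l * (k * Real.sin s + Real.cos s)⟩ := ⟨_, rfl⟩
    have hgre : g.re = l * (k * Real.cos s - Real.sin s) := by rw [hg]
    have hgim : g.im = l * (k * Real.sin s + Real.cos s) := by rw [hg]
    have hg2 : ‖g‖ ^ 2 = 2 * (l * k) := by
      rw [← ip_self, ip, hgre, hgim]
      linear_combination (l ^ 2 * (k ^ 2 + 1)) * hcs + l * hl1
    have hgu : ip g (e s) = l * k := by
      rw [ip, hgre, hgim, e_re, e_im]
      linear_combination (l * k) * hcs
    have hgd : ip g d = l * k * a + l * c := by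
      rw [ip, hgre, hgim, haa, hcc]; ring
    have h1 : dist (z'' + g) (z'' + e s) = 1 := by
      rw [dist_add_left, dist_eq_norm]
      have h2 := norm_sub_sq_ip g (e s)
      rw [hg2, hgu, norm_e] at h2
      have h3 : ‖g - e s‖ ^ 2 = 1 ^ 2 := by linarith
      exact (pow_left_inj₀ (norm_nonneg _) zero_le_one two_ne_zero).1 h3
    refine hball (a := z'' + g) ?_ _ hs h1
    rw [mem_ball, dist_eq_norm, dist_eq_norm, ← hdd]
    have h4 : z'' + g - x₀ = g - d := by rw [hdd]; ring
    rw [h4]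
    refine lt_of_pow_lt_pow_left₀ 2 (norm_nonneg _) ?_
    rw [norm_sub_sq_ip, hg2, hgd, hck]
    have h5 := neg_abs_le a
    nlinarith
  refine ⟨z'', ?_, ?_, hz'', ?_⟩
  · rw [dist_comm, ← hd, dist_comm]
    exact infDist_le_dist_of_mem (s := (O L b)ᶜ) hz'
  · refine closure_mono hball ?_
    rw [closure_ball _ hρ.ne', mem_closedBall, dist_comm]
  · intro w hw w' hw' h1 h2
    obtain ⟨s, rfl⟩ := exists_e_of_dist h1
    obtain ⟨t, rfl⟩ := exists_e_of_dist h2
    have k1 := key s hw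
    have k2 := key t hw'
    have h3 : Real.sin (t - s) = 0 := by
      by_contra hcon
      apply hne
      rw [← sub_eq_zero]
      apply Complex.ext
      · refine mul_left_cancel₀ hcon ?_
        rw [Real.sin_sub, Complex.zero_re]
        linear_combination Real.cos t * k1 - Real.cos s * k2
      · refine mul_left_cancel₀ hcon ?_
        rw [Real.sin_sub, Complex.zero_im]
        linear_combination Real.sin t * k1 - Real.sin s * k2
    rcases (e_eq_or_neg_iff t s).2 h3 with h4 | h4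
    · left; rw [h4]
    · right
      rw [antipodal_iff h1 h2, h4]; ring

end Crest.Agent.R40
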