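import Crest.Agent.R40.F1
import Crest.Agent.R40.RegWin

/-! Row 40, task L3: three colours seen only in small windows. -/

set_option autoImplicit false

open Set Metric
open scoped Real

namespace Crest.Agent.R40

variable {L : Fin 5 → Set ℂ}

/-- `avoid_windows` with `n = 6`, centres `α, β, γ, α - π/3, β - π/3, γ - π/3`, `δ = π/12`:
`x + e t` and `x + e (t + π/3)` are in `R d f`; `pair_in_R`. -/
theorem Sys.L3_free (h : Sys L) {a b c d f : Fin 5} (H : Five a b c d f) {z : ℂ}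
    {ρ α β γ : ℝ} (ha : Win L a z ρ α (1 / 100)) (hb : Win L b z ρ β (1 / 100))
    (hc : Win L c z ρ γ (1 / 100)) {x : ℂ} (hx : x ∈ ball z ρ) : x ∉ K L d ∧ x ∉ K L f := by
  have hs : 2 * (1 / 100 : ℝ) ≤ Real.sin (π / 12) := by
    have h1 := Real.mul_le_sin (x := π / 12) (by positivity) (by linarith [Real.pi_pos])
    have h2 : 2 / π * (π / 12) = 1 / 6 := by field_simp; norm_num
    linarith
  obtain ⟨k, -, hk⟩ := avoid_windows 6 ![α, β, γ, α - π / 3, β - π / 3, γ - π / 3] 0 (π / 12)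
    (1 / 100) (by positivity) (by push_cast; linarith) hs
  set t : ℝ := 0 + k * (π / 12) with ht
  have key : ∀ {i : Fin 5} {κ s : ℝ}, Win L i z ρ κ (1 / 100) → 1 / 100 ≤ |Real.sin (s - κ)| →
      x + e s ∉ K L i := fun hw hs hK => absurd (hw x hx _ hK) (not_lt.2 hs)
  have e1 : ∀ κ : ℝ, t + π / 3 - κ = t - (κ - π / 3) := fun κ => by ring
  have H' : Five d f a b c := H.perm (by tauto)
  have h1 : x + e t ∈ R L d f :=
    h.mem_R_of_notK H' (key ha (hk 0)) (key hb (hk 1)) (key hc (hk 2))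
  have h2 : x + e (t + π / 3) ∈ R L d f :=
    h.mem_R_of_notK H' (key ha (by rw [e1]; exact hk 3)) (key hb (by rw [e1]; exact hk 4))
      (key hc (by rw [e1]; exact hk 5))
  rcases h.pair_in_R h1 h2 (dist_e_pi_div_three x t) with ⟨p1, -, p2, -⟩ | ⟨p1, -, p2, -⟩
  · exact ⟨not_mem_K_of_O p1 (dist_add_e' _ _), not_mem_K_of_O p2 (dist_add_e' _ _)⟩
  · exact ⟨not_mem_K_of_O p2 (dist_add_e' _ _), not_mem_K_of_O p1 (dist_add_e' _ _)⟩

/-- the wall.  Plan: `ν` from `V_vis` for `m = x + e μ`.  For `x'' ∈ ball z ρ` off the two circles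
around `m ± e ν`, `l3_cross` gives `w = x'' + e t` at distance one from `m`, `|t - (μ + σ π/3)| ≤ 1/5`;
`w ∉ K b ∪ K c` by the windows (`|sin (t - β)| ≥ 2/5 - 1/5`), `w ∉ K d ∪ K f` since `w ≠ m ± e ν`, so
`w ∈ O a` and `x'' ∉ K a`.  With `L3_free`: `(ball z ρ \ sphere _ 1) \ sphere _ 1 ⊆ R b c`; `cov_R` and
`c5` twice. -/
theorem Sys.L3_wall (h : Sys L) {a b c d f : Fin 5} (H : Five a b c d f) {z : ℂ}
    {ρ α β γ : ℝ} (hρ : 0 < ρ) (hρ' : ρ ≤ 1 / 100) (ha : Win L a z ρ α (1 / 100))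
    (hb : Win L b z ρ β (1 / 100)) (hc : Win L c z ρ γ (1 / 100)) {x : ℂ} (hx : x ∈ ball z ρ)
    {μ σ : ℝ} (hσ : σ = 1 ∨ σ = -1) (hm : x + e μ ∈ V L d f)
    (hβ : 2 / 5 ≤ |Real.sin (μ + σ * (π / 3) - β)|)
    (hγ : 2 / 5 ≤ |Real.sin (μ + σ * (π / 3) - γ)|) : z ∈ R L b c := by
  obtain ⟨ν, hν⟩ := h.V_vis hm
  have hsub : (ball z ρ \ sphere (x + e μ + e ν) 1) \ sphere (x + e μ - e ν) 1 ⊆ R L b c := by
    rintro x'' ⟨⟨hx'', h1⟩, h2⟩
    have hd : dist x'' x < 1 / 50 := by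
      have := dist_triangle_right x'' x z
      rw [mem_ball] at hx hx''
      linarith
    obtain ⟨t, ht, hw⟩ := l3_cross hd μ σ hσ
    have key : ∀ {i : Fin 5} {κ : ℝ}, Win L i z ρ κ (1 / 100) →
        2 / 5 ≤ |Real.sin (μ + σ * (π / 3) - κ)| → x'' + e t ∉ K L i := by
      intro i κ hwin hκ hK
      have h3 := hwin x'' hx'' _ hK
      have h4 := Real.abs_sin_sub_sin_le (t - κ) (μ + σ * (π / 3) - κ)
      rw [show t - κ - (μ + σ * (π / 3) - κ) = t - (μ + σ * (π / 3)) by ring] at h4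
      have h5 := abs_sub_abs_le_abs_sub (Real.sin (μ + σ * (π / 3) - κ)) (Real.sin (t - κ))
      rw [abs_sub_comm] at h5
      linarith
    have key2 : ¬ (x'' + e t ∈ K L d ∨ x'' + e t ∈ K L f) := by
      intro hK
      rcases hν _ hK (by rwa [dist_comm]) with e1 | e1
      · exact h1 (by rw [mem_sphere, ← e1]; exact dist_add_e _ _)
      · exact h2 (by rw [mem_sphere, ← e1]; exact dist_add_e _ _)
    have hO : x'' + e t ∈ O L a := h.mem_O_of_notK H (key hb hβ) (key hc hγ)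
      (fun hK => key2 (Or.inl hK)) (fun hK => key2 (Or.inr hK))
    have hfree := h.L3_free H ha hb hc hx''
    exact h.mem_R_of_notK (H.perm (by tauto) : Five b c a d f)
      (not_mem_K_of_O hO (dist_add_e' _ _)) hfree.1 hfree.2
  refine ⟨ball z ρ, isOpen_ball, mem_ball_self hρ, h.c5 b c _ (x + e μ + e ν) isOpen_ball
    (h.c5 b c _ (x + e μ - e ν) (isOpen_ball.sdiff isClosed_sphere) ?_)⟩
  exact fun y hy x' hx' => cov_R b c y hy x' (hsub hx')

theorem l3_trig (μ κ : ℝ) : 4 / 5 + 1 / 100 ≤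
    |Real.sin (μ + 1 * (π / 3) - κ)| + |Real.sin (μ + -1 * (π / 3) - κ)| := by
  set u := μ + 1 * (π / 3) - κ with hu
  set v := μ + -1 * (π / 3) - κ with hv
  have h1 : Real.sin (u - v) = √3 / 2 := by
    rw [show u - v = π - π / 3 by rw [hu, hv]; ring, Real.sin_pi_sub, Real.sin_pi_div_three]
  have h2 : (81 / 50 : ℝ) ≤ √3 := Real.le_sqrt_of_sq_le (by norm_num)
  rw [Real.sin_sub] at h1
  have h3 : Real.sin u * Real.cos v ≤ |Real.sin u| := by
    refine (le_abs_self _).trans ?_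
    rw [abs_mul]
    exact mul_le_of_le_one_right (abs_nonneg _) (Real.abs_cos_le_one v)
  have h4 : -(Real.cos u * Real.sin v) ≤ |Real.sin v| := by
    refine (neg_le_abs _).trans ?_
    rw [abs_mul]
    exact mul_le_of_le_one_left (abs_nonneg _) (Real.abs_cos_le_one u)
  linarith

/-- Plan: `gap60 α γ` gives an arc of `60°` around `x` in `R d f` whose ends are a unit pair, so it
contains `m = x + e μ ∈ V d f`.  The points `y± = x + e (μ ± π/3)` are not in `R d f` (`V_nbr`) nor in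
`K b`, so each is in `K a ∪ K c`.  For every angle `κ`:
`|sin (μ + π/3 - κ)| + |sin (μ - π/3 - κ)| ≥ sin (2π/3) = √3/2 > 0.86` (`Real.sin_sub`).  Hence `y+`, `y-`
are not both in `K a` nor both in `K c`, and `2/5 ≤ |sin (μ + σ π/3 - β)|` for some sign `σ`; if
`y(-σ) ∈ K c` use `L3_wall` as stated, if `y(-σ) ∈ K a` with `a`, `c` exchanged. -/
theorem Sys.L3_core (h : Sys L) {a b c d f : Fin 5} (H : Five a b c d f) {z : ℂ}
    {ρ α β γ : ℝ} (hρ : 0 < ρ) (hρ' : ρ ≤ 1 / 100) (ha : Win L a z ρ α (1 / 100))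
    (hb : Win L b z ρ β (1 / 100)) (hc : Win L c z ρ γ (1 / 100)) {x : ℂ} (hx : x ∈ ball z ρ)
    (hxb : x ∈ O L b) : z ∉ E L := by
  intro hE
  obtain ⟨t₀, ht₀⟩ := gap60 α γ
  have H' : Five d f a b c := H.perm (by tauto)
  have hR : ∀ t ∈ Icc t₀ (t₀ + π / 3), x + e t ∈ R L d f := fun t ht =>
    h.mem_R_of_notK H' (fun hK => by linarith [ha x hx _ hK, (ht₀ t ht).1])
      (not_mem_K_of_O hxb (dist_add_e _ _)) (fun hK => by linarith [hc x hx _ hK, (ht₀ t ht).2])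
  have hle : t₀ ≤ t₀ + π / 3 := by linarith [Real.pi_pos]
  have hS : IsPreconnected ((fun t => x + e t) '' Icc t₀ (t₀ + π / 3)) :=
    isPreconnected_Icc.image _ (continuous_const.add continuous_e).continuousOn
  have hSR : (fun t => x + e t) '' Icc t₀ (t₀ + π / 3) ⊆ R L d f := by
    rintro _ ⟨t, ht, rfl⟩; exact hR t ht
  have m0 : x + e t₀ ∈ (fun t => x + e t) '' Icc t₀ (t₀ + π / 3) := ⟨t₀, left_mem_Icc.2 hle, rfl⟩
  have m1 : x + e (t₀ + π / 3) ∈ (fun t => x + e t) '' Icc t₀ (t₀ + π / 3) :=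
    ⟨_, right_mem_Icc.2 hle, rfl⟩
  obtain ⟨_, ⟨μ, -, rfl⟩, hm⟩ : ∃ m ∈ (fun t => x + e t) '' Icc t₀ (t₀ + π / 3), m ∈ V L d f := by
    rcases h.pair_in_R (hSR m0) (hSR m1) (dist_e_pi_div_three x t₀) with
      ⟨p1, -, p2, -⟩ | ⟨p1, -, p2, -⟩
    · exact h.exists_V hS hSR m0 p1 m1 p2
    · exact h.exists_V hS hSR m1 p2 m0 p1
  have hy : ∀ σ : ℝ, σ = 1 ∨ σ = -1 →
      |Real.sin (μ + σ * (π / 3) - α)| < 1 / 100 ∨ |Real.sin (μ + σ * (π / 3) - γ)| < 1 / 100 := by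
    intro σ hσ
    have hd : dist (x + e μ) (x + e (μ + σ * (π / 3))) = 1 := by
      rcases hσ with rfl | rfl
      · rw [one_mul]; exact dist_e_pi_div_three x μ
      · have := dist_e_pi_div_three x (μ + -1 * (π / 3))
        rwa [show μ + -1 * (π / 3) + π / 3 = μ by ring, dist_comm] at this
    by_contra hne
    rw [not_or] at hne
    exact h.V_nbr hm hd (h.mem_R_of_notK H' (fun hK => hne.1 (ha x hx _ hK))
      (not_mem_K_of_O hxb (dist_add_e _ _)) (fun hK => hne.2 (hc x hx _ hK)))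
  have main : ∀ σ : ℝ, σ = 1 ∨ σ = -1 → 2 / 5 ≤ |Real.sin (μ + σ * (π / 3) - β)| → False := by
    intro σ hσ hβ
    have hσ' : -σ = 1 ∨ -σ = -1 := by rcases hσ with rfl | rfl <;> simp
    have hsum : ∀ κ, 4 / 5 + 1 / 100 ≤
        |Real.sin (μ + σ * (π / 3) - κ)| + |Real.sin (μ + -σ * (π / 3) - κ)| := by
      intro κ
      have := l3_trig μ κ
      rcases hσ with rfl | rfl
      · exact this
      · rw [neg_neg]; linarith
    rcases hy _ hσ' with h1 | h1
    · exact hE b a H.ne.1.symm (h.L3_wall (H.perm (by tauto) : Five c b a d f) hρ hρ' hc hb ha hx hσ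
        hm hβ (by linarith [hsum α]))
    · exact hE b c H.ne.2.2.2.2.1 (h.L3_wall H hρ hρ' ha hb hc hx hσ hm hβ (by linarith [hsum γ]))
  have := l3_trig μ β
  by_cases h1 : 2 / 5 ≤ |Real.sin (μ + 1 * (π / 3) - β)|
  · exact main 1 (Or.inl rfl) h1
  · exact main (-1) (Or.inr rfl) (by linarith [not_le.1 h1])

/-- shrink `ρ` (`Win.mono`), `cells_dense`, `L3_free`, `L3_core` -/
theorem Sys.L3 (h : Sys L) {a b c : Fin 5} (hab : a ≠ b) (hac : a ≠ c) (hbc : b ≠ c) {z : ℂ}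
    {ρ α β γ : ℝ} (hρ : 0 < ρ) (ha : Win L a z ρ α (1 / 100))
    (hb : Win L b z ρ β (1 / 100)) (hc : Win L c z ρ γ (1 / 100)) : z ∉ E L := by
  obtain ⟨d, f, H⟩ := exists_five hab hac hbc
  have hρ' : 0 < min ρ (1 / 100) := lt_min hρ (by norm_num)
  have hs : ball z (min ρ (1 / 100)) ⊆ ball z ρ := ball_subset_ball (min_le_left _ _)
  have ha' := ha.mono hs
  have hb' := hb.mono hs
  have hc' := hc.mono hs
  obtain ⟨x, hx, k, hk⟩ := h.cells_dense isOpen_ball ⟨z, mem_ball_self hρ'⟩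
  have hfree := h.L3_free H ha' hb' hc' hx
  rcases H k with rfl | rfl | rfl | rfl | rfl
  · exact h.L3_core (H.perm (by tauto) : Five b k c d f) hρ' (min_le_right _ _) hb' ha' hc' hx hk
  · exact h.L3_core H hρ' (min_le_right _ _) ha' hb' hc' hx hk
  · exact h.L3_core (H.perm (by tauto) : Five a k b d f) hρ' (min_le_right _ _) ha' hc' hb' hx hk
  · exact absurd (h.O_sub _ hk) hfree.1
  · exact absurd (h.O_sub _ hk) hfree.2

end Crest.Agent.R40
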