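import Crest.Agent.R40.Sys

/-! Row 40, STEP 2, measure part: definitions. -/

set_option autoImplicit false

open Set Metric MeasureTheory

namespace Crest.Agent.R40

/-- Lebesgue density points of `A` -/
def Dens (A : Set ℂ) : Set ℂ :=
  {x | ∀ ε > (0 : ℝ), ∃ δ > (0 : ℝ), ∀ r : ℝ, 0 < r → r < δ →
    volume (ball x r \ A) ≤ ENNReal.ofReal (ε * r ^ 2)}

/-- points that see density points of `B` in a non-null set of directions from `U` -/
def Xs (B : Set ℂ) (U : Set ℝ) : Set ℂ := {x | volume {t : ℝ | t ∈ U ∧ x + e t ∈ Dens B} ≠ 0}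

/-- points that see a density point of `B` in some direction from `U` -/
def Ns (B : Set ℂ) (U : Set ℝ) : Set ℂ := {x | ∃ t ∈ U, x + e t ∈ Dens B}

/-- a measurable colouring whose classes are maximal: `A i = (Xs (A i) univ)ᶜ` a.e. -/
structure MaxCol (A : Fin 5 → Set ℂ) : Prop where
  meas : ∀ i, MeasurableSet (A i)
  cover : ∀ᵐ x : ℂ, ∃ i, x ∈ A i
  disj : ∀ i, volume (A i ∩ Xs (A i) univ) = 0
  max : ∀ i, volume (A i ∪ Xs (A i) univ)ᶜ = 0

/-- the density points of the classes, as a family of centres -/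
def DA (A : Fin 5 → Set ℂ) : Fin 5 → Set ℂ := fun i => Dens (A i)

end Crest.Agent.R40
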