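import Crest.Agent.R40.Pair

/-! Row 40, task MaxExt: enlarge the colour classes to maximal essentially independent sets.
Plan: fix a finite measure `μ` equivalent to `volume` (e.g. `volume.toFinite` or `withDensity` of a positive
integrable function).  Exhaustion: choose recursively measurable `A = B 0 ⊆ B 1 ⊆ ...` with `Indep (B n)` and
`μ (B (n+1)) ≥ sup {μ C | B n ⊆ C measurable, Indep C} - 1/(n+1)`.  `B = ⋃ B n` is `Indep` (increasing
union of null sets) and maximal: `Indep (B ∪ C)`, `C` measurable, implies `volume (C \ B) = 0`.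
Then `volume (B ∩ Xs B univ) = 0` by `pair_null_iff`; and for every ball `S` of radius `1/3`,
`C = S \ Xs B univ` has no unit pair at all, pairs `(C, B)` are null by `pair_null_iff`, pairs `(B, C)` by
`pair_symm`, hence `Indep (B ∪ C)`, `volume (C \ B) = 0`; countably many such balls cover `ℂ`. -/

set_option autoImplicit false

open Set Metric MeasureTheory
open scoped Real

namespace Crest.Agent.R40

theorem exists_maximal_indep {A : Set ℂ} (hA : MeasurableSet A) (hI : Indep A) :
    ∃ B, MeasurableSet B ∧ A ⊆ B ∧ Indep B ∧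
      ∀ C, MeasurableSet C → Indep (B ∪ C) → volume (C \ B) = 0 := by
  have step : ∀ (n : ℕ) (B : {B : Set ℂ // MeasurableSet B ∧ Indep B}),
      ∃ B' : {B : Set ℂ // MeasurableSet B ∧ Indep B}, B.1 ⊆ B'.1 ∧ ∀ C, MeasurableSet C → Indep C →
        B.1 ⊆ C → volume.toFinite.real C ≤ volume.toFinite.real B'.1 + 1 / (n + 1) := fun n B => by
    have hb : BddAbove ((volume : Measure ℂ).toFinite.real ''
        {C | MeasurableSet C ∧ Indep C ∧ B.1 ⊆ C}) :=
      ⟨volume.toFinite.real univ, by rintro _ ⟨C, -, rfl⟩; exact measureReal_mono (subset_univ _)⟩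
    obtain ⟨_, ⟨C, hC, rfl⟩, h⟩ := exists_lt_of_lt_csSup (Nonempty.image _ ⟨B.1, by exact ⟨B.2.1, B.2.2, le_rfl⟩⟩)
      (sub_lt_self (sSup ((volume : Measure ℂ).toFinite.real ''
        {C | MeasurableSet C ∧ Indep C ∧ B.1 ⊆ C})) (Nat.one_div_pos_of_nat (n := n)))
    exact ⟨⟨C, hC.1, hC.2.1⟩, hC.2.2, fun D h1 h2 h3 =>
      (le_csSup hb (mem_image_of_mem _ ⟨h1, h2, h3⟩)).trans (sub_lt_iff_lt_add.1 h).le⟩
  choose F hF hF' using step
  let B : ℕ → {B : Set ℂ // MeasurableSet B ∧ Indep B} := fun n => Nat.rec ⟨A, hA, hI⟩ F n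
  have hmono : Monotone fun n => (B n).1 := monotone_nat_of_le_succ fun n => hF n (B n)
  have hm : MeasurableSet (⋃ n, (B n).1) := .iUnion fun n => (B n).2.1
  refine ⟨_, hm, subset_iUnion (fun n => (B n).1) 0, ?_, fun C hC h => ?_⟩
  · refine measure_mono_null (fun p hp => ?_) (measure_iUnion_null fun n => (B n).2.2)
    obtain ⟨a, ha⟩ := mem_iUnion.1 hp.1
    obtain ⟨b, hb⟩ := mem_iUnion.1 hp.2
    exact mem_iUnion.2 ⟨max a b, hmono (le_max_left _ _) ha, hmono (le_max_right _ _) hb⟩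
  · rw [← toFinite_apply_eq_zero_iff, ← measureReal_eq_zero_iff]
    refine le_antisymm (ge_of_tendsto' tendsto_one_div_add_atTop_nhds_zero_nat fun n => ?_)
      measureReal_nonneg
    have h1 := hF' n (B n) _ (hm.union hC) h
      ((subset_iUnion (fun n => (B n).1) n).trans subset_union_left)
    have h2 : volume.toFinite.real (F n (B n)).1 ≤ volume.toFinite.real (⋃ n, (B n).1) :=
      measureReal_mono (subset_iUnion (fun n => (B n).1) (n + 1))
    rw [← union_sdiff_self, measureReal_union disjoint_sdiff_right (hC.diff hm)] at h1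
    linarith

theorem exists_max_indep {A : Set ℂ} (hA : MeasurableSet A) (hI : Indep A) :
    ∃ B, MeasurableSet B ∧ A ⊆ B ∧ volume (B ∩ Xs B univ) = 0 ∧
      volume (B ∪ Xs B univ)ᶜ = 0 := by
  obtain ⟨B, hB, hAB, hI, hmax⟩ := exists_maximal_indep hA hI
  refine ⟨B, hB, hAB, (pair_null_iff hB hB).1 hI, ?_⟩
  obtain ⟨s, hs, hd⟩ := TopologicalSpace.exists_countable_dense ℂ
  have key : ∀ x ∈ s, volume ((ball x (1 / 3) \ Xs B univ) \ B) = 0 := fun x _ => by
    have hC := (measurableSet_ball (x := x) (ε := 1 / 3)).diff (measurableSet_Xs hB .univ)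
    have h1 := (pair_null_iff hC hB).2 (by simp)
    refine hmax _ hC (measure_mono_null (fun p hp => ?_)
      (measure_union_null hI (measure_union_null h1 (pair_symm hC hB h1))))
    obtain ⟨h2 | h2, h3 | h3⟩ := hp
    · exact Or.inl ⟨h2, h3⟩
    · exact Or.inr (Or.inr ⟨h2, h3⟩)
    · exact Or.inr (Or.inl ⟨h2, h3⟩)
    · have := dist_triangle_right p.1 (p.1 + e p.2) x
      rw [dist_add_e] at this
      linarith [mem_ball.1 h2.1, mem_ball.1 h3.1]
  refine measure_mono_null (fun y hy => ?_) ((measure_biUnion_null_iff hs).2 key)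
  obtain ⟨x, hx, h⟩ := hd.exists_dist_lt y (show (0 : ℝ) < 1 / 3 by norm_num)
  exact mem_biUnion hx ⟨⟨h, fun h => hy (Or.inr h)⟩, fun h => hy (Or.inl h)⟩

theorem exists_maxCol {A : Fin 5 → Set ℂ} (hA : MeasCol A) : ∃ A', MaxCol A' := by
  choose B hB using fun i => exists_max_indep (hA.meas i) (hA.indep i)
  refine ⟨B, fun i => (hB i).1, ?_, fun i => (hB i).2.2.1, fun i => (hB i).2.2.2⟩
  filter_upwards [hA.cover] with x hx
  obtain ⟨i, hi⟩ := hx
  exact ⟨i, (hB i).2.1 hi⟩

end Crest.Agent.R40
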