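import Crest.Agent.R40.WStruct

/-! Row 40, task Orient: orientation of an edge none of whose ends is in `V d f`. -/

set_option autoImplicit false

open Set Metric
open scoped Real

namespace Crest.Agent.R40

variable {L : Fin 5 → Set ℂ}

namespace Sys

/-- If `x ∉ O c`: `x ∉ O f` would give `x ∈ V f c`, so `x ∉ closure (O d)` (`no_third`) and `x ∈ O c`
(`mem_O_of_R`).  So `x ∈ O f`, likewise `x ∈ O d`, hence `x ∈ V d f`. -/
theorem mem_O_of_R_R (h : Sys L) {a b c d f : Fin 5} (H : Five a b c d f) {x : ℂ}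
    (h₁ : x ∈ R L f c) (h₂ : x ∈ R L c d) (hV : x ∉ V L d f) : x ∈ O L c := by
  obtain ⟨-, -, -, -, -, -, -, hcd, hcf, hdf⟩ := H.ne
  by_contra hc
  have hf : x ∈ O L f := by
    by_contra hf
    have hV' : x ∈ V L f c := ⟨h₁, iff_of_false hf hc⟩
    exact hc (h.mem_O_of_R (h.R_comm c d ▸ h₂) (h.no_third hcf.symm hdf hcd.symm hV'))
  have hd : x ∈ O L d := by
    by_contra hd
    have hV' : x ∈ V L c d := ⟨h₂, iff_of_false hc hd⟩
    exact hc (h.mem_O_of_R h₁ (h.no_third hcd hcf.symm hdf.symm hV'))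
  exact hV ⟨O_sub_R_right d f hf, iff_of_true hd hf⟩

/-- `x ∉ E` (`notE_of_W`): either `x ∈ O k`, `k ∈ {c, d, f}`, or `x ∈ V i j` with
`{i, j} ⊆ {c, d, f}` (`V_ne_of_W`) -/
theorem R_or_R (h : Sys L) {a b c d f : Fin 5} (H : Five a b c d f) {x y : ℂ}
    (hx : x ∈ W L a b) (hy : y ∈ W L a b) (hd : dist x y = 1) (hV : x ∉ V L d f) :
    x ∈ R L f c ∨ x ∈ R L c d := by
  have hE := h.notE_of_W H.ne.1 hx hy hd
  by_cases hO : ∃ k, x ∈ O L k
  · obtain ⟨k, hk⟩ := hO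
    have hK := h.O_sub k hk
    rcases H k with rfl | rfl | rfl | rfl | rfl
    · exact absurd hK (mem_W.1 hx).1
    · exact absurd hK (mem_W.1 hx).2
    · exact Or.inl (O_sub_R_right _ _ hk)
    · exact Or.inr (O_sub_R_right _ _ hk)
    · exact Or.inl (h.O_sub_R_left _ _ hk)
  · have : ∃ i j, i ≠ j ∧ x ∈ R L i j := by
      by_contra hn
      exact hE fun i j hij hR => hn ⟨i, j, hij, hR⟩
    obtain ⟨i, j, hij, hR⟩ := this
    have hVij : x ∈ V L i j := ⟨hR, iff_of_false (fun hh => hO ⟨i, hh⟩) fun hh => hO ⟨j, hh⟩⟩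
    obtain ⟨hia, hib, hja, hjb⟩ := h.V_ne_of_W hVij hx
    rcases H i with rfl | rfl | rfl | rfl | rfl <;> rcases H j with rfl | rfl | rfl | rfl | rfl <;>
      first
      | exact absurd rfl hia
      | exact absurd rfl hib
      | exact absurd rfl hja
      | exact absurd rfl hjb
      | exact absurd rfl hij
      | exact Or.inr hR
      | exact Or.inl hR
      | exact Or.inl (h.R_comm _ _ ▸ hR)
      | exact Or.inr (h.R_comm _ _ ▸ hR)
      | exact absurd hVij hV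
      | exact absurd (h.V_comm _ _ ▸ hVij) hV

/-- if both are in `R f c \ R c d` then both are outside `O c`, so `pair_in_R` fails; same for
`R c d \ R f c` -/
theorem orient_cases (h : Sys L) {a b c d f : Fin 5} (H : Five a b c d f) {x y : ℂ}
    (hx : x ∈ W L a b) (hy : y ∈ W L a b) (hd : dist x y = 1) (hxV : x ∉ V L d f)
    (hyV : y ∉ V L d f) : Up L f c d x y ∨ Up L f c d y x := by
  have h₁ := h.R_or_R H hx hy hd hxV
  have h₂ := h.R_or_R H hy hx (by rw [dist_comm]; exact hd) hyV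
  unfold Up
  rcases h₁ with h₁ | h₁ <;> rcases h₂ with h₂ | h₂
  · rcases h.pair_in_R h₁ h₂ hd with hp | hp
    · exact Or.inl ⟨h₁, h.O_sub_R_left c d hp.2.2.1⟩
    · exact Or.inr ⟨h₂, h.O_sub_R_left c d hp.1⟩
  · exact Or.inl ⟨h₁, h₂⟩
  · exact Or.inr ⟨h₂, h₁⟩
  · rcases h.pair_in_R h₁ h₂ hd with hp | hp
    · exact Or.inl ⟨O_sub_R_right f c hp.1, h₂⟩
    · exact Or.inr ⟨O_sub_R_right f c hp.2.2.1, h₁⟩

theorem orient_excl (h : Sys L) {a b c d f : Fin 5} (H : Five a b c d f) {x y : ℂ}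
    (hd : dist x y = 1) (hxV : x ∉ V L d f) (hyV : y ∉ V L d f) (h₁ : Up L f c d x y)
    (h₂ : Up L f c d y x) : False :=
  h.O_indep (h.mem_O_of_R_R H h₁.1 h₂.2 hxV) (h.mem_O_of_R_R H h₂.1 h₁.2 hyV) hd

/-- both orientations are open conditions -/
theorem orient_const (h : Sys L) {a b c d f : Fin 5} (H : Five a b c d f) {T : Set ℝ}
    (hT : IsPreconnected T) {x y : ℝ → ℂ} (hx : Continuous x) (hy : Continuous y)
    (hg : ∀ s ∈ T, x s ∈ W L a b ∧ y s ∈ W L a b ∧ dist (x s) (y s) = 1 ∧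
      x s ∉ V L d f ∧ y s ∉ V L d f) {s₀ s₁ : ℝ} (h₀ : s₀ ∈ T) (h₁ : s₁ ∈ T)
    (hU : Up L f c d (x s₀) (y s₀)) : Up L f c d (x s₁) (y s₁) := by
  by_contra hn
  have ho₁ : IsOpen {s | Up L f c d (x s) (y s)} :=
    ((isOpen_R f c).preimage hx).inter ((isOpen_R c d).preimage hy)
  have ho₂ : IsOpen {s | Up L f c d (y s) (x s)} :=
    ((isOpen_R f c).preimage hy).inter ((isOpen_R c d).preimage hx)
  have hcov : T ⊆ {s | Up L f c d (x s) (y s)} ∪ {s | Up L f c d (y s) (x s)} := fun s hs =>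
    h.orient_cases H (hg s hs).1 (hg s hs).2.1 (hg s hs).2.2.1 (hg s hs).2.2.2.1 (hg s hs).2.2.2.2
  obtain ⟨s, hs, hs₁, hs₂⟩ := hT _ _ ho₁ ho₂ hcov ⟨s₀, h₀, hU⟩ ⟨s₁, h₁, (hcov h₁).resolve_left hn⟩
  exact h.orient_excl H (hg s hs).2.2.1 (hg s hs).2.2.2.1 (hg s hs).2.2.2.2 hs₁ hs₂

theorem not_R_cd (h : Sys L) {c d f : Fin 5} {x : ℂ} (hf : x ∈ O L f)
    (hc : x ∉ K L c) (hV : x ∉ V L d f) : x ∉ R L c d := fun hR =>
  hV ⟨O_sub_R_right d f hf, iff_of_true (h.mem_O_of_R_notK hR hc) hf⟩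

/-- an edge that starts with its first end in `O f \ K c` cannot finish with its second end
in `O f \ K c` -/
theorem NFc (h : Sys L) {a b c d f : Fin 5} (H : Five a b c d f) {s₀ s₁ : ℝ} (h01 : s₀ ≤ s₁)
    {x y : ℝ → ℂ} (hx : Continuous x) (hy : Continuous y)
    (hg : ∀ s ∈ Icc s₀ s₁, x s ∈ W L a b ∧ y s ∈ W L a b ∧ dist (x s) (y s) = 1 ∧
      x s ∉ V L d f ∧ y s ∉ V L d f)
    (hx₀ : x s₀ ∈ O L f) (hx₀' : x s₀ ∉ K L c) (hy₁ : y s₁ ∈ O L f) (hy₁' : y s₁ ∉ K L c) :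
    False := by
  have hg₀ := hg s₀ ⟨le_rfl, h01⟩
  have hg₁ := hg s₁ ⟨h01, le_rfl⟩
  have hU : Up L f c d (x s₀) (y s₀) :=
    (h.orient_cases H hg₀.1 hg₀.2.1 hg₀.2.2.1 hg₀.2.2.2.1 hg₀.2.2.2.2).resolve_right
      fun hU => h.not_R_cd hx₀ hx₀' hg₀.2.2.2.1 hU.2
  have := h.orient_const H isPreconnected_Icc hx hy hg ⟨le_rfl, h01⟩ ⟨h01, le_rfl⟩ hU
  exact h.not_R_cd hy₁ hy₁' hg₁.2.2.2.2 this.2

end Sys

end Crest.Agent.R40
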