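import Crest.Agent.R40.Dens
import Crest.Agent.R40.Geo1

/-! Row 40, task Pair: Fubini lemmas for unit pairs `(x, x + e t)`. -/

set_option autoImplicit false

open Set Metric MeasureTheory
open scoped Real

namespace Crest.Agent.R40

theorem measurable_add_e : Measurable fun p : ℂ × ℝ => p.1 + e p.2 :=
  measurable_fst.add (continuous_e.measurable.comp measurable_snd)

/-- the measure of a set of pairs, computed with the direction as outer variable. -/
theorem pair_null_iff' {A B : Set ℂ} (hA : MeasurableSet A) (hB : MeasurableSet B) :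
    (volume : Measure (ℂ × ℝ)) {p : ℂ × ℝ | p.1 ∈ A ∧ p.1 + e p.2 ∈ B} = 0 ↔
      ∀ᵐ t : ℝ, volume {x : ℂ | x ∈ A ∧ x + e t ∈ B} = 0 := by
  have hm : MeasurableSet {p : ℂ × ℝ | p.1 ∈ A ∧ p.1 + e p.2 ∈ B} :=
    (measurable_fst hA).inter (measurable_add_e hB)
  rw [Measure.volume_eq_prod, Measure.prod_apply_symm hm,
    lintegral_eq_zero_iff (measurable_measure_prodMk_right hm)]
  rfl

theorem measurableSet_Xs {B : Set ℂ} (hB : MeasurableSet B) {U : Set ℝ} (hU : MeasurableSet U) :
    MeasurableSet (Xs B U) := by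
  exact (measurable_measure_prodMk_left (s := Prod.snd ⁻¹' U ∩ (fun p => p.1 + e p.2) ⁻¹' Dens B)
    ((measurable_snd hU).inter (measurable_add_e (measurableSet_Dens hB)))
    (measurableSet_singleton 0)).compl

theorem Xs_sub_Ns (B : Set ℂ) (U : Set ℝ) : Xs B U ⊆ Ns B U := by
  exact fun x hx => nonempty_of_measure_ne_zero hx

/-- a null set meets almost every unit circle in a null set of directions
(replace `Z` by `toMeasurable`; Fubini in the other order and translation invariance) -/
theorem ae_circle_null {Z : Set ℂ} (hZ : volume Z = 0) :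
    ∀ᵐ x : ℂ, volume {t : ℝ | x + e t ∈ Z} = 0 := by
  have h1 := (pair_null_iff' .univ (measurableSet_toMeasurable volume Z)).2 (.of_forall fun t => by
    simp only [mem_univ, true_and]
    exact (measure_preimage_add_right volume (e t) (toMeasurable volume Z)).trans (by simp [hZ]))
  filter_upwards [Measure.measure_ae_null_of_prod_null h1] with x hx
  refine measure_mono_null (fun t ht => ?_) hx
  exact ⟨mem_univ x, subset_toMeasurable volume Z ht⟩

/-- symmetry: `(x, t) ↦ (x + e t, t + π)`.  (For each fixed `t` the slices are translates: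
use `Measure.measure_prod_null` / `Measure.prod_apply_symm` and `measure_preimage_add_right`.) -/
theorem pair_symm {A B : Set ℂ} (hA : MeasurableSet A) (hB : MeasurableSet B)
    (h : (volume : Measure (ℂ × ℝ)) {p : ℂ × ℝ | p.1 ∈ A ∧ p.1 + e p.2 ∈ B} = 0) :
    (volume : Measure (ℂ × ℝ)) {p : ℂ × ℝ | p.1 ∈ B ∧ p.1 + e p.2 ∈ A} = 0 := by
  rw [pair_null_iff' hB hA]
  filter_upwards [(measurePreserving_add_right volume π).quasiMeasurePreserving.ae
    ((pair_null_iff' hA hB).1 h)] with t ht
  rw [← measure_preimage_add_right volume (e t)] at ht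
  convert ht using 2
  ext x
  simp [e_add_pi, and_comm]

/-- Fubini, `volume_diff_Dens`, `volume_Dens_diff`, `ae_circle_null` -/
theorem pair_null_iff {A B : Set ℂ} (hA : MeasurableSet A) (hB : MeasurableSet B) :
    (volume : Measure (ℂ × ℝ)) {p : ℂ × ℝ | p.1 ∈ A ∧ p.1 + e p.2 ∈ B} = 0 ↔
      volume (A ∩ Xs B univ) = 0 := by
  have hm : MeasurableSet {p : ℂ × ℝ | p.1 ∈ A ∧ p.1 + e p.2 ∈ B} :=
    (measurable_fst hA).inter (measurable_add_e hB)
  rw [Measure.volume_eq_prod, Measure.measure_prod_null hm, measure_eq_zero_iff_ae_notMem]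
  refine Filter.eventually_congr ?_
  filter_upwards [ae_circle_null (volume_diff_Dens hB), ae_circle_null (volume_Dens_diff hB)] with x h1 h2
  by_cases hx : x ∈ A
  · simp only [hx, Xs, mem_inter_iff, true_and, mem_univ, mem_ofPred_eq, not_not, preimage_ofPred_eq,
      Pi.zero_apply]
    refine ⟨fun h => measure_mono_null (fun t ht => ?_) (measure_union_null h h2),
      fun h => measure_mono_null (fun t ht => ?_) (measure_union_null h h1)⟩
    · exact (em (x + e t ∈ B)).imp id fun h => ⟨ht, h⟩
    · exact (em (x + e t ∈ Dens B)).imp id fun h => ⟨ht, h⟩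
  · simp [hx]

/-- Every point on a unit circle around a density point `y = x + e t₀` of `B` is a density point
of `Xs B U`.  Plan: for small `r`, `Ioo (t₀ - r) (t₀ + r) ⊆ U`.  If `x' ∈ ball x r \ Xs B U` then
for a.e. `t ∈ Ioo (t₀ - r) (t₀ + r)`, `x' + e t ∈ ball y (2r) \ Dens B`.  Apply Fubini to
`T = {(x', t) | x' ∈ ball x r, |t - t₀| < r, x' + e t ∉ Dens B}`:
`2 r * volume (ball x r \ Xs B U) ≤ volume T ≤ 2 r * volume (ball y (2 r) \ B)`
(translation invariance for each `t`, `volume_diff_Dens`). -/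
theorem Ns_sub_Dens_Xs {B : Set ℂ} (hB : MeasurableSet B) {U : Set ℝ} (hU : IsOpen U) :
    Ns B U ⊆ Dens (Xs B U) := by
  rintro x ⟨t₀, ht₀, hD⟩ ε hε
  obtain ⟨δ, hδ, hD⟩ := hD (ε / 4) (by positivity)
  obtain ⟨δ', hδ', hU'⟩ := Metric.isOpen_iff.1 hU t₀ ht₀
  refine ⟨_, lt_min (half_pos hδ) hδ', fun r h0 h1 => ?_⟩
  rw [lt_min_iff] at h1
  have hX := (measurableSet_ball (x := x) (ε := r)).diff (measurableSet_Xs hB hU.measurableSet)
  have hT : MeasurableSet (Prod.snd ⁻¹' ball t₀ r ∩ (Prod.fst ⁻¹' ball x r ∩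
      (fun p : ℂ × ℝ => p.1 + e p.2) ⁻¹' (Dens B)ᶜ)) := (measurable_snd measurableSet_ball).inter
    ((measurable_fst measurableSet_ball).inter (measurable_add_e (measurableSet_Dens hB).compl))
  have key := (Measure.prod_apply (μ := volume) (ν := volume) hT).symm.trans (Measure.prod_apply_symm hT)
  refine (ENNReal.mul_le_mul_iff_right (a := volume (ball t₀ r)) (measure_ball_pos _ _ h0).ne'
    measure_ball_lt_top.ne).1 ?_
  rw [← setLIntegral_const, mul_comm, ← setLIntegral_const, ← lintegral_indicator hX,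
    ← lintegral_indicator measurableSet_ball]
  refine (lintegral_mono fun x' => ?_).trans (key.le.trans (lintegral_mono fun t => ?_))
  · refine indicator_apply_le' (fun hx' => ?_) fun _ => zero_le
    have h2 : volume {t : ℝ | t ∈ U ∧ x' + e t ∈ Dens B} = 0 := not_not.1 hx'.2
    rw [← measure_sdiff_null h2]
    exact measure_mono fun t ht => ⟨ht.1, hx'.1, fun h => ht.2 ⟨hU' (ball_subset_ball h1.2.le ht.1), h⟩⟩
  · by_cases ht : t ∈ ball t₀ r
    · rw [indicator_of_mem ht]
      have h2 := hD (2 * r) (by positivity) (by linarith [h1.1])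
      rw [show ε / 4 * (2 * r) ^ 2 = ε * r ^ 2 by ring] at h2
      refine le_trans ?_ ((measure_union_le _ _).trans (add_le_add h2 (volume_diff_Dens hB).le) |>.trans_eq
        (add_zero _))
      rw [← measure_preimage_add_right volume (e t) (_ ∪ _)]
      refine measure_mono fun x' hx' => (em (x' + e t ∈ B)).symm.imp (fun h => ⟨?_, h⟩)
        fun h => ⟨h, hx'.2.2⟩
      have h3 : dist (e t) (e t₀) < r := by
        rw [dist_eq_norm]; exact (norm_e_sub_e_le _ _).trans_lt ht
      have h4 : dist x' x < r := hx'.2.1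
      exact mem_ball.2 ((dist_add_add_le _ _ _ _).trans_lt (by linarith))
    · simp [show ¬ dist t t₀ < r from ht, preimage]

end Crest.Agent.R40
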