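import Crest.Agent.R40.Geo3

/-! Row 40, task PinchGeo: an explicit separation estimate (no colours). -/

set_option autoImplicit false

open Set Metric
open scoped Real

namespace Crest.Agent.R40

lemma pg_ip_sub (u v w : ℂ) : ip (u - v) w = ip u w - ip v w := by
  simp only [ip, Complex.sub_re, Complex.sub_im]; ring

lemma pg_ip_smul (ρ : ℝ) (u w : ℂ) : ip ((ρ : ℂ) * u) w = ρ * ip u w := by
  simp only [ip, Complex.mul_re, Complex.mul_im, Complex.ofReal_re, Complex.ofReal_im]; ring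

lemma pg_ip_zero (w : ℂ) : ip 0 w = 0 := by simp [ip]

lemma pg_norm_smul_e {ρ : ℝ} (hρ : 0 ≤ ρ) (t : ℝ) : ‖(ρ : ℂ) * e t‖ = ρ := by
  rw [norm_mul, norm_e, mul_one, Complex.norm_real, Real.norm_of_nonneg hρ]

lemma pg_cos_le {a x : ℝ} (ha : 0 ≤ a) (h1 : a ≤ x) (h2 : x ≤ 2 * π - a) :
    Real.cos x ≤ Real.cos a := by
  rcases le_total x π with h | h
  · exact Real.cos_le_cos_of_nonneg_of_le_pi ha h h1
  · rw [← Real.cos_two_pi_sub x]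
    exact Real.cos_le_cos_of_nonneg_of_le_pi ha (by linarith) (by linarith)

/-- Plan: `μ = sin (π/3 - ψ) / 2 > 0`.  `cos x ≤ - μ` for `x ∈ [5π/6 - ψ, 7π/6 + ψ]` and for
`x ∈ [5π/6 - ψ, 5π/4]` (monotonicity of `cos` on `[0, π]`, `Real.cos_two_pi_sub`,
`cos (5π/6 - ψ) = - sin (π/3 - ψ)`, `μ ≤ 1/2 ≤ √2/2`).  Take `r₃ = min (r/2) (μ/4)`,
`ρ₀ = r₃ μ / 4`; `sep_of_ip`, `ip_e_e`: `ip (0 - ρ e φ) (e τ) = - ρ cos (φ - τ) ≥ ρ μ` and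
`ip (r₃ e (±ψ) - ρ e φ) (e τ) ≤ - r₃ μ + ρ`, `‖r₃ e (±ψ) - ρ e φ‖ ≤ 2 r₃`. -/
theorem pinch_geo {ψ r : ℝ} (hψ : ψ ∈ Ioo 0 (π / 3)) (hr : 0 < r) :
    ∃ r₃ ∈ Ioo 0 r, ∃ ρ₀ > (0 : ℝ), ∀ ρ ∈ Ioo 0 ρ₀, ∀ φ ∈ Icc (-(π / 12)) ψ,
      ∀ τ ∈ Icc (5 * π / 6) (5 * π / 6 + π / 3),
        Sep 0 ((r₃ : ℂ) * e ψ) ((ρ : ℂ) * e φ) τ ∧ Sep 0 ((r₃ : ℂ) * e (-ψ)) ((ρ : ℂ) * e φ) τ := by
  obtain ⟨hψ0, hψ1⟩ := hψ
  have hπ := Real.pi_pos
  set a : ℝ := min (5 * π / 6 - ψ) (3 * π / 4) with ha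
  have ha1 : a ≤ 5 * π / 6 - ψ := min_le_left _ _
  have ha2 : a ≤ 3 * π / 4 := min_le_right _ _
  have ha3 : π / 2 < a := lt_min (by linarith) (by linarith)
  set μ : ℝ := - Real.cos a with hμ
  have hμ0 : 0 < μ := by
    have := Real.cos_neg_of_pi_div_two_lt_of_lt ha3 (by linarith)
    linarith
  have hμ1 : μ ≤ 1 := by have := Real.neg_one_le_cos a; linarith
  have key : ∀ x, a ≤ x → x ≤ 2 * π - a → Real.cos (-x) ≤ -μ := fun x h1 h2 => by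
    rw [Real.cos_neg, hμ, neg_neg]
    exact pg_cos_le (by linarith) h1 h2
  set r₃ : ℝ := min (r / 2) (μ / 4) with hr₃
  have h1 : r₃ ≤ r / 2 := min_le_left _ _
  have h2 : r₃ ≤ μ / 4 := min_le_right _ _
  have h3 : 0 < r₃ := lt_min (by linarith) (by linarith)
  have h4 : 0 < r₃ * μ := mul_pos h3 hμ0
  have h5 : r₃ * μ ≤ r₃ := mul_le_of_le_one_right h3.le hμ1
  refine ⟨r₃, ⟨h3, by linarith⟩, r₃ * μ / 4, by linarith, ?_⟩
  rintro ρ ⟨hρ0, hρ1⟩ φ ⟨hφ0, hφ1⟩ τ ⟨hτ0, hτ1⟩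
  have c0 : Real.cos (φ - τ) ≤ -μ := by
    have := key (τ - φ) (by linarith) (by linarith)
    rwa [neg_sub] at this
  have H0 : ‖(0 : ℂ) - (ρ : ℂ) * e φ‖ ^ 2 / 2 < ip (0 - (ρ : ℂ) * e φ) (e τ) := by
    rw [pg_ip_sub, pg_ip_zero, pg_ip_smul, ip_e_e, zero_sub, norm_neg, pg_norm_smul_e hρ0.le]
    have e1 : ρ * Real.cos (φ - τ) ≤ ρ * (-μ) := mul_le_mul_of_nonneg_left c0 hρ0.le
    have e2 : ρ * ρ < ρ * μ := mul_lt_mul_of_pos_left (by linarith) hρ0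
    nlinarith
  have H1 : ∀ χ, Real.cos (χ - τ) ≤ -μ →
      ip ((r₃ : ℂ) * e χ - (ρ : ℂ) * e φ) (e τ) <
        -(‖(r₃ : ℂ) * e χ - (ρ : ℂ) * e φ‖ ^ 2 / 2) := fun χ hχ => by
    rw [pg_ip_sub, pg_ip_smul, pg_ip_smul, ip_e_e, ip_e_e]
    have e0 : ‖(r₃ : ℂ) * e χ - (ρ : ℂ) * e φ‖ ≤ 2 * r₃ := by
      refine (norm_sub_le _ _).trans ?_
      rw [pg_norm_smul_e h3.le, pg_norm_smul_e hρ0.le]
      linarith
    have e1 : ‖(r₃ : ℂ) * e χ - (ρ : ℂ) * e φ‖ ^ 2 ≤ (2 * r₃) ^ 2 :=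
      pow_le_pow_left₀ (norm_nonneg _) e0 2
    have e2 : r₃ * Real.cos (χ - τ) ≤ r₃ * (-μ) := mul_le_mul_of_nonneg_left hχ h3.le
    have e3 : ρ * (-1) ≤ ρ * Real.cos (φ - τ) :=
      mul_le_mul_of_nonneg_left (Real.neg_one_le_cos _) hρ0.le
    have e4 : r₃ * r₃ ≤ r₃ * (μ / 4) := mul_le_mul_of_nonneg_left h2 h3.le
    nlinarith
  refine ⟨sep_of_ip H0 (H1 ψ ?_), sep_of_ip H0 (H1 (-ψ) ?_)⟩
  · have := key (τ - ψ) (by linarith) (by linarith)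
    rwa [neg_sub] at this
  · have := key (τ + ψ) (by linarith) (by linarith)
    rwa [neg_add', sub_eq_add_neg, add_comm, ← sub_eq_add_neg] at this

/-- the chord from `0` along the unit circle around `-I` -/
theorem chord_right (θ : ℝ) :
    -Complex.I + e (π / 2 - θ) = ((2 * Real.sin (θ / 2) : ℝ) : ℂ) * e (-(θ / 2)) := by
  have h1 : Real.sin θ = 2 * Real.sin (θ / 2) * Real.cos (θ / 2) := by
    rw [← Real.sin_two_mul]; ring_nf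
  have h2 : Real.cos θ = 1 - 2 * Real.sin (θ / 2) ^ 2 := by
    have := Real.cos_two_mul (θ / 2)
    have h3 := Real.sin_sq_add_cos_sq (θ / 2)
    rw [show 2 * (θ / 2) = θ by ring] at this
    linarith
  apply Complex.ext
  · simp only [Complex.add_re, Complex.neg_re, Complex.I_re, Complex.mul_re, Complex.ofReal_re,
      Complex.ofReal_im, e_re, e_im, Real.cos_pi_div_two_sub, Real.cos_neg, h1]
    ring
  · simp only [Complex.add_im, Complex.neg_im, Complex.I_im, Complex.mul_im, Complex.ofReal_re,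
      Complex.ofReal_im, e_re, e_im, Real.sin_pi_div_two_sub, Real.sin_neg, h2]
    ring

end Crest.Agent.R40
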