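import Crest.Agent.R40.PinchB
import Crest.Agent.R40.PinchGeo
import Crest.Agent.R40.F2p
import Crest.Agent.R40.Transport

/-! Row 40, task Pinch: the pinch configuration is impossible. -/

set_option autoImplicit false

open Set Metric
open scoped Real

namespace Crest.Agent.R40

variable {L : Fin 5 → Set ℂ}

/-- Plan: `pinch_geo` gives `r₃ < r'`, `ρ₀`.  Take `θ ∈ Ioo 0 η` so small that `θ/2 ≤ π/12`,
`sin (θ/2) < κ'`, and `ρ = 2 sin (θ/2) < min ρ₀ r r'` with `closedBall 0 ρ` free of `K c`.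
The arc `S = {ρ e φ | φ ∈ Icc (-(θ/2)) ψ}` is free of `b` (`im = ρ sin φ > - κ' ρ`), `c`, and `f`
(`ip (ρ e φ) (e (-π/6)) = ρ cos (φ + π/6) > 0`), so `S ⊆ R a d`; its ends are in `O d` (`chord_right`)
and `O a`: `exists_V` gives `m₂ ∈ V a d`.  `sep_nhds` moves `0` to small points of the two rays,
`not_K_of_sep` (rays are preconnected) shows that `a` and `b` are invisible from `m₂` on
`± Icc (5π/6) (5π/6 + π/3)`; `F2p` for `Five a d b c f`. -/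
theorem Sys.pinch_core (h : Sys L) {a b c d f : Fin 5} (H : Five a b c d f)
    (h0c : (0 : ℂ) ∉ K L c) {η r r' κ' ψ : ℝ} (hη : 0 < η) (hr : 0 < r) (hr' : 0 < r')
    (hκ' : 0 < κ') (hψ : ψ ∈ Ioo 0 (π / 3))
    (harc : ∀ θ ∈ Ioo 0 η, -Complex.I + e (π / 2 - θ) ∈ O L d)
    (hf : ∀ y ∈ K L f, ‖y‖ < r → y ≠ 0 → ip y (e (-(π / 6))) ≤ 0)
    (hray : ∀ ρ ∈ Ioo 0 r', (ρ : ℂ) * e ψ ∈ O L a ∧ (ρ : ℂ) * e (-ψ) ∈ O L b)
    (hb : ∀ y ∈ K L b, ‖y‖ < r' → y ≠ 0 → y.im ≤ -(κ' * ‖y‖)) : False := by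
  have hpi := Real.pi_gt_three
  obtain ⟨r₃, hr₃, ρ₀, hρ₀, hsep⟩ := pinch_geo hψ hr'
  obtain ⟨rc, hrc, hbc⟩ := Metric.isOpen_iff.1 (isClosed_K (L := L) c).isOpen_compl 0 h0c
  -- choice of `θ`
  obtain ⟨θ, hθ0, hθη, hθ1, hθκ, hθρ, hθr, hθr', hθc⟩ : ∃ θ : ℝ, 0 < θ ∧ θ < η ∧ θ < 1 / 2 ∧
      θ < κ' ∧ θ < ρ₀ ∧ θ < r ∧ θ < r' ∧ θ < rc := by
    have hm : 0 < min η (min (1 / 2) (min κ' (min ρ₀ (min r (min r' rc))))) := by
      simp only [lt_min_iff]; exact ⟨hη, by norm_num, hκ', hρ₀, hr, hr', hrc⟩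
    obtain ⟨θ, h0, h1⟩ := exists_between hm
    simp only [lt_min_iff] at h1
    exact ⟨θ, h0, h1.1, h1.2.1, h1.2.2.1, h1.2.2.2.1, h1.2.2.2.2.1, h1.2.2.2.2.2.1,
      h1.2.2.2.2.2.2⟩
  set ρ := 2 * Real.sin (θ / 2) with hρdef
  have hs0 : 0 < Real.sin (θ / 2) := Real.sin_pos_of_pos_of_lt_pi (by linarith) (by linarith)
  have hs1 : Real.sin (θ / 2) ≤ θ / 2 := Real.sin_le (by linarith)
  have hρ : 0 < ρ := by linarith
  have hρθ : ρ ≤ θ := by linarith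
  have hnorm : ∀ (x φ : ℝ), 0 < x → ‖(x : ℂ) * e φ‖ = x := fun x φ hx => by
    rw [norm_mul, norm_e, mul_one, Complex.norm_real, Real.norm_eq_abs, abs_of_pos hx]
  have hcontφ : Continuous fun φ : ℝ => (ρ : ℂ) * e φ := continuous_const.mul continuous_e
  have hS : IsPreconnected ((fun φ : ℝ => (ρ : ℂ) * e φ) '' Icc (-(θ / 2)) ψ) :=
    isPreconnected_Icc.image _ hcontφ.continuousOn
  have hSR : ((fun φ : ℝ => (ρ : ℂ) * e φ) '' Icc (-(θ / 2)) ψ) ⊆ R L a d := by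
    rintro _ ⟨φ, hφ, rfl⟩
    have hn := hnorm ρ φ hρ
    have hne : (ρ : ℂ) * e φ ≠ 0 := by
      intro h0; rw [h0, norm_zero] at hn; linarith
    refine h.mem_R_of_notK (H.perm (by tauto) : Five a d b c f) (fun hK => ?_) (fun hK => ?_)
      fun hK => ?_
    · have h1 := hb _ hK (by rw [hn]; linarith) hne
      rw [hn] at h1
      have h2 : ((ρ : ℂ) * e φ).im = ρ * Real.sin φ := by simp [e_im]
      have h3 : -(θ / 2) ≤ Real.sin φ := by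
        rcases le_or_gt 0 φ with h4 | h4
        · have := Real.sin_nonneg_of_nonneg_of_le_pi h4 (by linarith [hφ.2, hψ.2])
          linarith
        · have := Real.sin_le (x := -φ) (by linarith)
          rw [Real.sin_neg] at this
          linarith [hφ.1]
      rw [h2] at h1
      nlinarith
    · exact hbc (show (ρ : ℂ) * e φ ∈ ball (0 : ℂ) rc by
        rw [mem_ball_zero_iff, hn]; linarith) hK
    · have h1 := hf _ hK (by rw [hn]; linarith) hne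
      have h2 : ip ((ρ : ℂ) * e φ) (e (-(π / 6))) = ρ * ip (e φ) (e (-(π / 6))) := by
        simp [ip]; ring
      rw [h2, ip_e_e] at h1
      have h3 : 0 < Real.cos (φ - -(π / 6)) :=
        Real.cos_pos_of_mem_Ioo ⟨by linarith [hφ.1], by linarith [hφ.2, hψ.2]⟩
      nlinarith
  have hle : -(θ / 2) ≤ ψ := by linarith [hψ.1]
  obtain ⟨m₂, ⟨φ, hφ, rfl⟩, hm₂⟩ := h.exists_V hS hSR ⟨ψ, ⟨hle, le_rfl⟩, rfl⟩
    (hray ρ ⟨hρ, by linarith⟩).1 ⟨-(θ / 2), ⟨le_rfl, hle⟩, rfl⟩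
    (by have := harc θ ⟨hθ0, hθη⟩; rwa [chord_right] at this)
  have hφ' : φ ∈ Icc (-(π / 12)) ψ := ⟨by linarith [hφ.1], hφ.2⟩
  have hρI : ρ ∈ Ioo 0 ρ₀ := ⟨hρ, by linarith⟩
  -- a colour containing a ray is invisible
  have hinv : ∀ (k : Fin 5) (χ : ℝ), (∀ x ∈ Ioo 0 r', (x : ℂ) * e χ ∈ O L k) →
      (∀ τ ∈ Icc (5 * π / 6) (5 * π / 6 + π / 3), Sep 0 ((r₃ : ℂ) * e χ) ((ρ : ℂ) * e φ) τ) →
      ∀ τ ∈ Icc (5 * π / 6) (5 * π / 6 + π / 3),
        (ρ : ℂ) * e φ + e τ ∉ K L k ∧ (ρ : ℂ) * e φ - e τ ∉ K L k := by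
    intro k χ hk hs τ hτ
    obtain ⟨δ, hδ, hs'⟩ := sep_nhds hs
    obtain ⟨x, hx0, hx1⟩ := exists_between (lt_min hδ hr')
    have hT : IsPreconnected ((fun x : ℝ => (x : ℂ) * e χ) '' Ioo 0 r') :=
      isPreconnected_Ioo.image _ (Complex.continuous_ofReal.mul continuous_const).continuousOn
    refine Sys.not_K_of_sep hT (by rintro _ ⟨x, hx, rfl⟩; exact hk x hx)
      ⟨x, ⟨hx0, hx1.trans_le (min_le_right _ _)⟩, rfl⟩ ⟨r₃, hr₃, rfl⟩
      (hs' _ _ ?_ (by simpa using hδ) τ hτ)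
    rw [dist_zero_right, hnorm x χ hx0]
    exact hx1.trans_le (min_le_left _ _)
  exact h.F2p (H.perm (by tauto) : Five a d b c f) hm₂
    (hinv b (-ψ) (fun x hx => (hray x hx).2) fun τ hτ => (hsep ρ hρI φ hφ' τ hτ).2)
    (hinv a ψ (fun x hx => (hray x hx).1) fun τ hτ => (hsep ρ hρI φ hφ' τ hτ).1)

/-- `pinch_sectors`, `pinch_AB`, `pinch_core` (for `a b` or `b a`) -/
theorem Sys.pinch_false0 (h : Sys L) {a b c d f : Fin 5} (H : Five a b c d f)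
    (hm : -Complex.I ∈ R L a b) (hma : -Complex.I ∉ O L a) (hmb : -Complex.I ∉ O L b)
    (h0a : (0 : ℂ) ∈ K L a) (h0b : (0 : ℂ) ∈ K L b) (h0c : (0 : ℂ) ∉ K L c)
    (h₁ : e (-(π / 6)) ∈ R L d f) (h₂ : e (7 * π / 6) ∈ R L d f) {η : ℝ} (hη : 0 < η)
    (harc : ∀ θ ∈ Ioo 0 η,
      -Complex.I + e (π / 2 - θ) ∈ O L d ∧ -Complex.I + e (π / 2 + θ) ∈ O L f) : False := by
  obtain ⟨r, hr, κ, hκ, hd, hf⟩ := h.pinch_sectors h₁ h₂ hη harc
  obtain ⟨ψ, hψ, r', hr', κ', hκ', hAB⟩ := h.pinch_AB H hm hma hmb h0a h0b h0c hr hκ hd hf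
  have hf' : ∀ y ∈ K L f, ‖y‖ < r → y ≠ 0 → ip y (e (-(π / 6))) ≤ 0 := fun y hy h1 h2 => by
    have := (hf y hy h1 h2).1
    have := mul_nonneg hκ.le (norm_nonneg y)
    linarith
  rcases hAB with hAB | hAB
  · exact h.pinch_core H h0c hη hr hr' hκ' hψ (fun θ hθ => (harc θ hθ).1) hf' hAB.1 hAB.2
  · exact h.pinch_core (H.perm (by tauto) : Five b a c d f) h0c hη hr hr' hκ' hψ
      (fun θ hθ => (harc θ hθ).1) hf' hAB.1 hAB.2

/-- transport along `φ = mot (m + e s) (s - π/2)`: `φ 0 = m + e s`, `φ (-I) = m`,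
`φ (e (-π/6)) = m + e (s - π/3)`, `φ (e (7π/6)) = m + e (s + π/3)`,
`φ (-I + e (π/2 ∓ θ)) = m + e (s ∓ θ)`. -/
theorem Sys.pinch_false (h : Sys L) {a b c d f : Fin 5} (H : Five a b c d f) {m : ℂ} {s : ℝ}
    (hm : m ∈ R L a b) (hma : m ∉ O L a) (hmb : m ∉ O L b)
    (hpa : m + e s ∈ K L a) (hpb : m + e s ∈ K L b) (hpc : m + e s ∉ K L c)
    (h₁ : m + e (s - π / 3) ∈ R L d f) (h₂ : m + e (s + π / 3) ∈ R L d f) {η : ℝ} (hη : 0 < η)
    (harc : ∀ θ ∈ Ioo 0 η, m + e (s - θ) ∈ O L d ∧ m + e (s + θ) ∈ O L f) : False := by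
  set φ := mot (m + e s) (s - π / 2) with hφ
  have hI : e (π / 2) = Complex.I := by
    apply Complex.ext <;> simp [e_re, e_im]
  have hsI : e (s - π / 2) * Complex.I = e s := by rw [← hI, ← e_add]; congr 1; ring
  have hφ0 : φ 0 = m + e s := by simp [hφ]
  have hφt : ∀ t, φ (-Complex.I + e t) = m + e (s - π / 2 + t) := fun t => by
    simp only [hφ, mot_apply]
    rw [mul_add, mul_neg, hsI, e_add]; ring
  have hφI : φ (-Complex.I) = m := by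
    simp only [hφ, mot_apply]
    rw [mul_neg, hsI]; ring
  have hq₁ : e (-(π / 6)) = -Complex.I + e (π / 6) := by
    apply Complex.ext
    · simp [e_re]
    · simp [e_im]; norm_num
  have hq₂ : e (7 * π / 6) = -Complex.I + e (5 * π / 6) := by
    rw [show 7 * π / 6 = π / 6 + π by ring, show 5 * π / 6 = -(π / 6) + π by ring, e_add_pi,
      e_add_pi, hq₁]
    apply Complex.ext
    · simp
    · simp [e_im]
  refine (h.comap φ).pinch_false0 H ?_ ?_ ?_ ?_ ?_ ?_ ?_ ?_ hη fun θ hθ => ⟨?_, ?_⟩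
  · rw [mem_R_comap, hφI]; exact hm
  · rw [mem_O_comap, hφI]; exact hma
  · rw [mem_O_comap, hφI]; exact hmb
  · rw [mem_K_comap, hφ0]; exact hpa
  · rw [mem_K_comap, hφ0]; exact hpb
  · rw [mem_K_comap, hφ0]; exact hpc
  · rw [mem_R_comap, hq₁, hφt, show s - π / 2 + π / 6 = s - π / 3 by ring]; exact h₁
  · rw [mem_R_comap, hq₂, hφt, show s - π / 2 + 5 * π / 6 = s + π / 3 by ring]; exact h₂
  · rw [mem_O_comap, hφt, show s - π / 2 + (π / 2 - θ) = s - θ by ring]; exact (harc θ hθ).1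
  · rw [mem_O_comap, hφt, show s - π / 2 + (π / 2 + θ) = s + θ by ring]; exact (harc θ hθ).2

end Crest.Agent.R40
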