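import Crest.Agent.R40.Basic
import Crest.Agent.R40.PinchGeo

/-! Row 40, task PinchA: the pinch point, colours `d` and `f`.
Normalised picture: pinch point `0`, centre `-I`, neighbours `e (-π/6)` and `e (7π/6)`; the arc of the
circle around `-I` to the right of `0` is in `O d`, the arc to the left in `O f`. -/

set_option autoImplicit false

open Set Metric
open scoped Real

namespace Crest.Agent.R40

variable {L : Fin 5 → Set ℂ}

/-- `cross_perp` (with `ball x ε ⊆ R a b`, `r ≤ min δ 1`) and `cross_R` -/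
theorem Sys.cone_of_R (h : Sys L) {a b : Fin 5} {x p : ℂ} (hx : x ∈ R L a b)
    (hp : dist x p = 1) :
    ∃ r > (0 : ℝ), ∃ κ > (0 : ℝ), ∀ y ∈ K L a, ∀ y' ∈ K L b, dist y p < r → dist y' p < r →
      y ≠ y' → κ * ‖y - y'‖ ≤ |ip (y - y') (x - p)| := by
  obtain ⟨ε, hε, hball⟩ := Metric.isOpen_iff.1 (isOpen_R (L := L) a b) x hx
  obtain ⟨δ, hδ, κ, hκ, hc⟩ := cross_perp hp hε
  refine ⟨min δ 1, lt_min hδ one_pos, κ, hκ, fun y hy y' hy' h1 h2 hne => ?_⟩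
  by_contra hlt
  obtain ⟨x', hx', e1, e2⟩ := hc y y' (h1.trans_le (min_le_left _ _))
    (h2.trans_le (min_le_left _ _)) hne (not_le.1 hlt)
  rcases h.cross_R (hball hx') hy hy' e1 e2 with h3 | h3
  · exact hne h3.symm
  · have := dist_triangle_right y y' p
    have := min_le_right δ 1
    linarith

lemma pa_ip_neg (u v : ℂ) : ip u (-v) = - ip u v := by
  simp only [ip, Complex.neg_re, Complex.neg_im]; ring

lemma pa_ip_neg_left (u v : ℂ) : ip (-u) v = - ip u v := by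
  simp only [ip, Complex.neg_re, Complex.neg_im]; ring

/-- Abstract form of the sector argument.  Plan: `κ ‖y‖ ≤ |ip y u|` from `hcone` with `y' = 0`.
Suppose `ip y u < 0`.  `θ ↦ ip (y - γ θ) u` is negative at `0` and positive at `θ₀`, so it vanishes at
some `θ ∈ Ioo 0 θ₀`; then `hcone` forces `y = γ θ ∈ interior Q`, and `y' = y + ε * I * u ∈ Q` for small
`ε > 0` contradicts `hcone`. -/
theorem sector_aux {P Q : Set ℂ} {u : ℂ} (hu : ‖u‖ = 1) {r κ θ₀ : ℝ} (hκ : 0 < κ) (hθ₀ : 0 < θ₀)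
    (hcone : ∀ y ∈ P, ∀ y' ∈ Q, ‖y‖ < r → ‖y'‖ < r → y ≠ y' → κ * ‖y - y'‖ ≤ |ip (y - y') u|)
    {γ : ℝ → ℂ} (hγ : Continuous γ) (hγ0 : γ 0 = 0) (h0 : (0 : ℂ) ∈ Q)
    (hQ : ∀ θ ∈ Ioc 0 θ₀, γ θ ∈ interior Q ∧ ‖γ θ‖ < r) {y : ℂ} (hy : y ∈ P) (hyr : ‖y‖ < r)
    (hy0 : y ≠ 0) (hsmall : ‖y‖ < - ip (γ θ₀) u) : κ * ‖y‖ ≤ ip y u := by
  have hr : 0 < r := (norm_nonneg _).trans_lt hyr
  have h1 := hcone y hy 0 h0 hyr (by simpa using hr) hy0
  rw [sub_zero] at h1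
  rcases le_or_gt 0 (ip y u) with hpos | hneg
  · rwa [abs_of_nonneg hpos] at h1
  exfalso
  have hg : Continuous fun θ => ip (y - γ θ) u := by
    unfold ip; fun_prop
  have e0 : ip (y - γ 0) u < 0 := by rwa [hγ0, sub_zero]
  have e1 : 0 < ip (y - γ θ₀) u := by
    rw [pg_ip_sub]
    have := abs_ip_le y u
    rw [hu, mul_one] at this
    have := neg_abs_le (ip y u)
    linarith
  obtain ⟨θ, hθ, hθ0⟩ : ∃ θ ∈ Ioo 0 θ₀, ip (y - γ θ) u = 0 :=
    intermediate_value_Ioo hθ₀.le hg.continuousOn ⟨e0, e1⟩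
  obtain ⟨q1, q2⟩ := hQ θ ⟨hθ.1, hθ.2.le⟩
  have hyθ : y = γ θ := by
    by_contra hne
    have := hcone y hy _ (interior_subset q1) hyr q2 hne
    rw [hθ0, abs_zero] at this
    have h3 : 0 < ‖y - γ θ‖ := norm_pos_iff.2 (sub_ne_zero.2 hne)
    have := mul_pos hκ h3
    linarith
  rw [← hyθ] at q1
  obtain ⟨ε, hε, hball⟩ := Metric.isOpen_iff.1 (isOpen_interior.inter (isOpen_ball (x := (0 : ℂ))
    (ε := r))) y ⟨q1, by simpa using hyr⟩
  have hn : ‖y - (y + ((ε / 2 : ℝ) : ℂ) * (Complex.I * u))‖ = ε / 2 := by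
    rw [sub_add_cancel_left, norm_neg, norm_mul, norm_mul, hu, Complex.norm_I, Complex.norm_real,
      Real.norm_of_nonneg (by linarith)]
    ring
  have hmem : y + ((ε / 2 : ℝ) : ℂ) * (Complex.I * u) ∈ ball y ε := by
    rw [mem_ball, dist_comm, dist_eq_norm, hn]; linarith
  obtain ⟨q3, q4⟩ := hball hmem
  have hne : y ≠ y + ((ε / 2 : ℝ) : ℂ) * (Complex.I * u) := by
    intro h
    rw [← h, sub_self, norm_zero] at hn
    linarith
  have h5 := hcone y hy _ (interior_subset q3) hyr (by simpa using q4) hne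
  have h6 : ip (y - (y + ((ε / 2 : ℝ) : ℂ) * (Complex.I * u))) u = 0 := by
    rw [sub_add_cancel_left, pa_ip_neg_left, pg_ip_smul]
    simp only [ip, Complex.mul_re, Complex.mul_im, Complex.I_re, Complex.I_im]
    ring
  rw [h6, abs_zero, hn] at h5
  have := mul_pos hκ (half_pos hε)
  linarith

lemma pa_e_pi_div_two : e (π / 2) = Complex.I := by
  apply Complex.ext <;> simp [e_re, e_im]

lemma pa_half_le_cos {x : ℝ} (h : |x| ≤ π / 3) : 1 / 2 ≤ Real.cos x := by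
  rw [← Real.cos_abs, ← Real.cos_pi_div_three]
  exact Real.cos_le_cos_of_nonneg_of_le_pi (abs_nonneg _) (by linarith [Real.pi_pos]) h

lemma pa_zero_mem {S : Set ℂ} (hS : IsClosed S) {γ : ℝ → ℂ} (hγ : Continuous γ) (h0 : γ 0 = 0)
    {η : ℝ} (hη : 0 < η) (h : ∀ θ ∈ Ioo 0 η, γ θ ∈ S) : (0 : ℂ) ∈ S := by
  have hc : IsClosed (γ ⁻¹' S) := hS.preimage hγ
  have h1 : closure (Ioo 0 η) ⊆ γ ⁻¹' S := closure_minimal h hc
  rw [closure_Ioo hη.ne] at h1
  have := h1 ⟨le_rfl, hη.le⟩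
  rwa [mem_preimage, h0] at this

/-- Plan: `0 ∈ K d ∩ K f` (limits of the arcs, `O ⊆ K` closed; `e (π/2) = I`).  `cone_of_R` at
`x = e (-π/6)` and `x = e (7π/6) = - e (π/6)`, `p = 0`.  The arcs are
`-I + e (π/2 ∓ θ) = ± sin θ + (cos θ - 1) I`, of norm `≤ θ`.  Apply `sector_aux` four times:
`P = K d, Q = K f`, left arc, `u = e (∓π/6)`; `P = K f, Q = K d`, right arc, `u = - e (∓π/6)`
(`O ⊆ interior K`).  For small `θ₀ > 0`: `(√3/2) sin θ₀ > (1 - cos θ₀)/2`. -/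
theorem Sys.pinch_sectors (h : Sys L) {d f : Fin 5} (h₁ : e (-(π / 6)) ∈ R L d f)
    (h₂ : e (7 * π / 6) ∈ R L d f) {η : ℝ} (hη : 0 < η)
    (harc : ∀ θ ∈ Ioo 0 η,
      -Complex.I + e (π / 2 - θ) ∈ O L d ∧ -Complex.I + e (π / 2 + θ) ∈ O L f) :
    ∃ r > (0 : ℝ), ∃ κ > (0 : ℝ),
      (∀ y ∈ K L d, ‖y‖ < r → y ≠ 0 →
        κ * ‖y‖ ≤ ip y (e (-(π / 6))) ∧ κ * ‖y‖ ≤ ip y (e (π / 6))) ∧
      (∀ y ∈ K L f, ‖y‖ < r → y ≠ 0 →
        ip y (e (-(π / 6))) ≤ -(κ * ‖y‖) ∧ ip y (e (π / 6)) ≤ -(κ * ‖y‖)) := by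
  have hπ := Real.pi_pos
  have hR : Continuous fun θ : ℝ => -Complex.I + e (π / 2 - θ) :=
    continuous_const.add (continuous_e.comp (by fun_prop))
  have hL : Continuous fun θ : ℝ => -Complex.I + e (π / 2 + θ) :=
    continuous_const.add (continuous_e.comp (by fun_prop))
  have hR0 : (fun θ : ℝ => -Complex.I + e (π / 2 - θ)) 0 = 0 := by simp [pa_e_pi_div_two]
  have hL0 : (fun θ : ℝ => -Complex.I + e (π / 2 + θ)) 0 = 0 := by simp [pa_e_pi_div_two]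
  have h0d : (0 : ℂ) ∈ K L d :=
    pa_zero_mem (isClosed_K d) hR hR0 hη fun θ hθ => h.O_sub d (harc θ hθ).1
  have h0f : (0 : ℂ) ∈ K L f :=
    pa_zero_mem (isClosed_K f) hL hL0 hη fun θ hθ => h.O_sub f (harc θ hθ).2
  obtain ⟨r₁, hr₁, κ₁, hκ₁, c₁⟩ := h.cone_of_R h₁ (p := 0) (by simp [norm_e])
  obtain ⟨r₂, hr₂, κ₂, hκ₂, c₂⟩ := h.cone_of_R h₂ (p := 0) (by simp [norm_e])
  have e7 : e (7 * π / 6) = - e (π / 6) := by
    rw [← e_add_pi]; congr 1; ring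
  set r₀ := min r₁ r₂ with hr₀
  set κ := min κ₁ κ₂ with hκ
  have hr₀0 : 0 < r₀ := lt_min hr₁ hr₂
  have hκ0 : 0 < κ := lt_min hκ₁ hκ₂
  have cone : ∀ s : ℝ, (s = -(π / 6) ∨ s = π / 6) → ∀ y ∈ K L d, ∀ y' ∈ K L f, ‖y‖ < r₀ →
      ‖y'‖ < r₀ → y ≠ y' → κ * ‖y - y'‖ ≤ |ip (y - y') (e s)| := by
    rintro s (rfl | rfl) y hy y' hy' n1 n2 hne
    · have := c₁ y hy y' hy' (by simpa using n1.trans_le (min_le_left _ _))
        (by simpa using n2.trans_le (min_le_left _ _)) hne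
      rw [sub_zero] at this
      exact (mul_le_mul_of_nonneg_right (min_le_left _ _) (norm_nonneg _)).trans this
    · have := c₂ y hy y' hy' (by simpa using n1.trans_le (min_le_right _ _))
        (by simpa using n2.trans_le (min_le_right _ _)) hne
      rw [sub_zero, e7, pa_ip_neg, abs_neg] at this
      exact (mul_le_mul_of_nonneg_right (min_le_right _ _) (norm_nonneg _)).trans this
  set θ₀ := min (min (η / 2) (r₀ / 2)) (π / 3) with hθ₀
  have t1 : θ₀ ≤ η / 2 := (min_le_left _ _).trans (min_le_left _ _)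
  have t2 : θ₀ ≤ r₀ / 2 := (min_le_left _ _).trans (min_le_right _ _)
  have t3 : θ₀ ≤ π / 3 := min_le_right _ _
  have t0 : 0 < θ₀ := lt_min (lt_min (by linarith) (by linarith)) (by linarith)
  have hs : 0 < Real.sin (θ₀ / 2) := Real.sin_pos_of_pos_of_lt_pi (by linarith) (by linarith)
  have hint : ∀ i, O L i ⊆ interior (K L i) := fun i =>
    interior_maximal (h.O_sub i) (isOpen_O i)
  have hn : ∀ t : ℝ, ‖-Complex.I + e (π / 2 + t)‖ ≤ |t| := fun t => by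
    have := norm_e_sub_e_le (π / 2 + t) (π / 2)
    rwa [pa_e_pi_div_two, add_sub_cancel_left, sub_eq_neg_add] at this
  refine ⟨min r₀ (Real.sin (θ₀ / 2)), lt_min hr₀0 hs, κ, hκ0, ?_, ?_⟩
  · have main : ∀ s : ℝ, (s = -(π / 6) ∨ s = π / 6) → ∀ y ∈ K L d,
        ‖y‖ < min r₀ (Real.sin (θ₀ / 2)) → y ≠ 0 → κ * ‖y‖ ≤ ip y (e s) := by
      intro s hs' y hy n1 hy0
      refine sector_aux (norm_e s) hκ0 t0 (cone s hs') hL hL0 h0f ?_ hy
        (n1.trans_le (min_le_left _ _)) hy0 ((n1.trans_le (min_le_right _ _)).trans_le ?_)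
      · intro θ hθ
        refine ⟨hint f (harc θ ⟨hθ.1, by linarith [hθ.2]⟩).2, (hn θ).trans_lt ?_⟩
        rw [abs_of_pos hθ.1]; linarith [hθ.2]
      · have := chord_right (-θ₀)
        rw [sub_neg_eq_add] at this
        rw [this, pg_ip_smul, ip_e_e, neg_div, neg_neg, Real.sin_neg]
        have hc : 1 / 2 ≤ Real.cos (θ₀ / 2 - s) := pa_half_le_cos (by
          rw [abs_le]; rcases hs' with rfl | rfl <;> constructor <;> linarith)
        nlinarith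
    exact fun y hy n1 hy0 => ⟨main _ (Or.inl rfl) y hy n1 hy0, main _ (Or.inr rfl) y hy n1 hy0⟩
  · have main : ∀ s : ℝ, (s = -(π / 6) ∨ s = π / 6) → ∀ y ∈ K L f,
        ‖y‖ < min r₀ (Real.sin (θ₀ / 2)) → y ≠ 0 → ip y (e s) ≤ -(κ * ‖y‖) := by
      intro s hs' y hy n1 hy0
      have := sector_aux (P := K L f) (Q := K L d) (u := - e s) (r := r₀)
        (by rw [norm_neg, norm_e]) hκ0 t0 ?_ hR hR0 h0d ?_ hy
        (n1.trans_le (min_le_left _ _)) hy0 ((n1.trans_le (min_le_right _ _)).trans_le ?_)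
      · rw [pa_ip_neg] at this; linarith
      · intro y hy y' hy' n1 n2 hne
        have := cone s hs' y' hy' y hy n2 n1 hne.symm
        rwa [norm_sub_rev, ← neg_sub y y', pa_ip_neg_left, ← pa_ip_neg] at this
      · intro θ hθ
        refine ⟨hint d (harc θ ⟨hθ.1, by linarith [hθ.2]⟩).1, ?_⟩
        have := hn (-θ)
        rw [← sub_eq_add_neg, abs_neg, abs_of_pos hθ.1] at this
        linarith [hθ.2]
      · rw [chord_right θ₀, pa_ip_neg, neg_neg, pg_ip_smul, ip_e_e]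
        have hc : 1 / 2 ≤ Real.cos (-(θ₀ / 2) - s) := pa_half_le_cos (by
          rw [abs_le]; rcases hs' with rfl | rfl <;> constructor <;> linarith)
        nlinarith
    exact fun y hy n1 hy0 => ⟨main _ (Or.inl rfl) y hy n1 hy0, main _ (Or.inr rfl) y hy n1 hy0⟩

end Crest.Agent.R40
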