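import Crest.Agent.R40.PinchA

/-! Row 40, task PinchB: the pinch point, colours `a` and `b`. -/

set_option autoImplicit false

open Set Metric
open scoped Real

namespace Crest.Agent.R40

variable {L : Fin 5 → Set ℂ}

/-- A preconnected open set `A` near `0` that is free of `c d f` lies in `O a` or in `O b`.
Plan: `A ⊆ K a ∪ K b` (`cover`).  If `y ∈ A ∩ K a ∩ K b` then `y + τ ∈ A` for small real `τ > 0` is in
`K a` or `K b`, against `hcone` (imaginary parts agree).  So `A ⊆ K a` or `A ⊆ K b` with the other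
one disjoint (`isPreconnected_iff_subset_of_disjoint_closed`), and `mem_O_of_notK`. -/
theorem Sys.sector_mono (h : Sys L) {a b c d f : Fin 5} (H : Five a b c d f) {r : ℝ}
    (hcone : ∀ y ∈ K L a, ∀ y' ∈ K L b, ‖y‖ < r → ‖y'‖ < r → y ≠ y' → y.im ≠ y'.im)
    {A : Set ℂ} (hA : IsOpen A) (hA' : IsPreconnected A) (hr : ∀ y ∈ A, ‖y‖ < r)
    (hfree : ∀ y ∈ A, y ∉ K L c ∧ y ∉ K L d ∧ y ∉ K L f) :
    (∀ y ∈ A, y ∈ O L a ∧ y ∉ K L b) ∨ (∀ y ∈ A, y ∈ O L b ∧ y ∉ K L a) := by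
  have hcov : A ⊆ K L a ∪ K L b := fun y hy => by
    obtain ⟨i, hi⟩ := h.cover y
    obtain ⟨f1, f2, f3⟩ := hfree y hy
    rcases H i with rfl | rfl | rfl | rfl | rfl
    · exact Or.inl hi
    · exact Or.inr hi
    · exact absurd hi f1
    · exact absurd hi f2
    · exact absurd hi f3
  have hdis : ∀ y ∈ A, y ∈ K L a → y ∉ K L b := fun y hy ha hb => by
    obtain ⟨ε, hε, hball⟩ := Metric.isOpen_iff.1 hA y hy
    have hmem : y + ((ε / 2 : ℝ) : ℂ) ∈ A := hball (by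
      rw [mem_ball, dist_eq_norm, add_sub_cancel_left, Complex.norm_real,
        Real.norm_of_nonneg (by linarith)]
      linarith)
    have hne : y ≠ y + ((ε / 2 : ℝ) : ℂ) := by
      intro h
      have := congrArg Complex.re h
      simp only [Complex.add_re, Complex.ofReal_re] at this
      linarith
    rcases hcov hmem with h1 | h1
    · exact hcone _ h1 y hb (hr _ hmem) (hr y hy) hne.symm (by simp)
    · exact hcone y ha _ h1 (hr y hy) (hr _ hmem) hne (by simp)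
  rcases isPreconnected_iff_subset_of_disjoint_closed.1 hA' _ _ (isClosed_K a) (isClosed_K b) hcov
    (eq_empty_of_forall_notMem fun y hy => hdis y hy.1 hy.2.1 hy.2.2) with h1 | h1
  · refine Or.inl fun y hy => ?_
    have hb := hdis y hy (h1 hy)
    obtain ⟨f1, f2, f3⟩ := hfree y hy
    exact ⟨h.mem_O_of_notK H hb f1 f2 f3, hb⟩
  · refine Or.inr fun y hy => ?_
    have ha : y ∉ K L a := fun ha => hdis y hy ha (h1 hy)
    obtain ⟨f1, f2, f3⟩ := hfree y hy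
    exact ⟨h.mem_O_of_notK (H.perm (a' := b) (b' := a) (c' := c) (d' := d) (f' := f)
      (by tauto)) ha f1 f2 f3, ha⟩

/-- the open sector of slope `l` around the direction `σ * I` -/
def pbSec (r l σ : ℝ) : Set ℂ := {w | ‖w‖ < r ∧ l * w.re - σ * w.im < 0 ∧ -l * w.re - σ * w.im < 0}

lemma pbSec_open (r l σ : ℝ) : IsOpen (pbSec r l σ) := by
  have hl : ∀ l : ℝ, Continuous fun w : ℂ => l * w.re - σ * w.im := fun l => by fun_prop
  exact (isOpen_lt continuous_norm continuous_const).inter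
    ((isOpen_lt (hl l) continuous_const).inter (isOpen_lt (hl (-l)) continuous_const))

lemma pbSec_convex (r l σ : ℝ) : Convex ℝ (pbSec r l σ) := by
  have hl : ∀ l : ℝ, IsLinearMap ℝ fun w : ℂ => l * w.re - σ * w.im := fun l =>
    ⟨fun x y => by simp only [Complex.add_re, Complex.add_im]; ring,
      fun c x => by simp only [Complex.smul_re, Complex.smul_im, smul_eq_mul]; ring⟩
  have h0 : Convex ℝ {w : ℂ | ‖w‖ < r} := by
    have e1 : {w : ℂ | ‖w‖ < r} = ball 0 r := by ext w; simp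
    rw [e1]
    exact convex_ball (0 : ℂ) r
  exact h0.inter ((convex_halfSpace_lt (hl l) 0).inter (convex_halfSpace_lt (hl (-l)) 0))

lemma pb_sign {P Q : Set ℂ} {r l σ κ : ℝ} (hκ : 0 < κ)
    (hcone : ∀ y ∈ P, ∀ y' ∈ Q, ‖y‖ < r → ‖y'‖ < r → y ≠ y' → κ * ‖y - y'‖ ≤ |(y - y').im|)
    (hA : ∀ w ∈ pbSec r l σ, w ∈ P ∧ w ∉ Q) {y : ℂ} (hy : y ∈ Q) (hyr : ‖y‖ < r) :
    σ * y.im ≤ 0 := by
  by_contra hpos
  have hpos : 0 < σ * y.im := not_le.1 hpos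
  have hn : ‖(y.im : ℂ) * Complex.I‖ < r := by
    rw [norm_mul, Complex.norm_I, mul_one, Complex.norm_real, Real.norm_eq_abs]
    exact (Complex.abs_im_le_norm y).trans_lt hyr
  obtain ⟨h1, h2⟩ := hA ((y.im : ℂ) * Complex.I) ⟨hn, by simpa using hpos, by simpa using hpos⟩
  have hne : (y.im : ℂ) * Complex.I ≠ y := fun h => h2 (by rw [h]; exact hy)
  have := hcone _ h1 y hy hn hyr hne
  have h3 : 0 < ‖(y.im : ℂ) * Complex.I - y‖ := norm_pos_iff.2 (sub_ne_zero.2 hne)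
  have h4 := mul_pos hκ h3
  have h5 : ((y.im : ℂ) * Complex.I - y).im = 0 := by simp
  rw [h5, abs_zero] at this
  linarith

lemma pb_lower {P Q : Set ℂ} {r l κ : ℝ} (hκ : 0 < κ) (h0 : (0 : ℂ) ∈ P)
    (hcone : ∀ y ∈ P, ∀ y' ∈ Q, ‖y‖ < r → ‖y'‖ < r → y ≠ y' → κ * ‖y - y'‖ ≤ |(y - y').im|)
    (hA : ∀ w ∈ pbSec r l 1, w ∈ P ∧ w ∉ Q) {y : ℂ} (hy : y ∈ Q) (hyr : ‖y‖ < r) (hy0 : y ≠ 0) :
    y.im ≤ -(κ * ‖y‖) := by
  have h1 := pb_sign hκ hcone hA hy hyr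
  have h2 := hcone 0 h0 y hy (by simpa using (norm_nonneg _).trans_lt hyr) hyr hy0.symm
  rw [zero_sub, norm_neg, Complex.neg_im, abs_neg, abs_of_nonpos (by linarith)] at h2
  linarith

lemma pb_isolated {P Q : Set ℂ} {r l κ : ℝ} (hκ : 0 < κ) (h0 : (0 : ℂ) ∈ P)
    (hcone : ∀ y ∈ P, ∀ y' ∈ Q, ‖y‖ < r → ‖y'‖ < r → y ≠ y' → κ * ‖y - y'‖ ≤ |(y - y').im|)
    (hA : ∀ w ∈ pbSec r l 1, w ∈ P ∧ w ∉ Q) (hB : ∀ w ∈ pbSec r l (-1), w ∈ P ∧ w ∉ Q) {y : ℂ}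
    (hy : y ∈ Q) (hyr : ‖y‖ < r) : y = 0 := by
  by_contra hy0
  have h1 := pb_lower hκ h0 hcone hA hy hyr hy0
  have h2 := pb_sign hκ hcone hB hy hyr
  have := mul_pos hκ (norm_pos_iff.2 hy0)
  linarith

/-- Plan: `cone_of_R` at `x = -I`, `p = 0` (`ip w (-I - 0) = - w.im`) gives `r₁`, `κ'`.  Put
`λ = √3 - min κ 1 > 0`, `r' ≤ min r r₁` with `ball 0 r'` free of `K c`, and the convex open sectors
`A = {‖w‖ < r', λ |re w| < im w}`, `B = {‖w‖ < r', im w < - λ |re w|}`.  Since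
`ip w (e (∓π/6)) = (√3 re w ∓ im w)/2`, both are free of `d` and `f`.  `ψ` with `λ < tan ψ`, `ψ < π/3`.
`sector_mono` for `A` and `B`.  If `A ⊆ O a \ K b` then no `y ∈ K b`, `‖y‖ < r'`, has `im y > 0`
(compare with `y' = I * im y ∈ A`), and `im y = 0` forces `y = 0` (compare with `0 ∈ K a`); similarly
for `B`.  If `A` and `B` had the same colour, say `a`, then `0` would be isolated in `K b`; but
`0 ∉ L b` (else `cov_R` and `R_comm` give `-I ∈ O a`) and `0 ∈ closure (L b)`. -/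
theorem Sys.pinch_AB (h : Sys L) {a b c d f : Fin 5} (H : Five a b c d f)
    (hm : -Complex.I ∈ R L a b) (hma : -Complex.I ∉ O L a) (hmb : -Complex.I ∉ O L b)
    (h0a : (0 : ℂ) ∈ K L a) (h0b : (0 : ℂ) ∈ K L b) (h0c : (0 : ℂ) ∉ K L c) {r κ : ℝ}
    (hr : 0 < r) (hκ : 0 < κ)
    (hd : ∀ y ∈ K L d, ‖y‖ < r → y ≠ 0 →
        κ * ‖y‖ ≤ ip y (e (-(π / 6))) ∧ κ * ‖y‖ ≤ ip y (e (π / 6)))
    (hf : ∀ y ∈ K L f, ‖y‖ < r → y ≠ 0 →
        ip y (e (-(π / 6))) ≤ -(κ * ‖y‖) ∧ ip y (e (π / 6)) ≤ -(κ * ‖y‖)) :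
    ∃ ψ ∈ Ioo 0 (π / 3), ∃ r' > (0 : ℝ), ∃ κ' > (0 : ℝ),
      ((∀ ρ ∈ Ioo 0 r', (ρ : ℂ) * e ψ ∈ O L a ∧ (ρ : ℂ) * e (-ψ) ∈ O L b) ∧
        ∀ y ∈ K L b, ‖y‖ < r' → y ≠ 0 → y.im ≤ -(κ' * ‖y‖)) ∨
      ((∀ ρ ∈ Ioo 0 r', (ρ : ℂ) * e ψ ∈ O L b ∧ (ρ : ℂ) * e (-ψ) ∈ O L a) ∧
        ∀ y ∈ K L a, ‖y‖ < r' → y ≠ 0 → y.im ≤ -(κ' * ‖y‖)) := by
  have hπ := Real.pi_pos
  obtain ⟨r₁, hr₁, κ', hκ', c₁⟩ := h.cone_of_R hm (p := 0) (by simp)
  obtain ⟨r₂, hr₂, hball⟩ := Metric.isOpen_iff.1 (isClosed_K (L := L) c).isOpen_compl 0 h0c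
  set r' := min (min r r₁) r₂ with hr'
  have t1 : r' ≤ r := (min_le_left _ _).trans (min_le_left _ _)
  have t2 : r' ≤ r₁ := (min_le_left _ _).trans (min_le_right _ _)
  have t3 : r' ≤ r₂ := min_le_right _ _
  have t0 : 0 < r' := lt_min (lt_min hr hr₁) hr₂
  have cab : ∀ y ∈ K L a, ∀ y' ∈ K L b, ‖y‖ < r' → ‖y'‖ < r' → y ≠ y' →
      κ' * ‖y - y'‖ ≤ |(y - y').im| := fun y hy y' hy' n1 n2 hne => by
    have := c₁ y hy y' hy' (by simpa using n1.trans_le t2) (by simpa using n2.trans_le t2) hne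
    have e1 : ip (y - y') (-Complex.I - 0) = - (y - y').im := by simp [ip]
    rwa [e1, abs_neg] at this
  have cba : ∀ y ∈ K L b, ∀ y' ∈ K L a, ‖y‖ < r' → ‖y'‖ < r' → y ≠ y' →
      κ' * ‖y - y'‖ ≤ |(y - y').im| := fun y hy y' hy' n1 n2 hne => by
    have := cab y' hy' y hy n2 n1 hne.symm
    rwa [norm_sub_rev, ← neg_sub y y', Complex.neg_im, abs_neg] at this
  have hcone : ∀ y ∈ K L a, ∀ y' ∈ K L b, ‖y‖ < r' → ‖y'‖ < r' → y ≠ y' → y.im ≠ y'.im :=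
    fun y hy y' hy' n1 n2 hne him => by
      have := cab y hy y' hy' n1 n2 hne
      rw [Complex.sub_im, him, sub_self, abs_zero] at this
      have := mul_pos hκ' (norm_pos_iff.2 (sub_ne_zero.2 hne))
      linarith
  set k := min κ 1 with hk
  have k0 : 0 < k := lt_min hκ one_pos
  have k1 : k ≤ κ := min_le_left _ _
  have k2 : k ≤ 1 := min_le_right _ _
  have s3 : 1 < √3 := by
    rw [Real.lt_sqrt zero_le_one]; norm_num
  set l := √3 - k with hl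
  have l0 : 0 < l := by linarith
  have ip1 : ∀ y : ℂ, ip y (e (-(π / 6))) = √3 / 2 * y.re - y.im / 2 := fun y => by
    simp only [ip, e_re, e_im, Real.cos_neg, Real.sin_neg, Real.cos_pi_div_six,
      Real.sin_pi_div_six]
    ring
  have ip2 : ∀ y : ℂ, ip y (e (π / 6)) = √3 / 2 * y.re + y.im / 2 := fun y => by
    simp only [ip, e_re, e_im, Real.cos_pi_div_six, Real.sin_pi_div_six]
    ring
  have hfree : ∀ σ : ℝ, (σ = 1 ∨ σ = -1) → ∀ y ∈ pbSec r' l σ,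
      y ∉ K L c ∧ y ∉ K L d ∧ y ∉ K L f := by
    rintro σ hσ y ⟨n1, n2, n3⟩
    have hy0 : y ≠ 0 := by
      rintro rfl
      simp at n2
    have a1 : k * y.re ≤ κ * ‖y‖ := by
      have e1 := (le_abs_self _).trans (Complex.abs_re_le_norm y)
      exact (mul_le_mul_of_nonneg_left e1 k0.le).trans
        (mul_le_mul_of_nonneg_right k1 (norm_nonneg _))
    have a2 : k * (-y.re) ≤ κ * ‖y‖ := by
      have e1 := (neg_le_abs _).trans (Complex.abs_re_le_norm y)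
      exact (mul_le_mul_of_nonneg_left e1 k0.le).trans
        (mul_le_mul_of_nonneg_right k1 (norm_nonneg _))
    have a3 : 0 ≤ κ * ‖y‖ := mul_nonneg hκ.le (norm_nonneg _)
    rw [hl] at n2 n3
    refine ⟨hball (by simpa using n1.trans_le t3), fun hy => ?_, fun hy => ?_⟩
    · obtain ⟨d1, d2⟩ := hd y hy (n1.trans_le t1) hy0
      rw [ip1] at d1
      rw [ip2] at d2
      rcases hσ with rfl | rfl <;> linarith
    · obtain ⟨d1, d2⟩ := hf y hy (n1.trans_le t1) hy0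
      rw [ip1] at d1
      rw [ip2] at d2
      rcases hσ with rfl | rfl <;> linarith
  obtain ⟨ψ, hψ1, hψ⟩ : ∃ ψ, 0 < Real.sin ψ - l * Real.cos ψ ∧ ψ ∈ Ioo 0 (π / 3) := by
    have hc : Continuous fun ψ : ℝ => Real.sin ψ - l * Real.cos ψ := by fun_prop
    have h1 : ∀ᶠ ψ in nhds (π / 3), 0 < Real.sin ψ - l * Real.cos ψ :=
      hc.continuousAt.eventually (lt_mem_nhds (by
        simp only [Real.sin_pi_div_three, Real.cos_pi_div_three]
        linarith))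
    exact ((h1.filter_mono nhdsWithin_le_nhds).and
      (Ioo_mem_nhdsLT (show (0 : ℝ) < π / 3 by linarith))).exists
  have hcos : 0 < Real.cos ψ := Real.cos_pos_of_mem_Ioo ⟨by linarith [hψ.1], by linarith [hψ.2]⟩
  have hlc := mul_pos l0 hcos
  have rayA : ∀ ρ ∈ Ioo 0 r', (ρ : ℂ) * e ψ ∈ pbSec r' l 1 := fun ρ hρ => by
    refine ⟨by rw [pg_norm_smul_e hρ.1.le]; exact hρ.2, ?_, ?_⟩ <;>
    · simp only [Complex.mul_re, Complex.mul_im, Complex.ofReal_re, Complex.ofReal_im, e_re, e_im]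
      have := mul_pos hρ.1 hψ1
      have := mul_pos hρ.1 hlc
      linarith
  have rayB : ∀ ρ ∈ Ioo 0 r', (ρ : ℂ) * e (-ψ) ∈ pbSec r' l (-1) := fun ρ hρ => by
    refine ⟨by rw [pg_norm_smul_e hρ.1.le]; exact hρ.2, ?_, ?_⟩ <;>
    · simp only [Complex.mul_re, Complex.mul_im, Complex.ofReal_re, Complex.ofReal_im, e_re, e_im,
        Real.cos_neg, Real.sin_neg]
      have := mul_pos hρ.1 hψ1
      have := mul_pos hρ.1 hlc
      linarith
  have mA := h.sector_mono H hcone (pbSec_open r' l 1) (pbSec_convex r' l 1).isPreconnected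
    (fun y hy => hy.1) (hfree 1 (Or.inl rfl))
  have mB := h.sector_mono H hcone (pbSec_open r' l (-1)) (pbSec_convex r' l (-1)).isPreconnected
    (fun y hy => hy.1) (hfree (-1) (Or.inr rfl))
  have hI : dist (-Complex.I) 0 = 1 := by simp
  refine ⟨ψ, hψ, r', t0, κ', hκ', ?_⟩
  rcases mA with mA | mA <;> rcases mB with mB | mB
  · exfalso
    obtain ⟨y, hy, hyd⟩ := Metric.mem_closure_iff.1 h0b r' t0
    have := pb_isolated hκ' h0a cab (fun w hw => ⟨h.O_sub a (mA w hw).1, (mA w hw).2⟩)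
      (fun w hw => ⟨h.O_sub a (mB w hw).1, (mB w hw).2⟩) (L_sub_K b hy) (by simpa using hyd)
    rw [this] at hy
    exact hma (cov_R b a 0 hy _ (h.R_comm a b ▸ hm) hI)
  · exact Or.inl ⟨fun ρ hρ => ⟨(mA _ (rayA ρ hρ)).1, (mB _ (rayB ρ hρ)).1⟩, fun y hy n1 hy0 =>
      pb_lower hκ' h0a cab (fun w hw => ⟨h.O_sub a (mA w hw).1, (mA w hw).2⟩) hy n1 hy0⟩
  · exact Or.inr ⟨fun ρ hρ => ⟨(mA _ (rayA ρ hρ)).1, (mB _ (rayB ρ hρ)).1⟩, fun y hy n1 hy0 =>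
      pb_lower hκ' h0b cba (fun w hw => ⟨h.O_sub b (mA w hw).1, (mA w hw).2⟩) hy n1 hy0⟩
  · exfalso
    obtain ⟨y, hy, hyd⟩ := Metric.mem_closure_iff.1 h0a r' t0
    have := pb_isolated hκ' h0b cba (fun w hw => ⟨h.O_sub b (mA w hw).1, (mA w hw).2⟩)
      (fun w hw => ⟨h.O_sub b (mB w hw).1, (mB w hw).2⟩) (L_sub_K a hy) (by simpa using hyd)
    rw [this] at hy
    exact hmb (cov_R a b 0 hy _ hm hI)

end Crest.Agent.R40
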