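import Crest.Agent.R40.S1_Rad

/-!
Row 40, STEP 1: uniform lower bound for means along cosets of one-parameter subgroups of `ℝ²`, and
existence of two correlated radii.
-/

set_option autoImplicit false

open scoped RealInnerProductSpace

namespace Crest.Agent.R40.S1

variable {H : Type} [NormedAddCommGroup H] [InnerProductSpace ℝ H] [CompleteSpace H]


/-- Plan: `W = Fix σ`, `η' = η - prj W η`, `V j = Fix (t ↦ σ (4 j t, 2 t))`; `V i ⊓ V j ≤ W` for `i ≠ j`;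
`exists_small_prj` gives `j ≥ j₀` with `‖prj (V j) η'‖ < β²/2`.  By `M_inner_rep` the mean is
`⟪prj (V j) η, σ (-(a,b)) η⟫ = ‖prj W η‖² + ⟪prj (V j) η', σ (-(a,b)) η⟫` and
`β = ⟪η, Ξ⟫ = ⟪prj W η, Ξ⟫ ≤ ‖prj W η‖`. -/
theorem coset_abs {σ : ℝ × ℝ → H →ₗᵢ[ℝ] H} (h : IsRep σ) (η Ξ : H) (hη : ‖η‖ ≤ 1) (hΞ : ‖Ξ‖ ≤ 1)
    (hfix : ∀ a, σ a Ξ = Ξ) (hpos : 0 < ⟪η, Ξ⟫) (j₀ : ℕ) :
    ∃ j : ℕ, j₀ ≤ j ∧ ∀ a b : ℝ,
      ⟪η, Ξ⟫ ^ 2 / 2 ≤ M (fun t => ⟪σ (a + 4 * j * t, b + 2 * t) η, η⟫) := by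
  set β := ⟪η, Ξ⟫ with hβ
  set W := Fix σ with hW
  have hWc : IsClosed (W : Set H) := isClosed_fix σ
  set η₀ := prj W η with hη₀
  set η' := η - η₀ with hη'
  have hη₀W : η₀ ∈ W := prj_mem hWc η
  let V : ℕ → Submodule ℝ H := fun j => Fix fun t : ℝ => σ (4 * j * t, 2 * t)
  have hV : ∀ j, Natl σ (V j) := fun j => natl_fix σ _
  have horth : ∀ i j, i ≠ j → ∀ v ∈ V i, v ∈ V j → ⟪η', v⟫ = 0 := by
    intro i j hij v hi hj
    apply inner_sub_prj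
    rintro ⟨a, b⟩
    have hd : (i : ℝ) - j ≠ 0 := sub_ne_zero.2 (by exact_mod_cast hij)
    set t : ℝ := (a / 4 - j * (b / 2)) / (i - j) with ht
    set s : ℝ := b / 2 - t with hs
    have : ((a, b) : ℝ × ℝ) = (4 * i * t, 2 * t) + (4 * j * s, 2 * s) := by
      ext
      · simp only [Prod.fst_add, hs, ht]; field_simp; ring
      · simp only [Prod.snd_add, hs]; ring
    rw [this, h.add, (mem_fix.1 hj) s, (mem_fix.1 hi) t]
  obtain ⟨j, hj, hsmall⟩ := exists_small_prj h V hV η' horth (ε := β ^ 2 / 2) (by positivity) j₀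
  refine ⟨j, hj, fun a b => ?_⟩
  have hrep : IsRep (fun t : ℝ => σ (4 * j * t, 2 * t)) :=
    h.comp _ fun x y => by ext <;> simp <;> ring
  have e1 : (fun t : ℝ => ⟪σ (a + 4 * j * t, b + 2 * t) η, η⟫)
      = fun t : ℝ => ⟪σ (4 * j * t, 2 * t) η, σ (-(a, b)) η⟫ := by
    funext t
    rw [← h.inner_left, ← h.add]
    rfl
  rw [e1, M_inner_rep hrep]
  have e2 : prj (V j) η = η₀ + prj (V j) η' := by
    have : η = η₀ + η' := by rw [hη']; abel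
    conv_lhs => rw [this]
    rw [map_add, prj_eq_self (V := V j) (fun t => (mem_fix.1 hη₀W) _)]
  show _ ≤ ⟪prj (V j) η, _⟫
  rw [e2, inner_add_left]
  have e3 : ⟪η₀, σ (-(a, b)) η⟫ = ‖η₀‖ ^ 2 := by
    rw [← h.inner_left, (mem_fix.1 hη₀W), ← real_inner_self_eq_norm_sq, real_inner_comm]
    exact (inner_prj W η hη₀W).symm
  have e4 : β ≤ ‖η₀‖ := by
    have := inner_prj W η (w := Ξ) hfix
    rw [hβ, ← this]
    exact (real_inner_le_norm _ _).trans (mul_le_of_le_one_right (norm_nonneg _) hΞ)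
  have e5 : |⟪prj (V j) η', σ (-(a, b)) η⟫| ≤ β ^ 2 / 2 := by
    refine (abs_real_inner_le_norm _ _).trans ?_
    rw [LinearIsometry.norm_map]
    exact (mul_le_of_le_one_right (norm_nonneg _) hη).trans hsmall.le
  have e6 := pow_le_pow_left₀ hpos.le e4 2
  rw [e3]
  linarith [(abs_le.1 e5).1]

/-- Plan: `gns2` for `Φ p = Bf φ p.1 p.2`, `η = P (x, y) Ξ`, `coset_abs`. -/
theorem coset {φ : ℂ → ℝ} (h : Rad φ) {x y : ℂ} (hpos : 0 < Bf φ x y) (j₀ : ℕ) :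
    ∃ j : ℕ, j₀ ≤ j ∧ ∀ a b : ℝ, Bf φ x y ^ 2 / 2 ≤
      M (fun t => Bf φ (x * (e (a + 4 * j * t) - 1)) (y * (e (b + 2 * t) - 1))) := by
  obtain ⟨H, _, _, _, P, R, Ξ, hP, hR, hΞ, hc, hΦ⟩ :=
    gns2 (Φ := fun p => Bf φ p.1 p.2) h.bf_psd2 (fun a b x y => h.bf_rad
      (by rw [norm_mul, norm_e, one_mul]) (by rw [norm_mul, norm_e, one_mul]))
  have hn : ‖Ξ‖ ≤ 1 := by
    have h1 := hΦ 0
    rw [hP.zero, real_inner_self_eq_norm_sq] at h1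
    have h2 : Bf φ (0 : ℂ × ℂ).1 (0 : ℂ × ℂ).2 ≤ 1 := (abs_le.1 (h.abs_bf_le _ _)).2
    nlinarith [norm_nonneg Ξ]
  have hβ : ⟪P (x, y) Ξ, Ξ⟫ = Bf φ x y := hΦ (x, y)
  obtain ⟨j, hj, hco⟩ := coset_abs hR (P (x, y) Ξ) Ξ (by rw [LinearIsometry.norm_map]; exact hn) hn hΞ
    (by rw [hβ]; exact hpos) j₀
  refine ⟨j, hj, fun a b => ?_⟩
  have := hco a b
  rw [hβ] at this
  refine this.trans (le_of_eq ?_)
  congr 1
  funext t
  rw [hc, hΞ, hP.inner_inner, hΦ]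
  simp only [Prod.fst_sub, Prod.snd_sub]
  congr 1 <;> ring

lemma coset_norm_sq (t : ℝ) : ‖e t - 1‖ ^ 2 = 2 - 2 * Real.cos t := by
  rw [Complex.sq_norm, Complex.normSq_apply]
  simp only [Complex.sub_re, Complex.sub_im, e_re, e_im, Complex.one_re, Complex.one_im]
  nlinarith [Real.sin_sq_add_cos_sq t]

lemma coset_countable (s : ℝ) : {t : ℝ | ‖e t - 1‖ = s}.Countable := by
  by_cases hne : {t : ℝ | ‖e t - 1‖ = s}.Nonempty
  · obtain ⟨t₀, ht₀⟩ := hne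
    refine ((Set.countable_range fun k : ℤ => 2 * k * Real.pi + t₀).union
      (Set.countable_range fun k : ℤ => 2 * k * Real.pi - t₀)).mono fun t ht => ?_
    have h1 : Real.cos t₀ = Real.cos t := by
      have h2 := coset_norm_sq t
      have h3 := coset_norm_sq t₀
      rw [show ‖e t - 1‖ = s from ht] at h2
      rw [show ‖e t₀ - 1‖ = s from ht₀] at h3
      linarith
    obtain ⟨k, hk | hk⟩ := Real.cos_eq_cos_iff.1 h1
    · exact Or.inl ⟨k, hk.symm⟩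
    · exact Or.inr ⟨k, hk.symm⟩
  · rw [Set.not_nonempty_iff_eq_empty.1 hne]; exact Set.countable_empty

/-- Plan: `a t = x₀ * (e t - 1)`; `mean_cs` for the kernel `Bf φ` with `s₀ = 0`:
`0 < φ x₀ ^ 4 ≤ (Dl φ x₀)² ≤ M_t M_t' Bf φ (a t) (a t')`.  The sets `{t | ‖e t - 1‖ = s}` are countable
(`‖e t - 1‖² = 2 - 2 cos t`); `exists_pos_of_M_pos` twice gives `t, t'` with `a t ≠ 0 ≠ a t'`,
`‖a t‖ ≠ ‖a t'‖`, `Bf > 0`; use `bf_rad` and symmetry (`bf_psd.1`). -/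
theorem exists_pair {φ : ℂ → ℝ} (h : Rad φ) (h0 : ∀ x, 0 ≤ φ x) {x₀ : ℂ} (hx : x₀ ≠ 0)
    (hpos : 0 < φ x₀) : ∃ r r' : ℝ, 0 < r ∧ r < r' ∧ 0 < Bf φ r r' := by
  set a : ℝ → ℂ := fun t => x₀ * (e t - 1) with ha
  have hcs := mean_cs h.bf_psd (fun s => (abs_le.1 (h.abs_bf_le s s)).2) a 0
  have e1 : M (fun t => Bf φ (a t) 0) = Dl φ x₀ := by
    rw [← h.dl_eq x₀ one_ne_zero]
    simp only [bf_zero_right, one_mul, ha]
  have h1 : 0 < Dl φ x₀ := lt_of_lt_of_le (by positivity) (h.sq_le_dl x₀)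
  rw [e1] at hcs
  have h2 : 0 < M (fun t => M (fun t' => Bf φ (a t) (a t'))) := lt_of_lt_of_le (by positivity) hcs
  obtain ⟨t, ht, h3⟩ := exists_pos_of_M_pos ⟨1, fun t => MM.abs_le fun t' => h.abs_bf_le _ _⟩
    (fun t => MM.nonneg _ (h.bdd_bf _ _) fun t' => h.bf_nonneg h0 _ _) h2 (coset_countable 0)
  obtain ⟨t', ht', h4⟩ := exists_pos_of_M_pos (h.bdd_bf _ _) (fun t' => h.bf_nonneg h0 _ _) h3
    ((coset_countable 0).union (coset_countable ‖e t - 1‖))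
  simp only [Set.mem_union, Set.mem_setOf_eq, not_or] at ht ht'
  have hx0 : 0 < ‖x₀‖ := norm_pos_iff.2 hx
  have p1 : 0 < ‖a t‖ := by
    rw [ha]; simp only [norm_mul]
    exact mul_pos hx0 (lt_of_le_of_ne (norm_nonneg _) (Ne.symm ht))
  have p2 : 0 < ‖a t'‖ := by
    rw [ha]; simp only [norm_mul]
    exact mul_pos hx0 (lt_of_le_of_ne (norm_nonneg _) (Ne.symm ht'.1))
  have p3 : ‖a t‖ ≠ ‖a t'‖ := by
    rw [ha]; simp only [norm_mul]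
    intro hh
    exact ht'.2 (mul_left_cancel₀ hx0.ne' hh).symm
  have e2 : Bf φ (a t) (a t') = Bf φ (‖a t‖ : ℝ) (‖a t'‖ : ℝ) := h.bf_rad (by simp) (by simp)
  rw [e2] at h4
  rcases lt_or_gt_of_ne p3 with hlt | hlt
  · exact ⟨_, _, p1, hlt, h4⟩
  · exact ⟨_, _, p2, hlt, by rw [h.bf_psd.1]; exact h4⟩

end Crest.Agent.R40.S1
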