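import Crest.Agent.R40.S1_Main

/-!
Row 40, STEP 1: continuous part of a rotation invariant vector.
-/

set_option autoImplicit false

open scoped RealInnerProductSpace

namespace Crest.Agent.R40.S1

variable {H : Type} [NormedAddCommGroup H] [InnerProductSpace ℝ H] [CompleteSpace H]


/-- Plan: `f = prj (Cont π) F`, `s = F - f ⟂ Cont π`.  `R t` and `R (-t)` preserve `Cont π`
(`π x (R t v) = R t (π (e (-t) * x) v)`), so `R t f = f` (`prj_comm`), `R t s = s`; hence
`φ x = ⟪π x s, s⟫` is `Rad` (`‖s‖ ≤ ‖F‖ ≤ 1`) and `Sing` (`sing_of_orth`), so it vanishes for `x ≠ 0`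
(`eq_zero_of_sing`); the cross terms vanish since `π x f ∈ Cont π`. -/
theorem decomp {π : ℂ → H →ₗᵢ[ℝ] H} {R : ℝ → H →ₗᵢ[ℝ] H} (hπ : IsRep π) (hR : IsRep R)
    (hc : ∀ t x v, R t (π x v) = π (e t * x) (R t v)) {F : H} (hF : ∀ t, R t F = F)
    (hn : ‖F‖ ≤ 1) {x : ℂ} (hx : x ≠ 0) :
    ⟪π x (prj (Cont π) F), prj (Cont π) F⟫ = ⟪π x F, F⟫ := by
  set f := prj (Cont π) F with hf
  set s := F - f with hs
  have hfc : f ∈ Cont π := prj_mem (isClosed_cont π) F
  have hso : ∀ v ∈ Cont π, ⟪s, v⟫ = 0 := fun v hv => inner_sub_prj _ F hv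
  have hRc : ∀ t, ∀ v ∈ Cont π, R t v ∈ Cont π := by
    intro t v hv
    rw [mem_cont] at hv ⊢
    have : (fun y => π y (R t v)) = fun y => R t (π (e (-t) * y) v) := by
      funext y
      rw [hc, ← mul_assoc, ← e_add, add_neg_cancel, e_zero, one_mul]
    rw [this]
    exact (R t).continuous.comp (hv.comp (by fun_prop))
  have hRf : ∀ t, R t f = f := by
    intro t
    have := prj_comm (isClosed_cont π) (R t) (R (-t)) (hR.inner_left t) (hRc t) (hRc (-t)) F
    rw [hF] at this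
    exact this.symm
  have hRs : ∀ t, R t s = s := fun t => by rw [hs, map_sub, hF, hRf]
  have hπf : ∀ y, π y f ∈ Cont π := by
    intro y
    rw [mem_cont] at hfc ⊢
    have : (fun z => π z (π y f)) = fun z => π (z + y) f := by
      funext z; rw [hπ.add]
    rw [this]
    exact hfc.comp (by fun_prop)
  have hrad : Rad (fun y => ⟪π y s, s⟫) := by
    refine ⟨fun y z hyz => ?_, ⟨fun y z => ?_, fun ι _ c y => ?_⟩, ?_⟩
    · by_cases hz : z = 0
      · subst hz
        rw [norm_zero, norm_eq_zero] at hyz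
        rw [hyz]
      · obtain ⟨t, ht⟩ := exists_e_of_norm_one (u := y / z)
          (by rw [norm_div, hyz, div_self (norm_ne_zero_iff.2 hz)])
        have : y = e t * z := by rw [← ht, div_mul_cancel₀ _ hz]
        rw [this]
        conv_lhs => rw [← hRs t, ← hc]
        exact (R t).inner_map_map _ _
    · show ⟪π (y - z) s, s⟫ = ⟪π (z - y) s, s⟫
      rw [← hπ.inner_inner, ← hπ.inner_inner, real_inner_comm]
    · show 0 ≤ ∑ i, ∑ j, c i * c j * ⟪π (y i - y j) s, s⟫
      rw [← norm_sq_comb hπ]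
      positivity
    · show ⟪π 0 s, s⟫ ≤ 1
      rw [hπ.zero]
      have h1 : ⟪s, s⟫ = ⟪s, F⟫ := by
        conv_lhs => rw [hs, inner_sub_right, ← hs, hso f hfc, sub_zero]
      have h2 := real_inner_le_norm s F
      rw [← h1, real_inner_self_eq_norm_sq] at h2
      rw [real_inner_self_eq_norm_sq]
      have h3 : ‖s‖ * ‖F‖ ≤ ‖s‖ := mul_le_of_le_one_right (norm_nonneg _) hn
      nlinarith [norm_nonneg s, sq_nonneg (‖s‖ - 1)]
  have h0 : ⟪π x s, s⟫ = 0 := eq_zero_of_sing hrad (sing_of_orth hπ hso) hx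
  have hF' : F = f + s := by rw [hs]; abel
  have h1 : ⟪π x f, s⟫ = 0 := by rw [real_inner_comm]; exact hso _ (hπf x)
  have h2 : ⟪π x s, f⟫ = 0 := by rw [hπ.inner_left]; exact hso _ (hπf (-x))
  conv_rhs => rw [hF']
  rw [map_add, inner_add_left, inner_add_right, inner_add_right, h0, h1, h2]
  ring

end Crest.Agent.R40.S1
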