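import Crest.Agent.R40.Defs

/-!
Row 40, STEP 1 (helper14): definitions.
Means (positive normalised functionals; linear on ALL functions, meaningful on bounded ones),
positive semidefinite kernels, isometric representations of abelian groups on real Hilbert spaces,
continuous / fixed vectors, singular functions.
-/

set_option autoImplicit false

namespace Crest.Agent.R40.S1

/-- bounded real function -/
def Bdd {A : Type} (f : A → ℝ) : Prop := ∃ C : ℝ, ∀ a, |f a| ≤ C

/-- a mean: linear on all functions, positive on bounded ones, normalised -/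
structure Mean (A : Type) where
  m : (A → ℝ) →ₗ[ℝ] ℝ
  nonneg : ∀ f, Bdd f → (∀ a, 0 ≤ f a) → 0 ≤ m f
  one : m (fun _ => 1) = 1

/-- symmetric positive semidefinite real kernel -/
def PSD {S : Type} (K : S → S → ℝ) : Prop :=
  (∀ s t, K s t = K t s) ∧
    ∀ (ι : Type) [Fintype ι] (c : ι → ℝ) (s : ι → S), 0 ≤ ∑ i, ∑ j, c i * c j * K (s i) (s j)

/-- `φ` is singular: `0` is in the closed convex hull of the kernel vectors of every small ball -/
def Sing (φ : ℂ → ℝ) : Prop :=
  ∀ ε ρ : ℝ, 0 < ε → 0 < ρ → ∃ (ι : Type) (_ : Fintype ι) (w : ι → ℝ) (x : ι → ℂ),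
    (∀ i, 0 ≤ w i) ∧ ∑ i, w i = 1 ∧ (∀ i, ‖x i‖ < ρ) ∧ ∑ i, ∑ j, w i * w j * φ (x i - x j) < ε

/-- radial positive definite function, normalised -/
structure Rad (φ : ℂ → ℝ) : Prop where
  rad : ∀ x y : ℂ, ‖x‖ = ‖y‖ → φ x = φ y
  psd : PSD (fun x y : ℂ => φ (x - y))
  le_one : φ 0 ≤ 1

section Hilbert

variable {H : Type} [NormedAddCommGroup H] [InnerProductSpace ℝ H]

/-- isometric representation of an additive abelian group (no continuity) -/
structure IsRep {Γ : Type} [AddCommGroup Γ] (σ : Γ → H →ₗᵢ[ℝ] H) : Prop where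
  zero : ∀ v, σ 0 v = v
  add : ∀ x y v, σ (x + y) v = σ x (σ y v)

/-- continuous vectors -/
def Cont (π : ℂ → H →ₗᵢ[ℝ] H) : Submodule ℝ H where
  carrier := {v | Continuous fun x => π x v}
  add_mem' := fun {a b} ha hb => by
    have : (fun x => π x (a + b)) = fun x => π x a + π x b := funext fun x => map_add _ _ _
    show Continuous fun x => π x (a + b)
    rw [this]; exact Continuous.add ha hb
  zero_mem' := by
    show Continuous fun x => π x 0
    simp only [map_zero]; exact continuous_const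
  smul_mem' := fun c {a} ha => by
    have : (fun x => π x (c • a)) = fun x => c • π x a := funext fun x => map_smul _ _ _
    show Continuous fun x => π x (c • a)
    rw [this]; exact Continuous.const_smul ha c

/-- fixed vectors -/
def Fix {Γ : Type} (σ : Γ → H →ₗᵢ[ℝ] H) : Submodule ℝ H where
  carrier := {v | ∀ x, σ x v = v}
  add_mem' := fun {a b} ha hb x => by rw [map_add, ha x, hb x]
  zero_mem' := fun x => map_zero _
  smul_mem' := fun c {a} ha x => by rw [map_smul, ha x]

lemma mem_cont {π : ℂ → H →ₗᵢ[ℝ] H} {v : H} : v ∈ Cont π ↔ Continuous fun x => π x v := Iff.rfl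

lemma mem_fix {Γ : Type} {σ : Γ → H →ₗᵢ[ℝ] H} {v : H} : v ∈ Fix σ ↔ ∀ x, σ x v = v := Iff.rfl

/-- closed subspace preserved by the commutant of `σ` -/
def Natl {Γ : Type} (σ : Γ → H →ₗᵢ[ℝ] H) (V : Submodule ℝ H) : Prop :=
  IsClosed (V : Set H) ∧
    ∀ T : H →L[ℝ] H, (∀ x v, T (σ x v) = σ x (T v)) → ∀ v ∈ V, T v ∈ V

/-- orthogonal projection on the closure of `V` -/
noncomputable def prj [CompleteSpace H] (V : Submodule ℝ H) : H →L[ℝ] H :=
  V.topologicalClosure.starProjection

end Hilbert

end Crest.Agent.R40.S1
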