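import Crest.Agent.R40.S1_Defs

/-!
Row 40, STEP 1: jointly measurable versions and the Fubini argument.
-/

set_option autoImplicit false

open MeasureTheory
open scoped RealInnerProductSpace

namespace Crest.Agent.R40.S1

/-- Plan: `q = TopologicalSpace.denseSeq ℂ`, `κ n x = Nat.find (‖u x - u (q k)‖ < 2⁻¹ ^ n)` measurable
(`measurable_find`), `g n x ω = (u (q (κ n x))) ω` (the coercion of an `Lp` element is strongly
measurable) is jointly measurable (`Measurable.find` or `measurable_from_prod_countable_*`);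
`g x ω = limUnder atTop (g · x ω)` / `limsup`; for fixed `x`, `∑ ‖g n x - u x‖² < ∞` in `L¹`
(`lintegral_tsum`) gives a.e. convergence. -/
theorem exists_joint {Ω : Type} [MeasurableSpace Ω] (μ : Measure Ω) [IsFiniteMeasure μ]
    (u : ℂ → Lp ℝ 2 μ) (hu : Continuous u) :
    ∃ g : ℂ → Ω → ℝ, Measurable (Function.uncurry g) ∧ ∀ x, g x =ᵐ[μ] u x := by
  classical
  have hex : ∀ (n : ℕ) (p : ℂ × Ω), ∃ k, dist (u (TopologicalSpace.denseSeq ℂ k)) (u p.1) < (1 / 2) ^ n :=
    fun n p => (TopologicalSpace.denseRange_denseSeq ℂ).exists_mem_open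
      (isOpen_lt (hu.dist continuous_const) continuous_const) ⟨p.1, by simp⟩
  have hm : ∀ n, Measurable fun p : ℂ × Ω => u (TopologicalSpace.denseSeq ℂ (Nat.find (hex n p))) p.2 :=
    fun n => Measurable.find (f := fun k (p : ℂ × Ω) => u (TopologicalSpace.denseSeq ℂ k) p.2)
      (fun k => (Lp.stronglyMeasurable _).measurable.comp measurable_snd)
      (fun k => (isOpen_lt (continuous_const.dist hu) continuous_const).measurableSet.preimage
        measurable_fst) (hex n)
  refine ⟨fun x ω => Filter.limUnder Filter.atTop fun n =>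
    u (TopologicalSpace.denseSeq ℂ (Nat.find (hex n (x, ω)))) ω,
    (StronglyMeasurable.limUnder fun n => (hm n).stronglyMeasurable).measurable, fun x => ?_⟩
  rcases isEmpty_or_nonempty Ω with h | ⟨⟨ω₀⟩⟩
  · exact .of_forall h.elim
  have h1 := summable_norm_of_tsum_eLpNorm_ne_top (μ := μ) (p := 2) (by norm_num)
    (f := fun n => ⇑(u (TopologicalSpace.denseSeq ℂ (Nat.find (hex n (x, ω₀))))) - ⇑(u x))
    (fun n => (Lp.aestronglyMeasurable _).sub (Lp.aestronglyMeasurable _))
    (ne_top_of_le_ne_top (summable_geometric_two.tsum_ofReal_ne_top) (ENNReal.tsum_le_tsum fun n => by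
      rw [← Lp.edist_def, edist_dist]
      exact ENNReal.ofReal_le_ofReal (Nat.find_spec (hex n (x, ω₀))).le))
  filter_upwards [h1] with ω hω
  exact (tendsto_iff_norm_sub_tendsto_zero.2 hω.tendsto_atTop_zero).limUnder_eq

/-- Plan: `exists_joint` for each `i`; for every `x`, a.e. `ω`: `∑ g i x ω = 1`; for every `(x,t)`, a.e. `ω`:
`g i x ω * g i (x + e t) ω = 0` (nonnegative with zero integral, `L2.inner_def`).  Swap the a.e.
quantifiers (`Measure.ae_ae_comm`), pick `ω`, `A i = {x | g i x ω ≠ 0}`. -/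
theorem exists_measCol {Ω : Type} [MeasurableSpace Ω] (μ : Measure Ω) [IsProbabilityMeasure μ]
    (u : Fin 5 → ℂ → Lp ℝ 2 μ) (hu : ∀ i, Continuous (u i)) (h0 : ∀ i x, 0 ≤ u i x)
    (h1 : ∀ x, ∀ᵐ ω ∂μ, ∑ i, u i x ω = 1)
    (ho : ∀ i x t, ⟪u i x, u i (x + e t)⟫ = 0) : ∃ A : Fin 5 → Set ℂ, MeasCol A := by
  choose g hg hgu using fun i => exists_joint μ (u i) (hu i)
  have h2 : ∀ᵐ ω ∂μ, ∀ᵐ x : ℂ, ∑ i, g i x ω = 1 :=
    (Measure.ae_ae_comm (p := fun x ω => ∑ i, g i x ω = 1) (measurableSet_eq_fun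
      (Finset.measurable_sum _ fun i _ => hg i) measurable_const)).1 (.of_forall fun x => by
      filter_upwards [h1 x, Filter.eventually_all.2 fun i => hgu i x] with ω h h'
      simp only [h', h])
  have h3 : ∀ i, ∀ᵐ ω ∂μ, ∀ᵐ p : ℂ × ℝ, g i p.1 ω * g i (p.1 + e p.2) ω = 0 := fun i =>
    (Measure.ae_ae_comm (p := fun (p : ℂ × ℝ) ω => g i p.1 ω * g i (p.1 + e p.2) ω = 0)
      (measurableSet_eq_fun (((hg i).comp (measurable_fst.fst.prodMk measurable_snd)).mul
        ((hg i).comp ((measurable_fst.fst.add (continuous_e.measurable.comp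
          measurable_fst.snd)).prodMk measurable_snd))) measurable_const)).1 (.of_forall fun p => by
      have h := ho i p.1 p.2
      rw [L2.inner_def, integral_eq_zero_iff_of_nonneg_ae ?_ (L2.integrable_inner _ _)] at h
      · filter_upwards [h, hgu i p.1, hgu i (p.1 + e p.2)] with ω h h' h''
        rw [h', h'', mul_comm]
        simpa using h
      · filter_upwards [(Lp.coeFn_nonneg _).2 (h0 i p.1), (Lp.coeFn_nonneg _).2 (h0 i (p.1 + e p.2))]
          with ω h h'
        simpa using mul_nonneg h' h)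
  obtain ⟨ω, h2, h3⟩ := (h2.and (Filter.eventually_all.2 h3)).exists
  refine ⟨fun i => {x | g i x ω ≠ 0}, fun i => (measurableSet_eq_fun
    ((hg i).comp measurable_prodMk_right) measurable_const).compl, ?_, fun i => ?_⟩
  · filter_upwards [h2] with x hx
    obtain ⟨i, -, hi⟩ := Finset.exists_ne_zero_of_sum_ne_zero (hx.trans_ne one_ne_zero)
    exact ⟨i, hi⟩
  · exact measure_mono_null (fun p hp => mul_ne_zero hp.1 hp.2) (ae_iff.1 (h3 i))

end Crest.Agent.R40.S1
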