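import Crest.Agent.R40.S1_Mean

/-!
Row 40, STEP 1: an invariant probability measure on proper colourings.
-/

set_option autoImplicit false

open MeasureTheory
open scoped RealInnerProductSpace

namespace Crest.Agent.R40.S1

/-- action of the motion `z ↦ x + e t * z` on colourings -/
noncomputable def act (x : ℂ) (t : ℝ) (ω : ℂ → Fin 5) : ℂ → Fin 5 := fun z => ω (x + e t * z)

lemma measurable_act (x : ℂ) (t : ℝ) : Measurable (act x t) :=
  measurable_pi_lambda _ fun _ => measurable_pi_apply _

/-- colourings with the Borel σ-algebra. -/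
def meas_Om : Type := ℂ → Fin 5

instance : TopologicalSpace meas_Om := inferInstanceAs (TopologicalSpace (ℂ → Fin 5))
instance : CompactSpace meas_Om := inferInstanceAs (CompactSpace (ℂ → Fin 5))
instance : T2Space meas_Om := inferInstanceAs (T2Space (ℂ → Fin 5))
instance : MeasurableSpace meas_Om := borel _
instance : BorelSpace meas_Om := ⟨rfl⟩

/-- the identity map. -/
def meas_id (ω : meas_Om) : ℂ → Fin 5 := ω

theorem meas_cont : Continuous meas_id := continuous_id

open scoped CompactlySupported in
theorem meas_exists (L : Mean (ℂ → Fin 5)) : ∃ μ : Measure (ℂ → Fin 5),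
    ∀ K : Set (ℂ → Fin 5), MeasurableSet K → IsClopen K →
      μ K = ENNReal.ofReal (L.m (K.indicator 1)) := by
  let Λ : C_c(meas_Om, ℝ) →ₚ[ℝ] ℝ := PositiveLinearMap.mk₀
    { toFun := fun f => L.m f
      map_add' := fun f g => L.m.map_add f g
      map_smul' := fun a f => L.m.map_smul a f } fun f hf => L.nonneg _ (by
      obtain ⟨C, hC⟩ := isCompact_univ.exists_bound_of_continuousOn f.continuous.continuousOn
      exact ⟨C, fun a => hC a trivial⟩) hf
  have hm : Measurable meas_id :=
    measurable_pi_lambda _ fun z => ((continuous_apply z).comp meas_cont).measurable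
  refine ⟨(RealRMK.rieszMeasure Λ).map meas_id, fun K hK hK' => ?_⟩
  have := RealRMK.integral_rieszMeasure Λ ⟨⟨(meas_id ⁻¹' K).indicator 1,
    (hK'.preimage meas_cont).continuous_indicator continuous_const⟩, HasCompactSupport.of_compactSpace _⟩
  rw [Measure.map_apply hm hK, ← ofReal_measureReal, ← integral_indicator_one (hm hK)]
  exact congrArg _ this

/-- Plan: type synonym `Om` of `ℂ → Fin 5` (compact T2) with the Borel σ-algebra;
`Λ f = M (t ↦ μ₀ (x ↦ f (act x t c)))` (`μ₀` from `exists_inv_mean ℂ`) is a positive functional on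
`C_c(Om, ℝ)`, invariant under `act` since `act x' t' (act x t c) = act (x + e t * x') (t + t') c`;
`RealRMK.rieszMeasure Λ`, invariance from `Measure.ext_of_integral_eq_on_compactlySupported`
(`act x t` is a homeomorphism, `Measure.Regular.map`); the sets `{ω | ω x = ω y}` are clopen, their
indicator is continuous and killed by `Λ`.  Finally push forward to the product σ-algebra by `id`. -/
theorem exists_inv_measure (c : ℂ → Fin 5) (hc : ∀ x y : ℂ, ‖x - y‖ = 1 → c x ≠ c y) :
    ∃ μ : Measure (ℂ → Fin 5), IsProbabilityMeasure μ ∧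
      (∀ x t, MeasurePreserving (act x t) μ μ) ∧
      ∀ x y : ℂ, ‖x - y‖ = 1 → μ {ω | ω x = ω y} = 0 := by
  obtain ⟨μ₀, hμ₀⟩ := exists_inv_mean ℂ
  have hb : ∀ {f : (ℂ → Fin 5) → ℝ}, Bdd f → Bdd fun t => μ₀.m fun x => f (act x t c) :=
    fun ⟨C, hC⟩ => ⟨C, fun t => μ₀.abs_le fun x => hC _⟩
  let L : Mean (ℂ → Fin 5) :=
    { m := { toFun := fun f => M fun t => μ₀.m fun x => f (act x t c)
             map_add' := fun f g => by simp only [Pi.add_apply, Mean.add]
             map_smul' := fun a f => by simp [Mean.const_mul] }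
      nonneg := fun f hf h0 => MM.nonneg _ (hb hf) fun t => μ₀.nonneg _ (hf.comp _) fun x => h0 _
      one := by simp [Mean.const] }
  have hL : ∀ (f : (ℂ → Fin 5) → ℝ) x t, Bdd f → L.m (fun ω => f (act x t ω)) = L.m f := by
    intro f x' t' hf
    refine Eq.trans (congrArg M (funext fun t => ?_)) (M_add_right (hb hf) t')
    refine Eq.trans (congrArg μ₀.m (funext fun x => congrArg f (funext fun z => ?_)))
      (hμ₀ (fun x => f (act x (t + t') c)) (e t * x') (hf.comp _))
    simp only [act, e_add]
    congr 1
    ring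
  obtain ⟨μ, hμ⟩ := meas_exists L
  have hP : IsProbabilityMeasure μ := ⟨by
    rw [hμ _ .univ isClopen_univ, Set.indicator_univ]
    exact (congrArg _ L.one).trans ENNReal.ofReal_one⟩
  refine ⟨μ, hP, fun x t => ⟨measurable_act x t, ?_⟩, fun x y hxy => ?_⟩
  · refine ext_of_generate_finite _ generateFrom_measurableCylinders.symm
      isPiSystem_measurableCylinders (fun S hS => ?_) (by simp [Measure.map_apply (measurable_act x t)])
    have h1 := MeasurableSet.of_mem_measurableCylinders hS
    have h2 : IsClopen S := by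
      obtain ⟨s, S', -, rfl⟩ := (mem_measurableCylinders S).1 hS
      exact (isClopen_discrete S').preimage (Finset.continuous_restrict s)
    rw [Measure.map_apply (measurable_act x t) h1, hμ _ h1 h2, hμ _ (measurable_act x t h1)
      (h2.preimage (continuous_pi fun z => continuous_apply _)), ← hL (S.indicator 1) x t
        ⟨1, fun ω => by by_cases h : ω ∈ S <;> simp [h]⟩]
    rfl
  · rw [hμ _ (measurableSet_eq_fun (measurable_pi_apply x) (measurable_pi_apply y))
      ((isClopen_discrete {p : Fin 5 × Fin 5 | p.1 = p.2}).preimage (f := fun ω : ℂ → Fin 5 => (ω x, ω y))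
        ((continuous_apply x).prodMk (continuous_apply y))), ENNReal.ofReal_eq_zero]
    have : ∀ x' t, Set.indicator {ω : ℂ → Fin 5 | ω x = ω y} (1 : (ℂ → Fin 5) → ℝ) (act x' t c) = 0 :=
      fun x' t => Set.indicator_of_notMem (by exact hc (x' + e t * x) (x' + e t * y) (by
        rw [add_sub_add_left_eq_sub, ← mul_sub, norm_mul, norm_e, hxy, one_mul])) _
    simp [L, this, Mean.const]

end Crest.Agent.R40.S1
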