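import Crest.Agent.R40.S1_Decomp
import Crest.Agent.R40.S1_Meas
import Crest.Agent.R40.S1_Joint

/-!
Row 40, STEP 1: assembly.
-/

set_option autoImplicit false

open MeasureTheory
open scoped RealInnerProductSpace

namespace Crest.Agent.R40.S1

/-- Plan: `π x = Lp.compMeasurePreservingₗᵢ ℝ (act x 0) _`, `R t = … (act 0 t)`,
`F i = indicatorConstLp 2 {ω | ω 0 = i} _ 1`, `f i = prj (Cont π) (F i)`, `u i x = π x (f i)`.
`0 ≤ f i` by `prj_cont_mem_closure` (the positive cone of `Lp` is closed, convex, `π`-invariant);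
`∑ f i = prj (∑ F i) = prj 1 = 1`; `⟪u i x, u i (x + e t)⟫ = ⟪π (-e t) f, f⟫ = ⟪π (-e t) F, F⟫ = 0` by
`decomp`; `exists_measCol`. -/
theorem measCol_of_measure (μ : Measure (ℂ → Fin 5)) [IsProbabilityMeasure μ]
    (hinv : ∀ x t, MeasurePreserving (act x t) μ μ)
    (hprop : ∀ x y : ℂ, ‖x - y‖ = 1 → μ {ω | ω x = ω y} = 0) :
    ∃ A : Fin 5 → Set ℂ, MeasCol A := by
  obtain ⟨U, hU⟩ : ∃ U : ℂ → ℝ → Lp ℝ 2 μ →ₗᵢ[ℝ] Lp ℝ 2 μ,
      ∀ x t f, U x t f = Lp.compMeasurePreserving (act x t) (hinv x t) f :=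
    ⟨fun x t => Lp.compMeasurePreservingₗᵢ ℝ (act x t) (hinv x t), fun _ _ _ => rfl⟩
  have hae : ∀ x t f, U x t f =ᵐ[μ] f ∘ act x t := fun x t f =>
    hU x t f ▸ Lp.coeFn_compMeasurePreserving f (hinv x t)
  have hUU : ∀ x t x' t' f, U x t (U x' t' f) = U (x + e t * x') (t + t') f := fun x t x' t' f => by
    rw [hU, hU, hU, ← Lp.compMeasurePreserving_comp_apply]
    congr 2
    funext ω z
    simp only [act, e_add, Function.comp]
    congr 1
    ring
  have hU0 : ∀ f, U 0 0 f = f := fun f => by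
    rw [hU]
    convert Lp.compMeasurePreserving_id_apply f
    funext ω z
    simp [act, e_zero]
  have hπ : IsRep fun x => U x 0 := ⟨hU0, fun x y v => by simp [hUU, e_zero]⟩
  have hR : IsRep fun t => U 0 t := ⟨hU0, fun x y v => by simp [hUU]⟩
  have hS : ∀ (x : ℂ) (i : Fin 5), MeasurableSet {ω : ℂ → Fin 5 | ω x = i} := fun x i =>
    measurableSet_eq_fun (measurable_pi_apply x) measurable_const
  obtain ⟨F, hF⟩ : ∃ F : ℂ → Fin 5 → Lp ℝ 2 μ,
    ∀ x i, F x i = indicatorConstLp 2 (hS x i) (measure_ne_top _ _) 1 := ⟨_, fun _ _ => rfl⟩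
  have hUF : ∀ x t i, U x t (F 0 i) = F x i := fun x t i => by
    rw [hU, hF, hF, Lp.indicatorConstLp_compMeasurePreserving]
    congr 1
    ext ω
    simp [act]
  have hpos : ∀ x v, 0 ≤ v → 0 ≤ U x 0 v := fun x v hv => (Lp.coeFn_nonneg _).1 (by
    filter_upwards [hae x 0 v, (hinv x 0).quasiMeasurePreserving.ae ((Lp.coeFn_nonneg _).2 hv)]
      with ω h h'
    exact h'.trans_eq h.symm)
  have hone : ∀ x, ∀ᵐ ω ∂μ, (∑ i, F x i) ω = 1 := fun x => by
    filter_upwards [Lp.coeFn_fun_finsetSum Finset.univ (F x), Filter.eventually_all.2 fun i =>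
      indicatorConstLp_coeFn (p := 2) (hs := hS x i) (hμs := measure_ne_top μ _) (c := (1 : ℝ))]
      with ω h h'
    rw [h]
    simp [hF, h', Set.indicator_apply]
  refine exists_measCol μ (fun i x => U x 0 (prj (Cont fun x => U x 0) (F 0 i)))
    (fun i => prj_mem (isClosed_cont _) _) (fun i x => hpos _ _ (closure_minimal (t := Set.Ici (0 : Lp ℝ 2 μ))
      (convexHull_min ?_ fun a ha b hb s t hs ht _ => (Lp.coeFn_nonneg _).1 ?_) isClosed_Ici
      (prj_cont_mem_closure hπ (F 0 i)))) (fun x => ?_) fun i x t => ?_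
  · rintro _ ⟨y, rfl⟩
    refine hpos _ _ ((Lp.coeFn_nonneg _).1 ?_)
    rw [hF]
    filter_upwards [indicatorConstLp_coeFn (p := 2) (hs := hS 0 i) (hμs := measure_ne_top μ _)
      (c := (1 : ℝ))] with ω h
    rw [h]
    exact Set.indicator_nonneg (fun _ _ => zero_le_one) _
  · filter_upwards [(Lp.coeFn_nonneg _).2 ha, (Lp.coeFn_nonneg _).2 hb, Lp.coeFn_add (s • a) (t • b),
      Lp.coeFn_smul s a, Lp.coeFn_smul t b] with ω h1 h2 h3 h4 h5
    rw [h3, Pi.add_apply, h4, h5]
    exact add_nonneg (mul_nonneg hs h1) (mul_nonneg ht h2)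
  · have h1 : ∀ y, U y 0 (∑ i, F 0 i) = ∑ i, F 0 i := fun y => by
      simp only [map_sum, hUF]
      refine Lp.ext ?_
      filter_upwards [hone y, hone 0] with ω h h' using h.trans h'.symm
    have h2 : ∑ i, U x 0 (prj (Cont fun x => U x 0) (F 0 i)) = ∑ i, F 0 i := by
      rw [← map_sum, ← map_sum, prj_eq_self, h1]
      simp only [mem_cont, h1]
      exact continuous_const
    filter_upwards [Lp.coeFn_fun_finsetSum Finset.univ fun i =>
      U x 0 (prj (Cont fun x => U x 0) (F 0 i)), hone 0] with ω h h'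
    rw [← h, h2, h']
  · refine (hπ.inner_inner _ _ _ _).trans ((decomp hπ hR (fun t x v => by simp [hUU, e_zero])
      (fun t => hUF 0 t i) ?_ ?_).trans ?_)
    · rw [hF]
      refine norm_indicatorConstLp_le.trans ?_
      rw [norm_one, one_mul]
      exact Real.rpow_le_one measureReal_nonneg measureReal_le_one (by norm_num)
    · simpa using norm_ne_zero_iff.1 ((norm_e t).trans_ne one_ne_zero)
    · rw [hUF, hF, hF, L2.real_inner_indicatorConstLp_one_indicatorConstLp_one,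
        measureReal_eq_zero_iff]
      exact measure_mono_null (fun ω hω => hω.1.trans hω.2.symm) (hprop _ _ (by simp [norm_e]))

end Crest.Agent.R40.S1
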