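import Crest.Agent.R40.S1_Defs

/-!
Row 40, STEP 1: GNS / Moore-Aronszajn construction for real psd kernels with symmetries.
-/

set_option autoImplicit false

open scoped RealInnerProductSpace

namespace Crest.Agent.R40.S1

/-- isometries from symmetries of a total family of vectors -/
lemma gns_isom {S H : Type} [NormedAddCommGroup H] [InnerProductSpace ℝ H] [CompleteSpace H]
    (k k' : S → H) (hd : Dense (Submodule.span ℝ (Set.range k) : Set H))
    (h : ∀ s t, ⟪k' s, k' t⟫ = ⟪k s, k t⟫) : ∃ U : H →ₗᵢ[ℝ] H, ∀ s, U (k s) = k' s := by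
  let e : (S →₀ ℝ) →ₗ[ℝ] H := Finsupp.linearCombination ℝ k
  let f : (S →₀ ℝ) →ₗ[ℝ] H := Finsupp.linearCombination ℝ k'
  have he : DenseRange e := by
    rw [DenseRange, ← LinearMap.coe_range, Finsupp.range_linearCombination]
    exact hd
  have hn : ∀ x, ‖f x‖ = ‖e x‖ := by
    intro x
    rw [← sq_eq_sq₀ (norm_nonneg _) (norm_nonneg _), ← real_inner_self_eq_norm_sq,
      ← real_inner_self_eq_norm_sq]
    simp only [e, f, Finsupp.linearCombination_apply, Finsupp.sum, sum_inner, inner_sum,
      real_inner_smul_left, real_inner_smul_right, h]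
  have hU : ∀ x, f.extendOfNorm e (e x) = f x :=
    LinearMap.extendOfNorm_eq he ⟨1, fun x => by rw [hn, one_mul]⟩
  refine ⟨⟨(f.extendOfNorm e).toLinearMap, fun v => ?_⟩, fun s => ?_⟩
  · refine he.induction_on (p := fun v => ‖f.extendOfNorm e v‖ = ‖v‖) v
      (isClosed_eq (by fun_prop) (by fun_prop)) fun x => ?_
    rw [hU, hn]
  · have := hU (Finsupp.single s 1)
    simpa [e, f] using this

/-- the pre-Hilbert space of the kernel -/
def gns_H {S : Type} {K : S → S → ℝ} (_ : PSD K) : Type := S →₀ ℝ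

noncomputable instance gns_add {S : Type} {K : S → S → ℝ} (hK : PSD K) :
    AddCommGroup (gns_H hK) := inferInstanceAs (AddCommGroup (S →₀ ℝ))

noncomputable instance gns_mod {S : Type} {K : S → S → ℝ} (hK : PSD K) :
    Module ℝ (gns_H hK) := inferInstanceAs (Module ℝ (S →₀ ℝ))

/-- the bilinear form of the kernel -/
noncomputable def gns_B {S : Type} (K : S → S → ℝ) : (S →₀ ℝ) →ₗ[ℝ] (S →₀ ℝ) →ₗ[ℝ] ℝ :=
  Finsupp.linearCombination ℝ fun s => Finsupp.linearCombination ℝ (K s)

lemma gns_B_apply {S : Type} (K : S → S → ℝ) (f g : S →₀ ℝ) :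
    gns_B K f g = ∑ s ∈ f.support, ∑ t ∈ g.support, f s * g t * K s t := by
  simp only [gns_B, Finsupp.linearCombination_apply, Finsupp.sum, LinearMap.sum_apply,
    LinearMap.smul_apply, smul_eq_mul, Finset.mul_sum, mul_assoc]

lemma gns_B_single {S : Type} (K : S → S → ℝ) (s t : S) :
    gns_B K (Finsupp.single s 1) (Finsupp.single t 1) = K s t := by
  simp [gns_B]

noncomputable instance gns_core {S : Type} {K : S → S → ℝ} (hK : PSD K) :
    PreInnerProductSpace.Core ℝ (gns_H hK) where
  inner f g := gns_B K f g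
  conj_inner_symm f g := by
    change gns_B K g f = gns_B K f g
    rw [gns_B_apply, gns_B_apply, Finset.sum_comm]
    refine Finset.sum_congr rfl fun s _ => Finset.sum_congr rfl fun t _ => ?_
    rw [hK.1 t s]
    ring
  re_inner_nonneg f := by
    change 0 ≤ gns_B K f f
    rw [gns_B_apply]
    have := hK.2 (show S →₀ ℝ from f).support (fun s => (show S →₀ ℝ from f) s) (fun s => s)
    rw [← Finset.sum_coe_sort]
    simp only [← Finset.sum_coe_sort (show S →₀ ℝ from f).support]
    exact this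
  add_left f g h := (gns_B K).map_add₂ f g h
  smul_left f g r := (gns_B K).map_smul₂ r f g

noncomputable instance gns_semi {S : Type} {K : S → S → ℝ} (hK : PSD K) :
    SeminormedAddCommGroup (gns_H hK) :=
  InnerProductSpace.Core.toSeminormedAddCommGroup (𝕜 := ℝ)

noncomputable instance gns_ips {S : Type} {K : S → S → ℝ} (hK : PSD K) :
    InnerProductSpace ℝ (gns_H hK) := .ofCore _

lemma gns_inner {S : Type} {K : S → S → ℝ} (hK : PSD K) (f g : gns_H hK) :
    ⟪f, g⟫ = gns_B K f g := rfl

/-- Kernel vectors with dense span; symmetries of the kernel are implemented by isometries.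
Plan: `H₀ = S →₀ ℝ` with the `PreInnerProductSpace.Core` `⟪f,g⟫ = ∑∑ f s * g t * K s t` (type synonym),
`H = UniformSpace.Completion H₀` (see Mathlib `Analysis/InnerProductSpace/Reproducing.lean` for the
pattern); `U` = completion of the isometry `Finsupp.lmapDomain σ`. -/
theorem gns {S : Type} {K : S → S → ℝ} (hK : PSD K) :
    ∃ (H : Type) (_ : NormedAddCommGroup H) (_ : InnerProductSpace ℝ H) (_ : CompleteSpace H)
      (k : S → H), (∀ s t, ⟪k s, k t⟫ = K s t) ∧
      Dense (Submodule.span ℝ (Set.range k) : Set H) ∧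
      ∀ σ : S → S, (∀ s t, K (σ s) (σ t) = K s t) → ∃ U : H →ₗᵢ[ℝ] H, ∀ s, U (k s) = k (σ s) := by
  let k : S → UniformSpace.Completion (gns_H hK) :=
    fun s => ((show gns_H hK from Finsupp.single s 1 : gns_H hK) : UniformSpace.Completion _)
  have hk : ∀ s t, ⟪k s, k t⟫ = K s t := by
    intro s t
    simp only [k]
    rw [UniformSpace.Completion.inner_coe, gns_inner, gns_B_single]
  have hd : Dense (Submodule.span ℝ (Set.range k) : Set (UniformSpace.Completion (gns_H hK))) := by
    refine Dense.mono ?_ (UniformSpace.Completion.denseRange_coe (α := gns_H hK))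
    rintro _ ⟨f, rfl⟩
    let L : (S →₀ ℝ) →ₗ[ℝ] UniformSpace.Completion (gns_H hK) :=
      (UniformSpace.Completion.toComplₗᵢ (𝕜 := ℝ) (E := gns_H hK)).toLinearMap
    have hL : L = Finsupp.linearCombination ℝ k := by
      ext s
      simp only [LinearMap.comp_apply, Finsupp.lsingle_apply, Finsupp.linearCombination_single,
        one_smul]
      rfl
    have : L f ∈ Submodule.span ℝ (Set.range k) := by
      rw [hL, ← Finsupp.range_linearCombination]
      exact ⟨f, rfl⟩
    exact this
  refine ⟨UniformSpace.Completion (gns_H hK), inferInstance, inferInstance, inferInstance, k, hk,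
    hd, fun σ hσ => gns_isom k (fun s => k (σ s)) hd fun s t => ?_⟩
  rw [hk, hk, hσ]

lemma gns_ext {S H : Type} [NormedAddCommGroup H] [InnerProductSpace ℝ H]
    {k : S → H} (hd : Dense (Submodule.span ℝ (Set.range k) : Set H)) (U V : H →ₗᵢ[ℝ] H)
    (h : ∀ s, U (k s) = V (k s)) (v : H) : U v = V v := by
  have : U.toContinuousLinearMap = V.toContinuousLinearMap :=
    ContinuousLinearMap.ext_on hd (by rintro _ ⟨s, rfl⟩; exact h s)
  exact congrArg (fun T : H →L[ℝ] H => T v) this

/-- GNS representation of `ℂ² ⋊ ℝ²` for a positive definite function on `ℂ²` invariant under rotating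
both coordinates separately.
Plan: `gns` for `K p q = Φ (p - q)`; choose the isometries for `q ↦ p + q` and for the rotations; the
relations hold on the `k q`, hence everywhere (`ContinuousLinearMap.ext_on` with the density);
`Ξ = k 0`. -/
theorem gns2 {Φ : ℂ × ℂ → ℝ} (hΦ : PSD (fun p q : ℂ × ℂ => Φ (p - q)))
    (hr : ∀ (a b : ℝ) (x y : ℂ), Φ (e a * x, e b * y) = Φ (x, y)) :
    ∃ (H : Type) (_ : NormedAddCommGroup H) (_ : InnerProductSpace ℝ H) (_ : CompleteSpace H)
      (P : ℂ × ℂ → H →ₗᵢ[ℝ] H) (R : ℝ × ℝ → H →ₗᵢ[ℝ] H) (Ξ : H),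
      IsRep P ∧ IsRep R ∧ (∀ a, R a Ξ = Ξ) ∧
      (∀ a p v, R a (P p v) = P (e a.1 * p.1, e a.2 * p.2) (R a v)) ∧
      ∀ p, ⟪P p Ξ, Ξ⟫ = Φ p := by
  obtain ⟨H, _, _, _, k, hk, hd, hU⟩ := gns hΦ
  have h1 : ∀ p : ℂ × ℂ, ∃ U : H →ₗᵢ[ℝ] H, ∀ q, U (k q) = k (p + q) := fun p =>
    hU (fun q => p + q) fun s t => by rw [add_sub_add_left_eq_sub]
  have h2 : ∀ a : ℝ × ℝ, ∃ U : H →ₗᵢ[ℝ] H, ∀ q : ℂ × ℂ,
      U (k q) = k (e a.1 * q.1, e a.2 * q.2) := fun a =>
    hU (fun q => (e a.1 * q.1, e a.2 * q.2)) fun s t => by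
      have := hr a.1 a.2 (s - t).1 (s - t).2
      rw [Prod.mk.eta] at this
      rw [← this]
      simp only [Prod.mk_sub_mk, Prod.fst_sub, Prod.snd_sub, mul_sub]
  choose P hP using h1
  choose R hR using h2
  refine ⟨H, inferInstance, inferInstance, inferInstance, P, R, k 0, ⟨fun v => ?_, fun x y v => ?_⟩,
    ⟨fun v => ?_, fun x y v => ?_⟩, fun a => ?_, fun a p v => ?_, fun p => ?_⟩
  · exact gns_ext hd (P 0) LinearIsometry.id (fun s => by rw [hP, zero_add]; rfl) v
  · exact gns_ext hd (P (x + y)) ((P x).comp (P y))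
      (fun s => by simp only [LinearIsometry.coe_comp, Function.comp_apply, hP, add_assoc]) v
  · exact gns_ext hd (R 0) LinearIsometry.id (fun s => by simp [hR, e_zero]) v
  · exact gns_ext hd (R (x + y)) ((R x).comp (R y))
      (fun s => by
        simp only [LinearIsometry.coe_comp, Function.comp_apply, hR, Prod.fst_add, Prod.snd_add,
          e_add, mul_assoc]) v
  · rw [hR]
    simp only [Prod.fst_zero, Prod.snd_zero, mul_zero]
    rfl
  · exact gns_ext hd ((R a).comp (P p)) ((P (e a.1 * p.1, e a.2 * p.2)).comp (R a))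
      (fun s => by
        simp only [LinearIsometry.coe_comp, Function.comp_apply, hR, hP, Prod.fst_add, Prod.snd_add,
          mul_add, Prod.mk_add_mk]) v
  · rw [hP, hk]
    simp

end Crest.Agent.R40.S1
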