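import Crest.Agent.R40.S1_Defs

/-!
Row 40, STEP 1: reflecting a root of a trigonometric polynomial.
-/

set_option autoImplicit false

namespace Crest.Agent.R40.S1

/-- two concentric ellipses intersect.
Plan: IVT for `b ↦ (B/A)² cos² b + (D/C)² sin² b` on `[0, π/2]`, then `exists_e_of_norm_one`. -/
lemma exists_angles {A B C D : ℝ} (hB : 0 < B) (hAB : B ≤ A) (hC : 0 < C) (hCD : C ≤ D) :
    ∃ a b : ℝ, A * Real.cos a + B * Real.cos b = 0 ∧ C * Real.sin a + D * Real.sin b = 0 := by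
  have hA : 0 < A := lt_of_lt_of_le hB hAB
  let g : ℝ → ℝ := fun b => (B / A) ^ 2 * Real.cos b ^ 2 + (D / C) ^ 2 * Real.sin b ^ 2
  have hg : Continuous g := by fun_prop
  have h1 : g 0 ≤ 1 := by
    simp only [g, Real.cos_zero, Real.sin_zero]
    have : B / A ≤ 1 := (div_le_one hA).2 hAB
    have h0 : 0 ≤ B / A := by positivity
    nlinarith
  have h2 : 1 ≤ g (Real.pi / 2) := by
    simp only [g, Real.cos_pi_div_two, Real.sin_pi_div_two]
    have : 1 ≤ D / C := (one_le_div hC).2 hCD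
    nlinarith
  obtain ⟨b, hb⟩ := intermediate_value_univ 0 (Real.pi / 2) hg ⟨h1, h2⟩
  let u : ℂ := ⟨-(B / A) * Real.cos b, -(D / C) * Real.sin b⟩
  have hu : ‖u‖ = 1 := by
    rw [← sq_eq_sq₀ (norm_nonneg _) zero_le_one, Complex.sq_norm, Complex.normSq_apply]
    simp only [u, g] at hb ⊢
    linear_combination hb
  obtain ⟨a, ha⟩ := exists_e_of_norm_one hu
  have hre := congrArg Complex.re ha
  have him := congrArg Complex.im ha
  rw [e_re] at hre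
  rw [e_im] at him
  simp only [u] at hre him
  refine ⟨a, b, ?_, ?_⟩
  · rw [← hre]; field_simp; ring
  · rw [← him]; field_simp; ring

lemma poly_e_nat (n : ℕ) (t : ℝ) : e (n * t) = e t ^ n := by
  induction n with
  | zero => simp [e_zero]
  | succ n ih => push_cast; rw [add_mul, one_mul, e_add, ih, pow_succ]

lemma poly_e_neg_mul (t : ℝ) : e t * e (-t) = 1 := by rw [← e_add, add_neg_cancel, e_zero]

lemma poly_norm_reflect (ρ t : ℝ) : ‖1 - (ρ : ℂ) * e t‖ = ‖e t - ρ‖ := by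
  rw [← sq_eq_sq₀ (norm_nonneg _) (norm_nonneg _), Complex.sq_norm, Complex.sq_norm,
    Complex.normSq_apply, Complex.normSq_apply]
  simp only [Complex.sub_re, Complex.sub_im, Complex.mul_re, Complex.mul_im, Complex.ofReal_re,
    Complex.ofReal_im, e_re, e_im, Complex.one_re, Complex.one_im]
  linear_combination (ρ ^ 2 - 1) * Real.sin_sq_add_cos_sq t

open Polynomial in
/-- reflecting a real root -/
lemma poly_reflect' (Q : ℂ[X]) (d : ℕ) (hd : Q.natDegree ≤ d + 1) (ρ : ℝ)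
    (hρ : Q.IsRoot (ρ : ℂ)) :
    ∃ x : ℤ → ℂ, ‖x ((d + 1 : ℕ) : ℤ)‖ = |ρ| * ‖Q.coeff (d + 1)‖ ∧ ∀ t : ℝ,
      ‖∑ j ∈ Finset.Icc (0 : ℤ) ((d + 1 : ℕ) : ℤ), x j * e (j * t)‖ = ‖Q.eval (e t)‖ := by
  obtain ⟨S, hS⟩ := dvd_iff_isRoot.2 hρ
  have hSd : S.natDegree ≤ d := by
    by_cases h0 : S = 0
    · simp [h0]
    · rw [hS, natDegree_mul (X_sub_C_ne_zero _) h0, natDegree_X_sub_C] at hd
      omega
  have hS1 : S.coeff (d + 1) = 0 := coeff_eq_zero_of_natDegree_lt (by omega)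
  set Q' : ℂ[X] := (1 - C (ρ : ℂ) * X) * S with hQ'
  have hQ'd : Q'.natDegree < d + 2 := by
    have h1 : (1 - C (ρ : ℂ) * X : ℂ[X]).natDegree ≤ 1 := by compute_degree
    have := natDegree_mul_le (p := (1 - C (ρ : ℂ) * X : ℂ[X])) (q := S)
    rw [hQ']
    omega
  refine ⟨fun j => Q'.coeff j.toNat, ?_, fun t => ?_⟩
  · simp only [Int.toNat_natCast]
    have h1 : Q'.coeff (d + 1) = -(ρ : ℂ) * S.coeff d := by
      rw [hQ', sub_mul, one_mul, coeff_sub, hS1, mul_assoc, coeff_C_mul, coeff_X_mul]; ring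
    have h2 : Q.coeff (d + 1) = S.coeff d := by
      rw [hS, sub_mul, coeff_sub, coeff_X_mul, coeff_C_mul, hS1]; ring
    rw [h1, h2, norm_mul, norm_neg, Complex.norm_real, Real.norm_eq_abs]
  · have h1 : ∑ j ∈ Finset.Icc (0 : ℤ) ((d + 1 : ℕ) : ℤ), Q'.coeff j.toNat * e (j * t)
        = Q'.eval (e t) := by
      rw [eval_eq_sum_range' hQ'd]
      symm
      refine Finset.sum_bij (fun i _ => (i : ℤ)) ?_ ?_ ?_ ?_
      · intro i hi
        rw [Finset.mem_range] at hi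
        rw [Finset.mem_Icc]; constructor <;> omega
      · intro i _ j _ hij; exact_mod_cast hij
      · intro j hj
        rw [Finset.mem_Icc] at hj
        exact ⟨j.toNat, Finset.mem_range.2 (by omega), by omega⟩
      · intro i _
        simp only [Int.toNat_natCast, Int.cast_natCast, poly_e_nat]
    rw [h1, hQ', hS, eval_mul, eval_mul, norm_mul, norm_mul]
    simp only [eval_sub, eval_one, eval_mul, eval_C, eval_X, poly_norm_reflect]

/-- Plan: `ρ₀ > 1` with `ρ₀ ^ n ≤ 2 r'/r - 1`.  For `ρ ∈ (1, ρ₀)`: `exists_angles` with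
`A = r (ρ^n - ρ⁻¹^n) ≥ r n (ρ - 1)` (Bernoulli), `B = r' (ρ - ρ⁻¹) ≤ 2 r' (ρ - 1)`,
`C = r (ρ^n + ρ⁻¹^n) ≤ r (ρ^n + 1) ≤ 2 r'`, `D = r' (ρ + ρ⁻¹) ≥ 2 r'`.  The polynomial
`Q = C (r e a) X^(2n) + C (r' e b) X^(n+1) - C (r' e (-b)) X^(n-1) - C (r e (-a))` has the root `ρ`;
`Q = (X - C ρ) * S`, `Q' = (1 - C ρ * X) * S`, `x j = Q'.coeff j.toNat`; `‖1 - ρ z‖ = ‖z - ρ‖` on the
circle; top coefficient `-ρ r e a`. -/
theorem exists_poly {r r' : ℝ} (hr : 0 < r) (hrr : r < r') {n : ℕ} (hn : 2 * r' ≤ n * r) :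
    ∃ ρ₀ : ℝ, 1 < ρ₀ ∧ ∀ ρ : ℝ, 1 < ρ → ρ < ρ₀ → ∃ (a b : ℝ) (x : ℤ → ℂ),
      ‖x (2 * n)‖ = ρ * r ∧ ∀ t : ℝ,
        ‖∑ j ∈ Finset.Icc (0 : ℤ) (2 * n), x j * e (j * t)‖ =
          ‖(r : ℂ) * (e (a + n * t) - e (-(a + n * t))) + (r' : ℂ) * (e (b + t) - e (-(b + t)))‖ := by
  have hn1 : 1 ≤ n := by
    by_contra hcon
    have : n = 0 := by omega
    rw [this] at hn; simp at hn; linarith
  obtain ⟨m, rfl⟩ : ∃ m, n = m + 1 := ⟨n - 1, by omega⟩
  have hκ : (1 : ℝ) ^ (m + 1) < 2 * r' / r - 1 := by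
    rw [one_pow, lt_sub_iff_add_lt, lt_div_iff₀ hr]; linarith
  obtain ⟨ρ₀, hρ₀, hρ₀'⟩ : ∃ ρ₀ : ℝ, 1 < ρ₀ ∧ ρ₀ ^ (m + 1) < 2 * r' / r - 1 := by
    have hc : Continuous fun s : ℝ => s ^ (m + 1) := by fun_prop
    have hev := (hc.tendsto 1).eventually (gt_mem_nhds hκ)
    have hev2 : ∀ᶠ s in nhdsWithin (1 : ℝ) (Set.Ioi 1), s ^ (m + 1) < 2 * r' / r - 1 :=
      hev.filter_mono nhdsWithin_le_nhds
    obtain ⟨s, hs1, hs2⟩ := (hev2.and self_mem_nhdsWithin).exists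
    exact ⟨s, hs2, hs1⟩
  refine ⟨ρ₀, hρ₀, fun ρ h1 h2 => ?_⟩
  have hρ : 0 < ρ := by linarith
  have hi1 : ρ⁻¹ ≤ 1 := inv_le_one_of_one_le₀ h1.le
  have hi0 : 0 < ρ⁻¹ := inv_pos.2 hρ
  have hii : ρ * ρ⁻¹ = 1 := mul_inv_cancel₀ hρ.ne'
  have hip : ρ⁻¹ ^ (m + 1) ≤ 1 := pow_le_one₀ hi0.le hi1
  have hip0 : 0 < ρ⁻¹ ^ (m + 1) := pow_pos hi0 _
  have hbern : 1 + ((m + 1 : ℕ) : ℝ) * (ρ - 1) ≤ ρ ^ (m + 1) := by
    have := one_add_mul_le_pow (a := ρ - 1) (by linarith) (m + 1)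
    simpa using this
  have hup : ρ ^ (m + 1) < 2 * r' / r - 1 :=
    (pow_le_pow_left₀ hρ.le h2.le _).trans_lt hρ₀'
  have hup' : r * (ρ ^ (m + 1) + 1) < 2 * r' := by
    rw [lt_sub_iff_add_lt, lt_div_iff₀ hr] at hup; linarith
  have hr' : 0 < r' := by linarith
  obtain ⟨a, b, hab1, hab2⟩ := exists_angles (A := r * (ρ ^ (m + 1) - ρ⁻¹ ^ (m + 1)))
    (B := r' * (ρ - ρ⁻¹)) (C := r * (ρ ^ (m + 1) + ρ⁻¹ ^ (m + 1))) (D := r' * (ρ + ρ⁻¹))
    (mul_pos hr' (by linarith))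
    (by
      have e1 : ρ - ρ⁻¹ ≤ 2 * (ρ - 1) := by nlinarith
      have e2 : r' * (ρ - ρ⁻¹) ≤ r' * (2 * (ρ - 1)) := mul_le_mul_of_nonneg_left e1 hr'.le
      have e3 : 2 * r' * (ρ - 1) ≤ ((m + 1 : ℕ) : ℝ) * r * (ρ - 1) :=
        mul_le_mul_of_nonneg_right hn (by linarith)
      have e4 : r * (((m + 1 : ℕ) : ℝ) * (ρ - 1)) ≤ r * (ρ ^ (m + 1) - ρ⁻¹ ^ (m + 1)) :=
        mul_le_mul_of_nonneg_left (by linarith) hr.le
      nlinarith)
    (by positivity)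
    (by
      have e1 : 2 ≤ ρ + ρ⁻¹ := by nlinarith
      have e2 : r' * 2 ≤ r' * (ρ + ρ⁻¹) := mul_le_mul_of_nonneg_left e1 hr'.le
      have e3 : r * (ρ ^ (m + 1) + ρ⁻¹ ^ (m + 1)) ≤ r * (ρ ^ (m + 1) + 1) :=
        mul_le_mul_of_nonneg_left (by linarith) hr.le
      linarith)
  let Q : Polynomial ℂ := Polynomial.C ((r : ℂ) * e a) * Polynomial.X ^ (2 * m + 1 + 1)
    + Polynomial.C ((r' : ℂ) * e b) * Polynomial.X ^ (m + 2)
    - Polynomial.C ((r' : ℂ) * e (-b)) * Polynomial.X ^ m - Polynomial.C ((r : ℂ) * e (-a))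
  have hev : ∀ z w : ℂ, z * w = 1 → Q.eval z = z ^ (m + 1) *
      ((r : ℂ) * (e a * z ^ (m + 1) - e (-a) * w ^ (m + 1)) + (r' : ℂ) * (e b * z - e (-b) * w)) := by
    intro z w hzw
    have h3 : z ^ (m + 1) * w ^ (m + 1) = 1 := by rw [← mul_pow, hzw, one_pow]
    simp only [Q, Polynomial.eval_sub, Polynomial.eval_add, Polynomial.eval_mul, Polynomial.eval_C,
      Polynomial.eval_pow, Polynomial.eval_X]
    linear_combination ((r : ℂ) * e (-a)) * h3 + ((r' : ℂ) * e (-b) * z ^ m) * hzw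
  have hm : 1 ≤ m := by
    by_contra hcon
    have : m = 0 := by omega
    rw [this] at hn; simp at hn; linarith
  have hdeg : Q.natDegree ≤ 2 * m + 1 + 1 := by
    simp only [Q]
    compute_degree
    all_goals omega
  have hcoef : Q.coeff (2 * m + 1 + 1) = (r : ℂ) * e a := by
    simp only [Q, Polynomial.coeff_sub, Polynomial.coeff_add, Polynomial.coeff_C_mul,
      Polynomial.coeff_X_pow, Polynomial.coeff_C]
    rw [if_pos trivial, if_neg (by omega), if_neg (by omega), if_neg (by omega)]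
    ring
  have hroot : Q.IsRoot (ρ : ℂ) := by
    rw [Polynomial.IsRoot.def, hev ρ ((ρ⁻¹ : ℝ) : ℂ) (by exact_mod_cast hii)]
    apply mul_eq_zero_of_right
    rw [← Complex.ofReal_pow, ← Complex.ofReal_pow]
    apply Complex.ext
    · simp only [Complex.add_re, Complex.sub_re, Complex.mul_re, Complex.ofReal_re,
        Complex.ofReal_im, e_re, e_im, Real.cos_neg, Real.sin_neg, Complex.zero_re,
        Complex.sub_im, Complex.mul_im]
      linear_combination hab1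
    · simp only [Complex.add_im, Complex.sub_re, Complex.mul_re, Complex.ofReal_re,
        Complex.ofReal_im, e_re, e_im, Real.cos_neg, Real.sin_neg, Complex.zero_im,
        Complex.sub_im, Complex.mul_im]
      linear_combination hab2
  obtain ⟨x, hx1, hx2⟩ := poly_reflect' Q (2 * m + 1) hdeg ρ hroot
  have hcast : ((2 * m + 1 + 1 : ℕ) : ℤ) = 2 * ((m + 1 : ℕ) : ℤ) := by push_cast; ring
  rw [hcast] at hx1 hx2
  refine ⟨a, b, x, ?_, fun t => ?_⟩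
  · rw [hx1, hcoef, norm_mul, norm_e, mul_one, Complex.norm_real, Real.norm_eq_abs, abs_of_pos hρ,
      abs_of_pos hr]
  · rw [hx2, hev (e t) (e (-t)) (poly_e_neg_mul t), norm_mul, norm_pow, norm_e, one_pow, one_mul]
    rw [neg_add, neg_add, e_add, e_add, e_add, e_add, ← mul_neg, poly_e_nat, poly_e_nat]

end Crest.Agent.R40.S1
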