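import Crest.Agent.R40.S1_Prj

/-!
Row 40, STEP 1: a vector is orthogonal to all continuous vectors iff its positive definite function is
singular.
-/

set_option autoImplicit false

open scoped RealInnerProductSpace

namespace Crest.Agent.R40.S1

variable {H : Type} [NormedAddCommGroup H] [InnerProductSpace ℝ H] [CompleteSpace H]


omit [CompleteSpace H] in
lemma norm_sq_comb {π : ℂ → H →ₗᵢ[ℝ] H} (h : IsRep π) (ξ : H) {ι : Type} [Fintype ι] (w : ι → ℝ)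
    (x : ι → ℂ) :
    ‖∑ i, w i • π (x i) ξ‖ ^ 2 = ∑ i, ∑ j, w i * w j * ⟪π (x i - x j) ξ, ξ⟫ := by
  rw [← real_inner_self_eq_norm_sq, sum_inner]
  refine Finset.sum_congr rfl fun i _ => ?_
  rw [inner_sum]
  refine Finset.sum_congr rfl fun j _ => ?_
  rw [real_inner_smul_left, real_inner_smul_right, h.inner_inner, ← mul_assoc]

/-- closed convex hull of the orbit of a ball -/
def singc_K (π : ℂ → H →ₗᵢ[ℝ] H) (ξ : H) (r : ℝ) : Set H :=
  closure (convexHull ℝ ((fun x => π x ξ) '' Metric.ball 0 r))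

omit [CompleteSpace H] in
lemma singc_K_subset {π : ℂ → H →ₗᵢ[ℝ] H} {ξ : H} {r : ℝ} {C : Set H} (hc : IsClosed C)
    (hv : Convex ℝ C) (h : ∀ x : ℂ, ‖x‖ < r → π x ξ ∈ C) : singc_K π ξ r ⊆ C := by
  refine closure_minimal (convexHull_min ?_ hv) hc
  rintro _ ⟨x, hx, rfl⟩
  exact h x (mem_ball_zero_iff.1 hx)

omit [CompleteSpace H] in
lemma singc_mem_K (π : ℂ → H →ₗᵢ[ℝ] H) (ξ : H) {r : ℝ} {x : ℂ} (hx : ‖x‖ < r) :
    π x ξ ∈ singc_K π ξ r :=
  subset_closure (subset_convexHull ℝ _ ⟨x, mem_ball_zero_iff.2 hx, rfl⟩)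

omit [CompleteSpace H] in
lemma singc_convex (π : ℂ → H →ₗᵢ[ℝ] H) (ξ : H) (r : ℝ) : Convex ℝ (singc_K π ξ r) :=
  (convex_convexHull ℝ _).closure

omit [CompleteSpace H] in
lemma singc_K_mono (π : ℂ → H →ₗᵢ[ℝ] H) (ξ : H) {r s : ℝ} (hrs : r ≤ s) :
    singc_K π ξ r ⊆ singc_K π ξ s :=
  singc_K_subset isClosed_closure (singc_convex π ξ s) fun _ hx => singc_mem_K π ξ (hx.trans_le hrs)

omit [CompleteSpace H] in
lemma singc_K_map {π : ℂ → H →ₗᵢ[ℝ] H} (h : IsRep π) (ξ : H) (r : ℝ) (y : ℂ) {v : H}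
    (hv : v ∈ singc_K π ξ r) : π y v ∈ singc_K π ξ (r + ‖y‖) := by
  refine singc_K_subset (C := π y ⁻¹' singc_K π ξ (r + ‖y‖))
    (isClosed_closure.preimage (π y).continuous)
    ((singc_convex π ξ _).linear_preimage (π y).toLinearMap) (fun x hx => ?_) hv
  rw [Set.mem_preimage, ← h.add]
  exact singc_mem_K π ξ ((norm_add_le _ _).trans_lt (by linarith))

omit [CompleteSpace H] in
lemma singc_cont_map {π : ℂ → H →ₗᵢ[ℝ] H} (h : IsRep π) (y : ℂ) {v : H} (hv : v ∈ Cont π) :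
    π y v ∈ Cont π := by
  rw [mem_cont] at hv ⊢
  have : (fun x => π x (π y v)) = fun x => π y (π x v) := by
    funext x
    rw [← h.add, ← h.add, add_comm]
  rw [this]
  exact (π y).continuous.comp hv

omit [CompleteSpace H] in
lemma singc_near {π : ℂ → H →ₗᵢ[ℝ] H} (h : IsRep π) {v : H} (hv : v ∈ Cont π) {ε : ℝ}
    (hε : 0 < ε) : ∃ ρ > 0, ∀ x : ℂ, ‖x‖ < ρ → ‖π x v - v‖ < ε := by
  obtain ⟨ρ, hρ, h1⟩ := Metric.continuousAt_iff.1 ((mem_cont.1 hv).continuousAt (x := 0)) ε hε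
  refine ⟨ρ, hρ, fun x hx => ?_⟩
  have := h1 (x := x) (by simpa using hx)
  rwa [h.zero, dist_eq_norm] at this

lemma singc_zero_mem {π : ℂ → H →ₗᵢ[ℝ] H} (h : IsRep π) {ξ : H}
    (hξ : ∀ v ∈ Cont π, ⟪ξ, v⟫ = 0) {ρ : ℝ} (hρ : 0 < ρ) : (0 : H) ∈ singc_K π ξ ρ := by
  have hex : ∀ r : ℝ, ∃ η : H, 0 < r → η ∈ singc_K π ξ r ∧ ∀ v ∈ singc_K π ξ r, ‖η‖ ≤ ‖v‖ := by
    intro r
    by_cases hr : 0 < r
    · obtain ⟨η, hη, hmin⟩ := exists_norm_eq_iInf_of_complete_convex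
        ⟨_, singc_mem_K π ξ (x := 0) (by simpa using hr)⟩ isClosed_closure.isComplete
        (singc_convex π ξ r) 0
      refine ⟨η, fun _ => ⟨hη, fun v hv => ?_⟩⟩
      have h1 : (⨅ w : singc_K π ξ r, ‖(0 : H) - w‖) ≤ ‖(0 : H) - v‖ :=
        ciInf_le (f := fun w : singc_K π ξ r => ‖(0 : H) - w‖)
          ⟨0, Set.forall_mem_range.2 fun _ => norm_nonneg _⟩ ⟨v, hv⟩
      rw [← hmin] at h1
      simpa using h1
    · exact ⟨0, fun h => absurd h hr⟩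
  choose η hη using hex
  have hanti : AntitoneOn (fun r => ‖η r‖) (Set.Ioi 0) := fun r hr s hs hrs =>
    (hη s hs).2 _ (singc_K_mono π ξ hrs (hη r hr).1)
  obtain ⟨r, hr, hrc⟩ : ∃ r ∈ Set.Ioo 0 ρ, ContinuousWithinAt (fun r => ‖η r‖) (Set.Ioi 0) r := by
    by_contra hcon
    push Not at hcon
    have hc : (Set.Ioo 0 ρ).Countable := by
      refine hanti.countable_not_continuousWithinAt.mono fun r hr => ?_
      exact ⟨hr.1, hcon r hr⟩
    have := hc.measure_zero MeasureTheory.volume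
    rw [Real.volume_Ioo, ENNReal.ofReal_eq_zero] at this
    linarith
  have hr0 : 0 < r := hr.1
  have hcont : ContinuousAt (fun r => ‖η r‖) r := hrc.continuousAt (Ioi_mem_nhds hr0)
  have hbd : ∀ y : ℂ, ‖π y (η r) - η r‖ ^ 2 ≤ 4 * (‖η r‖ ^ 2 - ‖η (r + ‖y‖)‖ ^ 2) := by
    intro y
    have hs : 0 < r + ‖y‖ := by positivity
    have h1 : π y (η r) ∈ singc_K π ξ (r + ‖y‖) := singc_K_map h ξ r y (hη r hr0).1
    have h2 : η r ∈ singc_K π ξ (r + ‖y‖) :=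
      singc_K_mono π ξ (le_add_of_nonneg_right (norm_nonneg _)) (hη r hr0).1
    have h3 := (hη _ hs).2 _ (singc_convex π ξ _ h1 h2 (a := 1 / 2) (b := 1 / 2) (by norm_num)
      (by norm_num) (by norm_num))
    rw [← smul_add, norm_smul, Real.norm_of_nonneg (by norm_num)] at h3
    have h4 := parallelogram_law_with_norm ℝ (π y (η r)) (η r)
    rw [(π y).norm_map] at h4
    have h5 := pow_le_pow_left₀ (norm_nonneg _) h3 2
    nlinarith
  have hmem : η r ∈ Cont π := by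
    refine mem_cont_of_tendsto h ?_
    rw [tendsto_iff_norm_sub_tendsto_zero]
    have h1 : Filter.Tendsto (fun y : ℂ => r + ‖y‖) (nhds 0) (nhds r) := by
      have : Continuous fun y : ℂ => r + ‖y‖ := by fun_prop
      simpa using this.tendsto 0
    have h2 : Filter.Tendsto (fun y : ℂ => √(4 * (‖η r‖ ^ 2 - ‖η (r + ‖y‖)‖ ^ 2))) (nhds 0)
        (nhds (√(4 * (‖η r‖ ^ 2 - ‖η r‖ ^ 2)))) :=
      ((tendsto_const_nhds.sub ((hcont.tendsto.comp h1).pow 2)).const_mul 4).sqrt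
    rw [sub_self, mul_zero, Real.sqrt_zero] at h2
    exact squeeze_zero (fun _ => norm_nonneg _) (fun y => Real.le_sqrt_of_sq_le (hbd y)) h2
  have horth : singc_K π ξ r ⊆ ((Cont π)ᗮ : Submodule ℝ H) := by
    refine singc_K_subset (Submodule.isClosed_orthogonal _) (Submodule.convex _) fun x _ => ?_
    rw [SetLike.mem_coe, Submodule.mem_orthogonal']
    intro v hv
    rw [h.inner_left]
    exact hξ _ (singc_cont_map h _ hv)
  have h0 : η r = 0 := by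
    have := (Submodule.mem_orthogonal' _ _).1 (horth (hη r hr0).1) _ hmem
    exact inner_self_eq_zero.1 this
  exact singc_K_mono π ξ hr.2.le (h0 ▸ (hη r hr0).1)

lemma singc_small {π : ℂ → H →ₗᵢ[ℝ] H} (h : IsRep π) {ξ : H}
    (hξ : ∀ v ∈ Cont π, ⟪ξ, v⟫ = 0) {ε ρ : ℝ} (hε : 0 < ε) (hρ : 0 < ρ) :
    ∃ (ι : Type) (_ : Fintype ι) (w : ι → ℝ) (x : ι → ℂ),
      (∀ i, 0 ≤ w i) ∧ ∑ i, w i = 1 ∧ (∀ i, ‖x i‖ < ρ) ∧ ‖∑ i, w i • π (x i) ξ‖ < ε := by
  obtain ⟨v, hv, hd⟩ := Metric.mem_closure_iff.1 (singc_zero_mem h hξ hρ) ε hε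
  obtain ⟨ι, _, w, z, hw0, hw1, hz, rfl⟩ := mem_convexHull_iff_exists_fintype.1 hv
  choose x hx hxz using hz
  refine ⟨ι, inferInstance, w, x, hw0, hw1, fun i => mem_ball_zero_iff.1 (hx i), ?_⟩
  simp only [hxz]
  simpa using hd

omit [CompleteSpace H] in
lemma singc_comb_le {ι : Type} [Fintype ι] {w : ι → ℝ} (hw0 : ∀ i, 0 ≤ w i) (hw1 : ∑ i, w i = 1)
    {u : ι → H} {ε : ℝ} (hu : ∀ i, ‖u i‖ ≤ ε) : ‖∑ i, w i • u i‖ ≤ ε := by
  calc ‖∑ i, w i • u i‖ ≤ ∑ i, w i * ε := by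
        refine norm_sum_le_of_le _ fun i _ => ?_
        rw [norm_smul, Real.norm_of_nonneg (hw0 i)]
        exact mul_le_mul_of_nonneg_left (hu i) (hw0 i)
    _ = ε := by rw [← Finset.sum_mul, hw1, one_mul]

/-- Plan: `K r = closure (convexHull (π · ξ '' ball 0 r))` is closed convex nonempty, monotone in `r`,
contained in `(Cont π)ᗮ`, and `π h (K r) ⊆ K (r + s)` for `‖h‖ ≤ s`.  `N r = infDist 0 (K r)` is
antitone on `r > 0`; take a continuity point `r ∈ (0, ρ)` (`Antitone.countable_not_continuousAt` for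
`t ↦ N (exp t)` or `AntitoneOn` version), `η ∈ K r` of norm `N r`
(`exists_norm_eq_iInf_of_complete_convex`).  Parallelogram law in `K (r + ‖h‖)`:
`‖π h η - η‖² ≤ 4 (N r ² - N (r + ‖h‖)²) → 0`, so `η ∈ Cont π`, hence `⟪η, η⟫ = 0`.  So `0 ∈ K r`; use
`mem_convexHull_iff_exists_fintype` and `norm_sq_comb`. -/
theorem sing_of_orth {π : ℂ → H →ₗᵢ[ℝ] H} (h : IsRep π) {ξ : H}
    (hξ : ∀ v ∈ Cont π, ⟪ξ, v⟫ = 0) : Sing (fun x => ⟪π x ξ, ξ⟫) := by
  intro ε ρ hε hρ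
  obtain ⟨ι, _, w, x, hw0, hw1, hx, hs⟩ := singc_small h hξ (Real.sqrt_pos.2 hε) hρ
  refine ⟨ι, inferInstance, w, x, hw0, hw1, hx, ?_⟩
  rw [← norm_sq_comb h]
  exact (Real.lt_sqrt (norm_nonneg _)).1 hs

omit [CompleteSpace H] in
/-- Plan: `⟪ξ, v⟫ = ∑ w i ⟪ξ, v - π (-x i) v⟫ + ⟪∑ w i • π (x i) ξ, v⟫`, both terms small. -/
theorem orth_of_sing {π : ℂ → H →ₗᵢ[ℝ] H} (h : IsRep π) {ξ : H}
    (hξ : Sing (fun x => ⟪π x ξ, ξ⟫)) : ∀ v ∈ Cont π, ⟪ξ, v⟫ = 0 := by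
  intro v hv
  have key : ∀ ε > 0, |⟪ξ, v⟫| ≤ ε * (‖ξ‖ + ‖v‖) := by
    intro ε hε
    obtain ⟨ρ, hρ, hnear⟩ := singc_near h hv hε
    obtain ⟨ι, _, w, x, hw0, hw1, hx, hs⟩ := hξ (ε ^ 2) ρ (by positivity) hρ
    rw [← norm_sq_comb h] at hs
    have hs' : ‖∑ i, w i • π (x i) ξ‖ ≤ ε := (abs_lt_of_sq_lt_sq' hs hε.le).2.le
    have h1 : ‖∑ i, w i • (π (-x i) v - v)‖ ≤ ε :=
      singc_comb_le hw0 hw1 fun i => (hnear _ (by simpa using hx i)).le
    have h2 : ⟪ξ, v⟫ = ⟪∑ i, w i • π (x i) ξ, v⟫ - ⟪ξ, ∑ i, w i • (π (-x i) v - v)⟫ := by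
      simp only [sum_inner, inner_sum, real_inner_smul_left, real_inner_smul_right, h.inner_left,
        inner_sub_right, mul_sub, Finset.sum_sub_distrib, ← Finset.sum_mul, hw1]
      ring
    have h3 := abs_real_inner_le_norm (∑ i, w i • π (x i) ξ) v
    have h4 := abs_real_inner_le_norm ξ (∑ i, w i • (π (-x i) v - v))
    have h5 := mul_le_mul_of_nonneg_right hs' (norm_nonneg v)
    have h6 := mul_le_mul_of_nonneg_left h1 (norm_nonneg ξ)
    rw [h2]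
    refine (abs_sub _ _).trans ?_
    linarith
  rw [← abs_nonpos_iff]
  refine le_of_forall_pos_le_add fun ε hε => ?_
  have hc : 0 < ‖ξ‖ + ‖v‖ + 1 := by positivity
  have := key (ε / (‖ξ‖ + ‖v‖ + 1)) (by positivity)
  refine this.trans ?_
  rw [zero_add, div_mul_eq_mul_div, div_le_iff₀ hc]
  nlinarith

/-- the projection on the continuous vectors lies in the closed convex hull of the orbit.
Plan: `F = f + s`, `s = F - prj F ⟂ Cont π`; `sing_of_orth` gives convex combinations with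
`∑ w i • π (x i) s` small and `‖x i‖ < ρ`, so `∑ w i • π (x i) f` is close to `f`. -/
theorem prj_cont_mem_closure {π : ℂ → H →ₗᵢ[ℝ] H} (h : IsRep π) (F : H) :
    prj (Cont π) F ∈ closure (convexHull ℝ (Set.range fun x => π x F)) := by
  rw [Metric.mem_closure_iff]
  intro ε hε
  have hf : prj (Cont π) F ∈ Cont π := prj_mem (isClosed_cont π) F
  obtain ⟨ρ, hρ, hnear⟩ := singc_near h hf (half_pos hε)
  obtain ⟨ι, _, w, x, hw0, hw1, hx, hs⟩ := singc_small h (ξ := F - prj (Cont π) F)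
    (fun v hv => inner_sub_prj _ F hv) (half_pos hε) hρ
  refine ⟨∑ i, w i • π (x i) F,
    mem_convexHull_of_exists_fintype w _ hw0 hw1 (fun i => ⟨x i, rfl⟩) rfl, ?_⟩
  have h1 : ‖∑ i, w i • (π (x i) (prj (Cont π) F) - prj (Cont π) F)‖ ≤ ε / 2 :=
    singc_comb_le hw0 hw1 fun i => (hnear _ (hx i)).le
  have h2 : ∑ i, w i • π (x i) F - prj (Cont π) F =
      ∑ i, w i • π (x i) (F - prj (Cont π) F) +
        ∑ i, w i • (π (x i) (prj (Cont π) F) - prj (Cont π) F) := by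
    simp only [map_sub, smul_sub, Finset.sum_sub_distrib, ← Finset.sum_smul, hw1, one_smul]
    abel
  rw [dist_comm, dist_eq_norm, h2]
  refine (norm_add_le _ _).trans_lt ?_
  linarith

end Crest.Agent.R40.S1
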