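import Crest.Agent.R40.S1_Rad
import Crest.Agent.R40.S1_SingC

/-!
Row 40, STEP 1: `Dl` preserves singularity.
-/

set_option autoImplicit false

open scoped RealInnerProductSpace

namespace Crest.Agent.R40.S1

variable {H : Type} [NormedAddCommGroup H] [InnerProductSpace ℝ H] [CompleteSpace H]


/-- Plan: `V n = Cont (x ↦ P (x, -(e (1/(n+1)) * x)))` (any injective sequence `u n = e (b n)`), e.g.
`b n = 1/(n+1)`; natural for `P` (`natl_cont`).  A vector in `V i ⊓ V j` is continuous for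
`y ↦ P (0, y)`: `P (0, (u i - u j) x) = P (x, -(u j x)) ∘ P (-x, u i x)`, so it is orthogonal to `Ξ`.
If `v ∈ Cont (x ↦ P (x, -x))` then `R (b n) v ∈ V n` and `⟪Ξ, R (b n) v⟫ = ⟪Ξ, v⟫`, so
`|⟪Ξ, v⟫| ≤ ‖prj (V n) Ξ‖ ‖v‖`, small by `exists_small_prj`. -/
theorem orth_diag {P : ℂ × ℂ → H →ₗᵢ[ℝ] H} (hP : IsRep P) (R : ℝ → H →ₗᵢ[ℝ] H) (Ξ : H)
    (hΞ : ∀ b, R b Ξ = Ξ) (hc : ∀ b x y v, R b (P (x, y) v) = P (x, e b * y) (R b v))
    (ho : ∀ v ∈ Cont (fun y => P (0, y)), ⟪Ξ, v⟫ = 0) :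
    ∀ v ∈ Cont (fun x => P (x, -x)), ⟪Ξ, v⟫ = 0 := by
  intro v hv
  have he0 : ∀ {i j : ℕ}, i ≠ j → e (1 / (i + 1)) - e (1 / (j + 1)) ≠ 0 := fun {i j} hij h => by
    have h1 : ∀ n : ℕ, (1 / (n + 1) : ℝ) ∈ Set.Icc 0 Real.pi := fun n => ⟨by positivity,
      (div_le_self zero_le_one (by simp)).trans (by linarith [Real.pi_gt_three])⟩
    have h2 := Real.injOn_cos (h1 i) (h1 j) (by rw [← e_re, ← e_re, sub_eq_zero.1 h])
    exact hij (by simpa using h2)
  refine abs_nonpos_iff.1 (le_of_forall_pos_le_add fun ε hε => ?_)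
  obtain ⟨n, -, hn⟩ := exists_small_prj hP (fun n : ℕ => Cont fun x => P (x, -(e (1 / (n + 1)) * x)))
    (fun n => natl_cont P _) Ξ (fun i j hij w hi hj => ho w (mem_cont_of_tendsto
      (hP.comp (fun y => (0, y)) fun x y => by simp) (by
        have h1 : Continuous fun y : ℂ => y / (e (1 / (i + 1)) - e (1 / (j + 1))) := by fun_prop
        have h2 := ((mem_cont.1 hj).comp h1).sub ((mem_cont.1 hi).comp h1)
        have h3 := h2.norm.tendsto 0
        simp only [Pi.sub_apply, Function.comp, zero_div, mul_zero, neg_zero, sub_self, norm_zero] at h3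
        refine tendsto_iff_norm_sub_tendsto_zero.2 (h3.congr fun y => ?_)
        rw [← (P (y / (e (1 / (i + 1)) - e (1 / (j + 1))),
          -(e (1 / (i + 1)) * (y / (e (1 / (i + 1)) - e (1 / (j + 1))))))).norm_map (_ - w), map_sub, ← hP.add]
        congr 4
        have := he0 hij
        ext
        · simp
        · simp only [Prod.snd_add]
          field_simp
          ring))) (show 0 < ε / (‖v‖ + 1) by positivity) 0
  have h1 : R (1 / (n + 1)) v ∈ Cont fun x => P (x, -(e (1 / (n + 1)) * x)) := by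
    simp only [mem_cont, ← mul_neg, ← hc]
    exact (R _).continuous.comp hv
  rw [← (R (1 / (n + 1))).inner_map_map, hΞ, ← inner_prj _ _ h1, zero_add]
  refine (abs_real_inner_le_norm _ _).trans ?_
  rw [LinearIsometry.norm_map]
  rw [lt_div_iff₀ (by positivity)] at hn
  nlinarith [norm_nonneg (prj (Cont fun x => P (x, -(e (1 / (n + 1)) * x))) Ξ)]

/-- Plan: `gns2` for `Φ p = Bf φ p.1 p.2`, `orth_of_sing` for `y ↦ P (0, y)`, `orth_diag`,
`sing_of_orth` for `x ↦ P (x, -x)`. -/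
theorem sing_dl {φ : ℂ → ℝ} (h : Rad φ) (hs : Sing φ) : Sing (Dl φ) := by
  obtain ⟨H, _, _, _, P, R, Ξ, hP, -, hΞ, hc, hΦ⟩ := gns2 (Φ := fun p => Bf φ p.1 p.2) h.bf_psd2
    fun a b x y => h.bf_rad (by simp [norm_e]) (by simp [norm_e])
  have := sing_of_orth (hP.comp (fun x => (x, -x)) fun x y => by simp [add_comm])
    (orth_diag hP (fun b => R (0, b)) Ξ (fun b => hΞ _) (fun b x y v => by simp [hc, e_zero])
      (orth_of_sing (hP.comp (fun y => (0, y)) fun x y => by simp)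
        (by simpa only [hΦ, h.bf_zero_left] using hs)))
  simp only [hΦ] at this
  exact this

theorem sing_iter {φ : ℂ → ℝ} (h : Rad φ) (hs : Sing φ) (N : ℕ) : Sing (Dl^[N] φ) := by
  induction N with
  | zero => exact hs
  | succ N ih => rw [Function.iterate_succ_apply']; exact sing_dl (h.iter N) ih

end Crest.Agent.R40.S1
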