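import Crest.Agent.R40.S1_Vdc
import Crest.Agent.R40.S1_SingD
import Crest.Agent.R40.S1_Coset
import Crest.Agent.R40.S1_Poly

/-!
Row 40, STEP 1: a singular radial positive definite function vanishes off the origin.
-/

set_option autoImplicit false

namespace Crest.Agent.R40.S1

variable {φ : ℂ → ℝ}

lemma main_e_sub (θ : ℝ) : e θ - e (-θ) = ((2 * Real.sin θ : ℝ) : ℂ) * Complex.I := by
  apply Complex.ext
  · simp [e_re]
  · simp [e_im, -Complex.ofReal_sin]; ring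

lemma main_e_two (θ : ℝ) : e (2 * θ) - 1 = e θ * (e θ - e (-θ)) := by
  rw [mul_sub, ← e_add, ← e_add, add_neg_cancel, e_zero, two_mul]

lemma main_norm_imag (u : ℝ) : ‖(u : ℂ) * Complex.I‖ = |u| := by
  simp

lemma main_split (h : Rad φ) (h0 : ∀ x, 0 ≤ φ x) (u v : ℝ) :
    φ ((|u| - |v| : ℝ) : ℂ) ≤ φ (((u + v : ℝ) : ℂ) * Complex.I) + φ (((u - v : ℝ) : ℂ) * Complex.I) := by
  have hc : |(|u| - |v|)| = |u + v| ∨ |(|u| - |v|)| = |u - v| := by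
    rcases abs_cases u with ⟨hu, _⟩ | ⟨hu, _⟩ <;> rcases abs_cases v with ⟨hv, _⟩ | ⟨hv, _⟩
    · right; rw [hu, hv]
    · left; rw [hu, hv]; congr 1; ring
    · left; rw [hu, hv, ← abs_neg]; congr 1; ring
    · right; rw [hu, hv, ← abs_neg]; congr 1; ring
  rcases hc with hc | hc
  · rw [h.rad ((|u| - |v| : ℝ) : ℂ) (((u + v : ℝ) : ℂ) * Complex.I)
      (by rw [main_norm_imag, Complex.norm_real, Real.norm_eq_abs, hc])]
    linarith [h0 (((u - v : ℝ) : ℂ) * Complex.I)]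
  · rw [h.rad ((|u| - |v| : ℝ) : ℂ) (((u - v : ℝ) : ℂ) * Complex.I)
      (by rw [main_norm_imag, Complex.norm_real, Real.norm_eq_abs, hc])]
    linarith [h0 (((u + v : ℝ) : ℂ) * Complex.I)]

/-- Plan: `coset` with `j₀ ≥ r'/r`, `n = 2 j`, `β = Bf φ r r'`, `ψ = Dl^[2] φ`.  For `a, b, x` from
`exists_poly`: `X t = r (e θ - e (-θ))`, `θ = a + n t`, `Y t = r' (e τ - e (-τ))`, `τ = b + t` are purely
imaginary, `‖r (e (2a + 4 j t) - 1)‖ = ‖X t‖` etc., so by `bf_le`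
`Bf ^ 4 ≤ ψ (‖X‖ - ‖Y‖) ≤ ψ (X + Y) + ψ (X - Y)`, and `(X - Y) t = (X + Y) (t + π)`.  Hence
`(β²/2)^4 ≤ 2 M ψ (X + Y)` (`Mean.pow_le` with `k = 2`), and `vdc` for `ψ` with `N = 2 n`. -/
theorem annulus (h : Rad φ) (h0 : ∀ x, 0 ≤ φ x) {r r' : ℝ} (hr : 0 < r) (hrr : r < r')
    (hpos : 0 < Bf φ r r') :
    ∃ (N : ℕ) (δ ρ₀ : ℝ), 0 < δ ∧ 1 < ρ₀ ∧ ∀ x : ℂ, r < ‖x‖ → ‖x‖ < ρ₀ * r → δ ≤ Dl^[N] φ x := by
  obtain ⟨j₀, hj₀⟩ := exists_nat_ge (r' / r)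
  obtain ⟨j, hj, hco⟩ := coset h hpos j₀
  have hn : 2 * r' ≤ ((2 * j : ℕ) : ℝ) * r := by
    have h1 : r' / r ≤ j := hj₀.trans (by exact_mod_cast hj)
    rw [div_le_iff₀ hr] at h1
    push_cast; linarith
  obtain ⟨ρ₀, hρ₀, hpoly⟩ := exists_poly hr hrr hn
  set β := Bf φ r r' with hβ
  set ψ := Dl^[2] φ with hψ
  have hψr : Rad ψ := h.iter 2
  have hψ0 : ∀ x, 0 ≤ ψ x := h.iter_nonneg h0 2
  refine ⟨2 * (2 * j) + 2, ((β ^ 2 / 2) ^ 4 / 2) ^ (2 ^ (2 * (2 * j))), ρ₀, by positivity, hρ₀, ?_⟩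
  intro z hz1 hz2
  obtain ⟨a, b, x, hx, hxt⟩ := hpoly (‖z‖ / r) (by rw [lt_div_iff₀ hr]; linarith)
    (by rw [div_lt_iff₀ hr]; exact hz2)
  rw [div_mul_cancel₀ _ hr.ne'] at hx
  -- the real trigonometric functions
  set U : ℝ → ℝ := fun t => r * (2 * Real.sin (a + (2 * j : ℕ) * t)) with hU
  set V : ℝ → ℝ := fun t => r' * (2 * Real.sin (b + t)) with hV
  set G : ℝ → ℝ := fun t => ψ (((U t + V t : ℝ) : ℂ) * Complex.I) with hG
  have hGb : Bdd G := hψr.bdd _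
  have hshift : ∀ t, ψ (((U t - V t : ℝ) : ℂ) * Complex.I) = G (t + Real.pi) := by
    intro t
    have e1 : U (t + Real.pi) = U t := by
      simp only [hU]
      have : a + ((2 * j : ℕ) : ℝ) * (t + Real.pi)
          = (a + ((2 * j : ℕ) : ℝ) * t) + (j : ℕ) * (2 * Real.pi) := by push_cast; ring
      rw [this, Real.sin_add_nat_mul_two_pi]
    have e2 : V (t + Real.pi) = - V t := by
      simp only [hV]
      rw [← add_assoc, Real.sin_add_pi]; ring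
    simp only [hG, e1, e2, sub_eq_add_neg]
  have hpt : ∀ t, Bf φ ((r : ℂ) * (e (2 * a + 4 * j * t) - 1)) ((r' : ℂ) * (e (2 * b + 2 * t) - 1)) ^ (2 ^ 2)
      ≤ G t + G (t + Real.pi) := by
    intro t
    have n1 : ‖(r : ℂ) * (e (2 * a + 4 * j * t) - 1)‖ = |U t| := by
      have : 2 * a + 4 * (j : ℝ) * t = 2 * (a + ((2 * j : ℕ) : ℝ) * t) := by push_cast; ring
      rw [this, main_e_two, main_e_sub, norm_mul, norm_mul, norm_e, main_norm_imag, one_mul,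
        Complex.norm_real, Real.norm_eq_abs, ← abs_mul]
    have n2 : ‖(r' : ℂ) * (e (2 * b + 2 * t) - 1)‖ = |V t| := by
      have : 2 * b + 2 * t = 2 * (b + t) := by ring
      rw [this, main_e_two, main_e_sub, norm_mul, norm_mul, norm_e, main_norm_imag, one_mul,
        Complex.norm_real, Real.norm_eq_abs, ← abs_mul]
    have := bf_le h h0 ((r : ℂ) * (e (2 * a + 4 * j * t) - 1)) ((r' : ℂ) * (e (2 * b + 2 * t) - 1))
    rw [n1, n2] at this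
    rw [← hshift]
    exact this.trans (main_split hψr hψ0 _ _)
  have hlow : (β ^ 2 / 2) ^ 4 / 2 ≤ M G := by
    have h1 := hco (2 * a) (2 * b)
    have h2 := MM.pow_le (h.bdd_bf (fun t : ℝ => (r : ℂ) * (e (2 * a + 4 * j * t) - 1))
      (fun t : ℝ => (r' : ℂ) * (e (2 * b + 2 * t) - 1))) (fun t => h.bf_nonneg h0 _ _) 2
    have h3 := MM.mono ((h.bdd_bf (fun t : ℝ => (r : ℂ) * (e (2 * a + 4 * j * t) - 1))
      (fun t : ℝ => (r' : ℂ) * (e (2 * b + 2 * t) - 1))).pow (2 ^ 2))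
      (hGb.add (hGb.comp fun t => t + Real.pi)) hpt
    have h6 : MM.m (fun t => G (t + Real.pi)) = MM.m G := M_add_right hGb _
    rw [MM.add G (fun t => G (t + Real.pi)), h6] at h3
    have h4 := pow_le_pow_left₀ (by positivity) h1 (2 ^ 2)
    have h5 : (β ^ 2 / 2) ^ (2 ^ 2) = (β ^ 2 / 2) ^ 4 := by norm_num
    rw [h5] at h4
    have h7 := (h4.trans h2).trans h3
    show _ ≤ MM.m G
    linarith
  have hGeq : G = fun t : ℝ => ψ (∑ i ∈ Finset.Icc (0 : ℤ) (2 * ((2 * j : ℕ) : ℤ)), x i * e (i * t)) := by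
    funext t
    simp only [hG]
    apply hψr.rad
    rw [hxt t, main_e_sub, main_e_sub]
    congr 1
    simp only [hU, hV]
    push_cast; ring
  have hv := vdc hψr hψ0 (2 * (2 * j)) (Finset.Icc (0 : ℤ) (2 * ((2 * j : ℕ) : ℤ)))
    (by rw [Int.card_Icc]; omega) x (k := 2 * ((2 * j : ℕ) : ℤ))
    (Finset.mem_Icc.2 ⟨by positivity, le_rfl⟩)
  rw [← hGeq] at hv
  rw [Function.iterate_add_apply, ← hψ, (hψr.iter _).rad z _ hx.symm]
  exact (pow_le_pow_left₀ (by positivity) hlow _).trans hv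

/-- Plan: `x₀ = (r₁ + r₂)/2`, `ρ = (r₂ - r₁)/2`, `ε = δ²`; `PSD.cs` with `s₀ = -x₀`. -/
theorem not_sing (h : Rad φ) {δ r₁ r₂ : ℝ} (hδ : 0 < δ) (h1 : 0 < r₁) (h12 : r₁ < r₂)
    (hlow : ∀ x : ℂ, r₁ < ‖x‖ → ‖x‖ < r₂ → δ ≤ φ x) : ¬ Sing φ := by
  intro hs
  obtain ⟨ι, _, w, x, hw, hw1, hx, hlt⟩ := hs (δ ^ 2) ((r₂ - r₁) / 2) (by positivity) (by linarith)
  set x₀ : ℂ := (((r₁ + r₂) / 2 : ℝ) : ℂ) with hx₀
  have hn : ‖x₀‖ = (r₁ + r₂) / 2 := by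
    rw [hx₀, Complex.norm_real, Real.norm_eq_abs, abs_of_pos (by linarith)]
  have hcs := h.psd.cs w x (-x₀)
  simp only [sub_self] at hcs
  have hge : δ ≤ ∑ i, w i * φ (x i - -x₀) := by
    calc δ = ∑ i, w i * δ := by rw [← Finset.sum_mul, hw1, one_mul]
      _ ≤ _ := Finset.sum_le_sum fun i _ => mul_le_mul_of_nonneg_left (hlow _ ?_ ?_) (hw i)
    · have := norm_sub_norm_le x₀ (-x i)
      rw [norm_neg, sub_neg_eq_add] at this
      rw [sub_neg_eq_add, add_comm]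
      linarith [hx i]
    · have := norm_sub_le (x i) (-x₀)
      rw [norm_neg] at this
      linarith [hx i]
  have hq := h.psd.2 ι w x
  have h2 := pow_le_pow_left₀ hδ.le hge 2
  have h3 := mul_le_mul_of_nonneg_right h.le_one hq
  linarith

theorem eq_zero_of_sing (h : Rad φ) (hs : Sing φ) {x : ℂ} (hx : x ≠ 0) : φ x = 0 := by
  by_contra hne
  have h1 : 0 < Dl φ x := lt_of_lt_of_le (by positivity) (h.sq_le_dl x)
  obtain ⟨r, r', hr, hrr, hpos⟩ := exists_pair h.dl h.dl_nonneg hx h1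
  obtain ⟨N, δ, ρ₀, hδ, hρ, hlow⟩ := annulus h.dl h.dl_nonneg hr hrr hpos
  exact not_sing (h.dl.iter N) hδ hr (by nlinarith) hlow (sing_iter h.dl (sing_dl h hs) N)

end Crest.Agent.R40.S1
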