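import Crest.Agent.R40.S1_MeanEx

/-!
Row 40, STEP 1: API of means; the fixed affine invariant mean `M` on `ℝ`.
-/

set_option autoImplicit false

namespace Crest.Agent.R40.S1

lemma Bdd.of_abs_le {A : Type} {f : A → ℝ} {C : ℝ} (h : ∀ a, |f a| ≤ C) : Bdd f := ⟨C, h⟩

lemma Bdd.const {A : Type} (c : ℝ) : Bdd (fun _ : A => c) := ⟨|c|, fun _ => le_rfl⟩

lemma Bdd.add {A : Type} {f g : A → ℝ} (hf : Bdd f) (hg : Bdd g) : Bdd (fun a => f a + g a) := by
  obtain ⟨C, hC⟩ := hf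
  obtain ⟨D, hD⟩ := hg
  exact ⟨C + D, fun a => (abs_add_le _ _).trans (add_le_add (hC a) (hD a))⟩

lemma Bdd.neg {A : Type} {f : A → ℝ} (hf : Bdd f) : Bdd (fun a => - f a) := by
  obtain ⟨C, hC⟩ := hf
  exact ⟨C, fun a => by rw [abs_neg]; exact hC a⟩

lemma Bdd.sub {A : Type} {f g : A → ℝ} (hf : Bdd f) (hg : Bdd g) : Bdd (fun a => f a - g a) := by
  simpa [sub_eq_add_neg] using hf.add hg.neg

lemma Bdd.mul {A : Type} {f g : A → ℝ} (hf : Bdd f) (hg : Bdd g) : Bdd (fun a => f a * g a) := by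
  obtain ⟨C, hC⟩ := hf
  obtain ⟨D, hD⟩ := hg
  exact ⟨C * D, fun a => by
    rw [abs_mul]
    exact mul_le_mul (hC a) (hD a) (abs_nonneg _) ((abs_nonneg _).trans (hC a))⟩

lemma Bdd.pow {A : Type} {f : A → ℝ} (hf : Bdd f) (n : ℕ) : Bdd (fun a => f a ^ n) := by
  obtain ⟨C, hC⟩ := hf
  exact ⟨C ^ n, fun a => by rw [abs_pow]; exact pow_le_pow_left₀ (abs_nonneg _) (hC a) n⟩

lemma Bdd.sum {A ι : Type} (s : Finset ι) {f : ι → A → ℝ} (hf : ∀ i ∈ s, Bdd (f i)) :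
    Bdd (fun a => ∑ i ∈ s, f i a) := by
  classical
  induction s using Finset.induction_on with
  | empty => simpa using Bdd.const (A := A) 0
  | insert i s hi ih =>
    simp only [Finset.sum_insert hi]
    exact (hf i (Finset.mem_insert_self _ _)).add
      (ih fun j hj => hf j (Finset.mem_insert_of_mem hj))

lemma Bdd.comp {A B : Type} {f : A → ℝ} (hf : Bdd f) (g : B → A) : Bdd (fun b => f (g b)) := by
  obtain ⟨C, hC⟩ := hf
  exact ⟨C, fun b => hC _⟩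

namespace Mean

variable {A : Type} (μ : Mean A)

lemma add (f g : A → ℝ) : μ.m (fun a => f a + g a) = μ.m f + μ.m g := μ.m.map_add f g

lemma sub (f g : A → ℝ) : μ.m (fun a => f a - g a) = μ.m f - μ.m g := μ.m.map_sub f g

lemma const_mul (c : ℝ) (f : A → ℝ) : μ.m (fun a => c * f a) = c * μ.m f := μ.m.map_smul c f

lemma mul_const (c : ℝ) (f : A → ℝ) : μ.m (fun a => f a * c) = μ.m f * c := by
  simp only [mul_comm _ c]; exact μ.const_mul c f

lemma const (c : ℝ) : μ.m (fun _ => c) = c := by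
  have := μ.const_mul c (fun _ => 1)
  simpa [μ.one] using this

lemma sum {ι : Type} (s : Finset ι) (f : ι → A → ℝ) :
    μ.m (fun a => ∑ i ∈ s, f i a) = ∑ i ∈ s, μ.m (f i) := by
  rw [← map_sum]; congr 1; ext a; simp

lemma mono {f g : A → ℝ} (hf : Bdd f) (hg : Bdd g) (h : ∀ a, f a ≤ g a) : μ.m f ≤ μ.m g := by
  have := μ.nonneg (fun a => g a - f a) (hg.sub hf) (fun a => sub_nonneg.2 (h a))
  rw [μ.sub] at this; linarith

lemma le_of_le {f : A → ℝ} (hf : Bdd f) {c : ℝ} (h : ∀ a, f a ≤ c) : μ.m f ≤ c := by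
  have := μ.mono hf (Bdd.const c) h
  rwa [μ.const] at this

lemma ge_of_ge {f : A → ℝ} (hf : Bdd f) {c : ℝ} (h : ∀ a, c ≤ f a) : c ≤ μ.m f := by
  have := μ.mono (Bdd.const c) hf h
  rwa [μ.const] at this

lemma abs_le {f : A → ℝ} {C : ℝ} (h : ∀ a, |f a| ≤ C) : |μ.m f| ≤ C :=
  _root_.abs_le.2 ⟨μ.ge_of_ge ⟨C, h⟩ fun a => (_root_.abs_le.1 (h a)).1,
    μ.le_of_le ⟨C, h⟩ fun a => (_root_.abs_le.1 (h a)).2⟩

lemma sq_le {f : A → ℝ} (hf : Bdd f) : μ.m f ^ 2 ≤ μ.m (fun a => f a ^ 2) := by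
  have h := μ.nonneg (fun a => (f a - μ.m f) ^ 2) ((hf.sub (Bdd.const _)).pow 2)
    (fun a => sq_nonneg _)
  have e1 : (fun a => (f a - μ.m f) ^ 2)
      = fun a => (f a ^ 2 - (2 * μ.m f) * f a) + μ.m f ^ 2 := by
    ext a; ring
  rw [e1, μ.add, μ.sub, μ.const_mul, μ.const] at h
  nlinarith

lemma pow_le {f : A → ℝ} (hf : Bdd f) (h0 : ∀ a, 0 ≤ f a) (k : ℕ) :
    μ.m f ^ (2 ^ k) ≤ μ.m (fun a => f a ^ (2 ^ k)) := by
  induction k with
  | zero => simp
  | succ k ih =>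
    have h1 : 0 ≤ μ.m f ^ (2 ^ k) := pow_nonneg (μ.nonneg f hf h0) _
    calc μ.m f ^ (2 ^ (k + 1)) = (μ.m f ^ (2 ^ k)) ^ 2 := by rw [pow_succ 2 k, pow_mul]
      _ ≤ (μ.m (fun a => f a ^ (2 ^ k))) ^ 2 := pow_le_pow_left₀ h1 ih 2
      _ ≤ μ.m (fun a => (f a ^ (2 ^ k)) ^ 2) := μ.sq_le (hf.pow _)
      _ = _ := by simp only [pow_succ 2 k, pow_mul]

end Mean

/-- the fixed affine invariant mean on `ℝ` -/
noncomputable def MM : Mean ℝ := Classical.choose exists_aff_mean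

/-- `M f`: the mean of `f` -/
noncomputable abbrev M (f : ℝ → ℝ) : ℝ := MM.m f

lemma M_aff {f : ℝ → ℝ} (hf : Bdd f) {l : ℝ} (hl : l ≠ 0) (h : ℝ) :
    M (fun t => f (l * t + h)) = M f := Classical.choose_spec exists_aff_mean f l h hl hf

lemma M_add_right {f : ℝ → ℝ} (hf : Bdd f) (h : ℝ) : M (fun t => f (t + h)) = M f := by
  simpa using M_aff hf one_ne_zero h

lemma M_mul_left {f : ℝ → ℝ} (hf : Bdd f) {l : ℝ} (hl : l ≠ 0) : M (fun t => f (l * t)) = M f := by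
  simpa using M_aff hf hl 0

lemma M_sub_left {f : ℝ → ℝ} (hf : Bdd f) (h : ℝ) : M (fun t => f (h - t)) = M f := by
  have := M_aff hf (l := -1) (by norm_num) h
  rw [← this]; congr 1; ext t; congr 1; ring

/-- countable sets are null for `M`. -/
lemma M_eq_zero_of_countable {f : ℝ → ℝ} (hf : Bdd f) {Z : Set ℝ} (hZ : Z.Countable)
    (h0 : ∀ t, 0 ≤ f t) (h : ∀ t, t ∉ Z → f t = 0) : M f = 0 := by
  classical
  obtain ⟨C, hC⟩ := hf
  have hf : Bdd f := ⟨C, hC⟩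
  have hbad : (⋃ k : ℕ, ⋃ a ∈ Z, ⋃ b ∈ Z, ({(a - b) / ((k : ℝ) + 1)} : Set ℝ)).Countable :=
    Set.countable_iUnion fun k => hZ.biUnion fun a _ => hZ.biUnion fun b _ =>
      Set.countable_singleton _
  obtain ⟨s, hs⟩ : ∃ s : ℝ, s ∉ (⋃ k : ℕ, ⋃ a ∈ Z, ⋃ b ∈ Z, ({(a - b) / ((k : ℝ) + 1)} : Set ℝ)) := by
    by_contra hcon
    push Not at hcon
    exact Cardinal.not_countable_real (hbad.mono fun x _ => hcon x)
  have key : ∀ (t : ℝ) (i j : ℕ), i < j → t + i * s ∈ Z → t + j * s ∈ Z → False := by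
    intro t i j hij hi hj
    apply hs
    simp only [Set.mem_iUnion, Set.mem_singleton_iff]
    obtain ⟨k, rfl⟩ := Nat.exists_eq_add_of_lt hij
    refine ⟨k, _, hj, _, hi, ?_⟩
    have : (k : ℝ) + 1 ≠ 0 := by positivity
    field_simp
    push_cast; ring
  have hN : ∀ N : ℕ, (N : ℝ) * M f ≤ C := by
    intro N
    have h1 : MM.m (fun t => ∑ i ∈ Finset.range N, f (t + i * s)) = N * M f := by
      rw [MM.sum (Finset.range N) (fun i t => f (t + i * s))]
      rw [Finset.sum_congr rfl (fun (i : ℕ) _ => M_add_right hf ((i : ℝ) * s))]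
      simp
    rw [← h1]
    refine MM.le_of_le (Bdd.sum _ fun i _ => hf.comp _) fun t => ?_
    have hC0 : 0 ≤ C := (abs_nonneg _).trans (hC 0)
    by_cases hex : ∃ i ∈ Finset.range N, t + i * s ∈ Z
    · obtain ⟨i, hi, hiZ⟩ := hex
      rw [Finset.sum_eq_single_of_mem i hi]
      · exact (le_abs_self _).trans (hC _)
      · intro j _ hji
        apply h
        intro hjZ
        rcases lt_or_gt_of_ne hji with h1 | h1
        · exact key t j i h1 hjZ hiZ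
        · exact key t i j h1 hiZ hjZ
    · push Not at hex
      rw [Finset.sum_eq_zero fun i hi => h _ (hex i hi)]
      exact hC0
  have h1 : 0 ≤ M f := MM.nonneg f hf h0
  by_contra hne
  have hpos : 0 < M f := lt_of_le_of_ne h1 (Ne.symm hne)
  obtain ⟨N, hN'⟩ := exists_nat_gt (C / M f)
  have := hN N
  rw [div_lt_iff₀ hpos] at hN'
  linarith

/-- a nonnegative function of positive mean is positive off any countable set somewhere -/
lemma exists_pos_of_M_pos {f : ℝ → ℝ} (hf : Bdd f) (h0 : ∀ t, 0 ≤ f t) (hM : 0 < M f)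
    {Z : Set ℝ} (hZ : Z.Countable) : ∃ t, t ∉ Z ∧ 0 < f t := by
  by_contra hcon
  push Not at hcon
  have := M_eq_zero_of_countable hf hZ h0 fun t ht => le_antisymm (hcon t ht) (h0 t)
  linarith

end Crest.Agent.R40.S1
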