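import Crest.Agent.R40.S1_Defs

/-!
Row 40, STEP 1: existence of invariant means on abelian groups, and of a mean on `ℝ` invariant
under all affine maps.
-/

set_option autoImplicit false

namespace Crest.Agent.R40.S1

private lemma bdd_sub {A : Type} {f g : A → ℝ} (hf : Bdd f) (hg : Bdd g) :
    Bdd (fun a => f a - g a) := by
  obtain ⟨C, hC⟩ := hf
  obtain ⟨D, hD⟩ := hg
  exact ⟨C + D, fun a => (abs_sub _ _).trans (add_le_add (hC a) (hD a))⟩

private lemma mean_const {A : Type} (μ : Mean A) (c : ℝ) : μ.m (fun _ => c) = c := by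
  have := μ.m.map_smul c (fun _ => (1 : ℝ))
  rw [μ.one] at this
  have e1 : (c • fun _ : A => (1 : ℝ)) = fun _ => c := by ext; simp
  rw [e1] at this
  simpa using this

private lemma mean_abs_le {A : Type} (μ : Mean A) {f : A → ℝ} {C : ℝ} (h : ∀ a, |f a| ≤ C) :
    |μ.m f| ≤ C := by
  have hb : Bdd f := ⟨C, h⟩
  have h1 := μ.nonneg (fun a => C - f a) (bdd_sub ⟨|C|, fun _ => le_rfl⟩ hb)
    (fun a => sub_nonneg.2 (abs_le.1 (h a)).2)
  have h2 := μ.nonneg (fun a => f a - (-C)) (bdd_sub hb ⟨|-C|, fun _ => le_rfl⟩)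
    (fun a => sub_nonneg.2 (abs_le.1 (h a)).1)
  have e1 : μ.m (fun a => C - f a) = μ.m (fun _ => C) - μ.m f := μ.m.map_sub _ _
  have e2 : μ.m (fun a => f a - (-C)) = μ.m f - μ.m (fun _ => -C) := μ.m.map_sub _ _
  rw [e1, mean_const] at h1
  rw [e2, mean_const] at h2
  exact abs_le.2 ⟨by linarith, by linarith⟩

/-- iterated mean `f ↦ ν (b ↦ μ b (a ↦ f (g b a)))` -/
private def iterMean {A B C : Type} (ν : Mean B) (μ : B → Mean A) (g : B → A → C) : Mean C where
  m := { toFun := fun f => ν.m fun b => (μ b).m fun a => f (g b a)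
         map_add' := fun f f' => by
           rw [← ν.m.map_add]; congr 1; ext b
           exact (μ b).m.map_add (fun a => f (g b a)) fun a => f' (g b a)
         map_smul' := fun c f => by
           rw [RingHom.id_apply, ← ν.m.map_smul]; congr 1; ext b
           exact (μ b).m.map_smul c fun a => f (g b a) }
  nonneg f hf h0 := by
    obtain ⟨D, hD⟩ := hf
    exact ν.nonneg _ ⟨D, fun b => mean_abs_le (μ b) fun a => hD _⟩
      fun b => (μ b).nonneg _ ⟨D, fun a => hD _⟩ fun a => h0 _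
  one := by
    show ν.m (fun b => (μ b).m fun _ => 1) = 1
    simp only [Mean.one]

private lemma iterMean_apply {A B C : Type} (ν : Mean B) (μ : B → Mean A) (g : B → A → C)
    (f : C → ℝ) : (iterMean ν μ g).m f = ν.m fun b => (μ b).m fun a => f (g b a) := rfl

/-- evaluation at a point -/
private def evalMean {A : Type} (a : A) : Mean A where
  m := LinearMap.proj a
  nonneg _ _ h := h a
  one := rfl

/-- a mean extending the limit along a filter.
Plan: `U = Ultrafilter.of l`; on the submodule of bounded functions `f ↦ lim_U f` (compactness of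
`Icc (-C) C`) is linear; extend by `LinearMap.exists_extend`. -/
theorem exists_mean_filter {ι : Type} (l : Filter ι) [l.NeBot] :
    ∃ L : Mean ι, ∀ (f : ι → ℝ) (c : ℝ), Bdd f → Filter.Tendsto f l (nhds c) → L.m f = c := by
  let U : Ultrafilter ι := Ultrafilter.of l
  have hex : ∀ f : ι → ℝ, Bdd f → ∃ c, Filter.Tendsto f U (nhds c) := by
    rintro f ⟨C, hC⟩
    obtain ⟨c, -, hc⟩ := (isCompact_Icc (a := -C) (b := C)).ultrafilter_le_nhds (U.map f)
      (Filter.le_principal_iff.2 (Filter.mem_map.2 (Filter.univ_mem' fun a => abs_le.1 (hC a))))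
    exact ⟨c, hc⟩
  let S : Submodule ℝ (ι → ℝ) :=
    { carrier := {f | ∃ c, Filter.Tendsto f U (nhds c)}
      add_mem' := fun ⟨c, hc⟩ ⟨d, hd⟩ => ⟨c + d, hc.add hd⟩
      zero_mem' := ⟨0, tendsto_const_nhds⟩
      smul_mem' := fun r _ ⟨c, hc⟩ => ⟨r • c, hc.const_smul r⟩ }
  have hlim : ∀ f : S, Filter.Tendsto f.1 U (nhds (Classical.choose f.2)) :=
    fun f => Classical.choose_spec f.2
  let L₀ : S →ₗ[ℝ] ℝ :=
    { toFun := fun f => Classical.choose f.2
      map_add' := fun f g => tendsto_nhds_unique (hlim (f + g)) ((hlim f).add (hlim g))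
      map_smul' := fun r f => tendsto_nhds_unique (hlim (r • f)) ((hlim f).const_smul r) }
  obtain ⟨L₁, hL₁⟩ := LinearMap.exists_extend L₀
  have key : ∀ (f : ι → ℝ) (c : ℝ), Filter.Tendsto f U (nhds c) → L₁ f = c := by
    intro f c hc
    have h1 : L₁ f = L₀ ⟨f, c, hc⟩ := by rw [← hL₁]; rfl
    rw [h1]
    exact tendsto_nhds_unique (hlim ⟨f, c, hc⟩) hc
  refine ⟨⟨L₁, fun f hf h0 => ?_, key _ _ tendsto_const_nhds⟩, fun f c _ hc =>
    key f c (hc.mono_left (Ultrafilter.of_le l))⟩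
  obtain ⟨c, hc⟩ := hex f hf
  rw [key f c hc]
  exact ge_of_tendsto' hc h0

/-- Banach limit.  Plan: `L f = L₀ (N ↦ (1/(N+1)) ∑_{n ≤ N} f n)` with `L₀` from
`exists_mean_filter atTop`. -/
theorem exists_banach_limit :
    ∃ L : Mean ℕ, ∀ f : ℕ → ℝ, Bdd f → L.m (fun n => f (n + 1)) = L.m f := by
  obtain ⟨L₀, hL₀⟩ := exists_mean_filter (Filter.atTop : Filter ℕ)
  let av : ℕ → Mean ℕ := fun N =>
    { m := { toFun := fun f => (∑ n ∈ Finset.range (N + 1), f n) / (N + 1)
             map_add' := fun f g => by simp [Finset.sum_add_distrib, add_div]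
             map_smul' := fun c f => by simp [← Finset.mul_sum, mul_div_assoc] }
      nonneg := fun f _ h0 => div_nonneg (Finset.sum_nonneg fun n _ => h0 n) (by positivity)
      one := by
        show (∑ _n ∈ Finset.range (N + 1), (1 : ℝ)) / (N + 1) = 1
        simp only [Finset.sum_const, Finset.card_range, nsmul_eq_mul, mul_one]
        push_cast
        exact div_self (by positivity) }
  refine ⟨iterMean L₀ av fun _ n => n, fun f hf => ?_⟩
  obtain ⟨C, hC⟩ := hf
  rw [iterMean_apply, iterMean_apply, ← sub_eq_zero, ← L₀.m.map_sub]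
  have e1 : ((fun N => (av N).m fun n => f (n + 1)) - fun N => (av N).m fun n => f n) =
      fun N : ℕ => (f (N + 1) - f 0) / ((N : ℝ) + 1) := by
    ext N
    show (∑ n ∈ Finset.range (N + 1), f (n + 1)) / ((N : ℝ) + 1) -
      (∑ n ∈ Finset.range (N + 1), f n) / ((N : ℝ) + 1) = _
    rw [← sub_div, ← Finset.sum_sub_distrib, Finset.sum_range_sub]
  rw [e1]
  have hb : ∀ N : ℕ, |(f (N + 1) - f 0) / ((N : ℝ) + 1)| ≤ (C + C) / ((N : ℝ) + 1) := fun N => by
    rw [abs_div, abs_of_pos (by positivity : (0 : ℝ) < (N : ℝ) + 1)]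
    exact div_le_div_of_nonneg_right ((abs_sub _ _).trans (add_le_add (hC _) (hC _)))
      (by positivity)
  have hC0 : 0 ≤ C := (abs_nonneg _).trans (hC 0)
  refine hL₀ _ 0 ⟨C + C, fun N => (hb N).trans (div_le_self (by linarith) (by simp))⟩ ?_
  refine squeeze_zero_norm hb ?_
  refine ((tendsto_const_div_atTop_nhds_zero_nat (C + C)).comp
    (Filter.tendsto_add_atTop_nat 1)).congr fun N => ?_
  simp

/-- invariant mean on an abelian group.
Plan: by `Finset` induction a mean `μ_F` invariant under the elements of `F` (start: evaluation at `0`;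
step: `μ' f = L (n ↦ μ (f (· + n • h)))`, `L` Banach limit); then
`μ f = L' (F ↦ μ_F f)` with `L'` from `exists_mean_filter (atTop : Filter (Finset A))`. -/
theorem exists_inv_mean (A : Type) [AddCommGroup A] :
    ∃ μ : Mean A, ∀ (f : A → ℝ) (h : A), Bdd f → μ.m (fun a => f (a + h)) = μ.m f := by
  classical
  obtain ⟨Lb, hLb⟩ := exists_banach_limit
  have hF : ∀ F : Finset A, ∃ μ : Mean A, ∀ (f : A → ℝ), ∀ h ∈ F, Bdd f →
      μ.m (fun a => f (a + h)) = μ.m f := by
    intro F
    induction F using Finset.induction_on with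
    | empty => exact ⟨evalMean 0, fun f h hh => absurd hh (Finset.notMem_empty h)⟩
    | insert h₀ F _ ih =>
      obtain ⟨μ, hμ⟩ := ih
      refine ⟨iterMean Lb (fun _ => μ) fun n a => a + n • h₀, fun f h hh hf => ?_⟩
      obtain ⟨C, hC⟩ := hf
      rw [iterMean_apply, iterMean_apply]
      rcases Finset.mem_insert.1 hh with rfl | hh
      · rw [← hLb (fun n => μ.m fun a => f (a + n • h))
          ⟨C, fun n => mean_abs_le μ fun a => hC _⟩]
        simp only [succ_nsmul, add_assoc]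
      · congr 1; ext n
        rw [← hμ (fun a => f (a + n • h₀)) h hh ⟨C, fun a => hC _⟩]
        simp only [add_right_comm]
  choose μF hμF using hF
  obtain ⟨L', hL'⟩ := exists_mean_filter (Filter.atTop : Filter (Finset A))
  refine ⟨iterMean L' μF fun _ a => a, fun f h hf => ?_⟩
  obtain ⟨C, hC⟩ := hf
  rw [iterMean_apply, iterMean_apply, ← sub_eq_zero, ← L'.m.map_sub]
  refine hL' _ 0 (bdd_sub ⟨C, fun F => mean_abs_le (μF F) fun a => hC _⟩
    ⟨C, fun F => mean_abs_le (μF F) fun a => hC _⟩) ?_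
  refine tendsto_const_nhds.congr' ?_
  filter_upwards [Filter.eventually_ge_atTop {h}] with F hFh
  have := hμF F f h (hFh (Finset.mem_singleton_self h)) ⟨C, hC⟩
  simp only [Pi.sub_apply, this, sub_self]

/-- affine invariant mean on `ℝ`.
Plan: `μ f = ν (u ↦ μ₀ (t ↦ f (u * t)))`, `μ₀` invariant on `ℝ`, `ν` invariant on `Additive ℝˣ`. -/
theorem exists_aff_mean :
    ∃ μ : Mean ℝ, ∀ (f : ℝ → ℝ) (l h : ℝ), l ≠ 0 → Bdd f →
      μ.m (fun t => f (l * t + h)) = μ.m f := by
  obtain ⟨μ₀, hμ₀⟩ := exists_inv_mean ℝ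
  obtain ⟨ν, hν⟩ := exists_inv_mean (Additive ℝˣ)
  refine ⟨iterMean ν (fun _ => μ₀) fun u t => ((Additive.toMul u : ℝˣ) : ℝ) * t,
    fun f l h hl hf => ?_⟩
  obtain ⟨C, hC⟩ := hf
  rw [iterMean_apply, iterMean_apply,
    ← hν (fun u => μ₀.m fun t => f (((Additive.toMul u : ℝˣ) : ℝ) * t))
      (Additive.ofMul (Units.mk0 l hl)) ⟨C, fun u => mean_abs_le μ₀ fun a => hC _⟩]
  congr 1; ext u
  have hu : ((Additive.toMul u : ℝˣ) : ℝ) * l ≠ 0 := mul_ne_zero (Units.ne_zero _) hl
  rw [← hμ₀ (fun t => f (((Additive.toMul (u + Additive.ofMul (Units.mk0 l hl)) : ℝˣ) : ℝ) * t))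
    (h / (((Additive.toMul u : ℝˣ) : ℝ) * l)) ⟨C, fun a => hC _⟩]
  congr 1; ext t; congr 1
  simp only [toMul_add, toMul_ofMul, Units.val_mul, Units.val_mk0]
  field_simp

end Crest.Agent.R40.S1
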