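import Crest.Agent.R40.S1_Defs

/-!
Row 40, STEP 1: representations, projections, Bessel inequality for natural subspaces.
-/

set_option autoImplicit false

open scoped RealInnerProductSpace

namespace Crest.Agent.R40.S1

variable {H : Type} [NormedAddCommGroup H] [InnerProductSpace ℝ H] [CompleteSpace H]


omit [CompleteSpace H] in
lemma IsRep.inner_left {Γ : Type} [AddCommGroup Γ] {σ : Γ → H →ₗᵢ[ℝ] H} (h : IsRep σ) (x : Γ)
    (v w : H) : ⟪σ x v, w⟫ = ⟪v, σ (-x) w⟫ := by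
  rw [← (σ x).inner_map_map v (σ (-x) w), ← h.add, add_neg_cancel, h.zero]

omit [CompleteSpace H] in
lemma IsRep.inner_inner {Γ : Type} [AddCommGroup Γ] {σ : Γ → H →ₗᵢ[ℝ] H} (h : IsRep σ) (x y : Γ)
    (v w : H) : ⟪σ x v, σ y w⟫ = ⟪σ (x - y) v, w⟫ := by
  rw [← (σ y).inner_map_map (σ (x - y) v) w, ← h.add, add_sub_cancel]

omit [CompleteSpace H] in
lemma IsRep.comp {Γ Γ' : Type} [AddCommGroup Γ] [AddCommGroup Γ'] {σ : Γ → H →ₗᵢ[ℝ] H}
    (h : IsRep σ) (f : Γ' → Γ) (hf : ∀ x y, f (x + y) = f x + f y) : IsRep (fun x => σ (f x)) := by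
  have h0 : f 0 = 0 := by
    have := hf 0 0
    rw [add_zero] at this
    exact left_eq_add.1 this
  exact ⟨fun v => by simp only [h0, h.zero], fun x y v => by simp only [hf, h.add]⟩

lemma prj_mem {V : Submodule ℝ H} (hV : IsClosed (V : Set H)) (v : H) : prj V v ∈ V := by
  have h1 : prj V v ∈ V.topologicalClosure := Submodule.starProjection_apply_mem _ v
  rwa [hV.submodule_topologicalClosure_eq] at h1

lemma inner_sub_prj (V : Submodule ℝ H) (v : H) {w : H} (hw : w ∈ V) : ⟪v - prj V v, w⟫ = 0 :=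
  Submodule.starProjection_inner_eq_zero v w (V.le_topologicalClosure hw)

lemma inner_prj (V : Submodule ℝ H) (v : H) {w : H} (hw : w ∈ V) : ⟪prj V v, w⟫ = ⟪v, w⟫ := by
  have := inner_sub_prj V v hw
  rw [inner_sub_left] at this
  linarith

lemma prj_eq_of {V : Submodule ℝ H} {v p : H} (hp : p ∈ V) (h : ∀ w ∈ V, ⟪v - p, w⟫ = 0) :
    prj V v = p := by
  refine Submodule.eq_starProjection_of_mem_of_inner_eq_zero (V.le_topologicalClosure hp)
    fun w hw => ?_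
  have hc : IsClosed {w : H | ⟪v - p, w⟫ = 0} :=
    isClosed_eq (continuous_const.inner continuous_id) continuous_const
  exact closure_minimal (fun w hw => h w hw) hc hw

lemma prj_eq_self {V : Submodule ℝ H} {v : H} (hv : v ∈ V) : prj V v = v :=
  prj_eq_of hv fun w _ => by simp

lemma norm_prj_le (V : Submodule ℝ H) (v : H) : ‖prj V v‖ ≤ ‖v‖ :=
  Submodule.norm_starProjection_apply_le _ v

/-- if an isometry `U` and a one-sided adjoint `U'` preserve `V` then `U` commutes with `prj V` -/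
lemma prj_comm {V : Submodule ℝ H} (hV : IsClosed (V : Set H)) (U U' : H →ₗᵢ[ℝ] H)
    (hadj : ∀ v w, ⟪U v, w⟫ = ⟪v, U' w⟫) (hU : ∀ v ∈ V, U v ∈ V) (hU' : ∀ v ∈ V, U' v ∈ V) (v : H) :
    prj V (U v) = U (prj V v) := by
  refine prj_eq_of (hU _ (prj_mem hV v)) fun w hw => ?_
  rw [← map_sub, hadj]
  exact inner_sub_prj V v (hU' w hw)

lemma Natl.prj_comm {Γ : Type} [AddCommGroup Γ] {σ : Γ → H →ₗᵢ[ℝ] H} (h : IsRep σ)
    {V : Submodule ℝ H} (hV : Natl σ V) (x : Γ) (v : H) : prj V (σ x v) = σ x (prj V v) := by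
  have hinv : ∀ y : Γ, ∀ v ∈ V, σ y v ∈ V := fun y v hv =>
    hV.2 (σ y).toContinuousLinearMap (fun z w => by
      show σ y (σ z w) = σ z (σ y w)
      rw [← h.add, ← h.add, add_comm]) v hv
  exact S1.prj_comm hV.1 (σ x) (σ (-x)) (h.inner_left x) (hinv x) (hinv (-x)) v

omit [CompleteSpace H] in
lemma isClosed_cont (π : ℂ → H →ₗᵢ[ℝ] H) : IsClosed (Cont π : Set H) := by
  refine isClosed_of_closure_subset fun v hv => ?_
  refine mem_cont.2 (continuous_of_uniform_approx_of_continuous fun u hu => ?_)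
  obtain ⟨ε, hε, hu'⟩ := Metric.mem_uniformity_dist.1 hu
  obtain ⟨w, hw, hd⟩ := Metric.mem_closure_iff.1 hv ε hε
  exact ⟨fun x => π x w, mem_cont.1 hw, fun x => hu' (by rw [(π x).dist_map]; exact hd)⟩

omit [CompleteSpace H] in
lemma isClosed_fix {Γ : Type} (σ : Γ → H →ₗᵢ[ℝ] H) : IsClosed (Fix σ : Set H) := by
  have : (Fix σ : Set H) = ⋂ x, {v | σ x v = v} := by
    ext v; simp [mem_fix]
  rw [this]
  exact isClosed_iInter fun x => isClosed_eq (σ x).continuous continuous_id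

omit [CompleteSpace H] in
lemma natl_cont {Γ : Type} (σ : Γ → H →ₗᵢ[ℝ] H) (f : ℂ → Γ) : Natl σ (Cont fun x => σ (f x)) := by
  refine ⟨isClosed_cont _, fun T hT v hv => mem_cont.2 ?_⟩
  have : (fun x => σ (f x) (T v)) = fun x => T (σ (f x) v) := funext fun x => (hT _ _).symm
  rw [this]
  exact T.continuous.comp (mem_cont.1 hv)

omit [CompleteSpace H] in
lemma natl_fix {Γ Γ' : Type} (σ : Γ → H →ₗᵢ[ℝ] H) (f : Γ' → Γ) :
    Natl σ (Fix fun x => σ (f x)) := by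
  refine ⟨isClosed_fix _, fun T hT v hv => mem_fix.2 fun x => ?_⟩
  rw [← hT, mem_fix.1 hv x]

omit [CompleteSpace H] in
/-- continuity at `0` suffices -/
lemma mem_cont_of_tendsto {π : ℂ → H →ₗᵢ[ℝ] H} (h : IsRep π) {v : H}
    (hv : Filter.Tendsto (fun x => π x v) (nhds 0) (nhds v)) : v ∈ Cont π := by
  refine mem_cont.2 (continuous_iff_continuousAt.2 fun x₀ => ?_)
  have h1 : Filter.Tendsto (fun x : ℂ => x - x₀) (nhds x₀) (nhds 0) := by
    have hc : Continuous fun x : ℂ => x - x₀ := continuous_id.sub continuous_const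
    simpa using hc.tendsto x₀
  have h2 := ((π x₀).continuous.tendsto v).comp (hv.comp h1)
  have h3 : (fun x => π x v) = (π x₀) ∘ (fun x => π x v) ∘ fun x : ℂ => x - x₀ := by
    funext x
    simp only [Function.comp]
    rw [← h.add, add_sub_cancel]
  unfold ContinuousAt
  rw [h3]
  simpa [h.zero] using h2

/-- Bessel inequality: the projections of `η` on natural subspaces whose pairwise intersections are
orthogonal to `η` are pairwise orthogonal.
Plan: `prj (V i)` commutes with `σ` (`Natl.prj_comm`), so maps `V j` into `V j`; hence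
`⟪prj (V i) η, prj (V j) η⟫ = ⟪η, prj (V i) (prj (V j) η)⟫ = 0`; expand `‖η - ∑ prj (V i) η‖² ≥ 0`. -/
theorem bessel {Γ ι : Type} [AddCommGroup Γ] {σ : Γ → H →ₗᵢ[ℝ] H} (h : IsRep σ)
    (V : ι → Submodule ℝ H) (hV : ∀ i, Natl σ (V i)) (η : H)
    (horth : ∀ i j, i ≠ j → ∀ v ∈ V i, v ∈ V j → ⟪η, v⟫ = 0) (F : Finset ι) :
    ∑ i ∈ F, ‖prj (V i) η‖ ^ 2 ≤ ‖η‖ ^ 2 := by
  classical
  have hmem : ∀ i, prj (V i) η ∈ V i := fun i => prj_mem (hV i).1 η
  have hor : ∀ i j, i ≠ j → ⟪prj (V i) η, prj (V j) η⟫ = 0 := by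
    intro i j hij
    have h1 : prj (V i) (prj (V j) η) ∈ V j :=
      (hV j).2 (prj (V i)) (fun x v => (hV i).prj_comm h x v) _ (hmem j)
    have h2 : prj (V i) (prj (V j) η) ∈ V i := prj_mem (hV i).1 _
    have h3 := horth i j hij _ h2 h1
    rw [← inner_prj (V i) η h2, real_inner_comm, inner_prj (V i) _ (hmem i), real_inner_comm] at h3
    exact h3
  have hd : ∀ i, ⟪η, prj (V i) η⟫ = ‖prj (V i) η‖ ^ 2 := fun i => by
    rw [← inner_prj (V i) η (hmem i), real_inner_self_eq_norm_sq]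
  have hS : ‖∑ i ∈ F, prj (V i) η‖ ^ 2 = ∑ i ∈ F, ‖prj (V i) η‖ ^ 2 := by
    rw [← real_inner_self_eq_norm_sq, sum_inner]
    refine Finset.sum_congr rfl fun i hi => ?_
    rw [inner_sum, Finset.sum_eq_single i (fun j _ hji => hor i j hji.symm)
      (fun hn => absurd hi hn), real_inner_self_eq_norm_sq]
  have hI : ⟪η, ∑ i ∈ F, prj (V i) η⟫ = ∑ i ∈ F, ‖prj (V i) η‖ ^ 2 := by
    rw [inner_sum]; exact Finset.sum_congr rfl fun i _ => hd i
  have := norm_sub_sq_real η (∑ i ∈ F, prj (V i) η)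
  rw [hS, hI] at this
  nlinarith [sq_nonneg ‖η - ∑ i ∈ F, prj (V i) η‖]

/-- consequence of `bessel`: some projection far out is small -/
theorem exists_small_prj {Γ : Type} [AddCommGroup Γ] {σ : Γ → H →ₗᵢ[ℝ] H} (h : IsRep σ)
    (V : ℕ → Submodule ℝ H) (hV : ∀ i, Natl σ (V i)) (η : H)
    (horth : ∀ i j, i ≠ j → ∀ v ∈ V i, v ∈ V j → ⟪η, v⟫ = 0) {ε : ℝ} (hε : 0 < ε) (n₀ : ℕ) :
    ∃ n, n₀ ≤ n ∧ ‖prj (V n) η‖ < ε := by
  by_contra hn
  push Not at hn
  obtain ⟨N, hN⟩ := exists_nat_gt (‖η‖ ^ 2 / ε ^ 2)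
  have h1 := bessel h V hV η horth (Finset.Ico n₀ (n₀ + N))
  have h2 : ∑ _i ∈ Finset.Ico n₀ (n₀ + N), ε ^ 2 ≤
      ∑ i ∈ Finset.Ico n₀ (n₀ + N), ‖prj (V i) η‖ ^ 2 :=
    Finset.sum_le_sum fun i hi =>
      pow_le_pow_left₀ hε.le (hn i (Finset.mem_Ico.1 hi).1) 2
  simp only [Finset.sum_const, Nat.card_Ico, add_tsub_cancel_left, nsmul_eq_mul] at h2
  rw [div_lt_iff₀ (by positivity)] at hN
  linarith

end Crest.Agent.R40.S1
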