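import Crest.Agent.R40.S1_Wm

/-!
Row 40, STEP 1: the operations `Bf` and `Dl` on radial positive definite functions.
-/

set_option autoImplicit false

namespace Crest.Agent.R40.S1

/-- `Bf φ x y`: mean of `φ` over the circle of radius `‖y‖` around `x` -/
noncomputable def Bf (φ : ℂ → ℝ) (x y : ℂ) : ℝ := M (fun t => φ (x + e t * y))

/-- `Dl φ x = M_t φ (x - e t * x)` -/
noncomputable def Dl (φ : ℂ → ℝ) (x : ℂ) : ℝ := Bf φ x (-x)

variable {φ : ℂ → ℝ}

lemma Rad.abs_le (h : Rad φ) (x : ℂ) : |φ x| ≤ 1 := by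
  have := h.psd.abs_le (C := 1) (fun s => by simpa using h.le_one) x 0
  simpa using this

lemma Rad.bdd (h : Rad φ) {A : Type} (f : A → ℂ) : Bdd (fun a => φ (f a)) :=
  ⟨1, fun _ => h.abs_le _⟩

lemma Rad.abs_bf_le (h : Rad φ) (x y : ℂ) : |Bf φ x y| ≤ 1 := by
  exact MM.abs_le fun t => h.abs_le _

lemma Rad.bdd_bf (h : Rad φ) {A : Type} (f g : A → ℂ) : Bdd (fun a => Bf φ (f a) (g a)) :=
  ⟨1, fun _ => h.abs_bf_le _ _⟩

lemma bf_zero_right (φ : ℂ → ℝ) (x : ℂ) : Bf φ x 0 = φ x := by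
  simp only [Bf, mul_zero, add_zero]
  exact MM.const _

lemma Rad.bf_zero_left (h : Rad φ) (y : ℂ) : Bf φ 0 y = φ y := by
  have : (fun t => φ (0 + e t * y)) = fun _ : ℝ => φ y := by
    ext t
    apply h.rad
    rw [zero_add, norm_mul, norm_e, one_mul]
  simp only [Bf]
  rw [this]
  exact MM.const _

private lemma rad_polar (x : ℂ) : ∃ a : ℝ, x = e a * (‖x‖ : ℂ) := by
  refine ⟨Complex.arg x, ?_⟩
  rw [mul_comm]
  exact (Complex.norm_mul_exp_arg_mul_I x).symm

private lemma rad_e_sub (u t : ℝ) : e (u - t) * e t = e u := by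
  rw [← e_add]; congr 1; ring

private lemma rad_bf_norm (h : Rad φ) (x y : ℂ) : Bf φ x y = Bf φ (‖x‖ : ℂ) (‖y‖ : ℂ) := by
  obtain ⟨a, ha⟩ := rad_polar x
  obtain ⟨b, hb⟩ := rad_polar y
  have h1 := M_add_right (h.bdd (fun t => (‖x‖ : ℂ) + e t * (‖y‖ : ℂ))) (b - a)
  simp only [Bf]
  rw [← h1]
  congr 1
  ext t
  apply h.rad
  have h2 : x + e t * y = e a * ((‖x‖ : ℂ) + e (t + (b - a)) * (‖y‖ : ℂ)) := by
    have h3 : e a * e (t + (b - a)) = e t * e b := by
      rw [← e_add, ← e_add]; congr 1; ring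
    rw [mul_add, ← mul_assoc, h3, ← ha, mul_assoc, ← hb]
  rw [h2, norm_mul, norm_e, one_mul]

/-- Plan: write `x = e a * x'`, `y = e b * y'` (polar form; `exists_e_of_norm_one`), then
`‖x + e t * y‖ = ‖x' + e (t + (b - a)) * y'‖` and `M_add_right`. -/
lemma Rad.bf_rad (h : Rad φ) {x x' y y' : ℂ} (hx : ‖x‖ = ‖x'‖) (hy : ‖y‖ = ‖y'‖) :
    Bf φ x y = Bf φ x' y' := by
  rw [rad_bf_norm h x y, rad_bf_norm h x' y', hx, hy]

lemma Rad.bf_nonneg (h : Rad φ) (h0 : ∀ x, 0 ≤ φ x) (x y : ℂ) : 0 ≤ Bf φ x y := by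
  exact MM.nonneg _ (h.bdd _) fun t => h0 _

/-- `Bf φ` is positive definite on `ℂ²` (`PSD.mean`, `PSD.comp` with `p ↦ p.1 + e t * p.2`). -/
lemma Rad.bf_psd2 (h : Rad φ) : PSD (fun p q : ℂ × ℂ => Bf φ (p - q).1 (p - q).2) := by
  have h1 : ∀ t : ℝ, PSD (fun p q : ℂ × ℂ => φ ((p - q).1 + e t * (p - q).2)) := by
    intro t
    have := h.psd.comp (fun p : ℂ × ℂ => p.1 + e t * p.2)
    convert this using 4 with p q
    simp only [Prod.fst_sub, Prod.snd_sub]
    ring
  exact PSD.mean MM h1 fun s t => h.bdd _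

/-- `Bf φ` is a psd kernel on `ℂ`.
Plan: for `c, s` put `f t = ∑∑ c i c j φ (s i - e t * s j)`; `f (u - t) = ∑∑ c i c j φ (e t * s i - e u * s j)`
so `(u, t) ↦ f (u - t)` is psd (a double sum over `ι × κ`); `pd_mean_nonneg`.
Symmetry: `‖x + e t * y‖ = ‖y + e (-t) * x‖`, `M_mul_left` with `-1`. -/
lemma Rad.bf_psd (h : Rad φ) : PSD (Bf φ) := by
  refine ⟨fun x y => ?_, fun ι _ c s => ?_⟩
  · have h1 := M_mul_left (h.bdd (fun t => y + e t * x)) (l := -1) (by norm_num)
    simp only [Bf]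
    rw [← h1]
    congr 1
    ext t
    apply h.rad
    have h2 : x + e t * y = e t * (y + e (-1 * t) * x) := by
      have h3 : e t * e (-1 * t) = 1 := by
        rw [← e_add, ← e_zero]; congr 1; ring
      rw [mul_add, ← mul_assoc, h3]; ring
    rw [h2, norm_mul, norm_e, one_mul]
  · set f : ℝ → ℝ := fun t => ∑ i, ∑ j, c i * c j * φ (s i + e t * (- s j)) with hf
    have hfe : ∀ u t : ℝ, f (u - t) = ∑ i, ∑ j, c i * c j * φ (e t * s i - e u * s j) := by
      intro u t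
      refine Finset.sum_congr rfl fun i _ => Finset.sum_congr rfl fun j _ => ?_
      congr 1
      apply h.rad
      have h2 : e t * s i - e u * s j = e t * (s i + e (u - t) * (- s j)) := by
        rw [← rad_e_sub u t]; ring
      rw [h2, norm_mul, norm_e, one_mul]
    have hp : PSD (fun u t : ℝ => f (u - t)) := by
      refine ⟨fun u t => ?_, fun κ _ d u => ?_⟩
      · show f (u - t) = f (t - u)
        rw [hfe, hfe, Finset.sum_comm]
        refine Finset.sum_congr rfl fun i _ => Finset.sum_congr rfl fun j _ => ?_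
        rw [mul_comm (c j) (c i)]
        congr 1
        exact h.psd.1 _ _
      · have h1 := h.psd.2 (κ × ι) (fun p => d p.1 * c p.2) (fun p => e (u p.1) * s p.2)
        refine h1.trans (le_of_eq ?_)
        simp only [Fintype.sum_prod_type, hfe, Finset.mul_sum]
        rw [Finset.sum_comm (γ := κ) (α := κ)]
        refine Finset.sum_congr rfl fun k _ => ?_
        rw [Finset.sum_comm]
        refine Finset.sum_congr rfl fun l _ => Finset.sum_congr rfl fun i _ =>
          Finset.sum_congr rfl fun j _ => ?_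
        ring
    have h0 := pd_mean_nonneg hp
    refine h0.trans (le_of_eq ?_)
    rw [hf]
    show MM.m _ = _
    rw [MM.sum Finset.univ (fun i t => ∑ j, c i * c j * φ (s i + e t * (- s j)))]
    refine Finset.sum_congr rfl fun i _ => ?_
    rw [MM.sum Finset.univ (fun j t => c i * c j * φ (s i + e t * (- s j)))]
    refine Finset.sum_congr rfl fun j _ => ?_
    rw [MM.const_mul]
    congr 1
    exact h.bf_rad (x := s i) (y := - s j) rfl (norm_neg _)

lemma Rad.dl (h : Rad φ) : Rad (Dl φ) := by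
  refine ⟨fun x y hxy => h.bf_rad hxy (by rw [norm_neg, norm_neg, hxy]), ?_,
    (le_abs_self _).trans (h.abs_bf_le _ _)⟩
  have := h.bf_psd2.comp (fun x : ℂ => (x, -x))
  convert this using 3 with x y
  simp only [Dl, Prod.fst_sub, Prod.snd_sub]
  congr 1
  ring

lemma Rad.dl_nonneg (h : Rad φ) (x : ℂ) : 0 ≤ Dl φ x := by
  have h1 : Dl φ x = Bf φ x x := h.bf_rad rfl (norm_neg _)
  rw [h1]
  exact h.bf_psd.diag_nonneg x

/-- from `PSD.cs` for `Bf φ` at `x, 0` -/
lemma Rad.sq_le_dl (h : Rad φ) (x : ℂ) : φ x ^ 2 ≤ Dl φ x := by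
  have h1 : Dl φ x = Bf φ x x := h.bf_rad rfl (norm_neg _)
  have h2 := h.bf_psd.cs (ι := Unit) (fun _ => 1) (fun _ => x) 0
  simp only [Finset.univ_unique, Finset.sum_singleton, one_mul, bf_zero_right] at h2
  have h3 := h.dl_nonneg x
  rw [h1] at h3 ⊢
  have h4 := h.le_one
  nlinarith

lemma Rad.dl_eq (h : Rad φ) (x : ℂ) {l : ℝ} (hl : l ≠ 0) :
    M (fun t => φ (x * (e (l * t) - 1))) = Dl φ x := by
  have h1 := M_mul_left (h.bdd (fun t => x + e t * (-x))) hl
  simp only [Dl, Bf]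
  rw [← h1]
  congr 1
  ext t
  apply h.rad
  rw [← norm_neg]
  congr 1
  ring

lemma Rad.iter (h : Rad φ) (N : ℕ) : Rad (Dl^[N] φ) := by
  induction N with
  | zero => exact h
  | succ N ih => rw [Function.iterate_succ_apply']; exact ih.dl

lemma Rad.iter_nonneg (h : Rad φ) (h0 : ∀ x, 0 ≤ φ x) (N : ℕ) (x : ℂ) : 0 ≤ Dl^[N] φ x := by
  cases N with
  | zero => exact h0 x
  | succ N => rw [Function.iterate_succ_apply']; exact (h.iter N).dl_nonneg x

end Crest.Agent.R40.S1
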