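import Crest.Agent.R40.S1_Rad

/-!
Row 40, STEP 1: van der Corput for trigonometric polynomials.
-/

set_option autoImplicit false

namespace Crest.Agent.R40.S1

variable {φ : ℂ → ℝ}

/-- Plan: induction on `N` (generalizing `S`, `x`).  Step: pick `k₀ ∈ S.erase k`, `S' = S.erase k₀`,
`a t = ∑ j ∈ S', x j * e ((j - k₀) t)`, `s₀ = - x k₀`, `vdc_abs` for `K u v = φ (u - v)`;
`φ (a (t+h) - a t) = φ (∑ j ∈ S', x j (e ((j - k₀) h) - 1) * e (j t))` by radiality; induction hypothesis,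
`Mean.pow_le`, `Rad.dl_eq` for `Dl^[N] φ` with `l = k - k₀`, `Function.iterate_succ_apply'`. -/
theorem vdc (h : Rad φ) (h0 : ∀ x, 0 ≤ φ x) (N : ℕ) (S : Finset ℤ) (hS : S.card = N + 1)
    (x : ℤ → ℂ) {k : ℤ} (hk : k ∈ S) :
    M (fun t => φ (∑ j ∈ S, x j * e (j * t))) ^ (2 ^ N) ≤ Dl^[N] φ (x k) := by
  classical
  induction N generalizing S x with
  | zero =>
    obtain ⟨a, rfl⟩ := Finset.card_eq_one.1 hS
    rw [Finset.mem_singleton] at hk
    subst hk
    have : (fun t : ℝ => φ (∑ j ∈ ({k} : Finset ℤ), x j * e (j * t))) = fun _ => φ (x k) := by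
      funext t
      rw [Finset.sum_singleton]
      apply h.rad
      rw [norm_mul, norm_e, mul_one]
    rw [this]
    simp [M, MM.const]
  | succ N ih =>
    have hne : (S.erase k).Nonempty := by
      rw [← Finset.card_pos, Finset.card_erase_of_mem hk, hS]; omega
    obtain ⟨k₀, hk₀⟩ := hne
    obtain ⟨hk₀k, hk₀S⟩ := Finset.mem_erase.1 hk₀
    set S' := S.erase k₀ with hS'
    have hcard : S'.card = N + 1 := by rw [hS', Finset.card_erase_of_mem hk₀S, hS]; omega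
    have hkS' : k ∈ S' := Finset.mem_erase.2 ⟨hk₀k.symm, hk⟩
    set a : ℝ → ℂ := fun t => ∑ j ∈ S', x j * e (((j : ℝ) - k₀) * t) with ha
    have hv := vdc_abs h.psd (fun s => by simpa using h.le_one) a (-x k₀)
    have e1 : (fun t : ℝ => φ (a t - -x k₀)) = fun t : ℝ => φ (∑ j ∈ S, x j * e (j * t)) := by
      funext t
      apply h.rad
      have : ∑ j ∈ S, x j * e (j * t) = e (k₀ * t) * (a t - -x k₀) := by
        rw [← Finset.add_sum_erase S _ hk₀S, sub_neg_eq_add, mul_add, ha, Finset.mul_sum, add_comm]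
        congr 1
        · refine Finset.sum_congr rfl fun j _ => ?_
          rw [mul_left_comm, ← e_add]; congr 2; ring
        · ring
      rw [this, norm_mul, norm_e, one_mul]
    have e2 : ∀ s : ℝ, (fun t : ℝ => φ (a (t + s) - a t)) =
        fun t : ℝ => φ (∑ j ∈ S', (x j * (e (((j : ℝ) - k₀) * s) - 1)) * e (j * t)) := by
      intro s
      funext t
      apply h.rad
      have : ∑ j ∈ S', (x j * (e (((j : ℝ) - k₀) * s) - 1)) * e (j * t)
          = e (k₀ * t) * (a (t + s) - a t) := by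
        rw [ha, ← Finset.sum_sub_distrib, Finset.mul_sum]
        refine Finset.sum_congr rfl fun j _ => ?_
        have h1 : e (j * t) = e (k₀ * t) * e (((j : ℝ) - k₀) * t) := by
          rw [← e_add]; congr 1; ring
        have h2 : e (((j : ℝ) - k₀) * (t + s)) = e (((j : ℝ) - k₀) * t) * e (((j : ℝ) - k₀) * s) := by
          rw [← e_add]; congr 1; ring
        rw [h1, h2]; ring
      rw [this, norm_mul, norm_e, one_mul]
    simp only [e1, e2] at hv
    set γ : ℝ → ℝ := fun s => M (fun t : ℝ =>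
      φ (∑ j ∈ S', (x j * (e (((j : ℝ) - k₀) * s) - 1)) * e (j * t))) with hγ
    have hγb : Bdd γ := ⟨1, fun s => MM.abs_le fun t => h.abs_le _⟩
    have hγ0 : ∀ s, 0 ≤ γ s := fun s => MM.nonneg _ (h.bdd _) fun t => h0 _
    have h3 := MM.pow_le hγb hγ0 N
    have h4 := MM.mono (hγb.pow (2 ^ N)) ((h.iter N).bdd fun s : ℝ => x k * (e (((k : ℝ) - k₀) * s) - 1))
      (fun s => ih S' hcard (fun j => x j * (e (((j : ℝ) - k₀) * s) - 1)) hkS')
    have hl : ((k : ℝ) - k₀) ≠ 0 := sub_ne_zero.2 (by exact_mod_cast hk₀k.symm)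
    have h5 := (h.iter N).dl_eq (x k) hl
    rw [Function.iterate_succ_apply', ← h5, pow_succ' 2 N, pow_mul]
    exact (pow_le_pow_left₀ (sq_nonneg _) hv _).trans (h3.trans h4)

/-- Plan: `r₁ = ‖x‖, r₂ = ‖y‖, g = √(r₁ r₂)`; `Bf φ x y = M_t φ (r₁ + e (2 t) * r₂)` and
`‖r₁ + e (2t) r₂‖ = ‖g e (-t) + I (r₁ - r₂) + g e t‖`; `vdc` with `S = {-1,0,1}`, `k = 0`. -/
theorem bf_le (h : Rad φ) (h0 : ∀ x, 0 ≤ φ x) (x y : ℂ) :
    Bf φ x y ^ 4 ≤ Dl^[2] φ ((‖x‖ - ‖y‖ : ℝ) : ℂ) := by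
  set r₁ := ‖x‖ with hr₁
  set r₂ := ‖y‖ with hr₂
  have h1 : 0 ≤ r₁ := norm_nonneg _
  have h2 : 0 ≤ r₂ := norm_nonneg _
  set g := Real.sqrt (r₁ * r₂) with hg
  have hgg : g * g = r₁ * r₂ := Real.mul_self_sqrt (mul_nonneg h1 h2)
  let c : ℤ → ℂ := fun j => if j = 0 then Complex.I * ((r₁ - r₂ : ℝ) : ℂ) else (g : ℂ)
  have hv := vdc h h0 2 ({-1, 0, 1} : Finset ℤ) (by decide) c (k := 0) (by decide)
  have e1 : Bf φ x y = Bf φ r₁ r₂ := h.bf_rad (by simp [hr₁]) (by simp [hr₂])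
  have e2 : Bf φ r₁ r₂ = M (fun t => φ ((r₁ : ℂ) + e (2 * t) * r₂)) :=
    (M_mul_left (h.bdd fun t => (r₁ : ℂ) + e t * r₂) two_ne_zero).symm
  have e3 : (fun t : ℝ => φ (∑ j ∈ ({-1, 0, 1} : Finset ℤ), c j * e (j * t)))
      = fun t => φ ((r₁ : ℂ) + e (2 * t) * r₂) := by
    funext t
    apply h.rad
    rw [Finset.sum_insert (by decide), Finset.sum_insert (by decide), Finset.sum_singleton]
    simp only [c]
    rw [if_neg (by decide), if_pos trivial, if_neg (by decide)]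
    rw [← sq_eq_sq₀ (norm_nonneg _) (norm_nonneg _), Complex.sq_norm, Complex.sq_norm,
      Complex.normSq_apply, Complex.normSq_apply]
    simp only [Complex.add_re, Complex.add_im, Complex.mul_re, Complex.mul_im, Complex.ofReal_re,
      Complex.ofReal_im, Complex.I_re, Complex.I_im, e_re, e_im, Int.cast_neg, Int.cast_one,
      Int.cast_zero, neg_mul, one_mul, zero_mul, Real.cos_neg, Real.sin_neg, Real.cos_zero,
      Real.sin_zero, Real.cos_two_mul, Real.sin_two_mul]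
    have hsc := Real.sin_sq_add_cos_sq t
    have : Real.sin t ^ 2 = 1 - Real.cos t ^ 2 := by linarith
    linear_combination (4 * Real.cos t ^ 2) * hgg - (4 * r₂ ^ 2 * Real.cos t ^ 2) * this
  rw [e3, ← e2, ← e1] at hv
  have e4 : Dl^[2] φ (c 0) = Dl^[2] φ ((r₁ - r₂ : ℝ) : ℂ) := by
    apply (h.iter 2).rad
    simp only [c, if_true, norm_mul, Complex.norm_I, one_mul]
  rw [e4] at hv
  exact hv

end Crest.Agent.R40.S1
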