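import Crest.Agent.R40.S1_Mean
import Crest.Agent.R40.S1_Gns
import Crest.Agent.R40.S1_Prj

/-!
Row 40, STEP 1: weak means, mean ergodic theorem, means of psd kernels, van der Corput.
-/

set_option autoImplicit false

open scoped RealInnerProductSpace

namespace Crest.Agent.R40.S1

variable {H : Type} [NormedAddCommGroup H] [InnerProductSpace ℝ H] [CompleteSpace H]


omit [CompleteSpace H] in
lemma wm_abs_inner {A : Type} {a : A → H} {C : ℝ} (ha : ∀ t, ‖a t‖ ≤ C) (v : H) (t : A) :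
    |⟪a t, v⟫| ≤ C * ‖v‖ :=
  (abs_real_inner_le_norm _ _).trans (mul_le_mul_of_nonneg_right (ha t) (norm_nonneg _))

omit [CompleteSpace H] in
lemma wm_gram_sum {ι : Type} [Fintype ι] (c : ι → ℝ) (u : ι → H) :
    ⟪∑ i, c i • u i, ∑ i, c i • u i⟫ = ∑ i, ∑ j, c i * c j * ⟪u i, u j⟫ := by
  rw [sum_inner]
  refine Finset.sum_congr rfl fun i _ => ?_
  rw [inner_sum]
  refine Finset.sum_congr rfl fun j _ => ?_
  rw [real_inner_smul_left, real_inner_smul_right, mul_assoc]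

omit [CompleteSpace H] in
lemma wm_psd_gram {S : Type} (u : S → H) : PSD (fun s t => ⟪u s, u t⟫) := by
  refine ⟨fun s t => real_inner_comm _ _, fun ι _ c s => ?_⟩
  rw [← wm_gram_sum c (fun i => u (s i))]
  exact real_inner_self_nonneg

omit [CompleteSpace H] in
lemma wm_norm_le {v : H} {C : ℝ} (h : ⟪v, v⟫ ≤ C) : ‖v‖ ≤ √C := by
  rw [real_inner_self_eq_norm_sq] at h
  exact Real.le_sqrt_of_sq_le h

/-- weak mean of a bounded family (Riesz representation `InnerProductSpace.toDual`). -/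
theorem exists_wmean {A : Type} (μ : Mean A) (a : A → H) {C : ℝ} (ha : ∀ t, ‖a t‖ ≤ C) :
    ∃ b : H, ∀ v, ⟪b, v⟫ = μ.m (fun t => ⟪a t, v⟫) := by
  let L : H →ₗ[ℝ] ℝ :=
    { toFun := fun v => μ.m (fun t => ⟪a t, v⟫)
      map_add' := fun v w => by simp only [inner_add_right, μ.add]
      map_smul' := fun c v => by
        simp only [real_inner_smul_right, μ.const_mul, RingHom.id_apply, smul_eq_mul] }
  let L' : H →L[ℝ] ℝ := L.mkContinuous C fun v => μ.abs_le (wm_abs_inner ha v)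
  exact ⟨(InnerProductSpace.toDual ℝ H).symm L', fun v => InnerProductSpace.toDual_symm_apply⟩

/-- mean ergodic theorem: the weak mean `b` of the orbit is fixed and `v - b ⟂ Fix σ`. -/
theorem M_inner_rep {σ : ℝ → H →ₗᵢ[ℝ] H} (h : IsRep σ) (v w : H) :
    M (fun t => ⟪σ t v, w⟫) = ⟪prj (Fix σ) v, w⟫ := by
  have ha : ∀ t, ‖σ t v‖ ≤ ‖v‖ := fun t => ((σ t).norm_map v).le
  obtain ⟨b, hb⟩ := exists_wmean MM (fun t => σ t v) ha
  have h1 : b ∈ Fix σ := by
    intro s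
    refine ext_inner_right ℝ fun u => ?_
    rw [h.inner_left, hb, hb]
    simp only [h.inner_inner, sub_neg_eq_add]
    exact M_add_right (f := fun t => ⟪σ t v, u⟫) ⟨_, wm_abs_inner ha u⟩ s
  have h2 : ∀ u ∈ Fix σ, ⟪v - b, u⟫ = 0 := by
    intro u hu
    rw [inner_sub_left, hb]
    simp only [h.inner_left, mem_fix.1 hu, MM.const, sub_self]
  rw [prj_eq_of h1 h2, hb]

lemma PSD.comp {S T : Type} {K : S → S → ℝ} (hK : PSD K) (f : T → S) :
    PSD (fun s t => K (f s) (f t)) :=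
  ⟨fun _ _ => hK.1 _ _, fun ι _ c s => hK.2 ι c fun i => f (s i)⟩

lemma PSD.diag_nonneg {S : Type} {K : S → S → ℝ} (hK : PSD K) (s : S) : 0 ≤ K s s := by
  simpa using hK.2 Unit (fun _ => 1) (fun _ => s)

lemma PSD.abs_le {S : Type} {K : S → S → ℝ} (hK : PSD K) {C : ℝ} (h1 : ∀ s, K s s ≤ C) (s t : S) :
    |K s t| ≤ C := by
  have h2 := hK.2 (Fin 2) ![1, 1] ![s, t]
  have h3 := hK.2 (Fin 2) ![1, -1] ![s, t]
  simp only [Fin.sum_univ_two, Matrix.cons_val_zero, Matrix.cons_val_one, hK.1 t s] at h2 h3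
  have := h1 s
  have := h1 t
  rw [_root_.abs_le]
  constructor <;> linarith

/-- Cauchy-Schwarz for kernels (via `gns`) -/
lemma PSD.cs {S : Type} {K : S → S → ℝ} (hK : PSD K) {ι : Type} [Fintype ι] (c : ι → ℝ)
    (s : ι → S) (s₀ : S) :
    (∑ i, c i * K (s i) s₀) ^ 2 ≤ K s₀ s₀ * ∑ i, ∑ j, c i * c j * K (s i) (s j) := by
  obtain ⟨H, _, _, _, k, hk, -, -⟩ := gns hK
  simp only [← hk]
  rw [← wm_gram_sum c (fun i => k (s i)), mul_comm, sq]
  have := real_inner_mul_inner_self_le (∑ i, c i • k (s i)) (k s₀)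
  simpa only [sum_inner, real_inner_smul_left] using this

/-- a mean of psd kernels is psd -/
lemma PSD.mean {S A : Type} (μ : Mean A) {K : A → S → S → ℝ} (hK : ∀ a, PSD (K a))
    (hb : ∀ s t, Bdd (fun a => K a s t)) : PSD (fun s t => μ.m (fun a => K a s t)) := by
  refine ⟨fun s t => by simp only [fun a => (hK a).1 s t], fun ι _ c s => ?_⟩
  simp only [← μ.const_mul, ← μ.sum]
  exact μ.nonneg _ (Bdd.sum _ fun i _ => Bdd.sum _ fun j _ => (Bdd.const _).mul (hb _ _))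
    fun a => (hK a).2 ι c s

omit [CompleteSpace H] in
lemma wm_sq_le {b v : H} (hv : ⟪v, v⟫ ≤ 1) : ⟪b, v⟫ ^ 2 ≤ ⟪b, b⟫ := by
  rw [sq]
  exact (real_inner_mul_inner_self_le b v).trans (mul_le_of_le_one_right real_inner_self_nonneg hv)

/-- Plan: `gns`, `b = wmean (k ∘ a)`: the left side is `⟪b, k s₀⟫² ≤ ‖b‖²`, the right side is `⟪b, b⟫`. -/
theorem mean_cs {S : Type} {K : S → S → ℝ} (hK : PSD K) (h1 : ∀ s, K s s ≤ 1) (a : ℝ → S) (s₀ : S) :
    M (fun t => K (a t) s₀) ^ 2 ≤ M (fun t => M (fun t' => K (a t) (a t'))) := by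
  obtain ⟨H, _, _, _, k, hk, -, -⟩ := gns hK
  obtain ⟨b, hb⟩ := exists_wmean MM (fun t => k (a t)) (C := √1)
    fun t => wm_norm_le (by rw [hk]; exact h1 _)
  have h2 : ∀ t, M (fun t' => K (a t) (a t')) = ⟪k (a t), b⟫ := by
    intro t
    rw [real_inner_comm, hb]
    simp only [hk, hK.1 (a t)]
  simp only [h2]
  simp only [← hk]
  rw [M, M, ← hb, ← hb]
  exact wm_sq_le (by rw [hk]; exact h1 _)

/-- the mean of a bounded positive definite function on `ℝ` is nonnegative.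
Plan: as in `mean_cs`, `0 ≤ ⟪b,b⟫ = M_t M_t' f (t - t') = M f` by `M_sub_left`. -/
theorem pd_mean_nonneg {f : ℝ → ℝ} (hf : PSD (fun s t : ℝ => f (s - t))) : 0 ≤ M f := by
  obtain ⟨H, _, _, _, k, hk, -, -⟩ := gns hf
  have hbd : Bdd f := ⟨f 0, fun s => by
    simpa using hf.abs_le (C := f 0) (fun s => by simp) s 0⟩
  obtain ⟨b, hb⟩ := exists_wmean MM k (C := √(f 0))
    fun t => wm_norm_le (by rw [hk]; simp)
  have h2 : ∀ t, ⟪k t, b⟫ = M f := by
    intro t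
    rw [real_inner_comm, hb]
    simp only [hk, sub_eq_add_neg]
    exact M_add_right hbd (-t)
  have h3 := hb b
  simp only [h2, MM.const] at h3
  rw [← h3]
  exact real_inner_self_nonneg

/-- van der Corput inequality.
Plan: `gns`, `b = wmean (k ∘ a)`, `γ h = M_t K (a (t+h)) (a t)`.  The kernel
`(h, h') ↦ M_t ⟪k a(t+h) - b, k a(t+h') - b⟫ = γ (h - h') - ‖b‖²` is psd (`PSD.mean`), so
`pd_mean_nonneg` gives `‖b‖² ≤ M γ`; the left side is `⟪b, k s₀⟫² ≤ ‖b‖²`. -/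
theorem vdc_abs {S : Type} {K : S → S → ℝ} (hK : PSD K) (h1 : ∀ s, K s s ≤ 1) (a : ℝ → S) (s₀ : S) :
    M (fun t => K (a t) s₀) ^ 2 ≤ M (fun h => M (fun t => K (a (t + h)) (a t))) := by
  obtain ⟨H, _, _, _, k, hk, -, -⟩ := gns hK
  have hn : ∀ t, ‖k (a t)‖ ≤ √1 := fun t => wm_norm_le (by rw [hk]; exact h1 _)
  obtain ⟨b, hb⟩ := exists_wmean MM (fun t => k (a t)) hn
  have hn' : ∀ t, ‖k (a t) - b‖ ≤ √1 + ‖b‖ := fun t =>
    (norm_sub_le _ _).trans (by linarith [hn t])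
  have hpsd : PSD (fun h h' : ℝ => MM.m (fun t => ⟪k (a (t + h)) - b, k (a (t + h')) - b⟫)) :=
    PSD.mean MM (K := fun t h h' => ⟪k (a (t + h)) - b, k (a (t + h')) - b⟫)
      (fun t => wm_psd_gram fun h => k (a (t + h)) - b)
      fun h h' => ⟨(√1 + ‖b‖) * (√1 + ‖b‖), fun t => (abs_real_inner_le_norm _ _).trans
        (mul_le_mul (hn' _) (hn' _) (norm_nonneg _) (by positivity))⟩
  have hsh : ∀ h, MM.m (fun t => ⟪k (a (t + h)), b⟫) = ⟪b, b⟫ := by
    intro h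
    rw [hb]
    exact M_add_right (f := fun t => ⟪k (a t), b⟫) ⟨_, wm_abs_inner hn b⟩ h
  have hγ : ∀ h h' : ℝ, MM.m (fun t => ⟪k (a (t + h)) - b, k (a (t + h')) - b⟫) =
      M (fun t => K (a (t + (h - h'))) (a t)) - ⟪b, b⟫ := by
    intro h h'
    have e1 : ∀ t, ⟪k (a (t + h)) - b, k (a (t + h')) - b⟫ =
        K (a (t + h' + (h - h'))) (a (t + h')) - ⟪k (a (t + h)), b⟫ - ⟪k (a (t + h')), b⟫ +
          ⟪b, b⟫ := by
      intro t
      rw [inner_sub_left, inner_sub_right, inner_sub_right, hk, real_inner_comm (k _) b,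
        show t + h' + (h - h') = t + h by ring]
      ring
    simp only [e1]
    rw [MM.add, MM.sub, MM.sub, MM.const, hsh, hsh]
    have := M_add_right (f := fun t => K (a (t + (h - h'))) (a t))
      ⟨1, fun t => hK.abs_le h1 _ _⟩ h'
    rw [M] at this
    rw [this]
    ring
  simp only [hγ] at hpsd
  have h2 := pd_mean_nonneg (f := fun u => M (fun t => K (a (t + u)) (a t)) - ⟪b, b⟫) hpsd
  rw [M, MM.sub, MM.const, sub_nonneg] at h2
  refine le_trans ?_ h2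
  simp only [← hk]
  rw [M, ← hb]
  exact wm_sq_le (by rw [hk]; exact h1 _)

end Crest.Agent.R40.S1
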