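import Crest.Agent.R40.F2
import Crest.Agent.R40.L3

/-! Row 40, task SB: regular points are not in `E`. -/

set_option autoImplicit false

open Set Metric
open scoped Real

namespace Crest.Agent.R40

variable {L : Fin 5 → Set ℂ}

/-- a point of `V a b` cannot see a third colour only in small windows (`Win.free60`, `F2`) -/
theorem Sys.no_V_of_win (h : Sys L) {a b c : Fin 5} (hab : a ≠ b) (hca : c ≠ a) (hcb : c ≠ b)
    {z : ℂ} {ρ α : ℝ} (hρ : 0 < ρ) (hw : Win L c z ρ α (1 / 100)) : z ∉ closure (V L a b) := by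
  intro hz
  obtain ⟨m, hm, hd⟩ := Metric.mem_closure_iff.1 hz ρ hρ
  have hmb : m ∈ ball z ρ := by rw [mem_ball, dist_comm]; exact hd
  exact h.F2 hab hca hcb hm (hw.free60 (by norm_num) hmb)

/-- Plan: suppose `z ∈ E`; `Win c z ρ₁ α (1/100)` from `win_of_reg`.
Case 1: an exit point `z' ∈ ball z ρ₁`, `Exit c a z'`.  If `z' ∉ E`: `exit_type`, `no_V_of_win`
(`Win.mono`).  So `z' ∈ E`; `Win a z' ρ₂ β`, `ball z' ρ₂ ⊆ ball z ρ₁`; `z' ∉ R a c`, so by `c4`
`ball z' (ρ₂/4)` contains `x₀ ∈ O b`, `b ∉ {a, c}`; `exists_reg_bdry` gives `z'' ∈ ball z' (ρ₂/2)`,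
regular for `b`; `L3` gives `z'' ∉ E`, `bdry_type` gives `z'' ∈ closure (V b k)`, and one of `a`, `c`
differs from `k`: `no_V_of_win`.
Case 2: no exit in `ball z ρ₁` (`r = ρ₁ / 6`): `reg_of_noexit` with `lines_near` gives `a`, then with
`lines_near_of_not_R` gives `b ∉ {a, c}`; `win_of_reg` and `L3`. -/
theorem Sys.SB (h : Sys L) {c : Fin 5} {z : ℂ} (hz : Reg L c z) : z ∉ E L := by
  intro hE
  obtain ⟨α, hα⟩ := win_of_reg hz
  obtain ⟨ρ₁, hρ₁, hw₁⟩ := hα (1 / 100) (by norm_num)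
  by_cases hex : ∃ a z', dist z' z < ρ₁ ∧ Exit L c a z'
  · obtain ⟨a, z', hz', hx⟩ := hex
    have hac : a ≠ c := hx.1
    -- a ball around `z'` inside `ball z ρ₁`
    have hb₁ : ball z' (ρ₁ - dist z' z) ⊆ ball z ρ₁ :=
      ball_subset_ball' (by linarith)
    have hpos : 0 < ρ₁ - dist z' z := by linarith
    have hw₁' : Win L c z' (ρ₁ - dist z' z) α (1 / 100) := hw₁.mono hb₁
    have hz'E : z' ∈ E L := by
      by_contra hn
      obtain ⟨k, hka, hkc, hV⟩ := h.exit_type hx hn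
      exact h.no_V_of_win hka.symm hac.symm hkc.symm hpos hw₁' hV
    obtain ⟨β, hβ⟩ := win_of_reg hx.2.2.2.2
    obtain ⟨ρ', hρ', hw₂⟩ := hβ (1 / 100) (by norm_num)
    set ρ₂ := min ρ' (ρ₁ - dist z' z) with hρ₂
    have hρ₂pos : 0 < ρ₂ := lt_min hρ' hpos
    have hwa : Win L a z' ρ₂ β (1 / 100) := hw₂.mono (ball_subset_ball (min_le_left _ _))
    have hwc : Win L c z' ρ₂ α (1 / 100) := hw₁'.mono (ball_subset_ball (min_le_right _ _))
    have hnc : ¬ Cov L a c (ball z' (ρ₂ / 4)) := fun hc =>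
      hz'E a c hac (sub_R_of_cov isOpen_ball hc (mem_ball_self (by linarith)))
    obtain ⟨b, hba, hbc, x₀, hx₀, hx₀b⟩ := h.c4 a c _ isOpen_ball hnc
    have hz'b : z' ∉ O L b := fun hO => h.not_E_of_O hO hz'E
    obtain ⟨z'', hd, hcl, hnO, hreg⟩ := exists_reg_bdry hx₀b hz'b
    have hx₀d : dist x₀ z' < ρ₂ / 4 := hx₀
    have hz'' : dist z'' z' < ρ₂ / 2 := by
      have h1 := dist_triangle z'' x₀ z'
      rw [dist_comm z' x₀] at hd
      linarith
    obtain ⟨γ, hγ⟩ := win_of_reg hreg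
    obtain ⟨ρ'', hρ'', hw₃⟩ := hγ (1 / 100) (by norm_num)
    set ρ₃ := min ρ'' (ρ₂ / 2) with hρ₃
    have hρ₃pos : 0 < ρ₃ := lt_min hρ'' (by linarith)
    have hsub : ball z'' ρ₃ ⊆ ball z' ρ₂ :=
      ball_subset_ball' (by have := min_le_right ρ'' (ρ₂ / 2); linarith)
    have hwa' := hwa.mono hsub
    have hwc' := hwc.mono hsub
    have hwb' : Win L b z'' ρ₃ γ (1 / 100) := hw₃.mono (ball_subset_ball (min_le_left _ _))
    have hnE : z'' ∉ E L := h.L3 hba.symm hac hbc hρ₃pos hwa' hwb' hwc'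
    obtain ⟨k, hkb, -, hV⟩ := h.bdry_type hcl hnO hnE
    by_cases hka : k = a
    · exact h.no_V_of_win hkb.symm hbc.symm (hka ▸ hac.symm) hρ₃pos hwc' hV
    · exact h.no_V_of_win hkb.symm hba.symm (Ne.symm hka) hρ₃pos hwa' hV
  · have hno : ∀ a z', dist z' z < 6 * (ρ₁ / 6) → ¬ Exit L c a z' := fun a z' hd hx =>
      hex ⟨a, z', by linarith, hx⟩
    have hzc : z ∉ O L c := fun hO => h.not_E_of_O hO hE
    obtain ⟨a, hac, -, hra, -⟩ := h.reg_of_noexit (by linarith : 0 < ρ₁ / 6) hno c (lines_near hzc)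
    obtain ⟨b, hba, hbc, hrb, -⟩ := h.reg_of_noexit (by linarith : 0 < ρ₁ / 6) hno a
      (lines_near_of_not_R (hE c a hac.symm))
    obtain ⟨β, hβ⟩ := win_of_reg hra
    obtain ⟨ρa, hρa, hwa⟩ := hβ (1 / 100) (by norm_num)
    obtain ⟨γ, hγ⟩ := win_of_reg hrb
    obtain ⟨ρb, hρb, hwb⟩ := hγ (1 / 100) (by norm_num)
    have hpos : 0 < min ρ₁ (min ρa ρb) := lt_min hρ₁ (lt_min hρa hρb)
    exact h.L3 hba.symm hac hbc hpos
      (hwa.mono (ball_subset_ball ((min_le_right _ _).trans (min_le_left _ _))))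
      (hwb.mono (ball_subset_ball ((min_le_right _ _).trans (min_le_right _ _))))
      (hw₁.mono (ball_subset_ball (min_le_left _ _))) hE

theorem Sys.claimF (h : Sys L) {v : ℂ} (hv : v ∈ E L) (c : Fin 5) {ε : ℝ} (hε : 0 < ε) :
    ∃ a b, a ≠ b ∧ a ≠ c ∧ b ≠ c ∧ ∃ m ∈ V L a b, dist m v < ε :=
  h.claimF_local isOpen_univ (fun _ _ _ _ hr => h.SB hr) (mem_univ v) hv c hε

end Crest.Agent.R40
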