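import Crest.Agent.R40.ExitL
import Crest.Agent.R40.RegWin

/-! Row 40, task SBW: structure of a three-coloured region, part 1. -/

set_option autoImplicit false

open Set Metric
open scoped Real

namespace Crest.Agent.R40

variable {L : Fin 5 → Set ℂ}

/-- Claim F (local form).  Plan: `v ∉ O c`.  Take `r` with `ball v (6 r) ⊆ N ∩ ball v ε`.  If there is no
exit of a `c`-line in `ball v (6 r)`, then `reg_of_noexit` (with `a = c`, `lines_near`) and `hSB`
contradict `v ∈ E`.  An exit point `z'` is not in `E` by `hSB`, and `exit_type` gives points of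
`V a k` near `z'`. -/
theorem Sys.claimF_local (h : Sys L) {N : Set ℂ} (hN : IsOpen N)
    (hSB : ∀ z ∈ N, ∀ k, z ∈ closure (O L k) → Reg L k z → z ∉ E L) {v : ℂ} (hvN : v ∈ N)
    (hvE : v ∈ E L) (c : Fin 5) {ε : ℝ} (hε : 0 < ε) :
    ∃ a b, a ≠ b ∧ a ≠ c ∧ b ≠ c ∧ ∃ m ∈ V L a b, dist m v < ε := by
  obtain ⟨δ, hδ, hb⟩ := Metric.isOpen_iff.1 hN v hvN
  have hpos : 0 < min δ ε := lt_min hδ hε
  have hvc : v ∉ O L c := fun hO => h.not_E_of_O hO hvE
  by_cases hex : ∃ a z', dist z' v < min δ ε ∧ Exit L c a z'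
  · obtain ⟨a, z', hz', hx⟩ := hex
    have hz'N : z' ∈ N := hb (show z' ∈ ball v δ from hz'.trans_le (min_le_left _ _))
    obtain ⟨k, hka, hkc, hV⟩ := h.exit_type hx (hSB z' hz'N a hx.2.2.1 hx.2.2.2.2)
    have hε' : dist z' v < ε := hz'.trans_le (min_le_right _ _)
    obtain ⟨m, hm, hd⟩ := Metric.mem_closure_iff.1 hV (ε - dist z' v) (by linarith)
    refine ⟨a, k, hka.symm, hx.1, hkc, m, hm, ?_⟩
    have := dist_triangle m z' v
    rw [dist_comm m z'] at this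
    linarith
  · have hno : ∀ a z', dist z' v < 6 * (min δ ε / 6) → ¬ Exit L c a z' := fun a z' hd hx =>
      hex ⟨a, z', by linarith, hx⟩
    obtain ⟨b, -, -, hreg, hcl⟩ := h.reg_of_noexit (by linarith : 0 < min δ ε / 6) hno c
      (lines_near hvc)
    exact absurd hvE (hSB v hvN b hcl hreg)

/-- Two colours seen only in small windows.  Plan: `avoid_windows` (`n = 2`, `δ = r / 2`,
`ε = r / 100`) gives `t₁ ∈ Icc t₀ (t₀ + r)` outside both windows; for `x ∈ ball z ρ` the point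
`x + e t₁` is outside `K a, K b, K c, K d`, so in `O f`, so `x ∉ K f`; `mem_R_of_notK`. -/
theorem Sys.two_win (h : Sys L) {a b c d f : Fin 5} (H : Five a b c d f) {z : ℂ}
    {t₀ r ρ α β : ℝ} (hr : 0 < r) (hr1 : r ≤ 1) (hρ : 0 < ρ) (hz : z ∈ W L a b)
    (hW : ∀ t ∈ Icc t₀ (t₀ + r), z + e t ∈ W L a b)
    (hc : Win L c z ρ α (r / 100)) (hd : Win L d z ρ β (r / 100)) : z ∈ R L c d := by
  have hpi := Real.pi_gt_three
  have hsin : 2 * (r / 100) ≤ Real.sin (r / 2) := by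
    have h1 := Real.sin_gt_sub_cube (x := r / 2) (by linarith)
    have h2 : (r / 2) ^ 3 ≤ r / 2 := by
      have : (r / 2) ^ 2 ≤ 1 := by nlinarith
      nlinarith
    linarith
  obtain ⟨k, hk, hav⟩ := avoid_windows 2 ![α, β] t₀ (r / 2) (r / 100) (by linarith)
    (by push_cast; linarith) hsin
  have hk' : (k : ℝ) ≤ 2 := by exact_mod_cast hk
  have hk0 : (0 : ℝ) ≤ k := Nat.cast_nonneg k
  have ht : t₀ + k * (r / 2) ∈ Icc t₀ (t₀ + r) := ⟨by nlinarith, by nlinarith⟩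
  have hw := mem_W.1 (hW _ ht)
  have hzb : z ∈ ball z ρ := mem_ball_self hρ
  have h1 : z + e (t₀ + k * (r / 2)) ∉ K L c := fun hK =>
    absurd (hc z hzb _ hK) (not_lt.2 (by simpa using hav 0))
  have h2 : z + e (t₀ + k * (r / 2)) ∉ K L d := fun hK =>
    absurd (hd z hzb _ hK) (not_lt.2 (by simpa using hav 1))
  have hf : z + e (t₀ + k * (r / 2)) ∈ O L f :=
    h.mem_O_of_notK (H.perm (by tauto) : Five f a b c d) hw.1 hw.2 h1 h2
  exact h.mem_R_of_notK (H.perm (by tauto) : Five c d a b f) (mem_W.1 hz).1 (mem_W.1 hz).2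
    (not_mem_K_of_O hf (dist_add_e' z _))

/-- Plan: suppose `z ∈ E`.  `k ∉ {a, b}` since `z ∈ K k ∩ W`.  `w = z + e t₀`; choose `0 < r ≤ 1` with
`ball z (2 r), ball w (2 r) ⊆ W`, so `x ∈ W` and `x + e t ∈ W` for `x ∈ ball z r`, `t ∈ Icc t₀ (t₀ + r)`.
`win_of_reg`: `Win k z ρ₁ α (r/100)`, `ρ₁ ≤ r`.  An exit point `z' ∈ ball z ρ₁` of a `k`-line from a
`d`-cell has `d ∉ {a, b, k}`, `Reg d z'`, so `two_win` (after `Win.mono`, `exists_five₄`) gives
`z' ∈ R k d`, hence `z' ∈ O d` by `cov_R`: impossible.  Without exits `reg_of_noexit` gives `d` with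
`Reg d z`, and `two_win` gives `z ∈ R k d`. -/
theorem Sys.SB_W (h : Sys L) {a b : Fin 5} (hab : a ≠ b) {z w : ℂ} (hz : z ∈ W L a b)
    (hw : w ∈ W L a b) (hzw : dist z w = 1) {k : Fin 5} (hk : z ∈ closure (O L k))
    (hreg : Reg L k z) : z ∉ E L := by
  intro hE
  have hcol : ∀ {x : ℂ} {j : Fin 5}, x ∈ W L a b → x ∈ closure (O L j) → a ≠ j ∧ b ≠ j :=
    fun {x j} hx hj => ⟨fun hh => (mem_W.1 hx).1 (hh ▸ h.closure_O_sub j hj),
      fun hh => (mem_W.1 hx).2 (hh ▸ h.closure_O_sub j hj)⟩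
  obtain ⟨hak, hbk⟩ := hcol hz hk
  obtain ⟨t₀, rfl⟩ := exists_e_of_dist hzw
  obtain ⟨δ₁, hδ₁, hb₁⟩ := Metric.isOpen_iff.1 (isOpen_W (L := L) a b) z hz
  obtain ⟨δ₂, hδ₂, hb₂⟩ := Metric.isOpen_iff.1 (isOpen_W (L := L) a b) _ hw
  set r := min 1 (min δ₁ (δ₂ / 2)) with hrdef
  have hr : 0 < r := lt_min one_pos (lt_min hδ₁ (by linarith))
  have hr1 : r ≤ 1 := min_le_left _ _
  have hr2 : r ≤ δ₁ := (min_le_right _ _).trans (min_le_left _ _)
  have hr3 : r ≤ δ₂ / 2 := (min_le_right _ _).trans (min_le_right _ _)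
  have hWx : ∀ x, dist x z < r → x ∈ W L a b ∧ ∀ t ∈ Icc t₀ (t₀ + r), x + e t ∈ W L a b := by
    intro x hx
    refine ⟨hb₁ (show x ∈ ball z δ₁ from hx.trans_le hr2), fun t ht => hb₂ ?_⟩
    rw [mem_ball]
    have h1 : dist (x + e t) (z + e t₀) ≤ dist x z + dist (e t) (e t₀) := dist_add_add_le _ _ _ _
    have h2 : dist (e t) (e t₀) ≤ r := by
      rw [dist_eq_norm]
      refine (norm_e_sub_e_le t t₀).trans (abs_le.2 ⟨by linarith [ht.1], by linarith [ht.2]⟩)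
    linarith
  obtain ⟨α, hα⟩ := win_of_reg hreg
  obtain ⟨ρ', hρ', hw₁⟩ := hα (r / 100) (by linarith)
  -- the common step
  have key : ∀ z' d, dist z' z < min ρ' r → d ≠ k → z' ∈ closure (O L d) → Reg L d z' →
      z' ∈ R L k d := by
    intro z' d hz' hdk hcl hrd
    have hz'r : dist z' z < r := hz'.trans_le (min_le_right _ _)
    have hz'ρ : dist z' z < ρ' := hz'.trans_le (min_le_left _ _)
    obtain ⟨had, hbd⟩ := hcol (hWx z' hz'r).1 hcl
    obtain ⟨f, H⟩ := exists_five₄ hab hak had hbk hbd hdk.symm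
    obtain ⟨β, hβ⟩ := win_of_reg hrd
    obtain ⟨ρ'', hρ'', hw₂⟩ := hβ (r / 100) (by linarith)
    have hpos : 0 < min ρ'' (ρ' - dist z' z) := lt_min hρ'' (by linarith)
    exact h.two_win H hr hr1 hpos (hWx z' hz'r).1 (hWx z' hz'r).2
      (hw₁.mono (ball_subset_ball' (by have := min_le_right ρ'' (ρ' - dist z' z); linarith)))
      (hw₂.mono (ball_subset_ball (min_le_left _ _)))
  have hpos : 0 < min ρ' r := lt_min hρ' hr
  have hno : ∀ d z', dist z' z < 6 * (min ρ' r / 6) → ¬ Exit L k d z' := by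
    intro d z' hd hx
    obtain ⟨y, hy, hzy⟩ := hx.2.1
    exact hx.2.2.2.1 (cov_R k d y hy z' (key z' d (by linarith) hx.1 hx.2.2.1 hx.2.2.2.2) hzy)
  have hzk : z ∉ O L k := fun hO => h.not_E_of_O hO hE
  obtain ⟨d, hdk, -, hrd, hcl⟩ := h.reg_of_noexit (by linarith : 0 < min ρ' r / 6) hno k
    (lines_near hzk)
  exact hE k d hdk.symm (key z d (by simpa using hpos) hdk hcl hrd)

end Crest.Agent.R40
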