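import Crest.Agent.R40.S1_Fin

/-! Row 40, STEP 1: an arbitrary proper 5-colouring of the plane yields a measurable one
(proper up to null sets).  Sub-lead task: invariant mean on the discrete group `ℂ ⋊ T`,
"radial positive definite = continuous + nugget", projection on continuous vectors. -/

set_option autoImplicit false

open MeasureTheory

namespace Crest.Agent.R40

theorem step1 (c : ℂ → Fin 5) (hc : ∀ x y : ℂ, ‖x - y‖ = 1 → c x ≠ c y) :
    ∃ A : Fin 5 → Set ℂ, MeasCol A := by
  obtain ⟨μ, hμ, hinv, hprop⟩ := S1.exists_inv_measure c hc
  exact S1.measCol_of_measure μ hinv hprop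

end Crest.Agent.R40
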