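import Crest.Agent.R40.Build
import Crest.Agent.R40.Final

/-! Row 40, STEP 2: there is no measurable 5-colouring of the plane that is proper up to null sets. -/

set_option autoImplicit false

open MeasureTheory

namespace Crest.Agent.R40

theorem step2 (A : Fin 5 → Set ℂ) : ¬ MeasCol A := by
  intro hA
  obtain ⟨A', hA'⟩ := exists_maxCol hA
  obtain ⟨L, hL⟩ := hA'.exists_sys
  exact not_sys hL

end Crest.Agent.R40
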