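import Crest.Agent.R40.Defs

/-! Row 40, STEP 2: the abstract system handed from the measure part to the geometric part.

`L i` = "generic centres" of colour `i` (a full measure subset of the density points of the colour
class), `K i` its closure, `O i` = points whose unit circle misses `K i` (open; its components are
the *cells* of colour `i`), a *`c`-line* is a unit circle with centre in `L c`.
`Cov a b N` = "`N` is coloured with `a` and `b` only".  `R a b` = largest such open set,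
`V a b` = points of `R a b` where the colour can change (in both or none of `O a`, `O b`),
`E` = points in no `R a b`.  The letter `e` is the unit vector `e t`, so the five colours are
called `a b c d f`. -/

set_option autoImplicit false

open Set Metric
open scoped Real

namespace Crest.Agent.R40

/-- Euclidean inner product on `ℂ` -/
def ip (u v : ℂ) : ℝ := u.re * v.re + u.im * v.im

/-- the unit circles with centres `m + e τ` and `m - e τ` both separate `x₀` from `x₁` -/
def Sep (x₀ x₁ m : ℂ) (τ : ℝ) : Prop :=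
  dist x₀ (m + e τ) < 1 ∧ 1 < dist x₁ (m + e τ) ∧ 1 < dist x₀ (m - e τ) ∧ dist x₁ (m - e τ) < 1

/-- `a b c d f` are all five colours (hence pairwise distinct) -/
def Five (a b c d f : Fin 5) : Prop := ∀ k, k = a ∨ k = b ∨ k = c ∨ k = d ∨ k = f

section defs
variable (L : Fin 5 → Set ℂ)

def K (i : Fin 5) : Set ℂ := closure (L i)

def O (i : Fin 5) : Set ℂ := {x | ∀ y ∈ K L i, dist x y ≠ 1}

def Cov (a b : Fin 5) (N : Set ℂ) : Prop := ∀ y ∈ L a, ∀ x ∈ N, dist x y = 1 → x ∈ O L b

def R (a b : Fin 5) : Set ℂ := {x | ∃ N, IsOpen N ∧ x ∈ N ∧ Cov L a b N}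

def V (a b : Fin 5) : Set ℂ := {x | x ∈ R L a b ∧ (x ∈ O L a ↔ x ∈ O L b)}

def E : Set ℂ := {x | ∀ a b, a ≠ b → x ∉ R L a b}

/-- the region free of the colours `a`, `b` -/
def W (a b : Fin 5) : Set ℂ := (K L a ∪ K L b)ᶜ

/-- colour `a` is seen from `z` in at most one pair of antipodal directions -/
def Reg (a : Fin 5) (z : ℂ) : Prop :=
  ∀ w ∈ K L a, ∀ w' ∈ K L a, dist z w = 1 → dist z w' = 1 → w' = w ∨ dist w w' = 2

/-- from the disc `ball z ρ` colour `c` is seen only in the windows around `± e α` -/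
def Win (c : Fin 5) (z : ℂ) (ρ α ε : ℝ) : Prop :=
  ∀ x ∈ ball z ρ, ∀ t : ℝ, x + e t ∈ K L c → |Real.sin (t - α)| < ε

/-- `z` is a (regular) point where a `c`-line leaves an `a`-cell -/
def Exit (c a : Fin 5) (z : ℂ) : Prop :=
  a ≠ c ∧ (∃ y ∈ L c, dist z y = 1) ∧ z ∈ closure (O L a) ∧ z ∉ O L a ∧ Reg L a z

/-- orientation of an edge in the colour path `f - c - d` -/
def Up (f c d : Fin 5) (x y : ℂ) : Prop := x ∈ R L f c ∧ y ∈ R L c d

/-- the cell of colour `a` through `x₀` (empty if `x₀ ∉ O a`) -/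
def cell (a : Fin 5) (x₀ : ℂ) : Set ℂ := connectedComponentIn (O L a) x₀

end defs

/-- the axioms proved in the measure part and used in the geometric part -/
structure Sys (L : Fin 5 → Set ℂ) : Prop where
  O_sub : ∀ i, O L i ⊆ K L i
  symm : ∀ a b N, IsOpen N → Cov L a b N → Cov L b a N
  c4 : ∀ a b N, IsOpen N → ¬ Cov L a b N → ∃ k, k ≠ a ∧ k ≠ b ∧ ∃ x ∈ N, x ∈ O L k
  c5 : ∀ a b N q, IsOpen N → Cov L a b (N \ sphere q 1) → Cov L a b N
  dense : ∀ i, ∀ y ∈ L i, ∀ x, dist x y = 1 → ∀ ε > 0,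
    ∃ x', dist x' x < ε ∧ dist x' y = 1 ∧ ∃ k, x' ∈ O L k
  nocorner : ∀ i, ∀ y ∈ L i, ∀ z, dist z y = 1 → ∀ a x₀, z ∈ closure (cell L a x₀) → Reg L a z

lemma Five.ne {a b c d f : Fin 5} (H : Five a b c d f) :
    a ≠ b ∧ a ≠ c ∧ a ≠ d ∧ a ≠ f ∧ b ≠ c ∧ b ≠ d ∧ b ≠ f ∧ c ≠ d ∧ c ≠ f ∧ d ≠ f := by
  unfold Five at H
  revert a b c d f
  decide +kernel

lemma exists_five {a b c : Fin 5} (hab : a ≠ b) (hac : a ≠ c) (hbc : b ≠ c) :
    ∃ d f, Five a b c d f := by
  unfold Five
  revert a b c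
  decide +kernel

lemma exists_five₂ {a b : Fin 5} (hab : a ≠ b) : ∃ c d f, Five a b c d f := by
  unfold Five
  revert a b
  decide +kernel

lemma exists_five₄ {a b c d : Fin 5} (hab : a ≠ b) (hac : a ≠ c) (had : a ≠ d) (hbc : b ≠ c)
    (hbd : b ≠ d) (hcd : c ≠ d) : ∃ f, Five a b c d f := by
  unfold Five
  revert a b c d
  decide +kernel

/-- any reordering of `Five`: use `H.perm (by tauto)` or `fun k => by have := H k; tauto` -/
lemma Five.perm {a b c d f a' b' c' d' f' : Fin 5} (H : Five a b c d f)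
    (h : ∀ k, (k = a ∨ k = b ∨ k = c ∨ k = d ∨ k = f) →
      (k = a' ∨ k = b' ∨ k = c' ∨ k = d' ∨ k = f')) : Five a' b' c' d' f' :=
  fun k => h k (H k)

end Crest.Agent.R40
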