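import Crest.Agent.R40.SBW

/-! Row 40, task WStruct: structure of a three-coloured region, part 2. -/

set_option autoImplicit false

open Set Metric
open scoped Real

namespace Crest.Agent.R40

variable {L : Fin 5 → Set ℂ}

/-- near a point of `E ∩ W a b` there are points of `V d f` -/
theorem Sys.V_near_of_E (h : Sys L) {a b c d f : Fin 5} (H : Five a b c d f) {v w : ℂ}
    (hv : v ∈ W L a b) (hw : w ∈ W L a b) (hvw : dist v w = 1) (hE : v ∈ E L) {δ : ℝ}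
    (hδ : 0 < δ) : ∃ m ∈ V L d f, dist m v < δ := by
  have hab := H.ne.1
  have hN : IsOpen {x | x ∈ W L a b ∧ x + (w - v) ∈ W L a b} :=
    (isOpen_W a b).inter ((isOpen_W a b).preimage (continuous_id.add continuous_const))
  have hSB : ∀ z ∈ {x | x ∈ W L a b ∧ x + (w - v) ∈ W L a b}, ∀ k, z ∈ closure (O L k) →
      Reg L k z → z ∉ E L := fun z hz k hk hr =>
    h.SB_W hab hz.1 hz.2 (by rw [← hvw, dist_eq_norm, dist_eq_norm]; congr 1; ring) hk hr
  obtain ⟨ε, hε, hb⟩ := Metric.isOpen_iff.1 (isOpen_W (L := L) a b) v hv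
  obtain ⟨i, j, hij, hic, hjc, m, hm, hd⟩ := h.claimF_local hN hSB
    (show v ∈ {x | x ∈ W L a b ∧ x + (w - v) ∈ W L a b} from ⟨hv, by simpa using hw⟩) hE c
    (lt_min hε hδ)
  obtain ⟨hia, hib, hja, hjb⟩ := h.V_ne_of_W hm
    (hb (show m ∈ ball v ε from hd.trans_le (min_le_left _ _)))
  refine ⟨m, ?_, hd.trans_le (min_le_right _ _)⟩
  rcases H i with rfl | rfl | rfl | rfl | rfl <;> rcases H j with rfl | rfl | rfl | rfl | rfl <;>
    first
    | exact absurd rfl hia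
    | exact absurd rfl hib
    | exact absurd rfl hja
    | exact absurd rfl hjb
    | exact absurd rfl hij
    | exact absurd rfl hic
    | exact absurd rfl hjc
    | exact hm
    | exact h.V_comm _ _ ▸ hm

/-- one colour of the steep circle argument -/
theorem Sys.steep (h : Sys L) {a b c d f : Fin 5} (H : Five a b c d f) {v w : ℂ}
    (hv : v ∈ W L a b) (hw : w ∈ W L a b) (hvw : dist v w = 1) (hE : v ∈ E L) {v₀ : ℂ}
    (h₀ : dist w v₀ = 1) (hne : v₀ ≠ v) (h2 : dist v v₀ ≠ 2) :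
    ∃ δ > (0 : ℝ), ∃ q₁ q₂ : ℂ, ∀ v', dist v' v₀ < δ → dist v' q₁ ≠ 1 → dist v' q₂ ≠ 1 →
      v' ∉ K L c := by
  obtain ⟨ε, hε, hb⟩ := Metric.isOpen_iff.1 (isOpen_W (L := L) a b) w hw
  obtain ⟨δ, hδ, hcr⟩ := cross_stable (x := w) (y := v) (w := v₀)
    (by rw [dist_comm]; exact hvw) h₀ hne h2 hε
  obtain ⟨m, hm, hd⟩ := h.V_near_of_E H hv hw hvw hE hδ
  obtain ⟨ν, hν⟩ := h.V_vis hm
  refine ⟨δ, hδ, m + e ν, m - e ν, fun v' hv' h₁ h₂ => ?_⟩
  obtain ⟨x, hx, hxm, hxv⟩ := hcr m v' hd hv'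
  have hxW := mem_W.1 (hb (show x ∈ ball w ε from hx))
  have hnot : ¬ (x ∈ K L d ∨ x ∈ K L f) := fun hK => by
    rw [dist_comm] at hxv
    rcases hν x hK (by rw [dist_comm]; exact hxm) with h3 | h3
    · exact h₁ (h3 ▸ hxv)
    · exact h₂ (h3 ▸ hxv)
  exact not_mem_K_of_O (h.mem_O_of_notK (H.perm (by tauto) : Five c a b d f) hxW.1 hxW.2
    (fun hK => hnot (Or.inl hK)) fun hK => hnot (Or.inr hK)) hxv

/-- Plan: suppose `v ∈ E`; `Five a b c d f`.  `N = {x ∈ W | ∃ y ∈ W, dist x y = 1}` is open and `SB_W`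
holds on it.  `v = w + e t₀`; put `v₀ = w + e (t₀ + η)` with `η > 0` small: `v₀ ∈ W`, `v₀ ≠ v`,
`dist v v₀ ≠ 2`.  `cross_stable` (at `x = w`, `ball w ε ⊆ W`) gives `δ`.  `claimF_local` for the colours
`c`, `d`, `f` gives `m₁ ∈ V d f`, `m₂ ∈ V c f`, `m₃ ∈ V c d` in `ball v δ ∩ W` (`V_ne_of_W`, `V_comm`),
with exceptional points `mⱼ ± e νⱼ` (`V_vis`).  `exists_off_circles`: `v' ∈ ball v₀ δ ∩ W` not at
distance one from these six points.  The crossing point `x₁ ∈ W` of the circles around `v'` and `m₁`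
is outside `K a, K b, K d, K f`, so `x₁ ∈ O c` and `v' ∉ K c`; likewise `v' ∉ K d`, `v' ∉ K f`:
contradiction with `cover`.  (Prove the step for one colour as a separate lemma.) -/
theorem Sys.notE_of_W (h : Sys L) {a b : Fin 5} (hab : a ≠ b) {v w : ℂ} (hv : v ∈ W L a b)
    (hw : w ∈ W L a b) (hvw : dist v w = 1) : v ∉ E L := by
  intro hE
  obtain ⟨c, d, f, H⟩ := exists_five₂ hab
  obtain ⟨ε, hε, hb⟩ := Metric.isOpen_iff.1 (isOpen_W (L := L) a b) v hv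
  obtain ⟨v₀, hv₀, h₀, hne, -⟩ := near_on_circle (m := w) (y := v) (by rw [dist_comm]; exact hvw)
    v v (lt_min hε one_pos)
  have h2 : dist v v₀ ≠ 2 := by
    rw [dist_comm]
    have := hv₀.trans_le (min_le_right _ _)
    linarith
  obtain ⟨δ₁, hδ₁, p₁, p₂, hc⟩ := h.steep H hv hw hvw hE h₀ hne h2
  obtain ⟨δ₂, hδ₂, p₃, p₄, hd⟩ := h.steep (H.perm (by tauto) : Five a b d c f) hv hw hvw hE h₀ hne h2
  obtain ⟨δ₃, hδ₃, p₅, p₆, hf⟩ := h.steep (H.perm (by tauto) : Five a b f c d) hv hw hvw hE h₀ hne h2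
  have hv₀W : v₀ ∈ W L a b := hb (show v₀ ∈ ball v ε from hv₀.trans_le (min_le_left _ _))
  obtain ⟨v', ⟨hv'W, hv'⟩, hq⟩ := exists_off_circles
    ((isOpen_W (L := L) a b).inter (isOpen_ball (x := v₀) (ε := min δ₁ (min δ₂ δ₃))))
    ⟨v₀, hv₀W, mem_ball_self (lt_min hδ₁ (lt_min hδ₂ hδ₃))⟩ {p₁, p₂, p₃, p₄, p₅, p₆}
  have hv'd : dist v' v₀ < min δ₁ (min δ₂ δ₃) := hv'
  obtain ⟨i, hi⟩ := h.cover v'
  rcases H i with rfl | rfl | rfl | rfl | rfl
  · exact (mem_W.1 hv'W).1 hi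
  · exact (mem_W.1 hv'W).2 hi
  · exact hc v' (hv'd.trans_le (min_le_left _ _)) (hq _ (by simp)) (hq _ (by simp)) hi
  · exact hd v' (hv'd.trans_le ((min_le_right _ _).trans (min_le_left _ _))) (hq _ (by simp))
      (hq _ (by simp)) hi
  · exact hf v' (hv'd.trans_le ((min_le_right _ _).trans (min_le_right _ _))) (hq _ (by simp))
      (hq _ (by simp)) hi

end Crest.Agent.R40
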